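import Vale.Agent.P157.Stm

namespace Vale.Agent.P157

open Finset Real

noncomputable section

namespace Alg

variable {Ω I : Type} {P : ℕ → Op Ω} {r : ℕ → Ω → Ω → Prop} {n : ℕ}

lemma op_lin (Q : Op Ω) (a b : ℝ) (u v : Ω → ℝ) (ω : Ω) :
    Q (fun x => a * u x + b * v x) ω = a * Q u ω + b * Q v ω := by
  have : (fun x => a * u x + b * v x) = a • u + b • v := by ext x; simp
  rw [this, map_add, map_smul, map_smul]; simp

lemma op_mul (Q : Op Ω) (a : ℝ) (u : Ω → ℝ) (ω : Ω) : Q (fun x => a * u x) ω = a * Q u ω := by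
  have : (fun x => a * u x) = a • u := by ext x; simp
  rw [this, map_smul]; simp

lemma op_sum {κ : Type} (Q : Op Ω) (s : Finset κ) (u : κ → Ω → ℝ) (ω : Ω) :
    Q (fun x => ∑ k ∈ s, u k x) ω = ∑ k ∈ s, Q (u k) ω := by
  have : (fun x => ∑ k ∈ s, u k x) = ∑ k ∈ s, u k := by ext x; simp
  rw [this, map_sum]; simp

lemma op_congr (Q : Op Ω) {u v : Ω → ℝ} (h : ∀ x, u x = v x) (ω : Ω) : Q u ω = Q v ω := by
  rw [funext h]

lemma dep0 (hP : Fil P r) (u : Ω → ℝ) : Dep r 0 u := fun ω ω' h => by rw [hP.zero ω ω' h]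

lemma depC0 (hF : FApi) (hP : Fil P r) (Z : Ω → ℝ) (d : ℕ) (u : Ω → ℝ) :
    Dep r d (Ce P (ex n) Z 0 d u) := hF.depC hP _ Z (Nat.zero_le d) (dep0 hP u)

lemma dep_mono (hP : Fil P r) {d l : ℕ} (h : d ≤ l) {g : Ω → ℝ} (hg : Dep r l g) : Dep r d g := by
  intro ω ω' hr
  apply hg
  induction l, h using Nat.le_induction with
  | base => exact hr
  | succ k _ ih => exact hP.mono k _ _ (ih (fun a b hab => hg a b (hP.mono k a b hab)))

lemma tower (hA : AApi) (hF : FApi) (hP : Fil P r) (Z : Ω → ℝ) {l t : ℕ} (hl : l ≤ t)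
    (g u : Ω → ℝ) (hg : Dep r l g) (ω : Ω) :
    Ce P (ex n) Z 0 t (fun x => g x * u x) ω =
      Ce P (ex n) Z l t (fun x => g x * Ce P (ex n) Z 0 l u x) ω := by
  rw [← hA.comp P (ex n) Z (Nat.zero_le l) hl]
  refine op_congr _ (fun x => ?_) _
  exact hF.pull hP _ Z 0 l g u hg x

/-- inserting a conditional expectation -/
lemma tower' (hA : AApi) (hF : FApi) (hO : Ok P (ex n) (n + 1)) (hP : Fil P r) (Z : Ω → ℝ) {l : ℕ}
    (hl : l ≤ n + 1) (g u : Ω → ℝ) (hg : Dep r l g) (ω : Ω) :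
    Ce P (ex n) Z 0 (n + 1) (fun x => g x * u x) ω =
      Ce P (ex n) Z 0 (n + 1) (fun x => g x * Ce P (ex n) Z 0 l u x) ω := by
  rw [tower hA hF hP Z hl g u hg, tower hA hF hP Z hl g _ hg]
  refine op_congr _ (fun x => ?_) _
  congr 1
  have h1 := hF.pull hP (ex n) Z 0 l (Ce P (ex n) Z 0 l u) (fun _ => 1) (depC0 hF hP Z l u) x
  rw [hA.const (hA.ce hO Z 0 l hl)] at h1
  simpa using h1.symm

lemma e2prod (hA : AApi) (hF : FApi) (hP : Fil P r) (Z : Ω → ℝ) {l t : ℕ} (hl : l ≤ t)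
    (u v : Ω → ℝ) (ω : Ω) : E2 P (ex n) Z l t (fun x x' => u x * v x') ω =
      Ce P (ex n) Z 0 t (fun x => Ce P (ex n) Z 0 l v x * u x) ω := by
  rw [hA.e2mul, tower hA hF hP Z hl _ u (depC0 hF hP Z l v)]
  refine op_congr _ (fun x => ?_) _
  ring

lemma e2R (hA : AApi) (hF : FApi) (hP : Fil P r) (Z : Ω → ℝ) (s : I → Ω → ℝ) (A : Finset I)
    {l : ℕ} (hl : l ≤ n) (G : Ω → ℝ) (ω0 : Ω) :
    E2 P (ex n) Z (l + 1) (n + 1) (fun ω1 ω2 => aR s A ω1 ω2 * G ω1) ω0 =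
      Ce P (ex n) Z 0 (n + 1) (fun ω => aρ P n Z s A l ω ω * G ω) ω0 := by
  have h1 : (fun ω1 ω2 => aR s A ω1 ω2 * G ω1) =
      fun ω1 ω2 => ∑ i ∈ A, (s i ω1 * G ω1 / A.card) * s i ω2 := by
    ext ω1 ω2
    unfold aR
    rw [sum_div, sum_mul]
    exact sum_congr rfl fun i _ => by ring
  rw [h1, hA.e2sum, sum_congr rfl fun i _ => e2prod hA hF hP Z (Nat.succ_le_succ hl) _ (s i) ω0,
    ← op_sum]
  refine op_congr _ (fun ω => ?_) _
  unfold aρ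
  rw [sum_div, sum_mul]
  exact sum_congr rfl fun i _ => by ring

lemma abs_s {s : I → Ω → ℝ} (hs : ∀ i ω, s i ω ^ 2 = 1) (i : I) (ω : Ω) : |s i ω| ≤ 1 := by
  rw [← sq_le_one_iff_abs_le_one, hs]

lemma avg_le {A : Finset I} (hA : A.Nonempty) (u : I → ℝ) (h : ∀ i, |u i| ≤ 1) :
    |(∑ i ∈ A, u i) / (A.card : ℝ)| ≤ 1 := by
  have hc : (0 : ℝ) < A.card := by exact_mod_cast hA.card_pos
  rw [abs_div, abs_of_pos hc, div_le_one hc]
  calc _ ≤ ∑ i ∈ A, |u i| := abs_sum_le_sum_abs _ _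
    _ ≤ ∑ _i ∈ A, (1 : ℝ) := sum_le_sum fun i _ => h i
    _ = _ := by simp

lemma abs_rho (hA : AApi) (hO : Ok P (ex n) (n + 1)) (Z : Ω → ℝ) {s : I → Ω → ℝ}
    (hs : ∀ i ω, s i ω ^ 2 = 1) {A : Finset I} (hne : A.Nonempty) {d : ℕ} (hd : d ≤ n)
    (ω ω' : Ω) : |aρ P n Z s A d ω ω'| ≤ 1 := by
  refine avg_le hne _ fun i => ?_
  rw [abs_mul]
  exact mul_le_one₀ (abs_s hs i ω) (abs_nonneg _)
    (hA.abs_le (hA.ce hO Z 0 (d + 1) (Nat.succ_le_succ hd)) (abs_s hs i) ω')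

lemma abs_R {s : I → Ω → ℝ} (hs : ∀ i ω, s i ω ^ 2 = 1) {A : Finset I} (hne : A.Nonempty)
    (ω ω' : Ω) : |aR s A ω ω'| ≤ 1 := by
  refine avg_le hne _ fun i => ?_
  rw [abs_mul]
  exact mul_le_one₀ (abs_s hs i ω) (abs_nonneg _) (abs_s hs i ω')

/-- decorrelation from a small variance -/
lemma decor (hA : AApi) {Q : Op Ω} (hQ : Mk Q) (G h : Ω → ℝ) (ω0 : Ω) {ε : ℝ} (hε : 0 ≤ ε)
    (hG : ∀ ω, |G ω| ≤ 1) (hv : Q (fun ω => (h ω - Q h ω0) ^ 2) ω0 ≤ ε ^ 2) :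
    |Q (fun ω => G ω * h ω) ω0 - Q G ω0 * Q h ω0| ≤ ε := by
  have h1 := hA.cs hQ G (fun ω => h ω - Q h ω0) ω0
  have h2 : Q (fun ω => G ω ^ 2) ω0 ≤ 1 := by
    have := hA.mono' hQ (g := fun ω => G ω ^ 2) (h := fun _ => 1)
      (fun ω => (sq_le_one_iff_abs_le_one _).2 (hG ω)) ω0
    rwa [hA.const hQ] at this
  have h3 : 0 ≤ Q (fun ω => (h ω - Q h ω0) ^ 2) ω0 := hQ.1 _ (fun ω => sq_nonneg _) ω0
  have h4 : Q (fun ω => G ω * (h ω - Q h ω0)) ω0 =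
      Q (fun ω => G ω * h ω) ω0 - Q G ω0 * Q h ω0 := by
    have := op_lin Q 1 (-Q h ω0) (fun ω => G ω * h ω) G ω0
    rw [show (fun ω => G ω * (h ω - Q h ω0)) = fun ω => 1 * (G ω * h ω) + (-Q h ω0) * G ω from
      funext fun ω => by ring, this]
    ring
  rw [h4] at h1
  refine abs_le_of_sq_le_sq ?_ hε
  nlinarith

/-- consecutive conditional overlaps are close -/
lemma rho_step (hA : AApi) (hF : FApi) (hO : Ok P (ex n) (n + 1)) (hP : Fil P r) (Z : Ω → ℝ)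
    {s : I → Ω → ℝ} (hs : ∀ i ω, s i ω ^ 2 = 1) {A : Finset I} (hne : A.Nonempty) {d : ℕ}
    (hd : d + 1 ≤ n) (ω0 : Ω) :
    Ce P (ex n) Z 0 (n + 1)
        (fun ω => (aρ P n Z s A d ω ω - aρ P n Z s A (d + 1) ω ω) ^ 2) ω0 ≤
      Ce P (ex n) Z 0 (n + 1) (fun ω => aρ P n Z s A d ω ω) ω0 -
        Ce P (ex n) Z 0 (n + 1) (fun ω => aρ P n Z s A (d + 1) ω ω) ω0 := by
  have hc : (0 : ℝ) < A.card := by exact_mod_cast hne.card_pos
  have hM := hA.ce hO Z 0 (n + 1) le_rfl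
  set b : ℕ → I → Ω → ℝ := fun k i => Ce P (ex n) Z 0 (k + 1) (s i) with hb
  have h1 : ∀ ω, (aρ P n Z s A d ω ω - aρ P n Z s A (d + 1) ω ω) ^ 2 ≤
      ∑ i ∈ A, (1 / (A.card : ℝ)) * (b d i ω - b (d + 1) i ω) ^ 2 := by
    intro ω
    have e1 : aρ P n Z s A d ω ω - aρ P n Z s A (d + 1) ω ω =
        (∑ i ∈ A, s i ω * (b d i ω - b (d + 1) i ω)) / A.card := by
      unfold aρ
      rw [← sub_div, ← sum_sub_distrib]
      congr 1
      exact sum_congr rfl fun i _ => by simp only [hb]; ring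
    have e2 := sum_mul_sq_le_sq_mul_sq A (fun i => s i ω) (fun i => b d i ω - b (d + 1) i ω)
    rw [sum_congr rfl fun i _ => hs i ω, sum_const, nsmul_eq_mul, mul_one] at e2
    rw [e1, div_pow, div_le_iff₀ (by positivity), ← mul_sum]
    calc _ ≤ _ := e2
      _ = _ := by field_simp
  have hk : ∀ k, k ≤ n → Ce P (ex n) Z 0 (n + 1) (fun ω => aρ P n Z s A k ω ω) ω0 =
      ∑ i ∈ A, (1 / (A.card : ℝ)) *
        Ce P (ex n) Z 0 (n + 1) (fun ω => b k i ω * b k i ω) ω0 := by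
    intro k hk
    have : (fun ω => aρ P n Z s A k ω ω) =
        fun ω => ∑ i ∈ A, (1 / (A.card : ℝ)) * (b k i ω * s i ω) := by
      ext ω
      unfold aρ
      rw [sum_div]
      exact sum_congr rfl fun i _ => by simp only [hb]; ring
    rw [this, op_sum]
    refine sum_congr rfl fun i _ => ?_
    rw [op_mul, tower' hA hF hO hP Z (Nat.succ_le_succ hk) _ (s i) (depC0 hF hP Z _ _)]
  refine (hA.mono' hM h1 ω0).trans ?_
  rw [op_sum, hk d (by omega), hk (d + 1) hd, ← sum_sub_distrib]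
  refine sum_le_sum fun i _ => le_of_eq ?_
  rw [op_mul, ← mul_sub]
  congr 1
  have c1 : Ce P (ex n) Z 0 (n + 1) (fun ω => b (d + 1) i ω * b d i ω) ω0 =
      Ce P (ex n) Z 0 (n + 1) (fun ω => b (d + 1) i ω * b (d + 1) i ω) ω0 := by
    have a1 := tower' hA hF hO hP Z (l := d + 2) (by omega) (b (d + 1) i) (b d i)
      (depC0 hF hP Z _ _) ω0
    have a2 := tower' hA hF hO hP Z (l := d + 2) (by omega) (b (d + 1) i) (s i)
      (depC0 hF hP Z _ _) ω0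
    have a3 := tower' hA hF hO hP Z (l := d + 1) (by omega) (b (d + 1) i) (s i)
      (dep_mono hP (Nat.le_succ _) (depC0 hF hP Z _ _)) ω0
    exact a3.symm.trans a2
  have c2 : (fun ω => (b d i ω - b (d + 1) i ω) ^ 2) = fun ω =>
      1 * (1 * (b d i ω * b d i ω) + 1 * (b (d + 1) i ω * b (d + 1) i ω)) +
        (-2) * (b (d + 1) i ω * b d i ω) := by
    ext ω; ring
  rw [c2, op_lin, op_lin, c1]
  ring

/-- the mixed term is at most the second moment -/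
lemma B_le (hA : AApi) (hF : FApi) (hO : Ok P (ex n) (n + 1)) (hP : Fil P r) (Z : Ω → ℝ)
    (s : I → Ω → ℝ) (A : Finset I) {d l : ℕ} (hd : d ≤ l) (hl : l ≤ n) (ω0 : Ω) :
    E2 P (ex n) Z (l + 1) (n + 1) (fun ω1 ω2 => aR s A ω1 ω2 * aρ P n Z s A d ω1 ω2) ω0 ≤
      E2 P (ex n) Z (l + 1) (n + 1) (fun ω1 ω2 => aR s A ω1 ω2 * aR s A ω1 ω2) ω0 := by
  unfold E2
  refine hA.mono' (hA.ce hO Z _ _ le_rfl) (fun ω => ?_) ω0
  refine hA.mono' (hA.ce hO Z _ _ (by omega)) (fun ω1 => ?_) ω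
  have e1 : ∀ ω2, aρ P n Z s A d ω1 ω2 = Ce P (ex n) Z 0 (d + 1) (aR s A ω1) ω2 := by
    intro ω2
    have : aR s A ω1 = fun x => ∑ i ∈ A, (s i ω1 / A.card) * s i x := by
      ext x
      unfold aR
      rw [sum_div]
      exact sum_congr rfl fun i _ => by ring
    rw [this, op_sum]
    unfold aρ
    rw [sum_div]
    exact sum_congr rfl fun i _ => by rw [op_mul]; ring
  have e2 : (fun ω2 => aR s A ω1 ω2 * aρ P n Z s A d ω1 ω2) =
      fun ω2 => Ce P (ex n) Z 0 (d + 1) (aR s A ω1) ω2 * aR s A ω1 ω2 := by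
    ext ω2; rw [e1]; ring
  rw [e2, tower hA hF hP Z (Nat.succ_le_succ hd) _ _ (depC0 hF hP Z _ _),
    ← hA.comp P (ex n) Z (Nat.zero_le (d + 1)) (Nat.succ_le_succ hd)]
  refine hA.mono' (hA.ce hO Z _ _ (by omega)) (fun x => ?_) ω
  have hM := hA.ce hO Z 0 (d + 1) (by omega)
  have := hA.cs hM (aR s A ω1) (fun _ => 1) x
  simp only [mul_one, one_pow] at this
  rw [hA.const hM, mul_one] at this
  calc _ = (Ce P (ex n) Z 0 (d + 1) (aR s A ω1) x) ^ 2 := by ring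
    _ ≤ _ := this
    _ = _ := op_congr _ (fun y => by ring) _

lemma count (n : ℕ) :
    (((Ico 1 n).filter (fun l : ℕ => ((n : ℝ) - l + 1) < √(n : ℝ))).card : ℝ) ≤ √(n : ℝ) := by
  have h1 : (Ico 1 n).filter (fun l : ℕ => ((n : ℝ) - l + 1) < √(n : ℝ)) ⊆
      Ico (n + 1 - ⌊√(n : ℝ)⌋₊) (n + 1) := by
    intro l hl
    obtain ⟨h2, h3⟩ := mem_filter.1 hl
    have h4 := mem_Ico.1 h2
    have h5 : n - l + 1 ≤ ⌊√(n : ℝ)⌋₊ := by
      refine Nat.le_floor ?_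
      push_cast [Nat.cast_sub h4.2.le]
      exact h3.le
    exact mem_Ico.2 ⟨by omega, by omega⟩
  have h2 := card_le_card h1
  rw [Nat.card_Ico] at h2
  have h3 : ((⌊√(n : ℝ)⌋₊ : ℕ) : ℝ) ≤ √(n : ℝ) := Nat.floor_le (sqrt_nonneg _)
  refine le_trans ?_ h3
  exact_mod_cast h2.trans (by omega)

end Alg

open Alg in
theorem algStmt (hA : AApi) (hF : FApi) : AlgStmt := by
  intro Ω I P r n hn hO hP Z s A h ω0 ε hne hs hε hG hv
  have hM := hA.ce hO Z 0 (n + 1) le_rfl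
  have hn0 : (0 : ℝ) < n := by exact_mod_cast hn
  have hn1 : (1 : ℝ) ≤ n := by exact_mod_cast hn
  set E : Op Ω := Ce P (ex n) Z 0 (n + 1) with hE
  set ρ : ℕ → Ω → ℝ := fun d ω => aρ P n Z s A d ω ω with hρ
  have hρ1 : ∀ d, d ≤ n → ∀ ω, |ρ d ω| ≤ 1 := fun d hd ω => abs_rho hA hO Z hs hne hd ω ω
  set p : ℕ → ℝ := fun d => E (ρ d) ω0 with hp
  set c : ℕ → ℕ → ℝ := fun l d => E (fun ω => ρ l ω * ρ d ω) ω0 with hc
  have hp1 : ∀ d, d ≤ n → |p d| ≤ 1 := fun d hd => hA.abs_le hM (hρ1 d hd) ω0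
  have hPl : ∀ l, l ≤ n → E2 P (ex n) Z (l + 1) (n + 1) (aR s A) ω0 = p l := by
    intro l hl
    have := e2R hA hF hP Z s A hl (fun _ => 1) ω0
    simp only [mul_one] at this
    exact this
  -- the first identity
  have u1 : ∀ κ, κ < n → |E (h κ) ω0 - (1 - (1 / (n : ℝ)) * ∑ d ∈ Icc 1 κ, p d)| ≤ ε := by
    intro κ hκ
    have h1 := hG.u1 κ hκ
    have h2 : E (fun ω => 1 - (1 / (n : ℝ)) * ∑ d ∈ Icc 1 κ, aρ P n Z s A d ω ω) ω0 =
        1 - (1 / (n : ℝ)) * ∑ d ∈ Icc 1 κ, p d := by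
      have := op_lin E 1 (-(1 / (n : ℝ))) (fun _ => 1) (fun ω => ∑ d ∈ Icc 1 κ, ρ d ω) ω0
      rw [op_sum, hA.const hM] at this
      rw [show (fun ω => 1 - (1 / (n : ℝ)) * ∑ d ∈ Icc 1 κ, aρ P n Z s A d ω ω) =
        fun ω => 1 * 1 + (-(1 / (n : ℝ))) * ∑ d ∈ Icc 1 κ, ρ d ω from funext fun ω => by
          simp only [hρ]; ring, this]
      ring
    rwa [h2] at h1
  have dec : ∀ κ l, κ < n → l ≤ n →
      |E (fun ω => ρ l ω * h κ ω) ω0 - p l * (1 - (1 / (n : ℝ)) * ∑ d ∈ Icc 1 κ, p d)| ≤ 2 * ε := by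
    intro κ l hκ hl
    have h1 := decor hA hM (ρ l) (h κ) ω0 hε (hρ1 l hl) (hv κ hκ)
    have h2 := u1 κ hκ
    have h3 : |p l * (E (h κ) ω0 - (1 - (1 / (n : ℝ)) * ∑ d ∈ Icc 1 κ, p d))| ≤ ε := by
      rw [abs_mul]
      calc _ ≤ 1 * ε := mul_le_mul (hp1 l hl) h2 (abs_nonneg _) zero_le_one
        _ = ε := one_mul ε
    have h4 := abs_add_le (E (fun ω => ρ l ω * h κ ω) ω0 - p l * E (h κ) ω0)
      (p l * (E (h κ) ω0 - (1 - (1 / (n : ℝ)) * ∑ d ∈ Icc 1 κ, p d)))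
    have h5 : E (fun ω => ρ l ω * h κ ω) ω0 - p l * E (h κ) ω0 +
        p l * (E (h κ) ω0 - (1 - (1 / (n : ℝ)) * ∑ d ∈ Icc 1 κ, p d)) =
        E (fun ω => ρ l ω * h κ ω) ω0 - p l * (1 - (1 / (n : ℝ)) * ∑ d ∈ Icc 1 κ, p d) := by ring
    rw [h5] at h4
    linarith
  have u2 : ∀ κ l, κ < l → l ≤ n →
      |(1 / (n : ℝ)) * ∑ d ∈ Icc 1 κ, (c l d - p l * p d)| ≤ 3 * ε := by
    intro κ l hκ hl
    have h1 := hG.u2 κ l hκ hl
    rw [e2R hA hF hP Z s A hl (h κ) ω0, e2R hA hF hP Z s A hl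
      (fun ω => 1 - (1 / (n : ℝ)) * ∑ d ∈ Icc 1 κ, aρ P n Z s A d ω ω) ω0] at h1
    have h2 : E (fun ω => aρ P n Z s A l ω ω *
        (1 - (1 / (n : ℝ)) * ∑ d ∈ Icc 1 κ, aρ P n Z s A d ω ω)) ω0 =
        p l - (1 / (n : ℝ)) * ∑ d ∈ Icc 1 κ, c l d := by
      have := op_lin E 1 (-(1 / (n : ℝ))) (ρ l) (fun ω => ∑ d ∈ Icc 1 κ, ρ l ω * ρ d ω) ω0
      rw [op_sum] at this
      rw [show (fun ω => aρ P n Z s A l ω ω *
          (1 - (1 / (n : ℝ)) * ∑ d ∈ Icc 1 κ, aρ P n Z s A d ω ω)) =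
        fun ω => 1 * ρ l ω + (-(1 / (n : ℝ))) * ∑ d ∈ Icc 1 κ, ρ l ω * ρ d ω from
          funext fun ω => by simp only [hρ]; rw [← mul_sum]; ring, this]
      ring
    rw [h2] at h1
    have h3 := dec κ l (by omega) hl
    rw [sum_sub_distrib, ← mul_sum]
    rw [abs_le] at h1 h3 ⊢
    constructor <;> nlinarith [h1.1, h1.2, h3.1, h3.2]
  have cov : ∀ d, 1 ≤ d → d + 1 ≤ n → |c (d + 1) d - p (d + 1) * p d| ≤ 6 * n * ε := by
    intro d hd hdn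
    obtain ⟨k, rfl⟩ : ∃ k, d = k + 1 := ⟨d - 1, by omega⟩
    have h1 := u2 (k + 1) (k + 1 + 1) (by omega) hdn
    have h2 := u2 k (k + 1 + 1) (by omega) hdn
    rw [sum_Icc_succ_top (by omega), mul_add] at h1
    have h3 : |(1 / (n : ℝ)) * (c (k + 1 + 1) (k + 1) - p (k + 1 + 1) * p (k + 1))| ≤ 6 * ε := by
      rw [abs_le] at h1 h2 ⊢
      constructor <;> linarith [h1.1, h1.2, h2.1, h2.2]
    rw [abs_mul, abs_of_pos (by positivity), one_div, inv_mul_le_iff₀ hn0] at h3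
    linarith
  have var0 : ∀ d, p d ^ 2 ≤ c d d := by
    intro d
    have := hA.cs hM (ρ d) (fun _ => 1) ω0
    simp only [mul_one, one_pow] at this
    rw [hA.const hM, mul_one] at this
    calc _ ≤ _ := this
      _ = _ := op_congr _ (fun y => by ring) _
  have var1 : ∀ d, 1 ≤ d → d + 1 ≤ n → c d d - p d ^ 2 ≤ p d - p (d + 1) + 12 * n * ε := by
    intro d hd hdn
    have h1 := rho_step hA hF hO hP Z hs hne hdn ω0
    have h2 : E (fun ω => (aρ P n Z s A d ω ω - aρ P n Z s A (d + 1) ω ω) ^ 2) ω0 =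
        c d d + c (d + 1) (d + 1) - 2 * c (d + 1) d := by
      rw [show (fun ω => (aρ P n Z s A d ω ω - aρ P n Z s A (d + 1) ω ω) ^ 2) = fun ω =>
        1 * (1 * (ρ d ω * ρ d ω) + 1 * (ρ (d + 1) ω * ρ (d + 1) ω)) +
          (-2) * (ρ (d + 1) ω * ρ d ω) from funext fun ω => by simp only [hρ]; ring,
        op_lin, op_lin]
      ring
    rw [h2] at h1
    have h3 := abs_le.1 (cov d hd hdn)
    have h4 := var0 (d + 1)
    have h5 : p d - p (d + 1) = E (fun ω => aρ P n Z s A d ω ω) ω0 -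
        E (fun ω => aρ P n Z s A (d + 1) ω ω) ω0 := rfl
    nlinarith [sq_nonneg (p d - p (d + 1))]
  have pn0 : 0 ≤ p n := by
    rw [← hPl n le_rfl]
    have h1 : aR s A = fun ω1 ω2 => ∑ i ∈ A, (1 / (A.card : ℝ)) * (s i ω1 * s i ω2) := by
      ext ω1 ω2
      unfold aR
      rw [sum_div]
      exact sum_congr rfl fun i _ => by ring
    rw [h1, hA.e2sum]
    refine sum_nonneg fun i _ => ?_
    have h2 := hA.e2add P (ex n) Z (n + 1) (n + 1) (fun x x' => s i x * s i x')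
      (fun x x' => s i x * s i x') (1 / (A.card : ℝ)) 0 ω0
    simp only [zero_mul, add_zero] at h2
    rw [h2]
    exact mul_nonneg (by positivity) (hA.e2anti hO Z (s i) (n + 1) (n + 1) le_rfl le_rfl ω0).1
  have varsum : ∑ d ∈ Ico 1 n, (c d d - p d ^ 2) ≤ 1 + 12 * n ^ 2 * ε := by
    have h1 : ∑ d ∈ Ico 1 n, (c d d - p d ^ 2) ≤ ∑ d ∈ Ico 1 n, (p d - p (d + 1) + 12 * n * ε) :=
      sum_le_sum fun d hd => var1 d (mem_Ico.1 hd).1 (mem_Ico.1 hd).2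
    have h2 : ∑ d ∈ Ico 1 n, (p d - p (d + 1)) = p 1 - p n := by
      have := sum_Ico_sub p hn
      have h3 : ∑ d ∈ Ico 1 n, (p d - p (d + 1)) = -∑ d ∈ Ico 1 n, (p (d + 1) - p d) := by
        rw [← sum_neg_distrib]; exact sum_congr rfl fun d _ => by ring
      rw [h3, this]; ring
    rw [sum_add_distrib, h2, sum_const, Nat.card_Ico, nsmul_eq_mul] at h1
    have h4 : ((n - 1 : ℕ) : ℝ) ≤ n := by exact_mod_cast Nat.sub_le n 1
    have h5 := (abs_le.1 (hp1 1 hn)).2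
    have h6 : ((n - 1 : ℕ) : ℝ) * (12 * n * ε) ≤ n * (12 * n * ε) :=
      mul_le_mul_of_nonneg_right h4 (by positivity)
    nlinarith
  -- the second moment
  set C : ℕ → ℝ := fun l => E2 P (ex n) Z (l + 1) (n + 1)
    (fun ω1 ω2 => aR s A ω1 ω2 * aR s A ω1 ω2) ω0 with hC
  have hC1 : ∀ l, l ≤ n → C l ≤ 1 := by
    intro l hl
    have := hA.e2mono hO Z (l + 1) (by omega)
      (φ := fun ω1 ω2 => aR s A ω1 ω2 * aR s A ω1 ω2) (ψ := fun _ _ => 1)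
      (fun x x' => by
        have := (sq_le_one_iff_abs_le_one _).2 (abs_R hs hne x x')
        nlinarith) ω0
    rwa [hA.e2const hO Z _ (by omega)] at this
  have hV : ∀ l, l ≤ n → E2 P (ex n) Z (l + 1) (n + 1)
      (fun ω1 ω2 => (aR s A ω1 ω2 - E2 P (ex n) Z (l + 1) (n + 1) (aR s A) ω0) ^ 2) ω0 =
      C l - p l ^ 2 := by
    intro l hl
    rw [hPl l hl]
    rw [show (fun ω1 ω2 => (aR s A ω1 ω2 - p l) ^ 2) = fun ω1 ω2 =>
      1 * (1 * (aR s A ω1 ω2 * aR s A ω1 ω2) + (-2 * p l) * aR s A ω1 ω2) + p l ^ 2 * 1 from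
        funext fun ω1 => funext fun ω2 => by ring, hA.e2add, hA.e2add,
      hA.e2const hO Z _ (by omega)]
    rw [hPl l hl]
    simp only [hC]
    ring
  have key : ∀ l, 1 ≤ l → l < n →
      ((n : ℝ) - l + 1) / n * (C l - p l ^ 2) ≤ 2 * (c l l - p l ^ 2) + 6 * ε := by
    intro l hl1 hln
    obtain ⟨k, rfl⟩ : ∃ k, l = k + 1 := ⟨l - 1, by omega⟩
    have h1 := hG.sh (k + 1) hl1 hln
    rw [e2R hA hF hP Z s A hln.le (h (k + 1)) ω0] at h1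
    set Bd : ℕ → ℝ := fun d => E2 P (ex n) Z (k + 1 + 1) (n + 1)
      (fun ω1 ω2 => aR s A ω1 ω2 * aρ P n Z s A d ω1 ω2) ω0 with hBd
    have h2 : E2 P (ex n) Z (k + 1 + 1) (n + 1) (fun ω1 ω2 => aR s A ω1 ω2 *
        (1 + aR s A ω1 ω2 - (1 / (n : ℝ)) * ∑ d ∈ Ico 1 (k + 1),
          (aρ P n Z s A d ω1 ω1 + aρ P n Z s A d ω1 ω2)
          - (ex n (k + 1) + 1 / (n : ℝ)) * aρ P n Z s A (k + 1) ω1 ω1)) ω0 =
        p (k + 1) + C (k + 1) - (1 / (n : ℝ)) * (∑ d ∈ Ico 1 (k + 1), c (k + 1) d +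
          ∑ d ∈ Ico 1 (k + 1), Bd d) - (ex n (k + 1) + 1 / (n : ℝ)) * c (k + 1) (k + 1) := by
      rw [show (fun ω1 ω2 => aR s A ω1 ω2 *
        (1 + aR s A ω1 ω2 - (1 / (n : ℝ)) * ∑ d ∈ Ico 1 (k + 1),
          (aρ P n Z s A d ω1 ω1 + aρ P n Z s A d ω1 ω2)
          - (ex n (k + 1) + 1 / (n : ℝ)) * aρ P n Z s A (k + 1) ω1 ω1)) = fun ω1 ω2 =>
        1 * (1 * (1 * aR s A ω1 ω2 + 1 * (aR s A ω1 ω2 * aR s A ω1 ω2)) +
          (-(1 / (n : ℝ))) * (1 * (∑ d ∈ Ico 1 (k + 1), aR s A ω1 ω2 * ρ d ω1) +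
            1 * ∑ d ∈ Ico 1 (k + 1), aR s A ω1 ω2 * aρ P n Z s A d ω1 ω2)) +
          (-(ex n (k + 1) + 1 / (n : ℝ))) * (aR s A ω1 ω2 * ρ (k + 1) ω1) from
        funext fun ω1 => funext fun ω2 => by
          simp only [hρ]; rw [← mul_sum, ← mul_sum, sum_add_distrib]; ring,
        hA.e2add, hA.e2add, hA.e2add, hA.e2add, hA.e2sum, hA.e2sum,
        e2R hA hF hP Z s A hln.le (ρ (k + 1)) ω0,
        sum_congr rfl fun d _ => e2R hA hF hP Z s A hln.le (ρ d) ω0]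
      rw [hPl (k + 1) hln.le]
      simp only [hC, hc, hBd, hρ]
      ring
    rw [h2] at h1
    have h3 := dec (k + 1) (k + 1) hln hln.le
    have h4 := u2 k (k + 1) (by omega) hln.le
    have hI : Ico 1 (k + 1) = Icc 1 k := by ext d; simp only [mem_Ico, mem_Icc]; omega
    rw [hI] at h1
    rw [sum_Icc_succ_top (by omega)] at h3
    rw [sum_sub_distrib, ← mul_sum] at h4
    have h5 : ∑ d ∈ Icc 1 k, Bd d ≤ k * C (k + 1) := by
      calc _ ≤ ∑ _d ∈ Icc 1 k, C (k + 1) := sum_le_sum fun d hd =>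
            B_le hA hF hO hP Z s A (by have := (mem_Icc.1 hd).2; omega) hln.le ω0
        _ = _ := by rw [sum_const, Nat.card_Icc, nsmul_eq_mul]; simp
    have h6 : ex n (k + 1) = 1 - (k : ℝ) / n := rfl
    rw [h6] at h1
    have h7 := var0 (k + 1)
    have h8 : (1 / (n : ℝ)) * ∑ d ∈ Icc 1 k, Bd d ≤ (1 / (n : ℝ)) * (k * C (k + 1)) :=
      mul_le_mul_of_nonneg_left h5 (by positivity)
    have h9 : ((n : ℝ) - ((k + 1 : ℕ) : ℝ) + 1) / n = 1 - k * (1 / (n : ℝ)) := by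
      push_cast; field_simp; ring
    rw [h9]
    have h10 : (k : ℝ) / n = k * (1 / (n : ℝ)) := by ring
    rw [h10] at h1
    have h11 : 1 / (n : ℝ) ≤ 1 := by rw [div_le_one hn0]; exact hn1
    have h12 : 0 ≤ (k : ℝ) * (1 / (n : ℝ)) := by positivity
    have h13 : (1 - k * (1 / (n : ℝ)) + 1 / (n : ℝ)) * (c (k + 1) (k + 1) - p (k + 1) ^ 2) ≤
        2 * (c (k + 1) (k + 1) - p (k + 1) ^ 2) :=
      mul_le_mul_of_nonneg_right (by linarith) (by linarith)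
    have a1 := (abs_le.1 h1).1
    have a3 := (abs_le.1 h3).2
    have a4 := (abs_le.1 h4).2
    have a5 : E (fun ω => aρ P n Z s A (k + 1) ω ω * h (k + 1) ω) ω0 =
      E (fun ω => ρ (k + 1) ω * h (k + 1) ω) ω0 := rfl
    rw [a5] at a1
    nlinarith
  have hsq : 0 < √(n : ℝ) := sqrt_pos.2 hn0
  have hsq2 : √(n : ℝ) * √(n : ℝ) = n := mul_self_sqrt hn0.le
  have each : ∀ l ∈ Ico 1 n, C l - p l ^ 2 ≤ √(n : ℝ) * (2 * (c l l - p l ^ 2) + 6 * ε) +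
      (if ((n : ℝ) - l + 1) < √(n : ℝ) then 1 else 0) := by
    intro l hl
    have hl' := mem_Ico.1 hl
    have h1 := key l hl'.1 hl'.2
    have h2 := var0 l
    have h3 : 0 ≤ √(n : ℝ) * (2 * (c l l - p l ^ 2) + 6 * ε) := mul_nonneg hsq.le (by linarith)
    split_ifs with hc'
    · have := hC1 l hl'.2.le
      nlinarith [sq_nonneg (p l)]
    · push Not at hc'
      by_cases hneg : C l - p l ^ 2 ≤ 0
      · linarith
      · push Not at hneg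
        have h4 : 1 ≤ √(n : ℝ) * (((n : ℝ) - l + 1) / n) := by
          rw [← mul_div_assoc, le_div_iff₀ hn0]
          nlinarith
        have h5 := mul_le_mul_of_nonneg_left h1 hsq.le
        nlinarith
  rw [sum_congr rfl fun l hl => hV l (mem_Ico.1 hl).2.le]
  have tot := sum_le_sum each
  rw [sum_add_distrib, ← mul_sum, sum_add_distrib, ← mul_sum, sum_const, Nat.card_Ico,
    nsmul_eq_mul, sum_boole] at tot
  have h4 : ((n - 1 : ℕ) : ℝ) ≤ n := by exact_mod_cast Nat.sub_le n 1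
  have h5 := count n
  have h6 : ((n - 1 : ℕ) : ℝ) * (6 * ε) ≤ n * (6 * ε) :=
    mul_le_mul_of_nonneg_right h4 (by positivity)
  have h7 : ∑ l ∈ Ico 1 n, (C l - p l ^ 2) ≤
      √(n : ℝ) * (3 + 30 * n ^ 2 * ε) := by
    have h8 : (n : ℝ) * (6 * ε) ≤ 6 * n ^ 2 * ε := by nlinarith [mul_nonneg hn0.le hε]
    have h9 : √(n : ℝ) * (2 * ∑ l ∈ Ico 1 n, (c l l - p l ^ 2) + ((n - 1 : ℕ) : ℝ) * (6 * ε)) ≤
        √(n : ℝ) * (2 + 30 * n ^ 2 * ε) := mul_le_mul_of_nonneg_left (by linarith) hsq.le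
    linarith
  have h10 : (1 / (n : ℝ)) * (√(n : ℝ) * (3 + 30 * n ^ 2 * ε)) =
      (3 + 30 * n ^ 2 * ε) / √(n : ℝ) := by
    rw [eq_div_iff hsq.ne']
    calc _ = (1 / (n : ℝ)) * (√(n : ℝ) * √(n : ℝ)) * (3 + 30 * n ^ 2 * ε) := by ring
      _ = _ := by rw [hsq2]; field_simp
  have h11 : 1 ≤ √(n : ℝ) := by rw [le_sqrt (by norm_num) hn0.le]; simpa using hn1
  calc _ ≤ (1 / (n : ℝ)) * (√(n : ℝ) * (3 + 30 * n ^ 2 * ε)) :=
        mul_le_mul_of_nonneg_left h7 (by positivity)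
    _ = 3 / √(n : ℝ) + 30 * n ^ 2 * ε / √(n : ℝ) := by rw [h10, add_div]
    _ ≤ _ := by
        have a1 : 3 / √(n : ℝ) ≤ 4 / √(n : ℝ) := by gcongr; norm_num
        have a2 : 30 * n ^ 2 * ε / √(n : ℝ) ≤ 30 * n ^ 2 * ε := div_le_self (by positivity) h11
        have a3 : 0 ≤ (n : ℝ) ^ 2 * ε := by positivity
        linarith

end

end Vale.Agent.P157
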