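import Vale.Agent.P157.Stm

namespace Vale.Agent.P157

open MeasureTheory ProbabilityTheory Finset Real

namespace Bdd

theorem path_le {n : ℕ} {q : ℕ → ℝ} (hq : Path n q) {d e : ℕ} (hde : d ≤ e) (he : e ≤ n) :
    q e ≤ q d := by
  induction e, hde using Nat.le_induction with
  | base => exact le_rfl
  | succ e hde ih => exact (hq.1 e (by omega)).trans (ih (by omega))

theorem path_nonneg {n : ℕ} {q : ℕ → ℝ} (hq : Path n q) {d : ℕ} (hd : d ≤ n) : 0 ≤ q d := by
  have := path_le hq hd le_rfl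
  rwa [hq.2] at this

theorem m_pos {n d : ℕ} (hd : d < n) : 0 < 1 - (d : ℝ) / n := by
  have hn : (0 : ℝ) < n := by exact_mod_cast (by omega : 0 < n)
  have : (d : ℝ) < n := by exact_mod_cast hd
  rw [sub_pos, div_lt_one hn]; exact this

theorem m_le {n d : ℕ} : 1 - (d : ℝ) / n ≤ 1 := by
  have : 0 ≤ (d : ℝ) / n := by positivity
  linarith

theorem int_exp (a t : ℝ) : Integrable (fun z => exp (a + t * z)) (gaussianReal 0 1) := by
  simp only [exp_add]
  exact (integrable_exp_mul_gaussianReal t).const_mul _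

theorem val_exp (a t : ℝ) : ∫ z, exp (a + t * z) ∂gaussianReal 0 1 = exp (a + t ^ 2 / 2) := by
  simp only [exp_add]
  rw [integral_const_mul]
  have := congrFun (mgf_fun_id_gaussianReal (μ := 0) (v := 1)) t
  simp only [mgf, NNReal.coe_one, zero_mul, one_mul, zero_add] at this
  rw [this]

/-- upper bound for one step, no measurability needed -/
theorem up {m c : ℝ} (hm : 0 < m) (hc : 0 ≤ c) {u G : ℝ → ℝ}
    (hG : Integrable G (gaussianReal 0 1)) (h : ∀ z, exp (m * u z) ≤ G z)
    (hv : ∫ z, G z ∂gaussianReal 0 1 ≤ exp (m * c)) :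
    m⁻¹ * log (∫ z, exp (m * u z) ∂gaussianReal 0 1) ≤ c := by
  have h0 : 0 ≤ ∫ z, exp (m * u z) ∂gaussianReal 0 1 := integral_nonneg fun z => (exp_pos _).le
  have h1 : ∫ z, exp (m * u z) ∂gaussianReal 0 1 ≤ exp (m * c) :=
    (integral_mono_of_nonneg (.of_forall fun z => (exp_pos _).le) hG (.of_forall h)).trans hv
  rw [inv_mul_le_iff₀ hm]
  rcases h0.eq_or_lt with h2 | h2
  · rw [← h2, log_zero]; positivity
  · exact (log_le_iff_le_exp h2).2 h1

/-- lower bound for one step -/
theorem low {m c : ℝ} (hm : 0 < m) (hc : c ≤ 0) {u : ℝ → ℝ} (h : ∀ z, c ≤ u z) :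
    c ≤ m⁻¹ * log (∫ z, exp (m * u z) ∂gaussianReal 0 1) := by
  rw [le_inv_mul_iff₀ hm]
  by_cases hi : Integrable (fun z => exp (m * u z)) (gaussianReal 0 1)
  · have h1 : exp (m * c) ≤ ∫ z, exp (m * u z) ∂gaussianReal 0 1 := by
      have := integral_mono (integrable_const (exp (m * c))) hi
        (fun z => exp_le_exp.2 (mul_le_mul_of_nonneg_left (h z) hm.le))
      simpa using this
    exact (le_log_iff_exp_le ((exp_pos _).trans_le h1)).2 h1
  · rw [integral_undef hi, log_zero]; nlinarith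

theorem casc_low (n : ℕ) (q : ℕ → ℝ) {Φ : ℝ → ℝ} {c : ℝ} (hc : c ≤ 0) (h : ∀ x, c ≤ Φ x) :
    ∀ d, d ≤ n → ∀ x, c ≤ casc n q Φ d x
  | 0, _, x => h x
  | d + 1, hd, _ => low (m_pos (by omega)) hc fun _ => casc_low n q hc h d (by omega) _

theorem casc_up (n : ℕ) (q : ℕ → ℝ) {Φ : ℝ → ℝ} {c : ℝ} (hc : 0 ≤ c) (h : ∀ x, Φ x ≤ c) :
    ∀ d, d ≤ n → ∀ x, casc n q Φ d x ≤ c
  | 0, _, x => h x
  | d + 1, hd, _ => up (m_pos (by omega)) hc (integrable_const (exp ((1 - (d : ℝ) / n) * c)))
      (fun _ => exp_le_exp.2 (mul_le_mul_of_nonneg_left (casc_up n q hc h d (by omega) _)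
        (m_pos (by omega)).le)) (by simp)

theorem lc_nonneg (x : ℝ) : 0 ≤ log (cosh x) := log_nonneg (one_le_cosh x)

theorem lc_le (x : ℝ) : log (cosh x) ≤ |x| := by
  rw [log_le_iff_le_exp (cosh_pos x), cosh_eq]
  have h1 := exp_le_exp.2 (le_abs_self x)
  have h2 := exp_le_exp.2 (neg_le_abs x)
  linarith

theorem casc_abs {n : ℕ} {q : ℕ → ℝ} (hq : Path n q) : ∀ d, d ≤ n → ∀ x,
    casc n q (fun x => log (cosh x)) d x ≤ |x| + ∑ k ∈ range d,
      ((1 - (k : ℝ) / n) * (q k - q (k + 1)) / 2 + (1 - (k : ℝ) / n)⁻¹ * log 2)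
  | 0, _, x => by simpa [casc] using lc_le x
  | d + 1, hd, x => by
    have ih := casc_abs hq d (by omega)
    have hs : ∀ k, k < n → 0 ≤ (1 - (k : ℝ) / n) * (q k - q (k + 1)) / 2 +
        (1 - (k : ℝ) / n)⁻¹ * log 2 := fun k hk => by
      have h1 := m_pos hk
      have h2 := sub_nonneg.2 (hq.1 k hk)
      have h3 : 0 ≤ log 2 := log_nonneg one_le_two
      positivity
    have hS : 0 ≤ ∑ k ∈ range (d + 1), ((1 - (k : ℝ) / n) * (q k - q (k + 1)) / 2 +
        (1 - (k : ℝ) / n)⁻¹ * log 2) := sum_nonneg fun k hk => hs k (by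
      have := mem_range.1 hk; omega)
    rw [sum_range_succ] at hS ⊢
    set c := ∑ k ∈ range d, ((1 - (k : ℝ) / n) * (q k - q (k + 1)) / 2 +
      (1 - (k : ℝ) / n)⁻¹ * log 2)
    have hm := m_pos (show d < n by omega)
    have hv := sub_nonneg.2 (hq.1 d (by omega))
    set m := 1 - (d : ℝ) / n
    set σ := √(q d - q (d + 1)) with hσ
    have hσ2 : σ ^ 2 = q d - q (d + 1) := sq_sqrt hv
    refine up hm (by positivity)
      (G := fun z => exp (m * (c + x) + (m * σ) * z) + exp (m * (c - x) + (-(m * σ)) * z))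
      ((int_exp _ _).add (int_exp _ _)) (fun z => ?_) ?_
    · have h1 := mul_le_mul_of_nonneg_left (ih (x + σ * z)) hm.le
      have p1 := exp_pos (m * (c + x) + (m * σ) * z)
      have p2 := exp_pos (m * (c - x) + (-(m * σ)) * z)
      rcases abs_cases (x + σ * z) with h | h
      · have : exp (m * casc n q (fun x => log (cosh x)) d (x + σ * z)) ≤
            exp (m * (c + x) + (m * σ) * z) := exp_le_exp.2 (by rw [h.1] at h1; linarith)
        linarith
      · have : exp (m * casc n q (fun x => log (cosh x)) d (x + σ * z)) ≤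
            exp (m * (c - x) + (-(m * σ)) * z) := exp_le_exp.2 (by rw [h.1] at h1; linarith)
        linarith
    · rw [integral_add (int_exp _ _) (int_exp _ _), val_exp, val_exp]
      have e : exp (m * (|x| + (c + (m * (q d - q (d + 1)) / 2 + m⁻¹ * log 2)))) =
          2 * exp (m * (|x| + c) + (m * σ) ^ 2 / 2) := by
        rw [mul_comm 2, ← exp_log (show (0 : ℝ) < 2 by norm_num), ← exp_add, exp_log two_pos,
          mul_pow, hσ2]
        congr 1; field_simp; ring
      have h1 : exp (m * (c + x) + (m * σ) ^ 2 / 2) ≤ exp (m * (|x| + c) + (m * σ) ^ 2 / 2) :=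
        exp_le_exp.2 (by nlinarith [le_abs_self x])
      have h2 : exp (m * (c - x) + (-(m * σ)) ^ 2 / 2) ≤ exp (m * (|x| + c) + (m * σ) ^ 2 / 2) :=
        exp_le_exp.2 (by rw [neg_sq]; nlinarith [neg_le_abs x])
      rw [e]; linarith

theorem casc_jen {n : ℕ} {q : ℕ → ℝ} (hq : Path n q) : ∀ d, d ≤ n → ∀ x,
    casc n q (fun x => log (cosh x)) d x ≤ log (cosh x) + (q 0 - q d) / 2
  | 0, _, x => by simp [casc]
  | d + 1, hd, x => by
    have ih := casc_jen hq d (by omega)
    have hm := m_pos (show d < n by omega)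
    have hm1 : 1 - (d : ℝ) / n ≤ 1 := m_le
    have hv := sub_nonneg.2 (hq.1 d (by omega))
    have h0 := sub_nonneg.2 (path_le hq (Nat.zero_le _) hd)
    have hl := lc_nonneg x
    set m := 1 - (d : ℝ) / n
    set σ := √(q d - q (d + 1)) with hσ
    have hσ2 : σ ^ 2 = q d - q (d + 1) := sq_sqrt hv
    set c := log (cosh x) + (q 0 - q (d + 1)) / 2 with hc
    set T := cosh x * exp (σ ^ 2 / 2) with hT
    have hT0 : 0 < T := mul_pos (cosh_pos x) (exp_pos _)
    have hi : Integrable (fun z => (exp (x + σ * z) + exp (-x + (-σ) * z)) / 2)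
        (gaussianReal 0 1) := ((int_exp _ _).add (int_exp _ _)).div_const _
    refine up hm (by positivity)
      (G := fun z => exp (m * c) * ((1 - m) + m / T * ((exp (x + σ * z) + exp (-x + (-σ) * z)) / 2)))
      (((integrable_const _).add (hi.const_mul _)).const_mul _) (fun z => ?_) ?_
    · have e1 : (exp (x + σ * z) + exp (-x + (-σ) * z)) / 2 = cosh (x + σ * z) := by
        rw [cosh_eq]; congr 3; ring
      rw [e1]
      have hcv := convexOn_exp.2 (Set.mem_univ 0) (Set.mem_univ (log (cosh (x + σ * z)) - log T))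
        (show 0 ≤ 1 - m by linarith) hm.le (by ring)
      simp only [smul_eq_mul, mul_zero, zero_add, exp_zero, mul_one] at hcv
      rw [exp_sub, exp_log (cosh_pos _), exp_log hT0] at hcv
      have e2 : log T = log (cosh x) + (q d - q (d + 1)) / 2 := by
        rw [hT, log_mul (cosh_pos x).ne' (exp_pos _).ne', log_exp, hσ2]
      calc _ ≤ exp (m * c + m * (log (cosh (x + σ * z)) - log T)) := by
            refine exp_le_exp.2 ?_
            rw [← mul_add]
            refine mul_le_mul_of_nonneg_left ((ih _).trans_eq ?_) hm.le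
            rw [hc, e2]; ring
        _ ≤ _ := by
            rw [exp_add]
            refine mul_le_mul_of_nonneg_left (hcv.trans_eq ?_) (exp_pos _).le
            ring
    · rw [integral_const_mul, integral_add (integrable_const _) (hi.const_mul _),
        integral_const_mul, integral_div, integral_add (int_exp _ _) (int_exp _ _), val_exp,
        val_exp]
      have e : (exp (x + σ ^ 2 / 2) + exp (-x + (-σ) ^ 2 / 2)) / 2 = T := by
        rw [hT, cosh_eq, neg_sq, exp_add, exp_add]; ring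
      rw [e]
      simp [hT0.ne']

theorem abel (n : ℕ) (q : ℕ → ℝ) (d : ℕ) :
    ∑ k ∈ range (d + 1), (1 - (k : ℝ) / n) * (q k - q (k + 1)) =
      q 0 - (1 / (n : ℝ)) * ∑ k ∈ Ico 1 (d + 1), q k - (1 - (d : ℝ) / n) * q (d + 1) := by
  induction d with
  | zero => simp
  | succ d ih =>
    rw [sum_range_succ, ih, sum_Ico_succ_top (by omega : 1 ≤ d + 1)]
    push_cast; ring

end Bdd

open Bdd in
theorem bddStmt : BddStmt := by
  intro n p hn hp hp0
  have hb : BddAbove (dualSet n p) := by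
    refine ⟨∑ k ∈ range n, (1 - (k : ℝ) / n)⁻¹ * log 2, ?_⟩
    rintro t ⟨q, hq, rfl⟩
    obtain ⟨d, rfl⟩ : ∃ d, n = d + 1 := ⟨n - 1, by omega⟩
    have h1 := casc_abs hq (d + 1) le_rfl 0
    rw [sum_add_distrib, ← sum_div, abel, hq.2] at h1
    have h2 : ∑ k ∈ Ico 1 (d + 1), p k * q k ≤ ∑ k ∈ Ico 1 (d + 1), q k := by
      refine sum_le_sum fun k hk => ?_
      have hk' := (mem_Ico.1 hk).2.le
      exact mul_le_of_le_one_left (path_nonneg hq hk')
        ((path_le hp (Nat.zero_le _) hk').trans_eq hp0)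
    have h3 := mul_le_mul_of_nonneg_left h2 (by positivity : 0 ≤ 1 / (((d + 1 : ℕ) : ℝ)))
    unfold psi ip
    have hn2 : (1 / (2 * ((d + 1 : ℕ) : ℝ))) = (1 / ((d + 1 : ℕ) : ℝ)) / 2 := by ring
    rw [hn2]
    simp only [abs_zero, mul_zero, sub_zero, zero_add] at h1
    linarith
  refine ⟨hb, ?_, fun q hq => ?_, fun f B _ hf => ?_⟩
  · refine le_trans ?_ (le_csSup hb ⟨fun _ => 0, ⟨fun _ _ => le_rfl, rfl⟩, rfl⟩)
    have := casc_low n (fun _ => 0) le_rfl lc_nonneg n le_rfl 0
    simpa [psi, ip] using this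
  · have := casc_jen hq n le_rfl 0
    rw [hq.2] at this
    unfold psi
    simp only [cosh_zero, log_one, zero_add, sub_zero] at this
    linarith
  · have hB : 0 ≤ B := (abs_nonneg _).trans (hf 0)
    exact abs_le.2 ⟨casc_low n p (by linarith) (fun x => (abs_le.1 (hf x)).1) n le_rfl 0,
      casc_up n p hB (fun x => (abs_le.1 (hf x)).2) n le_rfl 0⟩

end Vale.Agent.P157
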