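import Vale.Agent.P157.Stm

/-! P157 module Block. -/

namespace Vale.Agent.P157

open MeasureTheory ProbabilityTheory Finset Real Filter

namespace Block

variable {I ι : Type} [Fintype I] [DecidableEq I] [Fintype ι] [DecidableEq ι]

theorem fld_insert {A : Finset I} {τ : I} (h : τ ∉ A) (l : Multiset (ℕ × ℝ)) :
    fld ι (insert τ A) l = fld ι A l + lift none (sp τ) l := by
  simp only [fld, Finset.insert_val_of_notMem h, Multiset.cons_bind]
  exact add_comm _ _

theorem sys_insert (n : ℕ) (A : Finset I) {J : Finset ι} {a : ι} (h : a ∉ J) (D : ℕ) (c : ℝ) :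
    sys n A (insert a J) D c = sys n A J D c + D • round (some a) A (n - 1) c := by
  simp only [sys, Finset.insert_val_of_notMem h, Multiset.cons_bind]
  exact add_comm _ _

theorem conc_mono {n : ℕ} {f : ℝ → ℝ} {L : Sy ι I} {A : Finset I} {P : ℕ → ℝ} {e e' : ℝ}
    (h : Conc n f L A P e) (he : e ≤ e') : Conc n f L A P e' := le_trans h he

theorem spins (hs : SpinStmt) (hs2 : Sc2Stmt) (B β α ε : ℝ) (hB : 1 ≤ B) (hβ : 0 ≤ β)
    (hα : 0 < α) (hε : 0 < ε) (e1 : ℝ) (he1 : 0 < e1) (b : ℕ) :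
    ∃ e0 : ℝ, 0 < e0 ∧ ∀ n : ℕ, 1 ≤ n → ∃ η : ℝ, 0 < η ∧
    ∀ (I ι : Type) [Fintype I] [DecidableEq I] [Fintype ι] [DecidableEq ι] (f f1 f2 : ℝ → ℝ)
    (A A' : Finset I) (J : Finset ι) (D0 : ℕ) (c : ℝ) (y P : ℕ → ℝ),
      Sm B f f1 f2 → (∀ t, |f t| ≤ B) → A ⊆ A' → A'.card = A.card + b →
      1 ≤ e0 * A.card → (J.card : ℝ) ≤ β * A.card →
      (∀ j, 1 ≤ j → j ≤ A'.card → j * (j + 1) ∣ D0) → D0 * c ^ 2 = 1 → A'.card * c ^ 2 ≤ η →
      (∀ κ, κ < n → |y κ| ≤ η) → Path n P → P 0 = 1 →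
      Conc n f (sys n A J (D0 / A.card) c + fld ι A (ys n y)) A P e0 →
      TT n (gg ι f) (sys n A J (D0 / A.card) c + fld ι A (ys n y)) +
          b * (Vn n α f - α * Hf n f P - ε) ≤
        TT n (gg ι f) (sys n A' J (D0 / A'.card) c + fld ι A' (ys n y)) ∧
      Conc n f (sys n A' J (D0 / A'.card) c + fld ι A' (ys n y)) A' P e1 := by
  induction b with
  | zero =>
    refine ⟨e1, he1, fun n _ => ⟨1, one_pos, ?_⟩⟩
    intro I ι _ _ _ _ f f1 f2 A A' J D0 c y P _ _ hA hc _ _ _ _ _ _ _ _ hC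
    obtain rfl := Finset.eq_of_subset_of_card_le hA (by omega)
    exact ⟨by simp, hC⟩
  | succ b ih =>
    obtain ⟨e', he', ih⟩ := ih
    obtain ⟨es, hes, hs⟩ := hs B β α ε hB hβ hα hε
    obtain ⟨C, hC1, hs2⟩ := hs2 B β hB hβ
    have hpos : 0 < e' / (2 * C) := by positivity
    refine ⟨min es (e' / (2 * C)), lt_min hes hpos, fun n hn => ?_⟩
    obtain ⟨η', hη', ih⟩ := ih n hn
    obtain ⟨ηs, hηs, hs⟩ := hs n hn
    refine ⟨min (min η' ηs) (1 / B ^ 2), lt_min (lt_min hη' hηs) (by positivity), ?_⟩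
    intro I ι _ _ _ _ f f1 f2 A A' J D0 c y P hS hf hA hc h1 hJ hd hD hη hy hP hP0 hC
    have hj0 : (0 : ℝ) ≤ A.card := Nat.cast_nonneg _
    have hj : 1 ≤ A.card := by
      by_contra h
      have : A.card = 0 := by omega
      rw [this] at h1; norm_num at h1
    have hj' : (1 : ℝ) ≤ A.card := by exact_mod_cast hj
    obtain ⟨τ, hτ', hτ⟩ := Finset.exists_mem_notMem_of_card_lt_card (s := A) (t := A') (by omega)
    obtain ⟨R, hR⟩ := hd A.card hj (by omega)
    have e1' : D0 / A.card = (A.card + 1) * R := by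
      rw [hR, mul_assoc, Nat.mul_div_cancel_left _ hj]
    have e2' : D0 / (insert τ A).card = A.card * R := by
      rw [Finset.card_insert_of_notMem hτ, hR, mul_right_comm, Nat.mul_div_cancel _ (by omega)]
    have hR' : (A.card * (A.card + 1) * R : ℝ) * c ^ 2 = 1 := by
      rw [hR] at hD; push_cast at hD; exact hD
    have hle : (A.card : ℝ) ≤ A'.card := by exact_mod_cast Finset.card_le_card hA
    have hc2 : 0 ≤ c ^ 2 := sq_nonneg c
    have hAc : A.card * c ^ 2 ≤ A'.card * c ^ 2 := mul_le_mul_of_nonneg_right hle hc2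
    have hm1 := min_le_left es (e' / (2 * C))
    have hm2 := min_le_right es (e' / (2 * C))
    have hn1 : min (min η' ηs) (1 / B ^ 2) ≤ η' := (min_le_left _ _).trans (min_le_left _ _)
    have hn2 : min (min η' ηs) (1 / B ^ 2) ≤ ηs := (min_le_left _ _).trans (min_le_right _ _)
    have hn3 := min_le_right (min η' ηs) (1 / B ^ 2)
    rw [e1'] at hC ⊢
    have s1 := hs I ι f f1 f2 A J τ R c y P hS hf hτ
      (h1.trans (mul_le_mul_of_nonneg_right hm1 hj0)) hJ hR' ((hAc.trans hη).trans hn2)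
      (fun κ hκ => (hy κ hκ).trans hn2) hP hP0 (conc_mono hC hm1)
    have hBc : B * |c| ≤ 1 := by
      have h2 : c ^ 2 ≤ 1 / B ^ 2 := by nlinarith [(hAc.trans hη).trans hn3]
      rw [le_div_iff₀ (by positivity)] at h2
      have h3 : (B * |c|) ^ 2 ≤ 1 := by rw [mul_pow, sq_abs]; linarith
      exact (sq_le_one_iff₀ (by positivity)).1 h3
    have s2 := hs2 I ι n f f1 f2 A J τ R c _ (ys n y) (ys n y) P hn hS hτ
      (Finset.card_pos.1 hj) hJ hR' hBc hC
    rw [add_assoc, ← fld_insert hτ, ← e2'] at s2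
    rw [← e2'] at s1
    have hee : e' / (2 * C) ≤ e' := div_le_self he'.le (by linarith)
    have hci : ((insert τ A).card : ℝ) = A.card + 1 := by
      rw [Finset.card_insert_of_notMem hτ]; push_cast; ring
    have s3 := ih I ι f f1 f2 (insert τ A) A' J D0 c y P hS hf (Finset.insert_subset hτ' hA)
      (by rw [Finset.card_insert_of_notMem hτ]; omega)
      (by rw [hci]; nlinarith [hm2.trans hee])
      (by rw [hci]; nlinarith) hd hD (hη.trans hn1) (fun κ hκ => (hy κ hκ).trans hn1) hP hP0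
      (conc_mono s2 (by
        have h4 : 1 / (A.card : ℝ) ≤ e' / (2 * C) := by
          rw [div_le_iff₀ (by linarith)]
          exact h1.trans (mul_le_mul_of_nonneg_right hm2 hj0)
        have h5 : C * (e' / (2 * C) + e' / (2 * C)) = e' := by field_simp; ring
        exact (mul_le_mul_of_nonneg_left (add_le_add hm2 h4) (by linarith)).trans h5.le))
    refine ⟨?_, s3.2⟩
    have := s3.1
    push_cast
    linarith

theorem conc_pat (hP : PatStmt) {n : ℕ} {f : ℝ → ℝ} {B : ℝ} (hn : 1 ≤ n) (hf : ∀ t, |f t| ≤ B)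
    {L L' : Sy ι I} {a : ι} (hL : ∀ s ∈ L', s.2.1 = some a) {A : Finset I} {P : ℕ → ℝ} {e : ℝ}
    (h : Conc n f L A P e) : Conc n f (L + L') A P (exp (12 * B) * e) := by
  have h1 := (hP _ _ n (gg ι f) L L' (some a) B hn hf hL).2
  unfold Conc at h ⊢
  refine le_trans ?_ (mul_le_mul_of_nonneg_left h (exp_pos _).le)
  rw [mul_left_comm]
  refine mul_le_mul_of_nonneg_left ?_ (by positivity)
  rw [Finset.mul_sum]
  refine Finset.sum_le_sum fun d hd => ?_
  exact (h1 (fun σ σ' => (Rr A σ σ' - P d) ^ 2) d (Finset.mem_Ico.1 hd).2.le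
    (fun _ _ => sq_nonneg _)).1

theorem not_mem_sys (hG : GApi) (n : ℕ) (A : Finset I) {J : Finset ι} {a : ι} (h : a ∉ J) (D : ℕ)
    (c : ℝ) (l : Multiset (ℕ × ℝ)) : ∀ s ∈ sys n A J D c + fld ι A l, s.2.1 ≠ some a := by
  intro s hs
  rcases Multiset.mem_add.1 hs with hs | hs
  · obtain ⟨a', ha', hs⟩ := Multiset.mem_bind.1 hs
    rw [(hG.round_vr n 1 (some a') A (n - 1) c).2.2 s (Multiset.mem_of_mem_nsmul hs)]
    intro e
    exact h (Option.some.inj e ▸ ha')
  · rw [(hG.fld_vr n 1 A l l).2.2.2.2 s hs]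
    simp

theorem pats (hG : GApi) (hc : PcStmt) (h1 : P1Stmt) (hP : PatStmt) (h2 : G2Stmt) (B ε : ℝ)
    (hB : 1 ≤ B) (hε : 0 < ε) (b' : ℕ) :
    ∃ e1 : ℝ, 0 < e1 ∧ ∀ n : ℕ, 1 ≤ n → ∃ η : ℝ, 0 < η ∧
    ∀ (I ι : Type) [Fintype I] [DecidableEq I] [Fintype ι] [DecidableEq ι] (f f1 f2 : ℝ → ℝ)
    (A : Finset I) (J : Finset ι) (D : ℕ) (c : ℝ) (l : Multiset (ℕ × ℝ)) (P : ℕ → ℝ),
      Sm B f f1 f2 → (∀ t, |f t| ≤ B) → A.Nonempty → D * (A.card * c ^ 2) = 1 →
      A.card * c ^ 2 ≤ η → Path n P → P 0 = 1 → Conc n f (sys n A J D c + fld ι A l) A P e1 →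
      ∀ K : Finset ι, Disjoint K J → K.card ≤ b' →
      TT n (gg ι f) (sys n A J D c + fld ι A l) + K.card * (Hf n f P - f 0 - ε) ≤
        TT n (gg ι f) (sys n A (K ∪ J) D c + fld ι A l) := by
  obtain ⟨C, hC0, hc⟩ := hc B hB
  set δ : ℝ := ε / (3 * (C + 1)) with hδ
  have hδ0 : 0 < δ := by positivity
  have hCδ : C * δ ≤ ε / 3 := by
    rw [hδ, ← mul_div_assoc, div_le_div_iff₀ (by positivity) (by positivity)]; nlinarith
  have hE : 1 ≤ exp (12 * B) := one_le_exp (by linarith)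
  refine ⟨δ ^ 2 / exp (12 * B) ^ b', by positivity, fun n hn => ?_⟩
  obtain ⟨η, hη, h2⟩ := h2 n B 1 (ε / 3) hn (by positivity)
  refine ⟨min (min (η ^ 2) (δ ^ 2)) (1 / B ^ 2), by positivity, ?_⟩
  intro I ι _ _ _ _ f f1 f2 A J D c l P hS hf hA hD hη' hPa hP0 hC K
  have hc0 : 0 ≤ A.card * c ^ 2 := by positivity
  have hn1 : √(A.card * c ^ 2) ≤ η :=
    sqrt_le_iff.2 ⟨hη.le, hη'.trans ((min_le_left _ _).trans (min_le_left _ _))⟩
  have hn2 : √(A.card * c ^ 2) ≤ δ :=
    sqrt_le_iff.2 ⟨hδ0.le, hη'.trans ((min_le_left _ _).trans (min_le_right _ _))⟩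
  have hn3 : B ^ 2 * (A.card * c ^ 2) ≤ 1 := by
    have := hη'.trans (min_le_right _ _)
    rw [le_div_iff₀ (by positivity)] at this
    linarith
  obtain ⟨-, v2, v3⟩ := hG.sprof_var n P _ hPa hc0
  have hH := (h2 P (D • sprof n P (A.card * c ^ 2)) hPa hP0.le
    (fun s hs => by
      have := (v3 s (Multiset.mem_of_mem_nsmul hs)).2
      rw [hP0, mul_one] at this
      exact this.trans hn1)
    (fun d hd => by
      rw [(hG.lvar_add _ 0 D d).2, v2 d hd, ← mul_assoc, hD, one_mul, sub_self, abs_zero]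
      exact hη.le)).1 f (fun t h => (hS.d0 t h).1)
  suffices H : Disjoint K J → K.card ≤ b' →
      TT n (gg ι f) (sys n A J D c + fld ι A l) + K.card * (Hf n f P - f 0 - ε) ≤
        TT n (gg ι f) (sys n A (K ∪ J) D c + fld ι A l) ∧
      Conc n f (sys n A (K ∪ J) D c + fld ι A l) A P
        (exp (12 * B) ^ K.card * (δ ^ 2 / exp (12 * B) ^ b')) from fun a b => (H a b).1
  induction K using Finset.induction_on with
  | empty => intro _ _; simpa using hC
  | insert a K ha ih =>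
    intro hd hk
    rw [Finset.card_insert_of_notMem ha] at hk ⊢
    rw [Finset.disjoint_insert_left] at hd
    obtain ⟨i1, i2⟩ := ih hd.2 (by omega)
    have ha' : a ∉ K ∪ J := by simp [ha, hd.1]
    rw [Finset.insert_union, sys_insert n A ha', add_right_comm]
    constructor
    · have p1 := hc I ι n f f1 f2 _ A a P _ c D hn hS hf hA hPa hP0 hn3 i2
      have p2 := (h1 _ _ n (gg ι f) _ (some a) (D • sprof n P (A.card * c ^ 2)) hn
        (not_mem_sys hG n A ha' D c l)).1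
      have e : D • fk I a (sprof n P (A.card * c ^ 2)) =
          lift (some a) (fun _ => 1) (D • sprof n P (A.card * c ^ 2)) := by
        simp only [fk, lift, Multiset.map_nsmul]
      rw [e, p2, hD, mul_one] at p1
      have hsq : √(exp (12 * B) ^ K.card * (δ ^ 2 / exp (12 * B) ^ b')) ≤ δ := by
        refine sqrt_le_iff.2 ⟨hδ0.le, ?_⟩
        rw [mul_div_assoc', div_le_iff₀ (by positivity), mul_comm]
        exact mul_le_mul_of_nonneg_left (pow_le_pow_right₀ hE (by omega)) (by positivity)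
      have p3 := mul_le_mul_of_nonneg_left (add_le_add hsq hn2) hC0
      have p4 := (abs_le.1 (p1.trans p3)).1
      have p5 := (abs_le.1 hH).1
      have e2 : gg ι f (some a) = f := rfl
      rw [e2] at p4
      push_cast
      linarith
    · rw [pow_succ', mul_assoc]
      exact conc_pat hP hn hf (a := a) (fun s hs =>
        (hG.round_vr n 1 (some a) A (n - 1) c).2.2 s (Multiset.mem_of_mem_nsmul hs)) i2

end Block

theorem blockStmt (_hC : CApi) (hG : GApi) (hs : SpinStmt) (hs2 : Sc2Stmt) (hc : PcStmt)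
    (h1 : P1Stmt) (hP : PatStmt) (h2 : G2Stmt) : BlockStmt := by
  intro B β α ε b b' hB hβ hα hε
  obtain ⟨e1, he1, hp⟩ := Block.pats hG hc h1 hP h2 B ε hB hε b'
  obtain ⟨e0, he0, hq⟩ := Block.spins hs hs2 B β α ε hB hβ hα hε e1 he1 b
  refine ⟨e0, he0, fun n hn => ?_⟩
  obtain ⟨η1, hη1, hp⟩ := hp n hn
  obtain ⟨η0, hη0, hq⟩ := hq n hn
  refine ⟨min η0 η1, lt_min hη0 hη1, ?_⟩
  intro I ι _ _ _ _ f f1 f2 A A' J J' D0 c y P hS hf hA hc hJ hJ' he hβ' hd hD hη hy hPa hP0 hC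
  obtain ⟨q1, q2⟩ := hq I ι f f1 f2 A A' J D0 c y P hS hf hA hc he hβ' hd hD
    (hη.trans (min_le_left _ _)) (fun κ hκ => (hy κ hκ).trans (min_le_left _ _)) hPa hP0 hC
  have hj : 1 ≤ A.card := by
    by_contra h
    have : A.card = 0 := by omega
    rw [this] at he; norm_num at he
  have hdv : A'.card ∣ D0 := (Dvd.intro _ rfl).trans (hd A'.card (by omega) le_rfl)
  have q3 := hp I ι f f1 f2 A' J (D0 / A'.card) c (ys n y) P hS hf
    (Finset.card_pos.1 (by omega))
    (by rw [← mul_assoc, ← Nat.cast_mul, Nat.div_mul_cancel hdv, hD])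
    (hη.trans (min_le_right _ _)) hPa hP0 q2 (J' \ J) Finset.sdiff_disjoint
    (by rw [Finset.card_sdiff_of_subset hJ]; omega)
  rw [Finset.sdiff_union_of_subset hJ, Finset.card_sdiff_of_subset hJ,
    Nat.cast_sub (Finset.card_le_card hJ)] at q3
  linarith

end Vale.Agent.P157
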