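import Vale.Agent.P157.A

namespace Vale.Agent.P157

open Finset Real

set_option linter.unusedSectionVars false

namespace Cc

theorem sgo_apply {E S : Type} [AddCommGroup E] (v : E) (g : E × S → ℝ) (ω : E × S) :
    sgo v g ω = (g (ω.1 + v, ω.2) + g (ω.1 - v, ω.2)) / 2 := rfl

section
variable {E S : Type} [AddCommGroup E]

theorem lv_zero : (lv (0 : Multiset E) : Op (E × S)) = LinearMap.id := rfl

theorem lv_cons (v : E) (l : Multiset E) : (lv (v ::ₘ l) : Op (E × S)) = sgo v ∘ₗ lv l := by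
  unfold lv; rw [Multiset.foldr_cons]

theorem lv_add (l l' : Multiset E) : (lv (l + l') : Op (E × S)) = lv l ∘ₗ lv l' := by
  induction l using Multiset.induction_on with
  | empty => rw [zero_add]; rfl
  | cons v l ih => rw [Multiset.cons_add, lv_cons, lv_cons, ih]; rfl

theorem cons_apply (v : E) (l : Multiset E) (g : E × S → ℝ) (ω : E × S) :
    lv (v ::ₘ l) g ω = (lv l g (ω.1 + v, ω.2) + lv l g (ω.1 - v, ω.2)) / 2 := by
  rw [lv_cons]; rfl

theorem lv_mk (l : Multiset E) : Mk (lv l : Op (E × S)) := by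
  induction l using Multiset.induction_on with
  | empty => exact ⟨fun g hg ω => hg ω, fun ω => rfl⟩
  | cons v l ih =>
    refine ⟨fun g hg ω => ?_, fun ω => ?_⟩
    · rw [cons_apply]; have := ih.1 g hg; positivity [this (ω.1 + v, ω.2), this (ω.1 - v, ω.2)]
    · rw [cons_apply, ih.2, ih.2]; norm_num

theorem lv_map {E' S' : Type} [AddCommGroup E'] (φ : E →+ E') (x0 : E') (ρ : S → S')
    (l : Multiset E) (g : E' × S' → ℝ) (ω : E × S) :
    lv l (fun x : E × S => g (φ x.1 + x0, ρ x.2)) ω = lv (l.map φ) g (φ ω.1 + x0, ρ ω.2) := by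
  induction l using Multiset.induction_on generalizing ω with
  | empty => rfl
  | cons v l ih =>
    rw [Multiset.map_cons, cons_apply, cons_apply, ih, ih]
    simp only [map_add, map_sub]
    rw [add_right_comm (φ ω.1) (φ v) x0, sub_add_eq_add_sub]

theorem res_mk [Fintype S] [Inhabited S] : Mk (res : Op (E × S)) := by
  have hc : (0 : ℝ) < Fintype.card S := by exact_mod_cast Fintype.card_pos
  refine ⟨fun g hg ω => div_nonneg (sum_nonneg fun σ _ => hg _) hc.le, fun ω => ?_⟩
  show (∑ _σ : S, (1 : ℝ)) / _ = 1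
  simp [hc.ne']

end

variable {O S : Type} [Fintype O] [DecidableEq O] [Fintype S] [Inhabited S]

theorem ok (n : ℕ) (L : Multiset (St O S)) (hn : 1 ≤ n) : Ok (chain L) (ex n) (n + 1) := by
  have hn' : (0 : ℝ) < n := by exact_mod_cast hn
  refine ⟨fun j => ?_, fun j hj => ?_, fun j _ => ?_, fun j _ => ?_⟩
  · cases j with
    | zero => exact res_mk
    | succ j => exact lv_mk _
  · cases j with
    | zero => exact one_pos
    | succ j =>
      show 0 < 1 - (j : ℝ) / n
      have : (j : ℝ) < n := by exact_mod_cast (by omega : j < n)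
      rw [sub_pos, div_lt_one hn']; exact this
  · cases j with
    | zero => exact le_rfl
    | succ j =>
      show 1 - (j : ℝ) / n ≤ 1
      have : 0 ≤ (j : ℝ) / n := by positivity
      linarith
  · cases j with
    | zero => show 1 - ((0 : ℕ) : ℝ) / n ≤ 1; simp
    | succ j =>
      show 1 - ((j + 1 : ℕ) : ℝ) / n ≤ 1 - (j : ℝ) / n
      have : (j : ℝ) / n ≤ ((j + 1 : ℕ) : ℝ) / n := by gcongr; omega
      linarith

theorem tt0 (n : ℕ) (g : O → ℝ → ℝ) (hn : 1 ≤ n) :
    TT n g (0 : Multiset (St O S)) = ∑ o, g o 0 := by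
  have hk := ok n (0 : Multiset (St O S)) hn
  have key : ∀ j, j ≤ n → ∀ σ, XX (chain (0 : Multiset (St O S))) (ex n) (ZZ g) (j + 1) (0, σ) =
      ∑ o, g o 0 := by
    intro j
    induction j with
    | zero =>
      intro _ σ
      have hc : (0 : ℝ) < Fintype.card S := by exact_mod_cast Fintype.card_pos
      show (1 : ℝ)⁻¹ * log ((∑ _σ : S, exp (1 * ∑ o, g o 0)) / _) = _
      simp [hc.ne']
    | succ j ih =>
      intro hj σ
      have hm := (hk.pos (j + 1) (by omega)).ne'
      show (ex n (j + 1))⁻¹ * log (exp (ex n (j + 1) * XX _ _ _ (j + 1) (0, σ))) = _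
      rw [log_exp, ih (by omega), inv_mul_cancel_left₀ hm]
  exact key n le_rfl _

theorem chain_ne (L : Multiset (St O S)) (s : St O S) {j : ℕ} (hj : j ≠ s.1 + 1) :
    chain (s ::ₘ L) j = chain L j := by
  cases j with
  | zero => rfl
  | succ j =>
    show lv _ = lv _
    rw [Multiset.filter_cons_of_neg _ (by omega)]

theorem chain_eq (L : Multiset (St O S)) (s : St O S) :
    chain (s ::ₘ L) (s.1 + 1) = sgo (vec s) ∘ₗ chain L (s.1 + 1) := by
  show lv _ = _
  rw [Multiset.filter_cons_of_pos _ (by rfl), Multiset.map_cons, lv_cons]; rfl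

theorem xx_low (n : ℕ) (Z : Om O S → ℝ) (L : Multiset (St O S)) (s : St O S) {j : ℕ}
    (hj : j ≤ s.1 + 1) : XX (chain (s ::ₘ L)) (ex n) Z j = XX (chain L) (ex n) Z j := by
  induction j with
  | zero => rfl
  | succ j ih =>
    ext ω
    show (ex n j)⁻¹ * log _ = (ex n j)⁻¹ * log _
    rw [chain_ne L s (by omega), ih (by omega)]

/-- translation invariance -/
theorem xx_tr (n : ℕ) (Z : Om O S → ℝ) (L : Multiset (St O S)) (v : O → S → ℝ) (j : ℕ)
    (ω : Om O S) : XX (chain L) (ex n) (fun x => Z (x.1 + v, x.2)) j ω =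
      XX (chain L) (ex n) Z j (ω.1 + v, ω.2) :=
  Aa.twX (P := chain L) (P' := chain L) (ex n) j (fun _ x => (x.1 + v, x.2)) (fun i _ g ω => by
    cases i with
    | zero => rfl
    | succ i =>
      have := lv_map (AddMonoidHom.id _) v id ((L.filter (fun s => s.1 = i)).map vec) g ω
      simp only [AddMonoidHom.id_apply, id] at this
      rw [Multiset.map_id'] at this
      exact this) Z j le_rfl ω

theorem zz_lip (g : O → ℝ → ℝ) (B : ℝ) (o : O) (hg : ∀ t h, |g o (t + h) - g o t| ≤ B * |h|)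
    (w w' : S → ℝ) (ω : Om O S) :
    ZZ g (ω.1 + Pi.single o w, ω.2) ≤ ZZ g (ω.1 + Pi.single o w', ω.2) + B * ‖w - w'‖ := by
  have hB : 0 ≤ B := by simpa using (abs_nonneg _).trans (hg 0 1)
  unfold ZZ
  rw [← add_sum_erase _ _ (mem_univ o), ← add_sum_erase _ _ (mem_univ o)]
  have h1 : ∑ x ∈ univ.erase o, g x ((ω.1 + Pi.single o w : O → S → ℝ) x ω.2) =
      ∑ x ∈ univ.erase o, g x ((ω.1 + Pi.single o w' : O → S → ℝ) x ω.2) := by
    refine sum_congr rfl fun x hx => ?_
    simp [Pi.single_eq_of_ne (ne_of_mem_erase hx)]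
  have h2 := hg (ω.1 o ω.2 + w' ω.2) (w ω.2 - w' ω.2)
  have h3 : |w ω.2 - w' ω.2| ≤ ‖w - w'‖ := norm_le_pi_norm (w - w') ω.2
  have h4 := mul_le_mul_of_nonneg_left h3 hB
  rw [show ω.1 o ω.2 + w' ω.2 + (w ω.2 - w' ω.2) = ω.1 o ω.2 + w ω.2 by ring] at h2
  simp only [Pi.add_apply, Pi.single_eq_same] at h1 ⊢
  linarith [(abs_le.1 h2).2]

theorem rep1 (n : ℕ) (g : O → ℝ → ℝ) (B : ℝ) (L : Multiset (St O S)) (κ : ℕ) (o : O)
    (w w' : S → ℝ) (hn : 1 ≤ n) (hg : ∀ t h, |g o (t + h) - g o t| ≤ B * |h|) :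
    TT n g ((κ, o, w) ::ₘ L) ≤ TT n g ((κ, o, w') ::ₘ L) + B * ‖w - w'‖ := by
  have hB : 0 ≤ B := by simpa using (abs_nonneg _).trans (hg 0 1)
  have hc : 0 ≤ B * ‖w - w'‖ := by positivity
  have hk := ok n L hn
  have hk' := ok n ((κ, o, w') ::ₘ L) hn
  have key : ∀ j, j ≤ n + 1 → ∀ ω, XX (chain ((κ, o, w) ::ₘ L)) (ex n) (ZZ g) j ω ≤
      XX (chain ((κ, o, w') ::ₘ L)) (ex n) (ZZ g) j ω + B * ‖w - w'‖ := by
    intro j
    induction j with
    | zero => intro _ ω; exact le_add_of_nonneg_right hc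
    | succ j ih =>
      intro hj ω
      have hm := hk.pos j (by omega)
      have hP : chain ((κ, o, w) ::ₘ L) j (fun x => exp (ex n j *
          XX (chain ((κ, o, w) ::ₘ L)) (ex n) (ZZ g) j x)) ω ≤ exp (ex n j * (B * ‖w - w'‖)) *
          chain ((κ, o, w') ::ₘ L) j (fun x => exp (ex n j *
            XX (chain ((κ, o, w') ::ₘ L)) (ex n) (ZZ g) j x)) ω := by
        by_cases hjk : j = κ + 1
        · subst hjk
          rw [xx_low n _ L (κ, o, w) le_rfl, xx_low n _ L (κ, o, w') le_rfl,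
            chain_eq L (κ, o, w), chain_eq L (κ, o, w')]
          have h1 : ∀ u u' : S → ℝ, ‖u - u'‖ = ‖w - w'‖ →
              chain L (κ + 1) (fun x => exp (ex n (κ + 1) * XX (chain L) (ex n) (ZZ g) (κ + 1) x))
                (ω.1 + Pi.single o u, ω.2) ≤ exp (ex n (κ + 1) * (B * ‖w - w'‖)) *
              chain L (κ + 1) (fun x => exp (ex n (κ + 1) * XX (chain L) (ex n) (ZZ g) (κ + 1) x))
                (ω.1 + Pi.single o u', ω.2) := by
            intro u u' hu
            rw [← Aa.exp_xx hk _ (by omega), ← Aa.exp_xx hk _ (by omega), ← exp_add, exp_le_exp,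
              ← xx_tr, ← xx_tr, ← mul_add, add_comm (B * _), ← hu]
            exact mul_le_mul_of_nonneg_left
              (Aa.xle hk (fun x => zz_lip g B o hg u u' x) _ (by omega) ω) hm.le
          have h2 := h1 w w' rfl
          have h3 := h1 (-w) (-w') (by rw [← norm_neg]; congr 1; ring)
          rw [Pi.single_neg, Pi.single_neg, ← sub_eq_add_neg, ← sub_eq_add_neg] at h3
          simp only [LinearMap.comp_apply, sgo_apply, vec]
          linarith
        · rw [chain_ne L (κ, o, w) hjk, chain_ne L (κ, o, w') hjk, ← Aa.smul']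
          refine Aa.mono' (hk.mk' j) (fun x => ?_) ω
          rw [← exp_add, exp_le_exp, ← mul_add, add_comm (B * _)]
          exact mul_le_mul_of_nonneg_left (ih (by omega) x) hm.le
      have hk1 := ok n ((κ, o, w) ::ₘ L) hn
      rw [← Aa.exp_xx hk1 _ (by omega), ← Aa.exp_xx hk' _ (by omega), ← exp_add, exp_le_exp,
        ← mul_add, add_comm (B * _)] at hP
      exact le_of_mul_le_mul_left hP hm
  exact key _ le_rfl _

theorem rep (n : ℕ) (g : O → ℝ → ℝ) (B : ℝ) (L : Multiset (St O S)) (κ : ℕ) (o : O)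
    (w w' : S → ℝ) (hn : 1 ≤ n) (hg : ∀ t h, |g o (t + h) - g o t| ≤ B * |h|) :
    |TT n g ((κ, o, w) ::ₘ L) - TT n g ((κ, o, w') ::ₘ L)| ≤ B * ‖w - w'‖ := by
  have h1 := rep1 n g B L κ o w w' hn hg
  have h2 := rep1 n g B L κ o w' w hn hg
  rw [norm_sub_rev] at h2
  rw [abs_le]; constructor <;> linarith

theorem chain_zero (L : Multiset (St O S)) (κ : ℕ) (o : O) :
    chain ((κ, o, (0 : S → ℝ)) ::ₘ L) = chain L := by
  funext j
  by_cases hj : j = κ + 1
  · subst hj
    rw [chain_eq L (κ, o, 0)]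
    ext g ω
    simp [vec, sgo_apply]
  · exact chain_ne L _ hj

theorem crude (n : ℕ) (g : O → ℝ → ℝ) (B : ℝ) (L L' : Multiset (St O S)) (hn : 1 ≤ n)
    (hg : ∀ s ∈ L', ∀ t h, |g s.2.1 (t + h) - g s.2.1 t| ≤ B * |h|) :
    |TT n g (L + L') - TT n g L| ≤ B * sz L' := by
  induction L' using Multiset.induction_on with
  | empty => simp [sz]
  | cons s L' ih =>
    have h1 := ih (fun s hs => hg s (Multiset.mem_cons_of_mem hs))
    have h2 := rep n g B (L + L') s.1 s.2.1 s.2.2 0 hn (hg s (Multiset.mem_cons_self _ _))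
    have h3 : TT n g ((s.1, s.2.1, (0 : S → ℝ)) ::ₘ (L + L')) = TT n g (L + L') := by
      unfold TT; rw [chain_zero]
    rw [h3, sub_zero] at h2
    rw [Multiset.add_cons]
    have h4 : sz (s ::ₘ L') = ‖s.2.2‖ + sz L' := by simp [sz]
    rw [h4]
    have := abs_sub_le (TT n g (s ::ₘ (L + L'))) (TT n g (L + L')) (TT n g L)
    linarith

theorem smg (ι : Type) (B : ℝ) (f f1 f2 : ℝ → ℝ) (hB : 1 ≤ B) (h : Sm B f f1 f2) (o : Option ι) :
    Sm B (gg ι f o) (gg1 ι f1 o) (gg2 ι f2 o) := by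
  cases o with
  | some a => exact h
  | none =>
    have h0 : 0 ≤ B := by linarith
    refine ⟨fun t h => ⟨?_, ?_⟩, fun t h => ⟨?_, ?_⟩, fun t h => ⟨?_, ?_⟩, fun t => ?_, fun t => ?_,
      fun t h => ?_⟩ <;> simp only [gg, gg1, gg2, Option.elim, id]
    · rw [add_sub_cancel_left]; nlinarith [abs_nonneg h]
    · rw [show t + h + (t - h) - 2 * t = 0 by ring, abs_zero]; positivity
    · simp only [sub_self, abs_zero]; positivity
    · rw [show (1 : ℝ) + 1 - 2 * 1 = 0 by ring, abs_zero]; positivity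
    · simp only [sub_self, abs_zero]; positivity
    · rw [show (0 : ℝ) + 0 - 2 * 0 = 0 by ring, abs_zero]; positivity
    · simpa using hB
    · simpa using h0
    · rw [show t + h - t - h * 1 - h ^ 2 * 0 / 2 = 0 by ring, abs_zero]; positivity

end Cc

theorem cApi : CApi where
  lv_zero := Cc.lv_zero
  lv_cons := Cc.lv_cons
  lv_add := Cc.lv_add
  lv_mk := Cc.lv_mk
  lv_map := Cc.lv_map
  ok := Cc.ok
  tt0 := Cc.tt0
  rep := Cc.rep
  crude := Cc.crude
  smg := Cc.smg

end Vale.Agent.P157
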