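import Vale.Agent.P157.Stm

/-! P157, module Cm: discrete concavity of the spin functional on lattice paths. -/

namespace Vale.Agent.P157

open Finset Real

noncomputable section

namespace Cm

theorem lat_sum (n : ℕ) (η : ℝ) (c : ℕ → ℕ) (F : ℕ × ℝ → ℝ) :
    ((lat n η c).map F).sum = ∑ κ ∈ range n, (c κ : ℝ) * F (κ, η) := by
  unfold lat
  induction (range n) using Finset.induction_on with
  | empty => simp
  | insert k s hk ih =>
    rw [sum_insert hk, sum_insert hk, Multiset.map_add, Multiset.sum_add, ih]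
    simp [Multiset.map_nsmul, Multiset.sum_nsmul]

theorem lat_mem {n : ℕ} {η : ℝ} {c : ℕ → ℕ} {s : ℕ × ℝ} (h : s ∈ lat n η c) :
    s.1 < n ∧ s.2 = η := by
  unfold lat at h
  obtain ⟨κ, hκ, hs⟩ := Multiset.mem_sum.1 h
  have := Multiset.mem_singleton.1 (Multiset.mem_of_mem_nsmul hs)
  subst this
  exact ⟨mem_range.1 hκ, rfl⟩

theorem lat_add (n : ℕ) (η : ℝ) (a u : ℕ → ℕ) :
    lat n η (fun κ => 2 * (a κ + u κ)) = lat n η (fun κ => 2 * a κ) + lat n η (fun κ => 2 * u κ) := by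
  unfold lat
  rw [← sum_add_distrib]
  exact sum_congr rfl (fun κ _ => by simp only [mul_add, add_nsmul])

theorem spin_sq (σ : Bool) : spin σ ^ 2 = 1 := by unfold spin; split_ifs <;> norm_num

theorem spin_abs (σ σ' : Bool) : |spin σ * spin σ'| ≤ 1 := by
  unfold spin; split_ifs <;> norm_num

theorem d2_const (c : ℝ) : D2 1 (fun _ => c) := fun t h =>
  ⟨by simp, by rw [show c + c - 2 * c = 0 by ring, abs_zero]; positivity⟩

theorem d2_id : D2 1 id := fun t h =>
  ⟨by simp, by rw [show id (t + h) + id (t - h) - 2 * id t = 0 by simp; ring, abs_zero]; positivity⟩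

theorem sm_id : Sm 1 id (fun _ => 1) (fun _ => 0) :=
  ⟨d2_id, d2_const 1, d2_const 0, fun _ => by simp, fun _ => by simp, fun t h => by simp⟩

theorem swap (n : ℕ) (u : ℕ → ℕ) (p : ℕ → ℝ) :
    ∑ κ ∈ range n, (u κ : ℝ) * ∑ d ∈ Icc 1 κ, p d = ∑ d ∈ Ico 1 n, p d * cum n u d := by
  simp only [cum, Nat.cast_sum, mul_sum]
  rw [sum_comm' (t' := Ico 1 n) (s' := fun d => Ico d n)]
  · exact sum_congr rfl (fun d _ => sum_congr rfl (fun κ _ => mul_comm _ _))
  · intro κ d
    simp only [mem_range, mem_Icc, mem_Ico]; omega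

theorem cum_le {n : ℕ} {u : ℕ → ℕ} (hu : ∀ κ, κ < n → u κ ≤ 2) (d : ℕ) :
    (cum n u d : ℝ) ≤ 2 * n := by
  have h1 : cum n u d ≤ (Ico d n).card • 2 :=
    sum_le_card_nsmul _ _ _ (fun κ hκ => hu κ (mem_Ico.1 hκ).2)
  rw [Nat.card_Ico, smul_eq_mul] at h1
  exact_mod_cast (by omega : cum n u d ≤ 2 * n)

theorem up (hA : AApi) (hC : CApi) (hG : GApi) (hM : MsStmt) (hb : GrbStmt) (n : ℕ) (hn : 1 ≤ n) :
    ∃ K : ℝ, 0 ≤ K ∧ ∀ (η : ℝ) (a u : ℕ → ℕ), 0 < η → 2 * n * η ≤ 1 → (∀ κ, κ < n → u κ ≤ 2) →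
      |PD n (lat n η (fun κ => 2 * (a κ + u κ))) - PD n (lat n η (fun κ => 2 * a κ)) -
        η ^ 2 * (cum n u 0 - (1 / (n : ℝ)) * ∑ d ∈ Ico 1 n,
          piD n (lat n η (fun κ => 2 * a κ)) d * cum n u d)| ≤ K * η ^ 3 ∧
      ∀ d, d ≤ n → |piD n (lat n η (fun κ => 2 * (a κ + u κ))) d -
        piD n (lat n η (fun κ => 2 * a κ)) d| ≤ K * η ^ 2 := by
  obtain ⟨C1, hC1, hM⟩ := hM 1 le_rfl
  obtain ⟨C2, hC2, hb⟩ := hb 1 1 le_rfl le_rfl
  have hn' : (1 : ℝ) ≤ n := by exact_mod_cast hn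
  refine ⟨C1 * (8 * n ^ 2) + C2 * (4 * n), by positivity, fun η a u hη hη1 hu => ?_⟩
  have hsm : Small n 1 (lift () spin (lat n η (fun κ => 2 * u κ))) :=
    hG.lift_small n 1 _ _ _ spin_sq (fun s hs => by
      obtain ⟨h1, h2⟩ := lat_mem hs
      refine ⟨h1, ?_⟩
      rw [h2, abs_of_pos hη]; nlinarith)
  have hv0 := (hG.vr_add (lift () spin (lat n η (fun κ => 2 * u κ))) 0 0).2.2.2
  have hv : vr (lift () spin (lat n η (fun κ => 2 * u κ))) ≤ 4 * n * η ^ 2 := by
    rw [(hG.lift_vr _ _ _ spin_sq).1, lat_sum]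
    simp only
    rw [← sum_mul]
    refine mul_le_mul_of_nonneg_right ?_ (sq_nonneg _)
    have := cum_le hu 0
    simp only [cum, Nat.cast_sum, ← range_eq_Ico] at this
    push_cast
    rw [← mul_sum]; linarith
  have hv1 : vr (lift () spin (lat n η (fun κ => 2 * u κ))) ≤ 1 := by nlinarith
  have hsq : √(vr (lift () spin (lat n η (fun κ => 2 * u κ)))) ≤ 2 * n * η :=
    sqrt_le_iff.2 ⟨by positivity, by nlinarith [sq_nonneg η]⟩
  have eL : lift () spin (lat n η (fun κ => 2 * (a κ + u κ))) =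
      lift () spin (lat n η (fun κ => 2 * a κ)) + lift () spin (lat n η (fun κ => 2 * u κ)) := by
    rw [lat_add]; exact Multiset.map_add _ _ _
  refine ⟨?_, fun d hd => ?_⟩
  · have h1 := (hM Unit Bool n (fun _ => id) (fun _ _ => 1) (fun _ _ => 0)
      (lift () spin (lat n η (fun κ => 2 * a κ))) _ hn (fun _ => sm_id) hsm).2 hv1
    have e1 : E1 n (fun _ : Unit => id) (lift () spin (lat n η (fun κ => 2 * a κ)))
        (ob (fun t => (fun _ _ => (0 : ℝ)) () t + (fun _ _ => (1 : ℝ)) () t ^ 2) ()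
          (fun _ => 1)) = 1 := by
      have : (ob (fun t => (fun _ _ => (0 : ℝ)) () t + (fun _ _ => (1 : ℝ)) () t ^ 2) ()
          (fun _ => 1) : Om Unit Bool → ℝ) = fun _ => 1 := by
        ext ω; simp [ob]
      rw [this]
      exact hA.const (hA.ce (hC.ok n _ hn) _ 0 (n + 1) le_rfl) 1 _
    have e2 : ((lift () spin (lat n η (fun κ => 2 * u κ))).map (Gam n (fun _ => id) (fun _ _ => 1)
        (fun _ _ => 0) (lift () spin (lat n η (fun κ => 2 * a κ))))).sum =
        η ^ 2 * (cum n u 0 - (1 / (n : ℝ)) * ∑ d ∈ Ico 1 n,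
          piD n (lat n η (fun κ => 2 * a κ)) d * cum n u d) := by
      rw [show lift () spin (lat n η (fun κ => 2 * u κ)) = (lat n η (fun κ => 2 * u κ)).map
        (fun s => (s.1, (), s.2 • spin)) from rfl, Multiset.map_map, lat_sum, ← swap]
      simp only [Function.comp_apply]
      rw [sum_congr rfl (fun κ _ => by rw [hG.gam_one n _ _ _ _ () spin κ η spin_sq, e1])]
      simp only [ob, one_mul, piD, cum, Nat.cast_sum, ← range_eq_Ico, mul_sum, ← sum_sub_distrib]
      refine sum_congr rfl (fun κ _ => ?_)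
      simp only [← mul_sum]
      push_cast; ring
    rw [e2, ← eL] at h1
    refine h1.trans ?_
    have h3 := mul_le_mul hv hsq (sqrt_nonneg _) (by positivity)
    have h4 := mul_le_mul_of_nonneg_left h3 hC1
    have : 0 ≤ C2 * (4 * n) * η ^ 3 := by positivity
    nlinarith
  · have h1 := hb Unit Bool n (fun _ => id) (lift () spin (lat n η (fun κ => 2 * a κ))) _ ()
      (fun _ => 1) (fun _ => 1) (fun σ σ' => spin σ * spin σ') d hn hd (fun _ => d2_id) hsm hv1
      (d2_const 1) (d2_const 1) (fun _ => by simp) (fun _ => by simp) spin_abs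
    simp only [one_mul] at h1
    rw [← eL] at h1
    refine h1.trans ?_
    have h4 := mul_le_mul_of_nonneg_left hv hC2
    have : 0 ≤ C1 * (8 * n ^ 2) * η ^ 2 := by positivity
    nlinarith

/-- the functional -/
def Ph (n : ℕ) (η : ℝ) (p : ℕ → ℝ) (a : ℕ → ℕ) : ℝ :=
  PD n (lat n η (fun κ => 2 * a κ)) - η ^ 2 * cum n a 0 +
    η ^ 2 * ((1 / (n : ℝ)) * ∑ d ∈ Ico 1 n, p d * cum n a d)

theorem cum_add (n : ℕ) (a u : ℕ → ℕ) (d : ℕ) :
    (cum n (fun κ => a κ + u κ) d : ℝ) = cum n a d + cum n u d := by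
  simp [cum, sum_add_distrib]

theorem step (hA : AApi) (hC : CApi) (hG : GApi) (hM : MsStmt) (hb : GrbStmt) (n : ℕ)
    (hn : 1 ≤ n) : ∃ K : ℝ, 0 ≤ K ∧ ∀ (η : ℝ) (p : ℕ → ℝ) (a b : ℕ → ℕ), 0 < η → 2 * n * η ≤ 1 →
      (∀ κ, κ < n → a κ ≤ b κ + 2 ∧ b κ ≤ a κ + 2) →
      (∀ d, 1 ≤ d → d < n → 0 ≤ (piD n (lat n η (fun κ => 2 * a κ)) d - p d) *
        ((cum n b d : ℝ) - cum n a d)) → Ph n η p b ≤ Ph n η p a + K * η ^ 3 := by
  obtain ⟨K, hK, h⟩ := up hA hC hG hM hb n hn
  have hn' : (1 : ℝ) ≤ n := by exact_mod_cast hn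
  refine ⟨3 * K, by positivity, fun η p a b hη hη1 hab hs => ?_⟩
  obtain ⟨m, u, v, rfl, rfl, hu, hv⟩ : ∃ m u v : ℕ → ℕ, a = (fun κ => m κ + u κ) ∧
      b = (fun κ => m κ + v κ) ∧ (∀ κ, κ < n → u κ ≤ 2) ∧ ∀ κ, κ < n → v κ ≤ 2 :=
    ⟨fun κ => min (a κ) (b κ), fun κ => a κ - b κ, fun κ => b κ - a κ,
      funext fun κ => by simp only; omega, funext fun κ => by simp only; omega,
      fun κ hκ => by have := hab κ hκ; simp only; omega,
      fun κ hκ => by have := hab κ hκ; simp only; omega⟩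
  obtain ⟨a1, a2⟩ := h η m u hη hη1 hu
  obtain ⟨b1, -⟩ := h η m v hη hη1 hv
  simp only [Ph, cum_add] at hs ⊢
  have key : ∑ d ∈ Ico 1 n, p d * ((cum n m d : ℝ) + cum n v d) -
      ∑ d ∈ Ico 1 n, p d * ((cum n m d : ℝ) + cum n u d) -
      (∑ d ∈ Ico 1 n, piD n (lat n η (fun κ => 2 * m κ)) d * cum n v d -
        ∑ d ∈ Ico 1 n, piD n (lat n η (fun κ => 2 * m κ)) d * cum n u d) ≤ n * (K * η) := by
    rw [← sum_sub_distrib, ← sum_sub_distrib, ← sum_sub_distrib]
    refine (sum_le_card_nsmul _ _ (K * η) (fun d hd => ?_)).trans ?_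
    · obtain ⟨hd1, hd2⟩ := mem_Ico.1 hd
      have h1 := hs d hd1 hd2
      have h2 := a2 d hd2.le
      have h3 : |(cum n v d : ℝ) - cum n u d| ≤ 2 * n := by
        have := cum_le hu d; have := cum_le hv d
        have : (0 : ℝ) ≤ cum n u d := Nat.cast_nonneg _
        have : (0 : ℝ) ≤ cum n v d := Nat.cast_nonneg _
        exact abs_le.2 ⟨by linarith, by linarith⟩
      have h4 := mul_le_mul h2 h3 (abs_nonneg _) (by positivity)
      rw [← abs_mul] at h4
      have h5 := (abs_le.1 h4).2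
      have h6 : K * η ^ 2 * (2 * n) ≤ K * η := by
        have := mul_le_mul_of_nonneg_left hη1 (by positivity : 0 ≤ K * η)
        linarith
      linarith
    · rw [Nat.card_Ico, nsmul_eq_mul]
      refine mul_le_mul_of_nonneg_right ?_ (by positivity)
      exact_mod_cast Nat.sub_le n 1
  have key2 := mul_le_mul_of_nonneg_left key (by positivity : 0 ≤ η ^ 2 * (1 / (n : ℝ)))
  have e : η ^ 2 * (1 / (n : ℝ)) * (n * (K * η)) = K * η ^ 3 := by field_simp
  have := abs_le.1 a1
  have := abs_le.1 b1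
  linarith

/-- increments of a decreasing sequence -/
def inc (x : ℕ → ℕ) (κ : ℕ) : ℕ := x κ - x (κ + 1)

theorem cum_succ {n : ℕ} (c : ℕ → ℕ) {d : ℕ} (hd : d < n) : cum n c d = c d + cum n c (d + 1) := by
  unfold cum; rw [sum_eq_sum_Ico_succ_bot hd]

theorem cum_top (n : ℕ) (c : ℕ → ℕ) : cum n c n = 0 := by simp [cum]

theorem cum_inc {n : ℕ} {x : ℕ → ℕ} (hx : ∀ d, d < n → x (d + 1) ≤ x d) (h0 : x n = 0) {d : ℕ}
    (hd : d ≤ n) : cum n (inc x) d = x d := by
  induction hd using Nat.decreasingInduction with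
  | self => rw [cum_top, h0]
  | of_succ k hk ih => rw [cum_succ _ hk, ih, inc]; have := hx k hk; omega

theorem cum_two (n : ℕ) (c : ℕ → ℕ) (d : ℕ) : cum n (fun κ => 2 * c κ) d = 2 * cum n c d := by
  simp [cum, mul_sum]

theorem ph_congr {n : ℕ} (η : ℝ) (p : ℕ → ℝ) {a b : ℕ → ℕ} (h : ∀ κ, κ < n → a κ = b κ) :
    Ph n η p a = Ph n η p b := by
  have h1 : lat n η (fun κ => 2 * a κ) = lat n η (fun κ => 2 * b κ) :=
    sum_congr rfl (fun κ hκ => by simp only [h κ (mem_range.1 hκ)])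
  have h2 : ∀ d, cum n a d = cum n b d := fun d =>
    sum_congr rfl (fun κ hκ => h κ (mem_Ico.1 hκ).2)
  simp only [Ph, h1, h2]

theorem cum_le0 {n : ℕ} (c : ℕ → ℕ) (d : ℕ) : cum n c d ≤ cum n c 0 :=
  sum_le_sum_of_subset (Ico_subset_Ico (Nat.zero_le d) le_rfl)

end Cm

open Cm in
theorem cmStmt (hA : AApi) (hC : CApi) (hG : GApi) (hM : MsStmt) (hb : GrbStmt) (hm : MonoStmt) :
    CmStmt := by
  intro n hn
  obtain ⟨K, hK, h⟩ := step hA hC hG hM hb n hn
  refine ⟨K + 2 * n, fun η c c' hη hη1 => ?_⟩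
  have hη2 : 2 * n * η ≤ 1 := by nlinarith
  have hQ := fun d (hd : d < n) => cum_succ c hd
  have hq := fun d (hd : d < n) => cum_succ c' hd
  have hQn := cum_top n c
  have hqn := cum_top n c'
  set p := piD n (lat n η (fun κ => 2 * c κ)) with hp
  have s1 : ∀ s : ℕ, Ph n η p (inc fun d => max (cum n c d - s) (min (cum n c' d) (cum n c d))) ≤
      Ph n η p c + s * (K * η ^ 3) := by
    intro s
    have ci : ∀ s d, d ≤ n → cum n (inc fun d => max (cum n c d - s)
        (min (cum n c' d) (cum n c d))) d = max (cum n c d - s) (min (cum n c' d) (cum n c d)) :=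
      fun s d hd => cum_inc (fun d hd => by have := hQ d hd; have := hq d hd; omega)
        (by simp [hQn]) hd
    induction s with
    | zero =>
      rw [ph_congr η p (b := c) (fun κ hκ => by have := hQ κ hκ; simp only [inc]; omega)]
      simp
    | succ s ih =>
      refine (h η p (inc fun d => max (cum n c d - s) (min (cum n c' d) (cum n c d))) _ hη hη2
        (fun κ hκ => ?_) (fun d hd1 hd => ?_)).trans (by push_cast; linarith)
      · have := hQ κ hκ; have := hq κ hκ; simp only [inc]; omega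
      · rw [ci _ d hd.le, ci _ d hd.le]
        by_cases hmv : min (cum n c' d) (cum n c d) < cum n c d - s
        · refine mul_nonneg_of_nonpos_of_nonpos (sub_nonpos.2 ?_) (sub_nonpos.2 ?_)
          · refine hm n η _ _ d s hη.le hd1 hd ?_ (fun e he => ?_)
            · rw [cum_two, cum_two, ci _ d hd.le]; omega
            · rw [cum_two, cum_two, ci _ e he.le]; omega
          · exact_mod_cast (by omega)
        · rw [show max (cum n c d - (s + 1)) (min (cum n c' d) (cum n c d)) =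
            max (cum n c d - s) (min (cum n c' d) (cum n c d)) by omega]
          simp
  have s2 : ∀ s : ℕ, Ph n η p (inc fun d => min (cum n c' d) (cum n c d + s)) ≤
      Ph n η p c + (cum n c 0 + s : ℕ) * (K * η ^ 3) := by
    intro s
    have ci : ∀ s d, d ≤ n → cum n (inc fun d => min (cum n c' d) (cum n c d + s)) d =
        min (cum n c' d) (cum n c d + s) :=
      fun s d hd => cum_inc (fun d hd => by have := hQ d hd; have := hq d hd; omega)
        (by simp [hqn]) hd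
    induction s with
    | zero =>
      refine le_trans (le_of_eq (ph_congr η p (fun κ hκ => ?_))) (s1 (cum n c 0))
      have := cum_le0 (n := n) c κ; have := cum_le0 (n := n) c (κ + 1)
      simp only [inc]; omega
    | succ s ih =>
      refine (h η p (inc fun d => min (cum n c' d) (cum n c d + s)) _ hη hη2 (fun κ hκ => ?_)
        (fun d hd1 hd => ?_)).trans (by push_cast at ih ⊢; linarith)
      · have := hQ κ hκ; have := hq κ hκ; simp only [inc]; omega
      · rw [ci _ d hd.le, ci _ d hd.le]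
        by_cases hmv : cum n c d + s < cum n c' d
        · refine mul_nonneg (sub_nonneg.2 ?_) (sub_nonneg.2 ?_)
          · refine hm n η _ _ d s hη.le hd1 hd ?_ (fun e he => ?_)
            · rw [cum_two, cum_two, ci _ d hd.le]; omega
            · rw [cum_two, cum_two, ci _ e he.le]; omega
          · exact_mod_cast (by omega)
        · rw [show min (cum n c' d) (cum n c d + (s + 1)) = min (cum n c' d) (cum n c d + s) by omega]
          simp
  have s3 := s2 (cum n c' 0)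
  rw [ph_congr η p (b := c') (fun κ hκ => by
    have := cum_le0 (n := n) c' κ; have := cum_le0 (n := n) c' (κ + 1); have := hq κ hκ
    simp only [inc]; omega)] at s3
  have e : ∀ a : ℕ → ℕ, ip n p (fun d => 2 * η ^ 2 * cum n a d) =
      η ^ 2 * ((1 / (n : ℝ)) * ∑ d ∈ Ico 1 n, p d * cum n a d) := by
    intro a
    unfold ip
    rw [sum_congr rfl (g := fun d => 2 * η ^ 2 * (p d * cum n a d)) (fun d _ => by ring), ← mul_sum]
    ring
  rw [e, e]
  unfold Ph at s3
  push_cast at s3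
  have : 0 ≤ 2 * n * η ^ 3 * ((cum n c 0 : ℝ) + cum n c' 0) := by positivity
  linarith

end

end Vale.Agent.P157
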