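import Vale.Agent.P157.A

/-! P157: concentration of the overlap at a maximiser of the perturbed value. -/

namespace Vale.Agent.P157

open MeasureTheory ProbabilityTheory Finset Real Filter

noncomputable section

namespace Con

section
variable {Ω : Type} {P : ℕ → Op Ω} {m : ℕ → ℝ}

def VV (P : ℕ → Op Ω) (m : ℕ → ℝ) (Z H : Ω → ℝ) (j : ℕ) (ω : Ω) : ℝ :=
  m 0 * Ce P m Z 0 (j + 1) (fun x => H x ^ 2) ω -
    ∑ i ∈ range j, (m i - m (i + 1)) *
      Ce P m Z (i + 1) (j + 1) (fun x => Ce P m Z 0 (i + 1) H x ^ 2) ω -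
    m j * Ce P m Z 0 (j + 1) H ω ^ 2

theorem vv_smul (Z H : Ω → ℝ) (j : ℕ) (ω : Ω) (u : ℝ) :
    VV P m Z (fun x => u * H x) j ω = u ^ 2 * VV P m Z H j ω := by
  simp only [VV, Aa.smul', mul_pow, mul_sub, mul_sum]
  congr 1
  · congr 1
    · ring
    · exact sum_congr rfl (fun i _ => by ring)
  · ring

theorem vv_ge {j : ℕ} (ho : Ok P m (j + 1)) (Z H : Ω → ℝ) (ω : Ω) :
    m j * (Ce P m Z 0 (j + 1) (fun x => H x ^ 2) ω - Ce P m Z 0 (j + 1) H ω ^ 2) ≤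
      VV P m Z H j ω := by
  have h1 : ∑ i ∈ range j, (m i - m (i + 1)) *
      Ce P m Z (i + 1) (j + 1) (fun x => Ce P m Z 0 (i + 1) H x ^ 2) ω ≤
      ∑ i ∈ range j, (m i - m (i + 1)) * Ce P m Z 0 (j + 1) (fun x => H x ^ 2) ω := by
    refine sum_le_sum (fun i hi => ?_)
    have hi' : i + 1 < j + 1 := by have := mem_range.1 hi; omega
    refine mul_le_mul_of_nonneg_left ?_ (sub_nonneg.2 (ho.anti i hi'))
    rw [← Aa.comp P m Z (Nat.zero_le (i + 1)) hi'.le (fun x => H x ^ 2)]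
    simp only [sq]
    exact Aa.mono' (Aa.ce ho Z _ _ le_rfl) (fun x => Aa.sq1 (Aa.ce ho Z 0 _ hi'.le) H x) ω
  rw [← sum_mul, sum_range_sub'] at h1
  unfold VV
  linarith

theorem vv_le (hL : L1Stmt) {j : ℕ} (ho : Ok P m (j + 1)) (Z H : Ω → ℝ) (ω : Ω) {c k : ℝ}
    (hc : 0 < c) (hH : ∀ x, |H x| ≤ c)
    (hm : ∀ u : ℝ, XX P m (Z + fun x => u * H x) (j + 1) ω +
      XX P m (Z + fun x => -u * H x) (j + 1) ω - 2 * XX P m Z (j + 1) ω ≤ 2 * k * u ^ 2) :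
    VV P m Z H j ω ≤ 2 * k := by
  obtain ⟨C, hC⟩ := hL
  have key : ∀ u : ℝ, 0 < u → u * c ≤ 1 → VV P m Z H j ω ≤ 2 * k + 2 * |C| * c ^ 3 * u := by
    intro u hu huc
    have a1 := hC Ω P m (j + 1) ho Z (fun x => u * H x) (u * c) (fun x => by
      rw [abs_mul, abs_of_pos hu]; exact mul_le_mul_of_nonneg_left (hH x) hu.le) huc j le_rfl ω
    have a2 := hC Ω P m (j + 1) ho Z (fun x => -u * H x) (u * c) (fun x => by
      rw [abs_mul, abs_neg, abs_of_pos hu]; exact mul_le_mul_of_nonneg_left (hH x) hu.le) huc j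
      le_rfl ω
    change |_ - _ - _ - VV P m Z (fun x => u * H x) j ω / 2| ≤ _ at a1
    change |_ - _ - _ - VV P m Z (fun x => -u * H x) j ω / 2| ≤ _ at a2
    rw [vv_smul, Aa.smul'] at a1 a2
    have a3 := hm u
    have a4 : C * (u * c) ^ 3 ≤ |C| * (u * c) ^ 3 :=
      mul_le_mul_of_nonneg_right (le_abs_self C) (by positivity)
    have b1 := (abs_le.1 a1).1
    have b2 := (abs_le.1 a2).1
    have b3 : u ^ 2 * VV P m Z H j ω ≤ u ^ 2 * (2 * k + 2 * |C| * c ^ 3 * u) := by nlinarith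
    exact le_of_mul_le_mul_left b3 (by positivity)
  refine le_of_forall_pos_le_add (fun ε hε => ?_)
  have hD : 0 < 2 * |C| * c ^ 3 + 1 := by positivity
  have hu : 0 < min (1 / c) (ε / (2 * |C| * c ^ 3 + 1)) := by positivity
  have h1 := key _ hu (by
    rw [← le_div_iff₀ hc]; exact min_le_left _ _)
  have h2 : min (1 / c) (ε / (2 * |C| * c ^ 3 + 1)) * (2 * |C| * c ^ 3 + 1) ≤ ε := by
    rw [← le_div_iff₀ hD]; exact min_le_right _ _
  nlinarith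

theorem var_eq {Q : Op Ω} (hQ : Mk Q) (H : Ω → ℝ) (a : ℝ) (ω : Ω) :
    Q (fun x => (H x / a - Q (fun x => H x / a) ω) ^ 2) ω =
      (Q (fun x => H x ^ 2) ω - Q H ω ^ 2) / a ^ 2 := by
  have e1 : (fun x => H x / a) = fun x => a⁻¹ * H x := by funext x; ring
  rw [e1, Aa.smul']
  have e2 : (fun x => (H x / a - a⁻¹ * Q H ω) ^ 2) = fun x =>
      ((a⁻¹ * Q H ω) ^ 2 + (-2 * a⁻¹ ^ 2 * Q H ω) * H x) + a⁻¹ ^ 2 * H x ^ 2 := by
    funext x; ring
  rw [e2, Aa.add', Aa.aff hQ, Aa.smul']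
  ring

theorem ggi_mono {I : Type} {n : ℕ} {Z : Ω → ℝ} {s : I → Ω → ℝ} {A : Finset I} {h : ℕ → Ω → ℝ}
    {ω0 : Ω} {ε ε' : ℝ} (hε : ε ≤ ε') (H : GGI P n Z s A h ω0 ε) : GGI P n Z s A h ω0 ε' :=
  ⟨fun κ hκ => (H.u1 κ hκ).trans hε, fun κ l h1 h2 => (H.u2 κ l h1 h2).trans hε,
    fun l h1 h2 => (H.sh l h1 h2).trans hε⟩

end

section
variable {I ι : Type} [Fintype I] [DecidableEq I] [Fintype ι] [DecidableEq ι]

theorem sum_upd (n : ℕ) (y : ℕ → ℝ) {κ : ℕ} (hκ : κ < n) (u : ℝ) (F : ℕ → ℝ → ℝ) :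
    ∑ k ∈ range n, F k (Function.update y κ (y κ + u) k) =
      ∑ k ∈ range n, F k (y k) + (F κ (y κ + u) - F κ (y κ)) := by
  have hm := mem_range.2 hκ
  rw [← add_sum_erase _ _ hm, ← add_sum_erase _ (fun k => F k (y k)) hm, Function.update_self,
    sum_congr rfl (fun k hk => by rw [Function.update_of_ne (ne_of_mem_erase hk)])]
  ring

theorem rZ_upd (n : ℕ) (f : ℝ → ℝ) (A : Finset I) (y : ℕ → ℝ) {κ : ℕ} (hκ : κ < n) (u : ℝ) :
    (rZ n f A (Function.update y κ (y κ + u)) : Rs ι I → ℝ) =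
      rZ n f A y + fun x => u * hh A κ x := by
  funext x
  simp only [rZ, Pi.add_apply]
  rw [sum_upd n y hκ u (fun k t => t * hh A k x)]
  ring

theorem pen_upd (n : ℕ) (lam k : ℝ) (y : ℕ → ℝ) {κ : ℕ} (hκ : κ < n) (u : ℝ) :
    pen n lam k (Function.update y κ (y κ + u)) =
      pen n lam k y + k * (2 * u * (y κ - 2 * lam) + u ^ 2) := by
  simp only [pen]
  rw [sum_upd n y hκ u (fun _ t => (t - 2 * lam) ^ 2)]
  ring

theorem hh_le (A : Finset I) (κ : ℕ) (x : Rs ι I) : |hh A κ x| ≤ A.card := by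
  refine (abs_sum_le_sum_abs _ _).trans ((sum_le_card_nsmul _ _ 1 (fun i _ => ?_)).trans (by simp))
  cases x.2.1 κ i <;> cases x.2.2 i <;> simp [spin]

end

end Con

open Con in
theorem conStmt (_hA : AApi) (_hF : FApi) (hL : L1Stmt) (hR : RecStmt) (hG' : GgStmt)
    (hAl : AlgStmt) : ConStmt := by
  intro n hn
  obtain ⟨C, hC0, hC⟩ := hG'
  refine ⟨40 * (n : ℝ) ^ 2 * (3 * C + √(2 * n)), by positivity, ?_⟩
  intro I ι _ _ _ _ f L A lam k y hAn hlam hlam3 hk hM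
  obtain ⟨ho, hf, hy⟩ := hR I ι n f L A hn
  have hc : (0 : ℝ) < A.card := by exact_mod_cast hAn.card_pos
  have hn' : (0 : ℝ) < n := by exact_mod_cast hn
  set ε : ℝ := C * (3 * lam) + √(2 * n) * (√k / (lam * A.card)) with hε
  have hε1 : 0 ≤ √(2 * n) * (√k / (lam * A.card)) := by positivity
  have hε2 : 0 ≤ C * (3 * lam) := by positivity
  have hG := ggi_mono (ε' := ε) (by linarith) (hC I ι n f L A y (3 * lam) hn hAn hlam3
    (fun κ hκ => ⟨hlam.trans_le (hM.1 κ hκ).1, (hM.1 κ hκ).2⟩))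
  have hV : ∀ κ, κ < n → Ce (rch L) (ex n) (rZ n f A y) 0 (n + 1)
      (fun ω => (hh A κ ω / (y κ * A.card) - Ce (rch L) (ex n) (rZ n f A y) 0 (n + 1)
        (fun ω => hh A κ ω / (y κ * A.card)) (r0 ι I)) ^ 2) (r0 ι I) ≤ ε ^ 2 := by
    intro κ hκ
    rw [var_eq (Aa.ce ho _ 0 _ le_rfl)]
    have h1 := vv_le hL ho (rZ n f A y) (hh A κ) (r0 ι I) (k := k) hc (hh_le A κ) (fun u => by
      have a1 := hM.2 (Function.update y κ (y κ + u))
      have a2 := hM.2 (Function.update y κ (y κ + -u))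
      rw [(hy _).1, (hy _).1, rZ_upd n f A y hκ, pen_upd n lam k y hκ] at a1 a2
      nlinarith)
    have h2 := vv_ge ho (rZ n f A y) (hh A κ) (r0 ι I)
    have h3 : ex n n = 1 / (n : ℝ) := by
      obtain ⟨j, rfl⟩ : ∃ j, n = j + 1 := ⟨n - 1, by omega⟩
      simp only [ex]; push_cast; field_simp; ring
    rw [h3, one_div, inv_mul_le_iff₀ hn'] at h2
    have hyκ := (hM.1 κ hκ).1
    have h4 : (√(2 * n) * (√k / (lam * A.card))) ^ 2 = n * (2 * k) / (lam * A.card) ^ 2 := by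
      rw [mul_pow, div_pow, sq_sqrt (by positivity), sq_sqrt hk]; ring
    have h5 : (√(2 * n) * (√k / (lam * A.card))) ^ 2 ≤ ε ^ 2 :=
      pow_le_pow_left₀ hε1 (by linarith) 2
    refine le_trans ?_ h5
    rw [h4]
    refine div_le_div₀ (by positivity) (h2.trans (by gcongr)) (by positivity) ?_
    gcongr
  have hA := hAl (Rs ι I) I (rch L) rr n hn ho hf (rZ n f A y) (fun i ω => spin (ω.2.2 i)) A
    (fun κ ω => hh A κ ω / (y κ * A.card)) (r0 ι I) ε hAn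
    (fun i ω => by cases ω.2.2 i <;> simp [spin]) (by linarith) hG hV
  unfold Conc
  have e1 : ∀ d ∈ Ico 1 n, EE n (gg ι f) (L + fld ι A (ys n y)) d
      (fun ω ω' => (Rr A ω.2 ω'.2 - ovl n f (L + fld ι A (ys n y)) A d) ^ 2) =
      E2 (rch L) (ex n) (rZ n f A y) (d + 1) (n + 1)
      (fun ω1 ω2 => (aR (fun i (ω : Rs ι I) => spin (ω.2.2 i)) A ω1 ω2 -
        E2 (rch L) (ex n) (rZ n f A y) (d + 1) (n + 1)
          (aR (fun i (ω : Rs ι I) => spin (ω.2.2 i)) A) (r0 ι I)) ^ 2) (r0 ι I) := by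
    intro d hd
    obtain ⟨h1, h2⟩ := mem_Ico.1 hd
    have h0 : d ≠ 0 := by omega
    have b1 := (hy y).2 (Rr A) d h2.le
    simp only [ovl, h0, h2, if_true, if_false]
    rw [b1]
    exact (hy y).2 (fun σ σ' => (Rr A σ σ' - _) ^ 2) d h2.le
  rw [sum_congr rfl e1]
  refine hA.trans ?_
  have h6 : ε ≤ (3 * C + √(2 * n)) * (lam + √k / (lam * A.card)) := by
    have : 0 ≤ √k / (lam * A.card) := by positivity
    have : 0 ≤ √(2 * (n : ℝ)) := by positivity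
    rw [hε]
    nlinarith [mul_nonneg hC0 ‹0 ≤ √k / (lam * A.card)›, mul_nonneg this hlam.le]
  have h7 := mul_le_mul_of_nonneg_left h6 (show 0 ≤ 40 * (n : ℝ) ^ 2 by positivity)
  linarith [mul_assoc (40 * (n : ℝ) ^ 2) (3 * C + √(2 * n)) (lam + √k / (lam * A.card))]

end

end Vale.Agent.P157
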