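import Vale.Agent.P157.Stm

/-! P157 module Conc. -/

namespace Vale.Agent.P157

open MeasureTheory ProbabilityTheory Finset Real Filter Topology

namespace ConcM

theorem lvar_one (κ d : ℕ) (η : ℝ) :
    lvar ({(κ, η)} : Multiset (ℕ × ℝ)) d = if κ = d then η ^ 2 else 0 := by
  unfold lvar
  rw [Multiset.filter_singleton]
  split_ifs <;> simp

theorem lvar_lat (hG : GApi) (n : ℕ) (η : ℝ) (c : ℕ → ℕ) (d : ℕ) :
    lvar (lat n η c) d = if d < n then c d * η ^ 2 else 0 := by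
  unfold lat
  induction n with
  | zero => simp [lvar]
  | succ n ih =>
    rw [Finset.sum_range_succ, (hG.lvar_add _ _ 0 d).1, ih, (hG.lvar_add _ 0 (c n) d).2, lvar_one]
    rcases lt_trichotomy d n with h | h | h
    · rw [if_pos h, if_neg h.ne', if_pos (by omega)]; ring
    · subst h; simp
    · rw [if_neg (by omega), if_neg h.ne, if_neg (by omega)]; ring

theorem mem_lat {n : ℕ} {η : ℝ} {c : ℕ → ℕ} {s : ℕ × ℝ} (h : s ∈ lat n η c) : s.2 = η := by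
  unfold lat at h
  obtain ⟨κ, -, h⟩ := Multiset.mem_sum.1 h
  rw [Multiset.mem_singleton.1 (Multiset.mem_of_mem_nsmul h)]

theorem pd_lim (h2 : G2Stmt) {n : ℕ} (hn : 1 ≤ n) {q : ℕ → ℝ} (hq : Path n q)
    {l : ℕ → Multiset (ℕ × ℝ)} {η : ℕ → ℝ} (hη : Tendsto η atTop (𝓝 0))
    (hs : ∀ k, ∀ s ∈ l k, |s.2| ≤ η k)
    (hv : ∀ d, d < n → Tendsto (fun k => lvar (l k) d) atTop (𝓝 (q d - q (d + 1)))) :
    Tendsto (fun k => PD n (l k)) atTop (𝓝 (q 0 / 2 + psi n q)) := by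
  rw [Metric.tendsto_nhds]
  intro ε hε
  obtain ⟨η0, hη0, h⟩ := h2 n 1 (q 0) (ε / 2) hn (by positivity)
  have e1 : ∀ᶠ k in atTop, η k < η0 := hη.eventually_lt_const hη0
  have e2 : ∀ᶠ k in atTop, ∀ d ∈ range n, dist (lvar (l k) d) (q d - q (d + 1)) < η0 :=
    (eventually_all_finset _).2 fun d hd =>
      Metric.tendsto_nhds.1 (hv d (mem_range.1 hd)) η0 hη0
  filter_upwards [e1, e2] with k k1 k2
  have := (h q (l k) hq le_rfl (fun s h => (hs k s h).trans k1.le)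
    (fun d hd => (k2 d (mem_range.2 hd)).le)).2
  rw [Real.dist_eq, ← sub_sub]
  linarith

theorem floor_lim {η : ℕ → ℝ} (hη : Tendsto η atTop (𝓝 0)) (h0 : ∀ k, 0 < η k) {a : ℝ}
    (ha : 0 ≤ a) : Tendsto (fun k => (⌊a / η k⌋₊ : ℝ) * η k) atTop (𝓝 a) := by
  have h1 : Tendsto (fun k => a - η k) atTop (𝓝 a) := by simpa using hη.const_sub a
  refine tendsto_of_tendsto_of_tendsto_of_le_of_le h1 tendsto_const_nhds (fun k => ?_) (fun k => ?_)
  · have := Nat.lt_floor_add_one (a / η k)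
    rw [div_lt_iff₀ (h0 k)] at this
    simp only; linarith
  · have := Nat.floor_le (div_nonneg ha (h0 k).le)
    rwa [le_div_iff₀ (h0 k)] at this

/-- lattice counts approximating the path `q` -/
noncomputable def cnt (q : ℕ → ℝ) (η : ℝ) (κ : ℕ) : ℕ := ⌊(q κ - q (κ + 1)) / (2 * η ^ 2)⌋₊

theorem sq_lim {η : ℕ → ℝ} (hη : Tendsto η atTop (𝓝 0)) (a : ℝ) :
    Tendsto (fun k => a * η k ^ 2) atTop (𝓝 0) := by
  simpa using (hη.pow 2).const_mul a

theorem cnt_lim {η : ℕ → ℝ} (hη : Tendsto η atTop (𝓝 0)) (h0 : ∀ k, 0 < η k) {n : ℕ}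
    {q : ℕ → ℝ} (hq : Path n q) {κ : ℕ} (hκ : κ < n) :
    Tendsto (fun k => (cnt q (η k) κ : ℝ) * (2 * η k ^ 2)) atTop (𝓝 (q κ - q (κ + 1))) :=
  floor_lim (sq_lim hη 2) (fun k => by have := h0 k; positivity) (sub_nonneg.2 (hq.1 κ hκ))

theorem cum_lim {η : ℕ → ℝ} (hη : Tendsto η atTop (𝓝 0)) (h0 : ∀ k, 0 < η k) {n : ℕ}
    {q : ℕ → ℝ} (hq : Path n q) {d : ℕ} (hd : d ≤ n) :
    Tendsto (fun k => 2 * η k ^ 2 * cum n (cnt q (η k)) d) atTop (𝓝 (q d)) := by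
  have h1 := tendsto_finsetSum (Ico d n) (fun κ hκ => cnt_lim hη h0 hq (mem_Ico.1 hκ).2)
  have h2 : ∑ κ ∈ Ico d n, (q κ - q (κ + 1)) = q d := by
    rw [Finset.sum_Ico_eq_sub _ hd, Finset.sum_range_sub', Finset.sum_range_sub', hq.2]; ring
  rw [h2] at h1
  refine h1.congr fun k => ?_
  rw [cum, ← Finset.sum_mul]; push_cast; ring

theorem lvar_lim (hG : GApi) {η : ℕ → ℝ} (hη : Tendsto η atTop (𝓝 0)) (h0 : ∀ k, 0 < η k) {n : ℕ}
    {q : ℕ → ℝ} (hq : Path n q) {d : ℕ} (hd : d < n) :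
    Tendsto (fun k => lvar (lat n (η k) (fun κ => 2 * cnt q (η k) κ)) d) atTop
      (𝓝 (q d - q (d + 1))) := by
  refine (cnt_lim hη h0 hq hd).congr fun k => ?_
  rw [lvar_lat hG, if_pos hd]; push_cast; ring

theorem pd_lat_lim (hG : GApi) (h2 : G2Stmt) {η : ℕ → ℝ} (hη : Tendsto η atTop (𝓝 0))
    (h0 : ∀ k, 0 < η k) {n : ℕ} (hn : 1 ≤ n) {q : ℕ → ℝ} (hq : Path n q) :
    Tendsto (fun k => PD n (lat n (η k) (fun κ => 2 * cnt q (η k) κ))) atTop
      (𝓝 (q 0 / 2 + psi n q)) :=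
  pd_lim h2 hn hq hη (fun k s hs => by rw [mem_lat hs, abs_of_pos (h0 k)])
    (fun _ hd => lvar_lim hG hη h0 hq hd)

theorem spin_sq (b : Bool) : spin b ^ 2 = 1 := by cases b <;> simp [spin]

theorem sm_id : Sm 1 id (fun _ => 1) (fun _ => 0) := by
  refine ⟨fun t h => ⟨by simp, ?_⟩, fun t h => ⟨by simp, ?_⟩, fun t h => ⟨by simp, ?_⟩, by simp,
    by simp, fun t h => ?_⟩
  · rw [show id (t + h) + id (t - h) - 2 * id t = 0 by simp only [id]; ring]; simp; positivity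
  · norm_num; positivity
  · norm_num; positivity
  · simp

/-- part (b) before the limit -/
theorem step (hA : AApi) (hC : CApi) (hG : GApi) (hM : MsStmt) : ∃ C : ℝ, ∀ (n : ℕ)
    (l : Multiset (ℕ × ℝ)) (κ m : ℕ) (η : ℝ), 1 ≤ n → κ < n → |η| ≤ 1 → m * η ^ 2 ≤ 1 →
    |PD n (l + m • {(κ, η)}) - PD n l -
      m * η ^ 2 * (1 - (1 / (n : ℝ)) * ∑ d ∈ Icc 1 κ, piD n l d) / 2| ≤
      C * (m * η ^ 2 * √(m * η ^ 2)) := by
  obtain ⟨C, -, h⟩ := hM 1 le_rfl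
  refine ⟨C, fun n l κ m η hn hκ hη hm => ?_⟩
  have hv : vr (lift () spin (m • ({(κ, η)} : Multiset (ℕ × ℝ)))) = m * η ^ 2 := by
    rw [(hG.lift_vr () spin _ spin_sq).1, Multiset.map_nsmul, Multiset.sum_nsmul]; simp
  have h1 := (h Unit Bool n (fun _ => id) (fun _ _ => 1) (fun _ _ => 0) (lift () spin l)
    (lift () spin (m • {(κ, η)})) hn (fun _ => sm_id)
    (hG.lift_small n 1 () spin _ spin_sq (fun s hs => by
      rw [Multiset.mem_singleton.1 (Multiset.mem_of_mem_nsmul hs)]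
      exact ⟨hκ, by simpa using hη⟩))).2 (by rw [hv]; exact hm)
  rw [hv] at h1
  have e1 : lift () spin l + lift () spin (m • ({(κ, η)} : Multiset (ℕ × ℝ))) =
      lift () spin (l + m • {(κ, η)}) := by simp only [lift, Multiset.map_add]
  have e2 : E1 n (fun _ : Unit => id) (lift () spin l)
      (ob (fun _ => (0 : ℝ) + 1 ^ 2) () (fun _ : Bool => 1)) = 1 := by
    have : ob (fun _ => (0 : ℝ) + 1 ^ 2) () (fun _ : Bool => 1) = fun _ => 1 := by
      funext ω; simp [ob]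
    rw [this]
    exact (hA.ce (hC.ok n _ hn) _ 0 (n + 1) le_rfl).2 _
  have e3 : ((lift () spin (m • ({(κ, η)} : Multiset (ℕ × ℝ)))).map
      (Gam n (fun _ => id) (fun _ _ => 1) (fun _ _ => 0) (lift () spin l))).sum =
      m * η ^ 2 * (1 - (1 / (n : ℝ)) * ∑ d ∈ Icc 1 κ, piD n l d) / 2 := by
    have e4 : lift () spin (m • ({(κ, η)} : Multiset (ℕ × ℝ))) = m • {(κ, (), η • spin)} := by
      rw [lift, Multiset.map_nsmul, Multiset.map_singleton]
    rw [e4, Multiset.map_nsmul, Multiset.sum_nsmul,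
      Multiset.map_singleton, Multiset.sum_singleton, hG.gam_one _ _ _ _ _ _ _ _ _ spin_sq, e2]
    simp only [ob, one_mul, piD, nsmul_eq_mul]
    ring
  rw [e1, e3] at h1
  exact h1

theorem subseq (hG : GApi) {n : ℕ} (hn : 1 ≤ n) (l : ℕ → Multiset (ℕ × ℝ)) :
    ∃ (pv : ℕ → ℝ) (φ : ℕ → ℕ), StrictMono φ ∧ Path n pv ∧ pv 0 = 1 ∧
      ∀ d, 1 ≤ d → d < n → Tendsto (fun k => piD n (l (φ k)) d) atTop (𝓝 (pv d)) := by
  set w : ℕ → ℕ → ℝ := fun k d => if d < n then piD n (l k) d else 0 with hw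
  have hp : ∀ k, Path n (w k) ∧ piD n (l k) 0 ≤ 1 ^ 2 := fun k =>
    hG.w_path n (fun _ : Unit => id) (lift () spin (l k)) (fun ω => spin ω.2) 1 hn
      (fun ω => by cases ω.2 <;> simp [spin])
  have anti : ∀ k a b, a ≤ b → b ≤ n → w k b ≤ w k a := by
    intro k a b hab
    induction b, hab using Nat.le_induction with
    | base => exact fun _ => le_rfl
    | succ b _ ih => exact fun h => ((hp k).1.1 b h).trans (ih (by omega))
  have hmem : ∀ k, w k ∈ Set.pi Set.univ (fun _ : ℕ => Set.Icc (0 : ℝ) 1) := by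
    intro k d _
    by_cases hd : d < n
    · refine ⟨(hp k).1.2.symm.le.trans (anti k d n hd.le le_rfl),
        (anti k 0 d (Nat.zero_le _) hd.le).trans ?_⟩
      simp only [hw, if_pos (show 0 < n from hn)]
      simpa using (hp k).2
    · simp [hw, hd]
  obtain ⟨a, ha, φ, hφ, hlim⟩ := (isCompact_univ_pi fun _ => isCompact_Icc).tendsto_subseq hmem
  have hl : ∀ d, Tendsto (fun k => w (φ k) d) atTop (𝓝 (a d)) := fun d => tendsto_pi_nhds.1 hlim d
  refine ⟨fun d => if d = 0 then 1 else a d, φ, hφ, ⟨fun d hd => ?_, ?_⟩, by simp, fun d h1 h2 => ?_⟩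
  · simp only [if_neg (Nat.succ_ne_zero d)]
    split_ifs with h
    · exact (ha _ trivial).2
    · exact le_of_tendsto_of_tendsto' (hl _) (hl _) fun k => (hp _).1.1 d hd
  · simp only [if_neg (show n ≠ 0 by omega)]
    refine tendsto_nhds_unique (hl n) ?_
    simp [hw]
  · simp only [if_neg (show d ≠ 0 by omega)]
    simpa [hw, h2] using hl d

theorem ip_lim {n : ℕ} {p r : ℕ → ℕ → ℝ} {pv q : ℕ → ℝ}
    (hp : ∀ d, 1 ≤ d → d < n → Tendsto (fun k => p k d) atTop (𝓝 (pv d)))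
    (hr : ∀ d, d ≤ n → Tendsto (fun k => r k d) atTop (𝓝 (q d))) :
    Tendsto (fun k => ip n (p k) (r k)) atTop (𝓝 (ip n pv q)) :=
  (tendsto_finsetSum _ fun d hd => (hp d (mem_Ico.1 hd).1 (mem_Ico.1 hd).2).mul
    (hr d (mem_Ico.1 hd).2.le)).const_mul _

theorem part_a (hG : GApi) (h2 : G2Stmt) (hc : CmStmt) {η : ℕ → ℝ} (hη : Tendsto η atTop (𝓝 0))
    (h0 : ∀ k, 0 < η k) {n : ℕ} (hn : 1 ≤ n) {Q pv q : ℕ → ℝ} (hQ : Path n Q) (hq : Path n q)
    (hp : ∀ d, 1 ≤ d → d < n → Tendsto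
      (fun k => piD n (lat n (η k) (fun κ => 2 * cnt Q (η k) κ)) d) atTop (𝓝 (pv d))) :
    psi n q + ip n pv q ≤ psi n Q + ip n pv Q := by
  obtain ⟨K, hK⟩ := hc n hn
  have half : ∀ {r : ℕ → ℝ}, Path n r →
      Tendsto (fun k => η k ^ 2 * cum n (cnt r (η k)) 0) atTop (𝓝 (r 0 / 2)) := fun hr =>
    ((cum_lim hη h0 hr (Nat.zero_le n)).div_const 2).congr fun k => by ring
  have l1 := ((pd_lat_lim hG h2 hη h0 hn hq).sub (half hq)).add
    (ip_lim hp (fun d hd => cum_lim hη h0 hq hd))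
  have l2 := ((pd_lat_lim hG h2 hη h0 hn hQ).sub (half hQ)).add
    (ip_lim hp (fun d hd => cum_lim hη h0 hQ hd))
  have l3 := (hη.const_mul K).mul ((half hQ).add (half hq))
  have e : ∀ᶠ k in atTop, K * η k < 1 :=
    (hη.const_mul K).eventually_lt_const (by simp)
  have := le_of_tendsto_of_tendsto l1 (l2.add l3) (by
    filter_upwards [e] with k hk
    have := hK (η k) (cnt Q (η k)) (cnt q (η k)) (h0 k) hk.le
    refine this.trans (le_of_eq ?_)
    ring)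
  simp only [mul_zero, zero_mul] at this
  linarith

theorem part_b (hG : GApi) (h2 : G2Stmt) {C : ℝ} (hC : ∀ (n : ℕ)
    (l : Multiset (ℕ × ℝ)) (κ m : ℕ) (η : ℝ), 1 ≤ n → κ < n → |η| ≤ 1 → m * η ^ 2 ≤ 1 →
    |PD n (l + m • {(κ, η)}) - PD n l -
      m * η ^ 2 * (1 - (1 / (n : ℝ)) * ∑ d ∈ Icc 1 κ, piD n l d) / 2| ≤
      C * (m * η ^ 2 * √(m * η ^ 2))) {η : ℕ → ℝ} (hη : Tendsto η atTop (𝓝 0))
    (h0 : ∀ k, 0 < η k) {n : ℕ} (hn : 1 ≤ n) {Q pv : ℕ → ℝ} (hQ : Path n Q)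
    (hp : ∀ d, 1 ≤ d → d < n → Tendsto
      (fun k => piD n (lat n (η k) (fun κ => 2 * cnt Q (η k) κ)) d) atTop (𝓝 (pv d)))
    (κ : ℕ) (θ : ℝ) (hκ : κ < n) (hθ : 0 ≤ θ) (hθ1 : θ ≤ 1) :
    |psi n (fun d => Q d + if d ≤ κ then θ else 0) - psi n Q +
      θ / (2 * n) * ∑ d ∈ Icc 1 κ, pv d| ≤ C * (θ * √θ) := by
  have hq : Path n (fun d => Q d + if d ≤ κ then θ else 0) := by
    refine ⟨fun d hd => add_le_add (hQ.1 d hd) ?_, by simp [hQ.2, hκ]⟩
    split_ifs <;> first | omega | linarith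
  have hm : Tendsto (fun k => (⌊θ / η k ^ 2⌋₊ : ℝ) * η k ^ 2) atTop (𝓝 θ) :=
    floor_lim (by simpa using sq_lim hη 1) (fun k => by have := h0 k; positivity) hθ
  have l1 := pd_lim h2 hn hq (l := fun k => lat n (η k) (fun κ => 2 * cnt Q (η k) κ) +
      ⌊θ / η k ^ 2⌋₊ • {(κ, η k)}) hη
    (fun k s hs => by
      rcases Multiset.mem_add.1 hs with hs | hs
      · rw [mem_lat hs, abs_of_pos (h0 k)]
      · rw [Multiset.mem_singleton.1 (Multiset.mem_of_mem_nsmul hs), abs_of_pos (h0 k)])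
    (fun d hd => by
      simp only [(hG.lvar_add _ _ 0 d).1, (hG.lvar_add _ 0 _ d).2, lvar_one]
      by_cases h : κ = d
      · subst h
        simp only [if_true, le_refl, if_neg (Nat.not_succ_le_self κ)]
        convert (lvar_lim hG hη h0 hQ hd).add hm using 2
        ring
      · simp only [if_neg h, mul_zero, add_zero]
        convert lvar_lim hG hη h0 hQ hd using 2
        split_ifs <;> first | omega | ring)
  have l2 := pd_lat_lim hG h2 hη h0 hn hQ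
  have l3 := tendsto_finsetSum (Icc 1 κ)
    (fun d hd => hp d (mem_Icc.1 hd).1 ((mem_Icc.1 hd).2.trans_lt hκ))
  have l4 := ((l1.sub l2).sub ((hm.mul ((l3.const_mul (1 / (n : ℝ))).const_sub 1)).div_const 2)).abs
  have l5 := (hm.mul hm.sqrt).const_mul C
  have e : ∀ᶠ k in atTop, η k < 1 := hη.eventually_lt_const one_pos
  have := le_of_tendsto_of_tendsto l4 l5 (by
    filter_upwards [e] with k hk
    refine hC n _ κ _ (η k) hn hκ (by rw [abs_of_pos (h0 k)]; exact hk.le) ?_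
    have h3 := Nat.floor_le (div_nonneg hθ (sq_nonneg (η k)))
    rw [le_div_iff₀ (by have := h0 k; positivity)] at h3
    linarith)
  simp only [Nat.zero_le, if_true] at this
  refine le_trans (le_of_eq ?_) this
  congr 1
  ring

end ConcM

theorem concStmt (hA : AApi) (hC : CApi) (hG : GApi) (hM : MsStmt) (h2 : G2Stmt) (hc : CmStmt) :
    ConcStmt := by
  obtain ⟨C, hs⟩ := ConcM.step hA hC hG hM
  refine ⟨C, fun n Q hn hQ => ?_⟩
  obtain ⟨pv, φ, hφ, h1, h3, h4⟩ := ConcM.subseq hG hn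
    (fun k => lat n (1 / ((k : ℝ) + 1)) (fun κ => 2 * ConcM.cnt Q (1 / ((k : ℝ) + 1)) κ))
  have hη : Tendsto (fun k => 1 / ((φ k : ℝ) + 1)) atTop (𝓝 0) :=
    tendsto_one_div_add_atTop_nhds_zero_nat.comp hφ.tendsto_atTop
  have h0 : ∀ k, 0 < 1 / ((φ k : ℝ) + 1) := fun k => by positivity
  exact ⟨pv, h1, h3, fun q hq => ConcM.part_a hG h2 hc hη h0 hn hQ hq h4,
    ConcM.part_b hG h2 hs hη h0 hn hQ h4⟩

end Vale.Agent.P157
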