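import Vale.Agent.P157.A

/-! P157, module Dom: the domination relation passes through a chain. -/

namespace Vale.Agent.P157

open Finset Real

namespace Dom

theorem shift {u w u' w' gp gm g x y : ℝ} (h : Dm u w gp gm g) (hg : 0 ≤ g) (hw : 0 ≤ w)
    (hu' : u + |x + y| / 2 ≤ u') (hw' : w + |x - y| / 2 ≤ w') :
    Dm u' w' (exp x * gp) (exp y * gm) g := by
  intro α β
  obtain ⟨h1, h2⟩ := h (α + x) (β + y)
  rw [← mul_assoc, ← mul_assoc, ← exp_add, ← exp_add]
  have a1 := abs_le.1 (le_refl |x + y|)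
  constructor
  · exact (mul_le_mul_of_nonneg_right (exp_le_exp.2 (by linarith [a1.1])) hg).trans h1
  · refine h2.trans (mul_le_mul_of_nonneg_right (mul_le_mul (exp_le_exp.2 (by linarith [a1.2]))
      ?_ (cosh_pos _).le (exp_pos _).le) hg)
    have e : α + x - (β + y) = (α - β) + (x - y) := by ring
    have a2 := abs_add_le (α - β) (x - y)
    have a3 := abs_nonneg (α - β)
    have a4 := abs_nonneg (x - y)
    have a5 := abs_nonneg (α - β + (x - y))
    rw [cosh_le_cosh, e]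
    exact abs_le_abs (by linarith) (by linarith)

variable {Ω : Type}

theorem pass {Q : Op Ω} (hQ : Mk Q) {u w : ℝ} {gp gm g : Ω → ℝ}
    (h : ∀ x, Dm u w (gp x) (gm x) (g x)) (ω : Ω) : Dm u w (Q gp ω) (Q gm ω) (Q g ω) := by
  intro α β
  have e : (exp α * Q gp ω + exp β * Q gm ω) / 2 =
      Q (fun x => exp α / 2 * gp x + exp β / 2 * gm x) ω := by
    rw [Aa.add', Aa.smul', Aa.smul']
    ring
  rw [e, ← Aa.smul', ← Aa.smul']
  exact ⟨Aa.mono' hQ (fun x => by linarith [(h x α β).1]) ω,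
    Aa.mono' hQ (fun x => by linarith [(h x α β).2]) ω⟩

variable {P : ℕ → Op Ω} {m : ℕ → ℝ} {t : ℕ}

theorem bd (h : Ok P m t) (Z A : Ω → ℝ) {b : ℝ} (hA : ∀ ω, |A ω| ≤ b) (hb : b ≤ 1) {j : ℕ}
    (hj : j ≤ t) (ω : Ω) {c : ℝ} (hc : 0 ≤ c) (s : ℝ) (hs : |s| = c) :
    |s * (XX P m (Z + A) j ω - XX P m Z j ω) + s * (XX P m (Z - A) j ω - XX P m Z j ω)| / 2 ≤
      c * b ^ 2 ∧
    |s * (XX P m (Z + A) j ω - XX P m Z j ω) - s * (XX P m (Z - A) j ω - XX P m Z j ω)| / 2 ≤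
      c * b := by
  have hA' : ∀ ω, |(-A) ω| ≤ b := fun ω => by simpa using hA ω
  have h1 := abs_le.1 (Aa.first h Z A b hA hb j hj ω)
  have h2 := abs_le.1 (Aa.first h Z (-A) b hA' hb j hj ω)
  have h3 := abs_le.1 (Aa.dbd h Z A hA j hj ω)
  have h4 := abs_le.1 (Aa.dbd h Z (-A) hA' j hj ω)
  rw [map_neg, Pi.neg_apply, ← sub_eq_add_neg] at h2
  rw [← sub_eq_add_neg] at h4
  rw [← mul_add, ← mul_sub, abs_mul, abs_mul, hs, mul_div_assoc, mul_div_assoc]
  refine ⟨mul_le_mul_of_nonneg_left ?_ hc, mul_le_mul_of_nonneg_left ?_ hc⟩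
  · rw [div_le_iff₀ two_pos, abs_le]
    constructor <;> linarith [h1.1, h1.2, h2.1, h2.2]
  · rw [div_le_iff₀ two_pos, abs_le]
    constructor <;> linarith [h3.1, h3.2, h4.1, h4.2]

theorem chg (Z Z' : Ω → ℝ) (j : ℕ) (g : Ω → ℝ) (ω : Ω) :
    exp (m j * (XX P m Z' (j + 1) ω - XX P m Z (j + 1) ω)) * QQ P m Z' j g ω =
      QQ P m Z j (fun x => exp (m j * (XX P m Z' j x - XX P m Z j x)) * g x) ω := by
  rw [Aa.qq_chg Z, ← mul_assoc, ← exp_add, add_neg_cancel, exp_zero, one_mul]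

theorem main (h : Ok P m t) (Z A : Ω → ℝ) {b : ℝ} (hA : ∀ ω, |A ω| ≤ b) (hb : b ≤ 1) {u w : ℝ}
    (hw : 0 ≤ w) {gp gm g : Ω → ℝ} (hg : ∀ ω, 0 ≤ g ω) (hD : ∀ ω, Dm u w (gp ω) (gm ω) (g ω))
    (a j : ℕ) (haj : a ≤ j) (hj : j + 1 ≤ t) (ω : Ω) :
    Dm (u + (2 - m j) * b ^ 2) (w + (2 - m j) * b)
      (exp (m j * (XX P m (Z + A) (j + 1) ω - XX P m Z (j + 1) ω)) * Ce P m (Z + A) a (j + 1) gp ω)
      (exp (m j * (XX P m (Z - A) (j + 1) ω - XX P m Z (j + 1) ω)) * Ce P m (Z - A) a (j + 1) gm ω)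
      (Ce P m Z a (j + 1) g ω) := by
  have hb0 : 0 ≤ b := (abs_nonneg _).trans (hA ω)
  induction j, haj using Nat.le_induction generalizing ω with
  | base =>
    simp only [Aa.ce_succ _ (le_refl a), Aa.self P m _ (le_refl a), chg]
    refine pass (Aa.qq_mk h Z hj) (fun x => ?_) ω
    have hm := (h.pos a hj).le
    have hm1 := h.le1 a hj
    obtain ⟨h1, h2⟩ := bd h Z A hA hb (j := a) (by omega) x hm (m a) (abs_of_nonneg hm)
    exact shift (hD x) (hg x) hw (by nlinarith [sq_nonneg b]) (by nlinarith)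
  | succ j haj ih =>
    simp only [Aa.ce_succ _ (show a ≤ j + 1 by omega), chg]
    refine pass (Aa.qq_mk h Z hj) (fun x => ?_) ω
    have hm := sub_nonneg.2 (h.anti j hj)
    have hm1 := h.le1 j (by omega)
    obtain ⟨h1, h2⟩ := bd h Z A hA hb (j := j + 1) (by omega) x hm (m (j + 1) - m j)
      (by rw [abs_sub_comm, abs_of_nonneg hm])
    have := shift (ih (by omega) x) ((Aa.ce h Z a (j + 1) (by omega)).1 g hg x)
      (by nlinarith) (add_le_add_right h1 _) (add_le_add_right h2 _)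
    rw [← mul_assoc, ← mul_assoc, ← exp_add, ← exp_add, ← add_mul, ← add_mul, sub_add_cancel,
      add_assoc, add_assoc, ← add_mul, ← add_mul, sub_add_sub_cancel] at this
    exact this

end Dom

theorem domStmt (_hA : AApi) : DomStmt := by
  intro Ω P m t h Z A b hA hb u w hw gp gm g hg hD a j hj ω
  have hb0 : 0 ≤ b := (abs_nonneg _).trans (hA ω)
  by_cases haj : j ≤ a
  · simp only [Aa.self P m _ haj]
    have := Dom.shift (x := 0) (y := 0) (u' := u + 2 * b ^ 2) (w' := w + 2 * b) (hD ω) (hg ω) hw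
      (by simp; positivity) (by simp; positivity)
    simpa using this
  · obtain ⟨j, rfl⟩ : ∃ j', j = j' + 1 := ⟨j - 1, by omega⟩
    have hm := (h.pos j hj).le
    have hm1 := h.le1 j hj
    obtain ⟨h1, h2⟩ := Dom.bd h Z A hA hb hj ω hm (-m j) (by rw [abs_neg, abs_of_nonneg hm])
    have := Dom.shift (Dom.main h Z A hA hb hw hg hD a j (by omega) hj ω)
      ((Aa.ce h Z a (j + 1) hj).1 g hg ω) (by nlinarith) (add_le_add_right h1 _)
      (add_le_add_right h2 _)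
    rw [← mul_assoc, ← mul_assoc, ← exp_add, ← exp_add, ← add_mul, ← add_mul, neg_add_cancel,
      zero_mul, zero_mul, exp_zero, one_mul, one_mul, add_assoc, add_assoc, ← add_mul, ← add_mul,
      sub_add_cancel] at this
    exact this

end Vale.Agent.P157
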