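import Vale.Agent.P157.Stm

namespace Vale.Agent.P157

open MeasureTheory ProbabilityTheory Finset Real Filter

namespace End

variable {I ι : Type} [Fintype I] [DecidableEq I] [Fintype ι] [DecidableEq ι]

theorem ind_add {i : I} {L L' : Sy ι I} (h : Ind i L) (h' : Ind i L') : Ind i (L + L') := by
  intro s hs
  rcases Multiset.mem_add.1 hs with hs | hs
  · exact h s hs
  · exact h' s hs

theorem sp_upd {i j : I} (h : j ≠ i) (σ : I → Bool) (b : Bool) :
    sp j (Function.update σ i b) = sp j σ := by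
  unfold sp; rw [Function.update_of_ne h]

theorem ind_fld {i : I} {A : Finset I} (h : i ∉ A) (l : Multiset (ℕ × ℝ)) :
    Ind i (fld ι A l) := by
  intro s hs σ b
  obtain ⟨j, hj, hs⟩ := Multiset.mem_bind.1 hs
  obtain ⟨x, -, rfl⟩ := Multiset.mem_map.1 hs
  have hji : j ≠ i := fun e => h (e ▸ hj)
  simp only [Pi.smul_apply, sp_upd hji]

theorem fld_insert {i : I} {A : Finset I} (h : i ∉ A) (l : Multiset (ℕ × ℝ)) :
    fld ι (insert i A) l = fld ι A l + lift none (sp i) l := by
  unfold fld
  rw [insert_val_of_notMem h, Multiset.cons_bind, add_comm]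

theorem sites (h2 : P2Stmt) (n : ℕ) (f : ℝ → ℝ) (L : Sy ι I) (hL : ∀ i, Ind i L)
    (l : Multiset (ℕ × ℝ)) (hn : 1 ≤ n) (A : Finset I) :
    TT n (gg ι f) (L + fld ι A l) = TT n (gg ι f) L + A.card * PD n l := by
  induction A using Finset.induction_on with
  | empty => simp [fld]
  | insert i A hi ih =>
    rw [fld_insert hi, ← add_assoc,
      (h2 I ι n f _ i l hn (ind_add (hL i) (ind_fld hi l))).1, ih, card_insert_of_notMem hi]
    push_cast; ring

theorem pats (hC : CApi) (h1 : P1Stmt) (n : ℕ) (f : ℝ → ℝ) (lp : Multiset (ℕ × ℝ)) (hn : 1 ≤ n)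
    (J : Finset ι) : TT n (gg ι f) (J.val.bind (fun a => fk I a lp)) =
      (Fintype.card ι - J.card : ℝ) * f 0 + J.card * HD n f lp := by
  induction J using Finset.induction_on with
  | empty =>
    have := hC.tt0 (O := Option ι) (S := I → Bool) n (gg ι f) hn
    simp only [empty_val, Multiset.zero_bind, this, Fintype.sum_option]
    simp [gg]
  | insert a J ha ih =>
    rw [insert_val_of_notMem ha, Multiset.cons_bind, add_comm]
    have hne : ∀ s ∈ J.val.bind (fun a => fk I a lp), s.2.1 ≠ some a := by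
      intro s hs
      obtain ⟨j, hj, hs⟩ := Multiset.mem_bind.1 hs
      obtain ⟨x, -, rfl⟩ := Multiset.mem_map.1 hs
      intro e
      exact ha ((Option.some.inj e) ▸ hj)
    have := (h1 (Option ι) (I → Bool) n (gg ι f) _ (some a) lp hn hne).1
    rw [show fk I a lp = lift (some a) (fun _ => 1) lp from rfl, this, ih,
      card_insert_of_notMem ha]
    show _ - f 0 + HD n f lp = _
    push_cast; ring

end End

theorem endStmt (hC : CApi) (h1 : P1Stmt) (h2 : P2Stmt) : EndStmt := by
  intro I ι _ _ _ _ n f A lp l hn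
  rw [End.sites h2 n f _ _ l hn, End.pats hC h1 n f lp hn]
  · simp
  · intro i s hs σ b
    obtain ⟨j, -, hs⟩ := Multiset.mem_bind.1 hs
    obtain ⟨x, -, rfl⟩ := Multiset.mem_map.1 hs
    rfl

end Vale.Agent.P157
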