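import Vale.Agent.P157.Stm

/-! P157, module F: filtered chains and the third-order two-replica expansion. -/

namespace Vale.Agent.P157

open Finset Real

noncomputable section

namespace F

variable {Ω : Type} {P : ℕ → Op Ω} {r : ℕ → Ω → Ω → Prop}

theorem ce_succ (P : ℕ → Op Ω) (m : ℕ → ℝ) (Z : Ω → ℝ) {a b : ℕ} (h : a ≤ b) (u : Ω → ℝ) (ω : Ω) :
    Ce P m Z a (b + 1) u ω = exp (-(m b * XX P m Z (b + 1) ω)) *
      P b (fun x => exp (m b * XX P m Z b x) * Ce P m Z a b u x) ω := by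
  rw [Ce, if_pos h]
  rfl

theorem ce_id (P : ℕ → Op Ω) (m : ℕ → ℝ) (Z : Ω → ℝ) {a b : ℕ} (h : b ≤ a) (u : Ω → ℝ) :
    Ce P m Z a b u = u := by
  cases b with
  | zero => rfl
  | succ b => rw [Ce, if_neg (by omega)]; rfl

theorem rmono (hF : Fil P r) {d e : ℕ} (h : d ≤ e) {ω ω' : Ω} (hr : r d ω ω') : r e ω ω' := by
  induction e, h using Nat.le_induction with
  | base => exact hr
  | succ e _ ih => exact hF.mono e _ _ ih

theorem dep_mono (hF : Fil P r) {d e : ℕ} (h : d ≤ e) {u : Ω → ℝ} (hu : Dep r e u) : Dep r d u :=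
  fun ω ω' hr => hu ω ω' (rmono hF h hr)

theorem depX (hF : Fil P r) (m : ℕ → ℝ) (Z : Ω → ℝ) (j : ℕ) : Dep r j (XX P m Z j) := by
  induction j with
  | zero => intro ω ω' h; rw [hF.zero ω ω' h]
  | succ j ih =>
    intro ω ω' h
    have : Dep r j (fun ω' => exp (m j * XX P m Z j ω')) := fun x x' hx => by
      simp only [ih x x' hx]
    simp only [XX, hF.dep j _ this ω ω' h]

theorem depC (hF : Fil P r) (m : ℕ → ℝ) (Z : Ω → ℝ) {a b : ℕ} (hab : a ≤ b) {u : Ω → ℝ}
    (hu : Dep r a u) : Dep r b (Ce P m Z a b u) := by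
  induction b, hab using Nat.le_induction with
  | base => rw [ce_id P m Z le_rfl]; exact hu
  | succ b hab ih =>
    intro ω ω' h
    have : Dep r b (fun x => exp (m b * XX P m Z b x) * Ce P m Z a b u x) := fun x x' hx => by
      simp only [ih x x' hx, depX hF m Z b x x' hx]
    rw [ce_succ P m Z hab, ce_succ P m Z hab, hF.dep b _ this ω ω' h,
      depX hF m Z (b + 1) ω ω' h]

theorem supp (hF : Fil P r) (m : ℕ → ℝ) (Z : Ω → ℝ) (a b : ℕ) (u u' : Ω → ℝ) (ω : Ω)
    (h : ∀ ω', r b ω ω' → u ω' = u' ω') : Ce P m Z a b u ω = Ce P m Z a b u' ω := by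
  induction b generalizing ω with
  | zero => exact h ω (hF.refl 0 ω)
  | succ b ih =>
    by_cases hab : a ≤ b
    · rw [ce_succ P m Z hab, ce_succ P m Z hab]
      congr 1
      refine hF.supp b _ _ ω (fun x hx => ?_)
      rw [ih x (fun ω' h' => h ω' (hF.trans _ _ _ _ hx (hF.mono b _ _ h')))]
    · rw [ce_id P m Z (by omega), ce_id P m Z (by omega)]
      exact h ω (hF.refl _ ω)

theorem op_mul (Q : Op Ω) (c : ℝ) (u : Ω → ℝ) (ω : Ω) : Q (fun x => c * u x) ω = c * Q u ω := by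
  have : (fun x => c * u x) = c • u := by ext x; simp
  rw [this, map_smul]; simp

theorem pull (hF : Fil P r) (m : ℕ → ℝ) (Z : Ω → ℝ) (a b : ℕ) (g u : Ω → ℝ) (hg : Dep r b g)
    (ω : Ω) : Ce P m Z a b (fun x => g x * u x) ω = g ω * Ce P m Z a b u ω := by
  rw [supp hF m Z a b _ (fun x => g ω * u x) ω (fun ω' h => by rw [hg ω ω' h]), op_mul]

theorem e2supp (hF : Fil P r) (m : ℕ → ℝ) (Z : Ω → ℝ) (l t : ℕ) (φ ψ : Ω → Ω → ℝ)
    (h : ∀ x x', r l x x' → φ x x' = ψ x x') (ω : Ω) : E2 P m Z l t φ ω = E2 P m Z l t ψ ω := by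
  unfold E2
  refine congrFun (congrArg _ (funext fun ω0 => ?_)) ω
  refine supp hF m Z 0 l _ _ ω0 (fun x hx => ?_)
  refine supp hF m Z 0 l _ _ ω0 (fun x' hx' => ?_)
  exact h x x' (hF.trans _ _ _ _ (hF.symm _ _ _ hx) hx')

/-- the log-density -/
def SS (m : ℕ → ℝ) (D : ℕ → Ω → ℝ) (a b : ℕ) (x : Ω) : ℝ :=
  ∑ j ∈ Ico a b, m j * (D j x - D (j + 1) x)

def DD (P : ℕ → Op Ω) (m : ℕ → ℝ) (Z A : Ω → ℝ) (j : ℕ) (x : Ω) : ℝ :=
  XX P m (Z + A) j x - XX P m Z j x

theorem depD (hF : Fil P r) (m : ℕ → ℝ) (Z A : Ω → ℝ) (j : ℕ) : Dep r j (DD P m Z A j) :=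
  fun x x' h => by simp only [DD, depX hF m _ j x x' h]

theorem dens (hF : Fil P r) (m : ℕ → ℝ) (Z A : Ω → ℝ) (a b : ℕ) (u : Ω → ℝ) (ω : Ω) :
    Ce P m (Z + A) a b u ω =
      Ce P m Z a b (fun x => exp (SS m (DD P m Z A) a b x) * u x) ω := by
  induction b generalizing ω with
  | zero => simp [SS, Ce]
  | succ b ih =>
    by_cases hab : a ≤ b
    · rw [ce_succ P m _ hab, ce_succ P m Z hab]
      have hg : Dep r b (fun x => exp (m b * (DD P m Z A b x - DD P m Z A (b + 1) x))) :=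
        fun x x' hx => by
          simp only [depD hF m Z A b x x' hx, depD hF m Z A (b + 1) x x' (hF.mono b _ _ hx)]
      have e1 : P b (fun x => exp (m b * XX P m Z b x) * Ce P m Z a b
          (fun x => exp (SS m (DD P m Z A) a (b + 1) x) * u x) x) ω =
          P b (fun x => exp (-(m b * DD P m Z A (b + 1) ω)) *
            (exp (m b * XX P m (Z + A) b x) * Ce P m (Z + A) a b u x)) ω := by
        refine hF.supp b _ _ ω (fun x hx => ?_)
        have : (fun x => exp (SS m (DD P m Z A) a (b + 1) x) * u x) =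
            fun x => exp (m b * (DD P m Z A b x - DD P m Z A (b + 1) x)) *
              (exp (SS m (DD P m Z A) a b x) * u x) := by
          ext x
          rw [SS, sum_Ico_succ_top hab, exp_add, SS]; ring
        rw [this, pull hF m Z a b _ _ hg, ← ih x, depD hF m Z A (b + 1) ω x hx, ← mul_assoc,
          ← mul_assoc, ← exp_add, ← exp_add]
        congr 2
        simp only [DD]; ring
      rw [e1, op_mul, ← mul_assoc, ← exp_add]
      congr 2
      simp only [DD]; ring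
    · rw [ce_id P m _ (by omega), ce_id P m Z (by omega)]
      simp [SS, Ico_eq_empty_of_le (show b + 1 ≤ a by omega)]

theorem e2dens (hF : Fil P r) (m : ℕ → ℝ) (Z A : Ω → ℝ) {l t : ℕ} (hl : l ≤ t)
    (G : Ω → Ω → ℝ) (ω0 : Ω) : E2 P m (Z + A) l t G ω0 = E2 P m Z l t (fun x x' => G x x' *
      exp (SS m (DD P m Z A) 0 t x + SS m (DD P m Z A) 0 l x')) ω0 := by
  unfold E2
  rw [dens hF]
  refine congrFun (congrArg _ (funext fun ω => ?_)) ω0
  have hd : Dep r l (fun x => exp (SS m (DD P m Z A) l t x)) := fun x x' hx => by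
    simp only [SS]
    congr 1
    refine sum_congr rfl (fun j hj => ?_)
    have hj' := (mem_Ico.1 hj).1
    rw [dep_mono hF hj' (depD hF m Z A j) x x' hx,
      dep_mono hF (by omega) (depD hF m Z A (j + 1)) x x' hx]
  rw [dens hF, ← pull hF m Z 0 l _ _ hd]
  refine congrFun (congrArg _ (funext fun x => ?_)) ω
  rw [dens hF, ← op_mul, ← op_mul]
  refine congrFun (congrArg _ (funext fun x' => ?_)) ω
  have : SS m (DD P m Z A) 0 t x = SS m (DD P m Z A) 0 l x + SS m (DD P m Z A) l t x := by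
    simp only [SS]; rw [sum_Ico_consecutive _ (Nat.zero_le l) hl]
  simp only [this, exp_add]; ring

theorem abel_bd {m : ℕ → ℝ} {t : ℕ} (hO : Ok P m t) (x : ℕ → ℝ) (s : ℝ)
    (hx : ∀ j, j ≤ t → |x j| ≤ s) {b : ℕ} (hb : b ≤ t) :
    |∑ j ∈ range b, m j * (x j - x (j + 1))| ≤ 2 * s := by
  have hs : 0 ≤ s := (abs_nonneg _).trans (hx 0 (Nat.zero_le t))
  have key : ∀ k, k + 1 ≤ t → |∑ j ∈ range (k + 1), m j * (x j - x (j + 1)) + m k * x (k + 1)| ≤
      (2 * m 0 - m k) * s := by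
    intro k
    induction k with
    | zero =>
      intro h
      have h0 := hO.pos 0 (by omega)
      have : ∑ j ∈ range (0 + 1), m j * (x j - x (j + 1)) + m 0 * x (0 + 1) = m 0 * x 0 := by
        simp; ring
      rw [this, abs_mul, abs_of_pos h0]
      have := mul_le_mul_of_nonneg_left (hx 0 (by omega)) h0.le
      linarith
    | succ k ih =>
      intro h
      have h1 := ih (by omega)
      have h2 := hO.anti k (by omega)
      have e : ∑ j ∈ range (k + 1 + 1), m j * (x j - x (j + 1)) + m (k + 1) * x (k + 1 + 1) =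
          (∑ j ∈ range (k + 1), m j * (x j - x (j + 1)) + m k * x (k + 1)) -
            (m k - m (k + 1)) * x (k + 1) := by
        rw [sum_range_succ _ (k + 1)]; ring
      rw [e]
      have h3 : |(m k - m (k + 1)) * x (k + 1)| ≤ (m k - m (k + 1)) * s := by
        rw [abs_mul, abs_of_nonneg (by linarith)]
        exact mul_le_mul_of_nonneg_left (hx _ (by omega)) (by linarith)
      have := abs_sub (∑ j ∈ range (k + 1), m j * (x j - x (j + 1)) + m k * x (k + 1))
        ((m k - m (k + 1)) * x (k + 1))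
      linarith
  cases b with
  | zero => simp; linarith
  | succ k =>
    have h1 := key k hb
    have hp := hO.pos k (by omega)
    have h0 := hO.le1 0 (by omega)
    have h3 : |m k * x (k + 1)| ≤ m k * s := by
      rw [abs_mul, abs_of_pos hp]
      exact mul_le_mul_of_nonneg_left (hx _ hb) hp.le
    have := abs_sub (∑ j ∈ range (k + 1), m j * (x j - x (j + 1)) + m k * x (k + 1))
      (m k * x (k + 1))
    rw [add_sub_cancel_right] at this
    nlinarith

theorem exp_bd {W y : ℝ} (hy : 0 ≤ y) (hy1 : y ≤ 1) (hW : |W| ≤ 4 * y) :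
    |exp W - 1 - W| ≤ 16 * (exp 4 + 5) * y ^ 2 := by
  have he : 0 < exp 4 := exp_pos 4
  by_cases h : y ≤ 1 / 4
  · have h1 := Real.abs_exp_sub_one_sub_id_le (x := W) (by linarith)
    have h2 : W ^ 2 ≤ (4 * y) ^ 2 := by
      rw [← sq_abs]; exact pow_le_pow_left₀ (abs_nonneg _) hW 2
    nlinarith [sq_nonneg y]
  · push Not at h
    have hW' := abs_le.1 hW
    have h1 : exp W ≤ exp 4 := exp_le_exp.2 (by linarith)
    have h2 := exp_pos W
    have h3 : |exp W - 1 - W| ≤ exp 4 + 5 := abs_le.2 ⟨by linarith, by linarith⟩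
    have h4 : 1 ≤ 16 * y ^ 2 := by nlinarith
    nlinarith

theorem e2_close (hA : AApi) {m : ℕ → ℝ} {t : ℕ} (hO : Ok P m t) (Z : Ω → ℝ) {l : ℕ} (hl : l ≤ t)
    (φ ψ : Ω → Ω → ℝ) (c : ℝ) (h : ∀ x x', |φ x x' - ψ x x'| ≤ c) (ω : Ω) :
    |E2 P m Z l t φ ω - E2 P m Z l t ψ ω| ≤ c := by
  have key : ∀ φ ψ : Ω → Ω → ℝ, (∀ x x', φ x x' - ψ x x' ≤ c) →
      E2 P m Z l t φ ω - E2 P m Z l t ψ ω ≤ c := by
    intro φ ψ h
    have h1 := hA.e2mono hO Z l hl (φ := φ) (ψ := fun x x' => 1 * ψ x x' + c * (fun _ _ => 1) x x')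
      (fun x x' => by have := h x x'; simp only; linarith) ω
    rw [hA.e2add, hA.e2const hO Z l hl] at h1
    linarith
  refine abs_le.2 ⟨?_, key φ ψ (fun x x' => (abs_le.1 (h x x')).2)⟩
  have := key ψ φ (fun x x' => by have := (abs_le.1 (h x x')).1; linarith)
  linarith

end F

theorem fApi (hA : AApi) : FApi where
  depX := fun hF m Z j => F.depX hF m Z j
  depC := fun hF m Z _ _ hab _ hu => F.depC hF m Z hab hu
  supp := fun hF m Z a b u u' ω h => F.supp hF m Z a b u u' ω h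
  pull := fun hF m Z a b g u hg ω => F.pull hF m Z a b g u hg ω
  e2supp := fun hF m Z l t φ ψ h ω => F.e2supp hF m Z l t φ ψ h ω
  l3 := by
    refine ⟨16 * (exp 4 + 5) + 4, fun Ω P r m t hO hF Z A y hy hy1 l hl G hG ω0 => ?_⟩
    have hy0 : 0 ≤ y := (abs_nonneg _).trans (hy ω0)
    rw [F.e2dens hF m Z A hl]
    refine F.e2_close hA hO Z hl _ _ _ (fun x x' => ?_) ω0
    have hD : ∀ x j, j ≤ t → |F.DD P m Z A j x| ≤ y := fun x j hj => by
      have h1 := hA.xle hO (Z := Z + A) (Z' := Z) (c := y)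
        (fun ω => by have := (abs_le.1 (hy ω)).2; simp only [Pi.add_apply]; linarith) j hj x
      have h2 := hA.xle hO (Z := Z) (Z' := Z + A) (c := y)
        (fun ω => by have := (abs_le.1 (hy ω)).1; simp only [Pi.add_apply]; linarith) j hj x
      exact abs_le.2 ⟨by simp only [F.DD]; linarith, by simp only [F.DD]; linarith⟩
    have hE : ∀ x j, j ≤ t → |F.DD P m Z A j x - Ce P m Z 0 j A x| ≤ y ^ 2 := fun x j hj =>
      hA.first hO Z A y hy hy1 j hj x
    have hS : ∀ x b, b ≤ t → |F.SS m (F.DD P m Z A) 0 b x| ≤ 2 * y ∧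
        |F.SS m (F.DD P m Z A) 0 b x -
          ∑ j ∈ range b, m j * (Ce P m Z 0 j A x - Ce P m Z 0 (j + 1) A x)| ≤ 2 * y ^ 2 := by
      intro x b hb
      have e : F.SS m (F.DD P m Z A) 0 b x =
          ∑ j ∈ range b, m j * (F.DD P m Z A j x - F.DD P m Z A (j + 1) x) := by
        rw [F.SS, range_eq_Ico]
      rw [e]
      refine ⟨F.abel_bd hO (fun j => F.DD P m Z A j x) y (hD x) hb, ?_⟩
      have := F.abel_bd hO (fun j => F.DD P m Z A j x - Ce P m Z 0 j A x) (y ^ 2) (hE x) hb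
      rw [← sum_sub_distrib]
      convert this using 3 with j
      ring
    obtain ⟨a1, a2⟩ := hS x t le_rfl
    obtain ⟨b1, b2⟩ := hS x' l hl
    set U := F.SS m (F.DD P m Z A) 0 t x
    set V := F.SS m (F.DD P m Z A) 0 l x'
    set U' := ∑ j ∈ range t, m j * (Ce P m Z 0 j A x - Ce P m Z 0 (j + 1) A x)
    set V' := ∑ j ∈ range l, m j * (Ce P m Z 0 j A x' - Ce P m Z 0 (j + 1) A x')
    have h1 := F.exp_bd (W := U + V) hy0 hy1 ((abs_add_le _ _).trans (by linarith))
    have h2 : |exp (U + V) - (1 + U' + V')| ≤ (16 * (exp 4 + 5) + 4) * y ^ 2 := by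
      have := abs_le.1 h1
      have := abs_le.1 a2
      have := abs_le.1 b2
      refine abs_le.2 ⟨by linarith, by linarith⟩
    rw [← mul_sub, abs_mul]
    have := mul_le_mul (hG x x') h2 (abs_nonneg _) zero_le_one
    linarith

end

end Vale.Agent.P157
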