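import Vale.Agent.P157.Stm

/-! P157, module G: bookkeeping for steps. -/

namespace Vale.Agent.P157

open Finset Real

namespace Gm

section
variable {O S : Type} [Fintype O] [DecidableEq O] [Fintype S] [Inhabited S]

omit [Fintype S] [Inhabited S] in
theorem nle {w : S → ℝ} (hw : ∀ σ, w σ ^ 2 = 1) (σ : S) : |w σ| = 1 := by
  have := hw σ
  rw [← sq_abs] at this
  nlinarith [abs_nonneg (w σ)]

theorem nw {w : S → ℝ} (hw : ∀ σ, w σ ^ 2 = 1) (c : ℝ) : ‖c • w‖ = |c| := by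
  have : ‖w‖ = 1 := by
    refine le_antisymm ((pi_norm_le_iff_of_nonneg zero_le_one).2 fun σ => ?_) ?_
    · rw [Real.norm_eq_abs, nle hw]
    · have := norm_le_pi_norm w default
      rwa [Real.norm_eq_abs, nle hw] at this
  rw [norm_smul, this, mul_one, Real.norm_eq_abs]

omit [Fintype O] [DecidableEq O] in
theorem lift_vr (o : O) (w : S → ℝ) (l : Multiset (ℕ × ℝ)) (hw : ∀ σ, w σ ^ 2 = 1) :
    vr (lift o w l) = (l.map (fun s => s.2 ^ 2)).sum ∧
      sz (lift o w l) = (l.map (fun s => |s.2|)).sum := by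
  constructor
  · simp only [vr, lift, Multiset.map_map, Function.comp_def, nw hw, sq_abs]
  · simp only [sz, lift, Multiset.map_map, Function.comp_def, nw hw]

omit [Fintype O] [DecidableEq O] in
theorem lift_small (n : ℕ) (B : ℝ) (o : O) (w : S → ℝ) (l : Multiset (ℕ × ℝ))
    (hw : ∀ σ, w σ ^ 2 = 1) (h : ∀ s ∈ l, s.1 < n ∧ B * |s.2| ≤ 1) : Small n B (lift o w l) := by
  intro s hs
  obtain ⟨s', hs', rfl⟩ := Multiset.mem_map.1 hs
  simpa only [nw hw] using h s' hs'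

omit [Fintype O] [DecidableEq O] [Inhabited S] in
theorem vr_add (L L' : Multiset (St O S)) (k : ℕ) : vr (L + L') = vr L + vr L' ∧
    vr (k • L) = k * vr L ∧ sz (L + L') = sz L + sz L' ∧ 0 ≤ vr L := by
  refine ⟨by simp [vr], by simp [vr, Multiset.map_nsmul, Multiset.sum_nsmul], by simp [sz], ?_⟩
  refine Multiset.sum_nonneg fun x hx => ?_
  obtain ⟨s, _, rfl⟩ := Multiset.mem_map.1 hx
  positivity

theorem ee_smul (hA : AApi) (n : ℕ) (g : O → ℝ → ℝ) (L : Multiset (St O S)) (d : ℕ) (c : ℝ)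
    (φ : Om O S → Om O S → ℝ) :
    EE n g L d (fun ω ω' => c * φ ω ω') = c * EE n g L d φ := by
  have := hA.e2add (chain L) (ex n) (ZZ g) (d + 1) (n + 1) φ φ c 0 (0, default)
  simpa [EE] using this

theorem gam_one (hA : AApi) (n : ℕ) (g g1 g2 : O → ℝ → ℝ) (L : Multiset (St O S)) (o : O)
    (w : S → ℝ) (κ : ℕ) (c : ℝ) (hw : ∀ σ, w σ ^ 2 = 1) : Gam n g g1 g2 L (κ, o, c • w) =
      c ^ 2 * (E1 n g L (ob (fun t => g2 o t + g1 o t ^ 2) o (fun _ => 1)) -
        (1 / (n : ℝ)) * ∑ d ∈ Icc 1 κ,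
          EE n g L d (fun ω ω' => ob (g1 o) o w ω * ob (g1 o) o w ω')) / 2 := by
  have h1 : ob (fun t => g2 o t + g1 o t ^ 2) o (fun σ => (c • w) σ ^ 2) =
      c ^ 2 • ob (fun t => g2 o t + g1 o t ^ 2) o (fun _ : S => (1 : ℝ)) := by
    funext ω
    simp only [ob, Pi.smul_apply, smul_eq_mul, mul_pow, hw]
    ring
  have h2 : ∀ d, EE n g L d (fun ω ω' => ob (g1 o) o (c • w) ω * ob (g1 o) o (c • w) ω') =
      c ^ 2 * EE n g L d (fun ω ω' => ob (g1 o) o w ω * ob (g1 o) o w ω') := by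
    intro d
    rw [← ee_smul hA]
    congr 1
    funext ω ω'
    simp only [ob, Pi.smul_apply, smul_eq_mul]
    ring
  simp only [Gam, h1, h2]
  simp only [E1, map_smul, Pi.smul_apply, smul_eq_mul, ← mul_sum]
  ring

end

theorem p_anti {n : ℕ} {p : ℕ → ℝ} (hp : Path n p) {a b : ℕ} (hab : a ≤ b) (hb : b ≤ n) :
    p b ≤ p a := by
  induction b, hab using Nat.le_induction with
  | base => exact le_rfl
  | succ b _ ih => exact (hp.1 b (by omega)).trans (ih (by omega))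

theorem tel (p : ℕ → ℝ) {a b : ℕ} (hab : a ≤ b) :
    ∑ κ ∈ Ico a b, (p κ - p (κ + 1)) = p a - p b := by
  induction b, hab using Nat.le_induction with
  | base => simp
  | succ b hab ih => rw [sum_Ico_succ_top hab, ih]; ring

theorem sprof_var (n : ℕ) (p : ℕ → ℝ) (c2 : ℝ) (hp : Path n p) (hc : 0 ≤ c2) :
    ((sprof n p c2).map (fun s => s.2 ^ 2)).sum = c2 * p 0 ∧
    (∀ d, d < n → lvar (sprof n p c2) d = c2 * (p d - p (d + 1))) ∧
    ∀ s ∈ sprof n p c2, s.1 < n ∧ |s.2| ≤ √(c2 * p 0) := by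
  have hs : ∀ κ ∈ range n, √(c2 * (p κ - p (κ + 1))) ^ 2 = c2 * (p κ - p (κ + 1)) :=
    fun κ hκ => sq_sqrt (mul_nonneg hc (sub_nonneg.2 (hp.1 κ (mem_range.1 hκ))))
  refine ⟨?_, fun d hd => ?_, fun s hs' => ?_⟩
  · simp only [sprof, Multiset.map_map, Function.comp_def]
    change ∑ κ ∈ range n, _ = _
    rw [sum_congr rfl hs, ← mul_sum, range_eq_Ico, tel p (Nat.zero_le n), hp.2, sub_zero]
  · simp only [lvar, sprof, Multiset.filter_map, Multiset.map_map, Function.comp_def]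
    change ∑ κ ∈ (range n).filter (fun κ => κ = d), _ = _
    rw [filter_eq', if_pos (mem_range.2 hd), sum_singleton, hs d (mem_range.2 hd)]
  · obtain ⟨κ, hκ, rfl⟩ := Multiset.mem_map.1 hs'
    have hκ' : κ < n := mem_range.1 hκ
    refine ⟨hκ', ?_⟩
    rw [abs_of_nonneg (sqrt_nonneg _)]
    refine sqrt_le_sqrt (mul_le_mul_of_nonneg_left ?_ hc)
    have h1 := p_anti hp (Nat.zero_le κ) hκ'.le
    have h2 := p_anti hp (show κ + 1 ≤ n from hκ') le_rfl
    rw [hp.2] at h2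
    linarith

theorem lvar_add (l l' : Multiset (ℕ × ℝ)) (k d : ℕ) :
    lvar (l + l') d = lvar l d + lvar l' d ∧ lvar (k • l) d = k * lvar l d := by
  constructor
  · simp [lvar]
  · simp [lvar, Multiset.filter_nsmul, Multiset.map_nsmul, Multiset.sum_nsmul]

theorem swap (n : ℕ) (p a : ℕ → ℝ) (hp : p n = 0) :
    ∑ κ ∈ range n, (p κ - p (κ + 1)) * ∑ d ∈ Icc 1 κ, a d = ∑ d ∈ Ico 1 n, p d * a d := by
  simp only [mul_sum]
  rw [sum_comm' (t' := Ico 1 n) (s' := fun d => Ico d n)]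
  · refine sum_congr rfl fun d hd => ?_
    rw [← sum_mul, tel p (mem_Ico.1 hd).2.le, hp, sub_zero]
  · intro κ d
    simp only [mem_range, mem_Icc, mem_Ico]
    omega

section
variable {O S : Type} [Fintype O] [DecidableEq O] [Fintype S] [Inhabited S]

theorem gam_prof (hA : AApi) (n : ℕ) (g g1 g2 : O → ℝ → ℝ) (L : Multiset (St O S)) (o : O)
    (w : S → ℝ) (p : ℕ → ℝ) (c2 : ℝ) (hp : Path n p) (hc : 0 ≤ c2) (hw : ∀ σ, w σ ^ 2 = 1) :
    ((lift o w (sprof n p c2)).map (Gam n g g1 g2 L)).sum =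
      c2 * (p 0 * E1 n g L (ob (fun t => g2 o t + g1 o t ^ 2) o (fun _ => 1)) -
        (1 / (n : ℝ)) * ∑ d ∈ Ico 1 n, p d *
          EE n g L d (fun ω ω' => ob (g1 o) o w ω * ob (g1 o) o w ω')) / 2 := by
  simp only [lift, sprof, Multiset.map_map, Function.comp_def, gam_one hA n g g1 g2 L o w _ _ hw]
  change ∑ κ ∈ range n, _ = _
  have hs : ∀ κ ∈ range n, √(c2 * (p κ - p (κ + 1))) ^ 2 = c2 * (p κ - p (κ + 1)) :=
    fun κ hκ => sq_sqrt (mul_nonneg hc (sub_nonneg.2 (hp.1 κ (mem_range.1 hκ))))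
  rw [sum_congr rfl fun κ hκ => by rw [hs κ hκ], ← swap n p _ hp.2]
  have ht := tel p (Nat.zero_le n)
  rw [hp.2, sub_zero, ← range_eq_Ico] at ht
  rw [← ht, sum_mul, mul_sum, ← sum_sub_distrib, mul_sum, sum_div]
  refine sum_congr rfl fun κ _ => ?_
  ring

theorem w_path (hA : AApi) (hC : CApi) (n : ℕ) (g : O → ℝ → ℝ) (L : Multiset (St O S))
    (U : Om O S → ℝ) (K : ℝ) (hn : 1 ≤ n) (hU : ∀ ω, |U ω| ≤ K) :
    Path n (fun d => if d < n then EE n g L d (fun ω ω' => U ω * U ω') else 0) ∧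
      ∀ d, d ≤ n → EE n g L d (fun ω ω' => U ω * U ω') ≤ K ^ 2 := by
  have hok := hC.ok n L hn
  refine ⟨⟨fun d hd => ?_, by simp⟩, fun d hd => ?_⟩
  · simp only [if_pos hd]
    split_ifs with h
    · exact (hA.e2anti hok (ZZ g) U (d + 1) (d + 1 + 1) (by omega) (by omega) _).2
    · exact (hA.e2anti hok (ZZ g) U (d + 1) (d + 1) le_rfl (by omega) _).1
  · rw [← hA.e2const hok (ZZ g) (d + 1) (by omega) (K ^ 2) (0, default)]
    refine hA.e2mono hok (ZZ g) (d + 1) (by omega) (fun x x' => ?_) _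
    have h1 := hU x
    have h2 := hU x'
    calc U x * U x' ≤ |U x| * |U x'| := by rw [← abs_mul]; exact le_abs_self _
      _ ≤ K * K := mul_le_mul h1 h2 (abs_nonneg _) ((abs_nonneg _).trans h1)
      _ = K ^ 2 := by ring

end

section
variable {I ι : Type} [Fintype I] [DecidableEq I] [Fintype ι] [DecidableEq ι]

omit [Fintype I] [DecidableEq I] in
theorem sp_sq (i : I) (σ : I → Bool) : sp i σ ^ 2 = 1 := by
  simp only [sp, spin]
  split_ifs <;> norm_num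

theorem ee_R (hA : AApi) (n : ℕ) (g : Option ι → ℝ → ℝ) (L : Sy ι I) (d : ℕ) (A : Finset I)
    (hne : A.Nonempty) (u : Om (Option ι) (I → Bool) → ℝ) :
    ∑ i ∈ A, EE n g L d (fun ω ω' => (u ω * sp i ω.2) * (u ω' * sp i ω'.2)) =
      A.card * EE n g L d (fun ω ω' => u ω * u ω' * Rr A ω.2 ω'.2) := by
  have hc : (A.card : ℝ) ≠ 0 := by exact_mod_cast hne.card_pos.ne'
  rw [← ee_smul hA]
  simp only [EE]
  rw [← hA.e2sum]
  congr 1
  funext ω ω'
  simp only [Rr]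
  rw [mul_left_comm, mul_div_cancel₀ _ hc, mul_sum]
  refine sum_congr rfl fun i _ => ?_
  ring

theorem gam_round (hA : AApi) (n : ℕ) (g g1 g2 : Option ι → ℝ → ℝ) (L : Sy ι I) (o : Option ι)
    (A : Finset I) (c : ℝ) (hn : 1 ≤ n) (hne : A.Nonempty) :
    ((round o A (n - 1) c).map (Gam n g g1 g2 L)).sum =
      (A.card * c ^ 2) * (E1 n g L (ob (fun t => g2 o t + g1 o t ^ 2) o (fun _ => 1)) -
        (1 / (n : ℝ)) * ∑ d ∈ Ico 1 n, EE n g L d
          (fun ω ω' => g1 o (ω.1 o ω.2) * g1 o (ω'.1 o ω'.2) * Rr A ω.2 ω'.2)) / 2 := by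
  simp only [round, Multiset.map_map, Function.comp_def,
    gam_one hA n g g1 g2 L o _ _ _ (sp_sq _)]
  change ∑ i ∈ A, _ = _
  have hI : Icc 1 (n - 1) = Ico 1 n := by
    ext d
    simp only [mem_Icc, mem_Ico]
    omega
  rw [hI, ← sum_div, ← mul_sum, sum_sub_distrib, ← mul_sum, sum_comm]
  simp only [ob]
  rw [sum_congr rfl fun d _ => ee_R hA n g L d A hne (fun ω => g1 o (ω.1 o ω.2)), ← mul_sum,
    sum_const, nsmul_eq_mul]
  ring

theorem gam_fld (hA : AApi) (hC : CApi) (n : ℕ) (f f1 f2 : ℝ → ℝ) (L : Sy ι I) (A : Finset I)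
    (p : ℕ → ℝ) (c2 : ℝ) (hn : 1 ≤ n) (hne : A.Nonempty) (hp : Path n p) (hc : 0 ≤ c2) :
    ((fld ι A (sprof n p c2)).map (Gam n (gg ι f) (gg1 ι f1) (gg2 ι f2) L)).sum =
      (A.card * c2) * (p 0 - (1 / (n : ℝ)) * ∑ d ∈ Ico 1 n, p d *
        EE n (gg ι f) L d (fun ω ω' => Rr A ω.2 ω'.2)) / 2 := by
  simp only [fld, Multiset.map_bind, Multiset.sum_bind,
    gam_prof hA n _ _ _ L none _ p c2 hp hc (sp_sq _)]
  change ∑ i ∈ A, _ = _
  have h1 : E1 n (gg ι f) L (ob (fun t => gg2 ι f2 none t + gg1 ι f1 none t ^ 2) none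
      (fun _ => 1)) = 1 := by
    have : ob (fun t => gg2 ι f2 none t + gg1 ι f1 none t ^ 2) (none : Option ι)
        (fun _ : I → Bool => (1 : ℝ)) = fun _ => 1 := by
      funext ω
      simp [ob, gg1, gg2]
    rw [this]
    exact (hA.ce (hC.ok n L hn) _ 0 (n + 1) le_rfl).2 _
  rw [h1, mul_one, ← sum_div, ← mul_sum, sum_sub_distrib, ← mul_sum, sum_comm]
  have h2 : ∀ d, ∑ i ∈ A, p d * EE n (gg ι f) L d
      (fun ω ω' => ob (gg1 ι f1 none) none (sp i) ω * ob (gg1 ι f1 none) none (sp i) ω') =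
      A.card * (p d * EE n (gg ι f) L d (fun ω ω' => Rr A ω.2 ω'.2)) := by
    intro d
    have := ee_R hA n (gg ι f) L d A hne (fun _ => 1)
    simp only [one_mul] at this
    simp only [ob, gg1, Option.elim, one_mul]
    rw [← mul_sum, this]
    ring
  rw [sum_congr rfl fun d _ => h2 d, ← mul_sum, sum_const, nsmul_eq_mul]
  ring

omit [Fintype ι] [DecidableEq ι] in
theorem round_vr (n : ℕ) (B : ℝ) (o : Option ι) (A : Finset I) (κ : ℕ) (c : ℝ) :
    vr (round o A κ c) = A.card * c ^ 2 ∧ (κ < n → B * |c| ≤ 1 → Small n B (round o A κ c)) ∧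
      ∀ s ∈ round o A κ c, s.2.1 = o := by
  refine ⟨?_, fun h1 h2 s hs => ?_, fun s hs => ?_⟩
  · simp only [vr, round, Multiset.map_map, Function.comp_def, nw (sp_sq _), sq_abs]
    simp
  · obtain ⟨i, _, rfl⟩ := Multiset.mem_map.1 hs
    exact ⟨h1, by simpa only [nw (sp_sq _)] using h2⟩
  · obtain ⟨i, _, rfl⟩ := Multiset.mem_map.1 hs
    rfl

theorem fld_vr (n : ℕ) (B : ℝ) (A : Finset I) (l l' : Multiset (ℕ × ℝ)) :
    vr (fld ι A l) = A.card * (l.map (fun s => s.2 ^ 2)).sum ∧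
    sz (fld ι A l) = A.card * (l.map (fun s => |s.2|)).sum ∧
    ((∀ s ∈ l, s.1 < n ∧ B * |s.2| ≤ 1) → Small n B (fld ι A l)) ∧
    fld ι A (l + l') = fld ι A l + fld ι A l' ∧ ∀ s ∈ fld ι A l, s.2.1 = none := by
  refine ⟨?_, ?_, fun h s hs => ?_, ?_, fun s hs => ?_⟩
  · have : ∀ i : I, (Multiset.map (fun s : St (Option ι) (I → Bool) => ‖s.2.2‖ ^ 2)
        (lift none (sp i) l)).sum = (l.map (fun s => s.2 ^ 2)).sum :=
      fun i => (lift_vr none (sp i) l (sp_sq i)).1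
    simp only [vr, fld, Multiset.map_bind, Multiset.sum_bind, this]
    simp
  · have : ∀ i : I, (Multiset.map (fun s : St (Option ι) (I → Bool) => ‖s.2.2‖)
        (lift none (sp i) l)).sum = (l.map (fun s => |s.2|)).sum :=
      fun i => (lift_vr none (sp i) l (sp_sq i)).2
    simp only [sz, fld, Multiset.map_bind, Multiset.sum_bind, this]
    simp
  · obtain ⟨i, _, hi⟩ := Multiset.mem_bind.1 hs
    exact lift_small n B none (sp i) l (sp_sq i) h s hi
  · simp only [fld, lift, Multiset.map_add, Multiset.bind_add]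
  · obtain ⟨i, _, hi⟩ := Multiset.mem_bind.1 hs
    obtain ⟨s', _, rfl⟩ := Multiset.mem_map.1 hi
    rfl

theorem ovl_path (hA : AApi) (hC : CApi) (n : ℕ) (f : ℝ → ℝ) (L : Sy ι I) (A : Finset I)
    (hn : 1 ≤ n) (hne : A.Nonempty) : Path n (ovl n f L A) ∧ ovl n f L A 0 = 1 := by
  have hc : (0 : ℝ) < A.card := by exact_mod_cast hne.card_pos
  have hw := fun i : I => w_path hA hC n (gg ι f) L (fun ω => sp i ω.2) 1 hn
    (fun ω => (nle (sp_sq i) ω.2).le)
  have hR : ∀ d, EE n (gg ι f) L d (fun ω ω' => Rr A ω.2 ω'.2) =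
      (∑ i ∈ A, EE n (gg ι f) L d (fun ω ω' => sp i ω.2 * sp i ω'.2)) / A.card := by
    intro d
    have := ee_R hA n (gg ι f) L d A hne (fun _ => 1)
    simp only [one_mul] at this
    rw [this, mul_div_cancel_left₀ _ hc.ne']
  have key : ∀ d, d < n → (if d + 1 < n then EE n (gg ι f) L (d + 1)
      (fun ω ω' => Rr A ω.2 ω'.2) else 0) ≤ EE n (gg ι f) L d (fun ω ω' => Rr A ω.2 ω'.2) := by
    intro d hd
    have h1 := fun i => (hw i).1.1 d hd
    simp only [if_pos hd] at h1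
    split_ifs with h
    · simp only [if_pos h] at h1
      rw [hR, hR]
      exact div_le_div_of_nonneg_right (sum_le_sum fun i _ => h1 i) hc.le
    · simp only [if_neg h] at h1
      rw [hR]
      exact div_nonneg (sum_nonneg fun i _ => h1 i) hc.le
  refine ⟨⟨fun d hd => ?_, ?_⟩, by simp [ovl]⟩
  · have h := key d hd
    simp only [ovl, Nat.succ_ne_zero, if_false, if_pos hd]
    split_ifs with h0 h1 h1
    · rw [if_pos h0] at h
      refine h.trans ?_
      rw [hR, div_le_one hc]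
      refine (sum_le_sum fun i _ => (hw i).2 d hd.le).trans ?_
      simp
    · rwa [if_pos h0] at h
    · exact zero_le_one
    · rwa [if_neg h0] at h
  · have : n ≠ 0 := by omega
    simp [ovl, this]

theorem conc_abs (hA : AApi) (hC : CApi) (n : ℕ) (f : ℝ → ℝ) (L : Sy ι I) (A : Finset I)
    (P : ℕ → ℝ) (e K : ℝ)
    (φ : ℕ → Om (Option ι) (I → Bool) → Om (Option ι) (I → Bool) → ℝ) (hn : 1 ≤ n)
    (hc : Conc n f L A P e) (hφ : ∀ d ω ω', |φ d ω ω'| ≤ K) :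
    (1 / (n : ℝ)) * ∑ d ∈ Ico 1 n,
      |EE n (gg ι f) L d (fun ω ω' => φ d ω ω' * Rr A ω.2 ω'.2) -
        P d * EE n (gg ι f) L d (φ d)| ≤ K * √e := by
  have hok := hC.ok n L hn
  have hK : 0 ≤ K := (abs_nonneg _).trans (hφ 0 (0, default) (0, default))
  have hn' : (0 : ℝ) < n := by exact_mod_cast hn
  set a : ℕ → ℝ := fun d => |EE n (gg ι f) L d (fun ω ω' => φ d ω ω' * Rr A ω.2 ω'.2) -
    P d * EE n (gg ι f) L d (φ d)| with ha
  have h1 : ∀ d ∈ Ico 1 n, a d ^ 2 ≤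
      K ^ 2 * EE n (gg ι f) L d (fun ω ω' => (Rr A ω.2 ω'.2 - P d) ^ 2) := by
    intro d hd
    have hd' : d + 1 ≤ n + 1 := by have := (mem_Ico.1 hd).2; omega
    have e1 := hA.e2add (chain L) (ex n) (ZZ (gg ι f)) (d + 1) (n + 1)
      (fun ω ω' => φ d ω ω' * Rr A ω.2 ω'.2) (φ d) 1 (-P d) (0, default)
    have e2 := hA.e2sq hok (ZZ (gg ι f)) (d + 1) hd'
      (fun x x' => 1 * (φ d x x' * Rr A x.2 x'.2) + -P d * φ d x x') (0, default)
    rw [e1] at e2
    rw [ha, sq_abs, ← ee_smul hA n _ L d (K ^ 2)]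
    simp only [EE]
    refine le_trans (le_of_eq (by ring)) (e2.trans (hA.e2mono hok _ _ hd' (fun x x' => ?_) _))
    have h2 : φ d x x' ^ 2 ≤ K ^ 2 := by
      rw [← sq_abs]
      exact pow_le_pow_left₀ (abs_nonneg _) (hφ d x x') 2
    nlinarith [sq_nonneg (Rr A x.2 x'.2 - P d)]
  have h2 : (∑ d ∈ Ico 1 n, a d) ^ 2 ≤ (n : ℝ) * ∑ d ∈ Ico 1 n, a d ^ 2 := by
    refine sq_sum_le_card_mul_sum_sq.trans (mul_le_mul_of_nonneg_right ?_
      (sum_nonneg fun d _ => sq_nonneg _))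
    rw [Nat.card_Ico]
    exact_mod_cast Nat.sub_le n 1
  have h3 : ∑ d ∈ Ico 1 n, a d ^ 2 ≤ K ^ 2 * (n * e) := by
    refine (sum_le_sum h1).trans ?_
    rw [← mul_sum]
    refine mul_le_mul_of_nonneg_left ?_ (sq_nonneg K)
    have := mul_le_mul_of_nonneg_left hc hn'.le
    rwa [← mul_assoc, mul_one_div_cancel hn'.ne', one_mul] at this
  have h4 : ((1 / (n : ℝ)) * ∑ d ∈ Ico 1 n, a d) ^ 2 ≤ K ^ 2 * e := by
    rw [mul_pow, div_pow, one_pow, one_div, inv_mul_le_iff₀ (by positivity)]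
    nlinarith [mul_le_mul_of_nonneg_left h3 hn'.le]
  have h5 := Real.le_sqrt_of_sq_le h4
  rwa [sqrt_mul (sq_nonneg K), sqrt_sq hK] at h5

end

end Gm

theorem gApi (hA : AApi) (hC : CApi) : GApi where
  lift_vr := Gm.lift_vr
  lift_small := Gm.lift_small
  sprof_var := Gm.sprof_var
  lvar_add := Gm.lvar_add
  vr_add := Gm.vr_add
  gam_prof := fun n g g1 g2 L o w p c2 _ hp hc hw => Gm.gam_prof hA n g g1 g2 L o w p c2 hp hc hw
  gam_one := Gm.gam_one hA
  gam_round := Gm.gam_round hA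
  gam_fld := Gm.gam_fld hA hC
  round_vr := Gm.round_vr
  fld_vr := Gm.fld_vr
  ovl_path := Gm.ovl_path hA hC
  w_path := fun n g L U K hn hU =>
    ⟨(Gm.w_path hA hC n g L U K hn hU).1, (Gm.w_path hA hC n g L U K hn hU).2 0 (Nat.zero_le n)⟩
  conc_abs := Gm.conc_abs hA hC

end Vale.Agent.P157
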