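import Vale.Agent.P157.Stm

namespace Vale.Agent.P157

open MeasureTheory ProbabilityTheory Finset Real Filter

set_option linter.unusedSectionVars false

namespace G1

section
variable {E : Type} [NormedAddCommGroup E] [NormedSpace ℝ E]

def Lp (K : ℝ) (F : E → ℝ) : Prop := ∀ x y, |F x - F y| ≤ K * ‖x - y‖

structure Apx {G : Type} [MeasurableSpace G] (K ε : ℝ) (l : Multiset E) (μ : Measure G)
    (v : G → E) : Prop where
  int : Integrable v μ
  bd : ∀ F : E → ℝ, Lp K F → ∀ x,
    |(lv l : Op (E × Unit)) (fun ω => F ω.1) (x, ()) - ∫ g, F (x + v g) ∂μ| ≤ ε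

theorem Lp.cont {K : ℝ} (hK : 0 ≤ K) {F : E → ℝ} (h : Lp K F) : Continuous F :=
  (LipschitzWith.of_dist_le' (K := K) (fun x y => by
    rw [Real.dist_eq, dist_eq_norm]; exact h x y)).continuous

theorem Lp.int {K : ℝ} (hK : 0 ≤ K) {F : E → ℝ} (h : Lp K F) {G : Type} [MeasurableSpace G]
    {μ : Measure G} [IsProbabilityMeasure μ] {v : G → E} (hv : Integrable v μ) (x : E) :
    Integrable (fun g => F (x + v g)) μ := by
  refine Integrable.mono' ((integrable_const |F x|).add (hv.norm.const_mul K)) ?_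
    (Eventually.of_forall fun g => ?_)
  · exact ((h.cont hK).comp (continuous_const.add continuous_id)).comp_aestronglyMeasurable hv.1
  · have := h (x + v g) x
    rw [add_sub_cancel_left] at this
    have h2 := abs_sub_abs_le_abs_sub (F (x + v g)) (F x)
    simp only [Real.norm_eq_abs, Pi.add_apply]
    linarith

theorem two (hA : AApi) (hC : CApi) {K ε1 ε2 : ℝ} (hK : 0 ≤ K) {G1 G2 : Type}
    [MeasurableSpace G1] [MeasurableSpace G2] {μ1 : Measure G1} {μ2 : Measure G2}
    [IsProbabilityMeasure μ1] [IsProbabilityMeasure μ2] {l1 l2 : Multiset E} {v1 : G1 → E}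
    {v2 : G2 → E} (h1 : Apx K ε1 l1 μ1 v1) (h2 : Apx K ε2 l2 μ2 v2) :
    Apx K (ε1 + ε2) (l1 + l2) (μ1.prod μ2) (fun p => v1 p.1 + v2 p.2) := by
  have hi : Integrable (fun p : G1 × G2 => v1 p.1 + v2 p.2) (μ1.prod μ2) :=
    (h1.int.comp_fst μ2).add (h2.int.comp_snd μ1)
  refine ⟨hi, fun F hF x => ?_⟩
  set H : E → ℝ := fun y => ∫ g, F (y + v2 g) ∂μ2 with hH
  have hHL : Lp K H := by
    intro y z
    simp only [hH]
    rw [← integral_sub (hF.int hK h2.int y) (hF.int hK h2.int z)]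
    have := norm_integral_le_of_norm_le_const (μ := μ2)
      (f := fun g => F (y + v2 g) - F (z + v2 g)) (C := K * ‖y - z‖)
      (Eventually.of_forall fun g => by
        have := hF (y + v2 g) (z + v2 g)
        rwa [add_sub_add_right_eq_sub] at this)
    simpa using this
  have e1 := h1.bd H hHL x
  have e2 : |(lv l1 : Op (E × Unit)) ((lv l2 : Op (E × Unit)) (fun ω => F ω.1) -
      fun ω => H ω.1) (x, ())| ≤ ε2 :=
    hA.abs_le (hC.lv_mk l1) (fun ω => h2.bd F hF ω.1) _
  rw [map_sub, Pi.sub_apply] at e2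
  rw [hC.lv_add, LinearMap.comp_apply, integral_prod _ (hF.int hK hi x)]
  have e3 : ∫ a, ∫ b, F (x + (v1 a + v2 b)) ∂μ2 ∂μ1 = ∫ a, H (x + v1 a) ∂μ1 := by
    simp only [hH, add_assoc]
  simp only [e3]
  rw [abs_le] at e1 e2 ⊢
  constructor <;> linarith [e1.1, e1.2, e2.1, e2.2]

theorem pi (hA : AApi) (hC : CApi) {K ε : ℝ} (hK : 0 ≤ K) {G : Type} [MeasurableSpace G]
    (μ : Measure G) [IsProbabilityMeasure μ] (m : ℕ) (l : Fin m → Multiset E) (v : Fin m → G → E)
    (h : ∀ k, Apx K ε (l k) μ (v k)) :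
    Apx K (m * ε) (∑ k, l k) (Measure.pi fun _ : Fin m => μ) (fun g => ∑ k, v k (g k)) := by
  induction m with
  | zero =>
    refine ⟨by simp, fun F _ x => ?_⟩
    simp [hC.lv_zero]
  | succ m ih =>
    have h2 := two hA hC hK (h 0) (ih (fun k => l k.succ) (fun k => v k.succ) (fun k => h k.succ))
    have hp := measurePreserving_piFinSuccAbove (fun _ : Fin (m + 1) => μ) 0
    have he : (fun g : Fin (m + 1) → G => ∑ k, v k (g k)) =
        (fun p : G × (Fin m → G) => v 0 p.1 + ∑ k : Fin m, v k.succ (p.2 k)) ∘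
          MeasurableEquiv.piFinSuccAbove (fun _ : Fin (m + 1) => G) 0 := by
      ext g
      rw [Fin.sum_univ_succ]
      rfl
    refine ⟨?_, fun F hF x => ?_⟩
    · rw [he]
      exact (hp.integrable_comp_emb (MeasurableEquiv.measurableEmbedding _)).2 h2.int
    · have h3 := h2.bd F hF x
      have h4 := hp.integral_comp' (fun p : G × (Fin m → G) =>
        F (x + (v 0 p.1 + ∑ k : Fin m, v k.succ (p.2 k))))
      rw [← h4] at h3
      rw [Fin.sum_univ_succ l]
      have h5 : (fun g : Fin (m + 1) → G => F (x + ∑ k, v k (g k))) = fun g => F (x +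
          (v 0 (MeasurableEquiv.piFinSuccAbove (fun _ : Fin (m + 1) => G) 0 g).1 + ∑ k : Fin m,
            v k.succ ((MeasurableEquiv.piFinSuccAbove (fun _ : Fin (m + 1) => G) 0 g).2 k))) := by
        ext g
        rw [Fin.sum_univ_succ]
        rfl
      rw [h5]
      refine h3.trans (le_of_eq ?_)
      push_cast; ring

theorem base (hC : CApi) (h : LinStmt) {K ε : ℝ} (hK : 0 ≤ K) (hε : 0 < ε) :
    ∀ᶠ D : ℕ in atTop, ∀ w : E, ‖w‖ ≤ 1 →
      Apx K ε (D • ({(1 / √(D : ℝ)) • w} : Multiset E)) (gaussianReal 0 1) (fun z => z • w) := by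
  obtain ⟨η, hη, H⟩ := h K 1 ε hε
  have ht : Tendsto (fun D : ℕ => 1 / √(D : ℝ)) atTop (nhds 0) := by
    simp only [one_div]
    exact tendsto_inv_atTop_zero.comp (Real.tendsto_sqrt_atTop.comp tendsto_natCast_atTop_atTop)
  filter_upwards [ht.eventually (ge_mem_nhds hη), eventually_ge_atTop 1] with D hD hD1 w hw
  have hD0 : (0 : ℝ) < D := by exact_mod_cast hD1
  refine ⟨?_, fun F hF x => ?_⟩
  · exact ((memLp_id_gaussianReal 1).integrable le_rfl).smul_const w
  · have h1 := (H (fun t => F (t • w + x)) (D • ({1 / √(D : ℝ)} : Multiset ℝ)) 1 0 (fun t s => by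
        refine (hF _ _).trans ?_
        rw [add_sub_add_right_eq_sub, ← sub_smul, add_sub_cancel_left, norm_smul, Real.norm_eq_abs]
        exact mul_le_mul_of_nonneg_left (mul_le_of_le_one_right (abs_nonneg _) hw) hK)
      zero_le_one le_rfl (fun a ha => by
        rw [Multiset.mem_singleton.1 (Multiset.mem_of_mem_nsmul ha), abs_of_nonneg (by positivity)]
        exact hD) (by
        rw [Multiset.map_nsmul, Multiset.sum_nsmul, Multiset.map_singleton, Multiset.sum_singleton,
          div_pow, Real.sq_sqrt hD0.le, nsmul_eq_mul, one_pow, mul_one_div_cancel hD0.ne', sub_self,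
          abs_zero]
        exact hη.le)).1
    have h2 := hC.lv_map ((smulAddHom ℝ E).flip w) x (fun u : Unit => u)
      (D • ({1 / √(D : ℝ)} : Multiset ℝ)) (fun ω : E × Unit => F ω.1) (0, ())
    simp only [AddMonoidHom.flip_apply, smulAddHom_apply, zero_smul, zero_add, Multiset.map_nsmul,
      Multiset.map_singleton] at h2
    rw [h2] at h1
    simp only [Real.sqrt_one, one_mul, zero_add, add_comm _ x] at h1
    exact h1

end

theorem lse {S : Type} [Fintype S] [Nonempty S] (c : ℝ) (hc : 0 < c) (a b : S → ℝ) (t : ℝ)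
    (h : ∀ s, a s ≤ b s + t) : log ((∑ s, exp (a s)) / c) ≤ log ((∑ s, exp (b s)) / c) + t := by
  have ha : 0 < (∑ s, exp (a s)) / c := div_pos (sum_pos (fun _ _ => exp_pos _) univ_nonempty) hc
  have hb : 0 < (∑ s, exp (b s)) / c := div_pos (sum_pos (fun _ _ => exp_pos _) univ_nonempty) hc
  rw [← log_exp t, ← log_mul hb.ne' (exp_pos t).ne']
  refine log_le_log ha ?_
  rw [div_mul_eq_mul_div, sum_mul]
  refine div_le_div_of_nonneg_right (sum_le_sum fun s _ => ?_) hc.le
  rw [← exp_add]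
  exact exp_le_exp.2 (h s)

noncomputable def FF (f : ℝ → ℝ) (N M : ℕ) (x : Option (Fin M) → (Fin N → Bool) → ℝ) : ℝ :=
  log ((∑ σ, exp (ZZ (gg (Fin M) f) (x, σ))) / 2 ^ N)

theorem FF_lp {B : ℝ} (hB : 0 ≤ B) {f : ℝ → ℝ} (hf : ∀ t h, |f (t + h) - f t| ≤ B * |h|)
    (N M : ℕ) : Lp (1 + M * B) (FF f N M) := by
  have key : ∀ x y : Option (Fin M) → (Fin N → Bool) → ℝ, ∀ σ,
      ZZ (gg (Fin M) f) (x, σ) ≤ ZZ (gg (Fin M) f) (y, σ) + (1 + M * B) * ‖x - y‖ := by
    intro x y σ
    have h1 : ∀ o, |x o σ - y o σ| ≤ ‖x - y‖ := fun o =>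
      (norm_le_pi_norm ((x - y) o) σ).trans (norm_le_pi_norm (x - y) o)
    unfold ZZ
    rw [Fintype.sum_option, Fintype.sum_option]
    have h2 : ∑ a : Fin M, f (x (some a) σ) ≤ ∑ a : Fin M, (f (y (some a) σ) + B * ‖x - y‖) := by
      refine sum_le_sum fun a _ => ?_
      have h3 := hf (y (some a) σ) (x (some a) σ - y (some a) σ)
      rw [add_sub_cancel] at h3
      have h4 := mul_le_mul_of_nonneg_left (h1 (some a)) hB
      linarith [(abs_le.1 h3).2]
    rw [sum_add_distrib, sum_const, card_univ, Fintype.card_fin, nsmul_eq_mul] at h2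
    have h5 := (abs_le.1 (h1 none)).2
    simp only [gg, Option.elim, id]
    linarith
  intro x y
  have a1 := lse (2 ^ N) (by positivity) _ _ _ (key x y)
  have a2 := lse (2 ^ N) (by positivity) _ _ _ (key y x)
  rw [norm_sub_rev] at a2
  unfold FF
  rw [abs_le]
  constructor <;> linarith

noncomputable def ww (N M : ℕ) (a : Fin M) (i : Fin N) : Option (Fin M) → (Fin N → Bool) → ℝ :=
  Pi.single (some a) ((1 / √(N : ℝ)) • sp i)

theorem ww_norm {N : ℕ} (hN : 1 ≤ N) (M : ℕ) (a : Fin M) (i : Fin N) : ‖ww N M a i‖ ≤ 1 := by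
  unfold ww
  rw [Pi.norm_single, norm_smul]
  have h1 : ‖(sp i : (Fin N → Bool) → ℝ)‖ ≤ 1 := by
    refine (pi_norm_le_iff_of_nonneg zero_le_one).2 fun σ => ?_
    unfold sp spin
    split_ifs <;> simp
  have h2 : ‖1 / √(N : ℝ)‖ ≤ 1 := by
    have : (1 : ℝ) ≤ √(N : ℝ) := Real.one_le_sqrt.2 (by exact_mod_cast hN)
    rw [Real.norm_eq_abs, abs_of_nonneg (by positivity), div_le_one (by linarith)]
    exact this
  exact mul_le_one₀ h2 (norm_nonneg _) h1

theorem sys_eq (N M D : ℕ) :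
    (sys 1 (univ : Finset (Fin N)) (univ : Finset (Fin M)) D (1 / √((N : ℝ) * D))).map vec =
      ∑ a : Fin M, ∑ i : Fin N, D • ({(1 / √(D : ℝ)) • ww N M a i} : Multiset _) := by
  unfold sys
  rw [Multiset.map_bind]
  show ∑ a : Fin M, _ = _
  refine sum_congr rfl fun a _ => ?_
  rw [← smul_sum, Multiset.map_nsmul]
  congr 1
  unfold round
  rw [Multiset.map_map, ← Multiset.bind_singleton]
  show ∑ i : Fin N, _ = _
  refine sum_congr rfl fun i _ => ?_
  congr 1
  unfold ww
  rw [← Pi.single_smul, smul_smul, Real.sqrt_mul (Nat.cast_nonneg N)]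
  show (Pi.single (some a) ((1 / (√(N : ℝ) * √(D : ℝ))) • sp i) :
    Option (Fin M) → (Fin N → Bool) → ℝ) = _
  congr 2
  rw [one_div_mul_one_div, mul_comm]

theorem FF_val {N : ℕ} (hN : 1 ≤ N) (f : ℝ → ℝ) (M : ℕ) (g : Fin M → Fin N → ℝ) :
    FF f N M (0 + ∑ a, ∑ i, g a i • ww N M a i) = N * pN f N M g := by
  have hN0 : (N : ℝ) ≠ 0 := by positivity
  unfold pN FF
  rw [← mul_assoc, mul_one_div_cancel hN0, one_mul, zero_add]
  congr 2
  refine sum_congr rfl fun σ _ => ?_
  congr 1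
  unfold ZZ
  rw [Fintype.sum_option]
  have h0 : ∀ a i, ww N M a i none = 0 := fun a i =>
    Pi.single_eq_of_ne (Option.some_ne_none a).symm _
  have h1 : ∀ b a i, ww N M a i (some b) σ = if a = b then spin (σ i) / √(N : ℝ) else 0 := by
    intro b a i
    unfold ww
    split_ifs with h
    · subst h
      rw [Pi.single_eq_same]
      simp only [Pi.smul_apply, smul_eq_mul, sp]
      ring
    · rw [Pi.single_eq_of_ne (fun h' => h (Option.some_injective _ h').symm)]; rfl
  simp only [gg, Option.elim, id, Finset.sum_apply, Pi.smul_apply, h0, h1, Pi.zero_apply,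
    smul_eq_mul, mul_zero, sum_const_zero, zero_add]
  refine sum_congr rfl fun b _ => ?_
  congr 1
  rw [sum_eq_single b (fun a _ h => by simp [h]) (by simp), sum_div]
  refine sum_congr rfl fun i _ => ?_
  rw [if_pos rfl, mul_div_assoc]

end G1

theorem g1Stmt (hA : AApi) (hC : CApi) (h : LinStmt) : G1Stmt := by
  intro B ε f N M hε hN hb hf
  have hB : 0 ≤ B := (abs_nonneg _).trans (hb 0)
  have hK : 0 ≤ 1 + M * B := by positivity
  have hε' : 0 < ε / (M * N + 1) := by positivity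
  filter_upwards [G1.base (E := Option (Fin M) → (Fin N → Bool) → ℝ) hC h hK hε'] with D hD
  have h1 := G1.pi hA hC hK _ M _ _ (fun a => G1.pi hA hC hK (gaussianReal 0 1) N _ _
    (fun i => hD (G1.ww N M a i) (G1.ww_norm hN M a i)))
  have h2 := h1.bd _ (G1.FF_lp hB hf N M) 0
  simp only [G1.FF_val hN] at h2
  rw [integral_const_mul, ← G1.sys_eq] at h2
  have h3 := hC.lv_map (AddMonoidHom.id _) 0 (fun _ : Fin N → Bool => ())
    ((sys 1 (univ : Finset (Fin N)) (univ : Finset (Fin M)) D (1 / √((N : ℝ) * D))).map vec)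
    (fun ω => G1.FF f N M ω.1) (0, default)
  simp only [AddMonoidHom.id_apply, add_zero, Multiset.map_id'] at h3
  rw [← h3] at h2
  refine le_trans h2 ?_
  rw [← mul_assoc, mul_div_assoc', div_le_iff₀ (by positivity)]
  nlinarith

end Vale.Agent.P157
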