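import Vale.Agent.P157.Stm

/-! P157: Gaussian limit of the scalar recursions. -/

namespace Vale.Agent.P157

open MeasureTheory ProbabilityTheory Finset Real

noncomputable section

namespace G2

def Lp (K : ℝ) (u : ℝ → ℝ) : Prop := ∀ t h, |u (t + h) - u t| ≤ K * |h|

theorem Lp.cont {K : ℝ} {u : ℝ → ℝ} (h : Lp K u) : Continuous u :=
  (LipschitzWith.of_dist_le' (K := K) fun x y => by
    simpa [Real.dist_eq] using h y (x - y)).continuous

theorem Lp.mul {K m : ℝ} {u : ℝ → ℝ} (h : Lp K u) (h0 : 0 ≤ m) (h1 : m ≤ 1) :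
    Lp K fun t => m * u t := fun t k => by
  rw [← mul_sub, abs_mul, abs_of_nonneg h0]
  exact (mul_le_of_le_one_left (abs_nonneg _) h1).trans (h t k)

theorem Lp.int {K : ℝ} {u : ℝ → ℝ} (h : Lp K u) (x s : ℝ) :
    Integrable (fun z => exp (u (x + s * z))) (gaussianReal 0 1) := by
  have h1 := ((integrable_exp_mul_gaussianReal (μ := 0) (v := 1) (K * |s|)).add
    (integrable_exp_mul_gaussianReal (μ := 0) (v := 1) (-(K * |s|)))).const_mul (exp (u x))
  have hc := h.cont
  refine h1.mono' (by fun_prop) (Filter.Eventually.of_forall fun z => ?_)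
  rw [Real.norm_eq_abs, abs_of_pos (exp_pos _)]
  have h2 : u (x + s * z) ≤ u x + K * |s| * |z| := by
    have := (abs_le.1 (h x (s * z))).2
    rw [abs_mul] at this
    linarith
  refine (exp_le_exp.2 h2).trans ?_
  rw [exp_add]
  refine mul_le_mul_of_nonneg_left ?_ (exp_pos _).le
  rw [Pi.add_apply]
  rcases abs_choice z with e | e <;> rw [e]
  · exact le_add_of_nonneg_right (exp_pos _).le
  · rw [mul_neg, neg_mul]; exact le_add_of_nonneg_left (exp_pos _).le

theorem Lp.one {K m : ℝ} {u : ℝ → ℝ} (h : Lp K u) (h0 : 0 < m) (h1 : m ≤ 1) (s x k : ℝ) :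
    m⁻¹ * log (∫ z, exp (m * u (x + k + s * z)) ∂gaussianReal 0 1) ≤
      m⁻¹ * log (∫ z, exp (m * u (x + s * z)) ∂gaussianReal 0 1) + K * |k| := by
  have i1 := (h.mul h0.le h1).int (x + k) s
  have i2 := (h.mul h0.le h1).int x s
  have p1 := integral_exp_pos i1
  have p2 := integral_exp_pos i2
  have e : ∫ z, exp (m * u (x + k + s * z)) ∂gaussianReal 0 1 ≤
      exp (m * (K * |k|)) * ∫ z, exp (m * u (x + s * z)) ∂gaussianReal 0 1 := by
    rw [← integral_const_mul]
    refine integral_mono i1 (i2.const_mul _) fun z => ?_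
    simp only [← exp_add, ← mul_add]
    refine exp_le_exp.2 (mul_le_mul_of_nonneg_left ?_ h0.le)
    have := (abs_le.1 (h (x + s * z) k)).2
    rw [add_right_comm x k]
    linarith
  have e2 := log_le_log p1 e
  rw [log_mul (exp_pos _).ne' p2.ne', log_exp] at e2
  refine (mul_le_mul_of_nonneg_left e2 (inv_pos.2 h0).le).trans (le_of_eq ?_)
  field_simp
  ring

theorem mpos {n d : ℕ} (h : d < n) : 1 / (n : ℝ) ≤ 1 - (d : ℝ) / n ∧ 1 - (d : ℝ) / n ≤ 1 := by
  have h1 : (d : ℝ) + 1 ≤ n := by exact_mod_cast h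
  have h2 : (0 : ℝ) ≤ d := Nat.cast_nonneg d
  have h3 : (0 : ℝ) < n := by linarith
  refine ⟨?_, sub_le_self _ (by positivity)⟩
  rw [le_sub_iff_add_le, ← add_div, div_le_one h3]
  linarith

theorem lip {K : ℝ} {Φ : ℝ → ℝ} (h : Lp K Φ) (n : ℕ) (q : ℕ → ℝ) (d : ℕ) (hd : d ≤ n) :
    Lp K (casc n q Φ d) := by
  induction d with
  | zero => exact h
  | succ d ih =>
    intro x k
    obtain ⟨m0, m1⟩ := mpos (show d < n from hd)
    have hn : (0 : ℝ) < n := by exact_mod_cast (show 0 < n by omega)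
    have m0' : 0 < 1 - (d : ℝ) / n := lt_of_lt_of_le (by positivity) m0
    have h1 := (ih (by omega)).one m0' m1 √(q d - q (d + 1)) x k
    have h2 := (ih (by omega)).one m0' m1 √(q d - q (d + 1)) (x + k) (-k)
    rw [add_neg_cancel_right, abs_neg] at h2
    simp only [casc]
    exact abs_le.2 ⟨by linarith, by linarith⟩

theorem anti {n : ℕ} {q : ℕ → ℝ} (h : Path n q) {a b : ℕ} (hab : a ≤ b) (hb : b ≤ n) :
    q b ≤ q a := by
  induction b, hab using Nat.le_induction with
  | base => exact le_rfl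
  | succ b _ ih => exact (h.1 b hb).trans (ih (by omega))

theorem main (hA : AApi) (hC : CApi) (hL : LinStmt) (n : ℕ) (K Q ε : ℝ) (hn : 1 ≤ n)
    (hε : 0 < ε) : ∃ η : ℝ, 0 < η ∧ ∀ (q : ℕ → ℝ) (l : Multiset (ℕ × ℝ)), Path n q → q 0 ≤ Q →
      (∀ s ∈ l, |s.2| ≤ η) → (∀ d, d < n → |lvar l d - (q d - q (d + 1))| ≤ η) →
      ∀ Φ, Lp K Φ → |sc n l Φ n 0 - casc n q Φ n 0| ≤ ε := by
  have hn' : (0 : ℝ) < n := by exact_mod_cast hn
  obtain ⟨η, h0, hη⟩ := hL K Q (ε / n ^ 2) (by positivity)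
  refine ⟨η, h0, fun q l hq hQ hl hv Φ hΦ => ?_⟩
  have key : ∀ j, j ≤ n → ∀ x, |sc n l Φ j x - casc n q Φ j x| ≤ j * (ε / n) := by
    intro j
    induction j with
    | zero => intro _ x; simp [sc, XX, casc]
    | succ j ih =>
      intro hj x
      obtain ⟨m0, m1⟩ := mpos (show j < n from hj)
      set m := 1 - (j : ℝ) / n with hm
      have m0' : 0 < m := lt_of_lt_of_le (by positivity) m0
      set l' := (l.filter (fun s => s.1 = j)).map Prod.snd with hl'
      have ok : Ok (fun _ => (lv l' : Op (ℝ × Unit))) (fun _ => m) 1 :=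
        ⟨fun _ => hC.lv_mk _, fun _ _ => m0', fun _ _ => m1, fun _ _ => le_rfl⟩
      have a1 := hA.xle ok (Z := fun ω => sc n l Φ j ω.1) (Z' := fun ω => casc n q Φ j ω.1)
        (c := j * (ε / n)) (fun ω => by linarith [(abs_le.1 (ih (by omega) ω.1)).2]) 1 le_rfl (x, ())
      have a2 := hA.xle ok (Z' := fun ω => sc n l Φ j ω.1) (Z := fun ω => casc n q Φ j ω.1)
        (c := j * (ε / n)) (fun ω => by linarith [(abs_le.1 (ih (by omega) ω.1)).1]) 1 le_rfl (x, ())
      have a3 := (hη (fun t => m * casc n q Φ j t) l' (q j - q (j + 1)) x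
        ((lip hΦ n q j (by omega)).mul m0'.le m1) (sub_nonneg.2 (hq.1 j hj))
        (by linarith [anti hq (Nat.zero_le j) (by omega), anti hq hj le_rfl, hq.2])
        (fun a ha => by
          obtain ⟨s, hs, rfl⟩ := Multiset.mem_map.1 ha
          exact hl s (Multiset.mem_of_mem_filter hs))
        (by rw [hl', Multiset.map_map]; exact hv j hj)).2
      have a4 : |XX (fun _ => (lv l' : Op (ℝ × Unit))) (fun _ => m)
          (fun ω => casc n q Φ j ω.1) 1 (x, ()) - casc n q Φ (j + 1) x| ≤ ε / n := by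
        simp only [XX, casc]
        rw [← hm, ← mul_sub, abs_mul, abs_of_pos (inv_pos.2 m0')]
        have : m⁻¹ ≤ n := by rwa [inv_le_comm₀ m0' hn', ← one_div]
        refine (mul_le_mul this a3 (abs_nonneg _) hn'.le).trans (le_of_eq ?_)
        field_simp
      have a5 : sc n l Φ (j + 1) x = XX (fun _ => (lv l' : Op (ℝ × Unit))) (fun _ => m)
          (fun ω => sc n l Φ j ω.1) 1 (x, ()) := rfl
      rw [a5]
      obtain ⟨b1, b2⟩ := abs_le.1 a4
      push_cast
      exact abs_le.2 ⟨by linarith, by linarith⟩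
  refine (key n le_rfl 0).trans (le_of_eq ?_)
  field_simp

theorem lc1 (t h : ℝ) : log (cosh (t + h)) ≤ log (cosh t) + |h| := by
  rw [← log_exp |h|, ← log_mul (cosh_pos t).ne' (exp_pos _).ne']
  refine log_le_log (cosh_pos _) ?_
  rw [cosh_eq, cosh_eq, neg_add, exp_add, exp_add]
  have h1 := mul_le_mul_of_nonneg_left (exp_le_exp.2 (le_abs_self h)) (exp_pos t).le
  have h2 := mul_le_mul_of_nonneg_left (exp_le_exp.2 (neg_le_abs h)) (exp_pos (-t)).le
  linarith

theorem lc : Lp 1 fun x => log (cosh x) := fun t h => by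
  have h1 := lc1 t h
  have h2 := lc1 (t + h) (-h)
  rw [add_neg_cancel_right, abs_neg] at h2
  exact abs_le.2 ⟨by linarith, by linarith⟩

end G2

theorem g2Stmt (hA : AApi) (hC : CApi) (h : LinStmt) (hk : LinkStmt) : G2Stmt := by
  intro n K Q ε hn hε
  obtain ⟨η, h0, h1⟩ := G2.main hA hC h n K Q ε hn hε
  obtain ⟨η', h0', h1'⟩ := G2.main hA hC h n 1 Q ε hn hε
  refine ⟨min η η', lt_min h0 h0', fun q l hq hQ hl hv => ⟨fun f hf => ?_, ?_⟩⟩
  · rw [(hk n l hn).1]
    exact h1 q l hq hQ (fun s hs => (hl s hs).trans (min_le_left _ _))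
      (fun d hd => (hv d hd).trans (min_le_left _ _)) f hf
  · rw [(hk n l hn).2, psi, sub_sub_sub_cancel_right]
    exact h1' q l hq hQ (fun s hs => (hl s hs).trans (min_le_right _ _))
      (fun d hd => (hv d hd).trans (min_le_right _ _)) _ G2.lc

end

end Vale.Agent.P157
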