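import Vale.Agent.P157.Stm

/-! P157: the approximate identities for the recorded fields. -/

namespace Vale.Agent.P157

open MeasureTheory ProbabilityTheory Finset Real Filter

noncomputable section

namespace Gg

structure Flip {Ω : Type} (P : ℕ → Op Ω) (r : ℕ → Ω → Ω → Prop) (κ : ℕ) (F : Ω → Ω)
    (e s Z0 : Ω → ℝ) : Prop where
  comm : ∀ j, j ≤ κ → ∀ (g : Ω → ℝ) ω, P j (fun x => g (F x)) ω = P j g (F ω)
  abso : ∀ (g : Ω → ℝ) ω, P (κ + 1) (fun x => g (F x)) ω = P (κ + 1) g ω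
  eF : ∀ ω, e (F ω) = - e ω
  sF : ∀ ω, s (F ω) = s ω
  ZF : ∀ ω, Z0 (F ω) = Z0 ω
  e2 : ∀ ω, e ω ^ 2 = 1
  s2 : ∀ ω, s ω ^ 2 = 1
  dep : Dep r (κ + 1) e

section
variable {Ω : Type} {P : ℕ → Op Ω} {r : ℕ → Ω → Ω → Prop} {κ : ℕ} {F : Ω → Ω} {e s Z0 : Ω → ℝ}

def th (κ : ℕ) (F : Ω → Ω) (j : ℕ) : Ω → Ω := if j ≤ κ + 1 then F else id

theorem th_ok (h : Flip P r κ F e s Z0) (t j : ℕ) (_ : j < t) (g : Ω → ℝ) (ω : Ω) :
    P j (fun x => g (th κ F j x)) ω = P j g (th κ F (j + 1) ω) := by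
  rcases lt_trichotomy j (κ + 1) with hj | hj | hj
  · have h1 : j ≤ κ + 1 := hj.le
    have h2 : j + 1 ≤ κ + 1 := hj
    simp only [th, h1, h2, if_true]
    exact h.comm j (by omega) g ω
  · subst hj
    have h2 : ¬ (κ + 1 + 1 ≤ κ + 1) := by omega
    simp only [th, h2, le_refl, if_true, if_false, id]
    exact h.abso g ω
  · have h1 : ¬ (j ≤ κ + 1) := by omega
    have h2 : ¬ (j + 1 ≤ κ + 1) := by omega
    simp only [th, h1, h2, if_false, id]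

theorem th0 : th κ F 0 = F := by simp [th]

theorem ce_th (hA : AApi) (h : Flip P r κ F e s Z0) (m : ℕ → ℝ) (b : ℕ) (g : Ω → ℝ) (ω : Ω) :
    Ce P m Z0 0 b (fun x => g (F x)) ω = Ce P m Z0 0 b g (th κ F b ω) := by
  have := (hA.tw m b (th κ F) (th_ok h b) Z0).2.1 0 b (Nat.zero_le _) le_rfl g ω
  simpa only [th0, h.ZF] using this

theorem e2_both (hA : AApi) (h : Flip P r κ F e s Z0) (m : ℕ → ℝ) {l t : ℕ} (hl : l ≤ t)
    (ht : κ + 1 < t) (φ : Ω → Ω → ℝ) (ω : Ω) :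
    E2 P m Z0 l t (fun x x' => φ (F x) (F x')) ω = E2 P m Z0 l t φ ω := by
  have := (hA.tw m t (th κ F) (th_ok h t) Z0).2.2 l hl φ ω
  have h2 : ¬ (t ≤ κ + 1) := by omega
  simp only [th0, h.ZF] at this
  simpa only [th, h2, if_false, id] using this

theorem e2_first (hA : AApi) (h : Flip P r κ F e s Z0) (m : ℕ → ℝ) {l : ℕ} (t : ℕ)
    (hl : κ + 1 < l) (φ : Ω → Ω → ℝ) (ω : Ω) :
    E2 P m Z0 l t (fun x x' => φ (F x) x') ω = E2 P m Z0 l t φ ω := by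
  have h2 : ¬ (l ≤ κ + 1) := by omega
  unfold E2
  refine congrArg (fun g => Ce P m Z0 l t g ω) ?_
  funext ω'
  have := ce_th hA h m l (fun ω1 => Ce P m Z0 0 l (fun ω2 => φ ω1 ω2) ω') ω'
  simpa only [th, h2, if_false, id] using this

theorem e2_neg (hA : AApi) (m : ℕ → ℝ) (Z : Ω → ℝ) (l t : ℕ) (φ : Ω → Ω → ℝ) (ω : Ω) :
    E2 P m Z l t (fun x x' => - φ x x') ω = - E2 P m Z l t φ ω := by
  have := hA.e2add P m Z l t φ φ (-1) 0 ω
  simpa using this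

theorem dep_le (hf : Fil P r) {u : Ω → ℝ} {a b : ℕ} (hab : a ≤ b) (hu : Dep r b u) : Dep r a u := by
  induction hab with
  | refl => exact hu
  | step _ ih => exact ih (fun ω ω' hr => hu ω ω' (hf.mono _ _ _ hr))

theorem ce_low (hF : FApi) (hf : Fil P r) (h : Flip P r κ F e s Z0) (m : ℕ → ℝ) (y : ℝ) {d : ℕ}
    (hd : d ≤ κ) (ω : Ω) :
    Ce P m Z0 0 (d + 1) (fun x => y * e x * s x) ω = y * e ω * Ce P m Z0 0 (d + 1) s ω := by
  refine hF.pull hf m Z0 0 (d + 1) (fun x => y * e x) s ?_ ω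
  intro x x' hr
  have := dep_le hf (show d + 1 ≤ κ + 1 by omega) h.dep x x' hr
  simp only [this]

theorem ce_high (hA : AApi) (h : Flip P r κ F e s Z0) (m : ℕ → ℝ) (y : ℝ) {d : ℕ}
    (hd : κ < d) (ω : Ω) : Ce P m Z0 0 (d + 1) (fun x => y * e x * s x) ω = 0 := by
  have h1 := ce_th hA h m (d + 1) (fun x => y * e x * s x) ω
  have h2 : ¬ (d + 1 ≤ κ + 1) := by omega
  simp only [th, h2, if_false, id, h.eF, h.sF] at h1
  have h3 : (fun x => y * -e x * s x) = -(fun x => y * e x * s x) := by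
    funext x; simp
  rw [h3, map_neg, Pi.neg_apply] at h1
  linarith

theorem ce_inv (hA : AApi) (h : Flip P r κ F e s Z0) (m : ℕ → ℝ) {d : ℕ} (hd : d ≤ κ) (ω : Ω) :
    Ce P m Z0 0 (d + 1) s (F ω) = Ce P m Z0 0 (d + 1) s ω := by
  have h1 := ce_th hA h m (d + 1) s ω
  have h2 : d + 1 ≤ κ + 1 := by omega
  simp only [th, h2, if_true, h.sF] at h1
  exact h1.symm

end

theorem abel (n : ℕ) (a : ℕ → ℝ) (l : ℕ) :
    ∑ j ∈ range (l + 1), ex n j * (a j - a (j + 1)) =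
      a 0 - (1 / (n : ℝ)) * ∑ d ∈ Ico 1 l, a (d + 1) - ex n l * a (l + 1) := by
  induction l with
  | zero => simp [ex]
  | succ l ih =>
    rw [sum_range_succ, ih]
    cases l with
    | zero => simp [ex]
    | succ l =>
      rw [sum_Ico_succ_top (show 1 ≤ l + 1 by omega)]
      simp only [ex]
      push_cast
      ring

theorem exp_le (c y : ℝ) (hc : 0 ≤ c) (hy0 : 0 ≤ y) (hy : y ≤ 1) :
    exp (c * y) - 1 ≤ c * exp c * y := by
  have h1 : 1 - c * y ≤ exp (-(c * y)) := by have := add_one_le_exp (-(c * y)); linarith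
  have h2 : exp (c * y) * exp (-(c * y)) = 1 := by rw [← exp_add]; simp
  have h3 : exp (c * y) ≤ exp c := exp_le_exp.2 (by nlinarith)
  have h4 := exp_pos (c * y)
  have h5 : exp (c * y) * (1 - c * y) ≤ 1 := by nlinarith
  have h6 : c * y * exp (c * y) ≤ c * y * exp c := mul_le_mul_of_nonneg_left h3 (mul_nonneg hc hy0)
  nlinarith

section
variable {Ω : Type} {P : ℕ → Op Ω} {m : ℕ → ℝ} {t : ℕ}

theorem ce_chg1 (hA : AApi) (ho : Ok P m t) (Z A : Ω → ℝ) (y : ℝ) (hb : ∀ ω, |A ω| ≤ y)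
    (hy : y ≤ 1) {b : ℕ} (hbt : b ≤ t) (u : Ω → ℝ) (hu : ∀ ω, |u ω| ≤ 1) (ω : Ω) :
    Ce P m (Z + A) 0 b u ω - Ce P m Z 0 b u ω ≤ 4 * exp 2 * y := by
  have hy0 : 0 ≤ y := (abs_nonneg _).trans (hb ω)
  have h1 := hA.chg ho Z A y hb 0 b hbt ((fun _ => 1) + u)
    (fun x => by have := abs_le.1 (hu x); simp only [Pi.add_apply]; linarith) ω
  rw [map_add, map_add, Pi.add_apply, Pi.add_apply, (hA.ce ho _ 0 b hbt).2,
    (hA.ce ho _ 0 b hbt).2] at h1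
  have h2 := abs_le.1 (hA.abs_le (hA.ce ho Z 0 b hbt) hu ω)
  have h3 := exp_le 2 y (by norm_num) hy0 hy
  have h4 : 0 ≤ exp (2 * y) - 1 := by have := add_one_le_exp (2 * y); linarith
  nlinarith

theorem ce_chg (hA : AApi) (ho : Ok P m t) (Z A : Ω → ℝ) (y : ℝ) (hb : ∀ ω, |A ω| ≤ y)
    (hy : y ≤ 1) {b : ℕ} (hbt : b ≤ t) (u : Ω → ℝ) (hu : ∀ ω, |u ω| ≤ 1) (ω : Ω) :
    |Ce P m (Z + A) 0 b u ω - Ce P m Z 0 b u ω| ≤ 4 * exp 2 * y := by
  have h1 := ce_chg1 hA ho Z A y hb hy hbt u hu ω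
  have h2 := ce_chg1 hA ho Z A y hb hy hbt (-u) (fun x => by simpa using hu x) ω
  rw [map_neg, map_neg, Pi.neg_apply, Pi.neg_apply] at h2
  rw [abs_le]; constructor <;> linarith

theorem e2_shift (hA : AApi) (ho : Ok P m t) (Z : Ω → ℝ) {l : ℕ} (hl : l ≤ t) (c : ℝ)
    (φ : Ω → Ω → ℝ) (ω : Ω) :
    E2 P m Z l t (fun x x' => c + φ x x') ω = c + E2 P m Z l t φ ω := by
  have h1 := hA.e2add P m Z l t (fun _ _ => c) φ 1 1 ω
  rw [hA.e2const ho Z l hl] at h1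
  simpa using h1

theorem e2_chg1 (hA : AApi) (ho : Ok P m t) (Z A : Ω → ℝ) (y : ℝ) (hb : ∀ ω, |A ω| ≤ y)
    (hy : y ≤ 1) {l : ℕ} (hl : l ≤ t) (ψ ψ0 : Ω → Ω → ℝ) (a K : ℝ)
    (h0 : ∀ x x', |ψ0 x x'| ≤ K) (h1 : ∀ x x', |ψ x x' - ψ0 x x'| ≤ a) (ω : Ω) :
    E2 P m (Z + A) l t ψ ω - E2 P m Z l t ψ0 ω ≤ a + 12 * exp 6 * K * y := by
  have hy0 : 0 ≤ y := (abs_nonneg _).trans (hb ω)
  have hK : 0 ≤ K := (abs_nonneg _).trans (h0 ω ω)
  have e1 := hA.e2mono ho (Z + A) l hl (φ := ψ) (ψ := fun x x' => a + ψ0 x x')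
    (fun x x' => by have := abs_le.1 (h1 x x'); linarith) ω
  rw [e2_shift hA ho _ hl] at e1
  have e2 := hA.chg2 ho Z A y hb l hl (fun x x' => K + ψ0 x x')
    (fun x x' => by have := abs_le.1 (h0 x x'); linarith) ω
  rw [e2_shift hA ho _ hl, e2_shift hA ho _ hl] at e2
  have e3 := hA.e2mono ho Z l hl (φ := ψ0) (ψ := fun _ _ => K)
    (fun x x' => (abs_le.1 (h0 x x')).2) ω
  rw [hA.e2const ho Z l hl] at e3
  have h3 := exp_le 6 y (by norm_num) hy0 hy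
  have h4 : 0 ≤ exp (6 * y) - 1 := by have := add_one_le_exp (6 * y); linarith
  have h5 : (exp (6 * y) - 1) * (K + E2 P m Z l t ψ0 ω) ≤ (exp (6 * y) - 1) * (2 * K) :=
    mul_le_mul_of_nonneg_left (by linarith) h4
  have h6 : (exp (6 * y) - 1) * (2 * K) ≤ (6 * exp 6 * y) * (2 * K) :=
    mul_le_mul_of_nonneg_right h3 (by linarith)
  nlinarith

theorem e2_chg (hA : AApi) (ho : Ok P m t) (Z A : Ω → ℝ) (y : ℝ) (hb : ∀ ω, |A ω| ≤ y)
    (hy : y ≤ 1) {l : ℕ} (hl : l ≤ t) (ψ ψ0 : Ω → Ω → ℝ) (a K : ℝ)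
    (h0 : ∀ x x', |ψ0 x x'| ≤ K) (h1 : ∀ x x', |ψ x x' - ψ0 x x'| ≤ a) (ω : Ω) :
    |E2 P m (Z + A) l t ψ ω - E2 P m Z l t ψ0 ω| ≤ a + 12 * exp 6 * K * y := by
  have e1 := e2_chg1 hA ho Z A y hb hy hl ψ ψ0 a K h0 h1 ω
  have e2 := e2_chg1 hA ho Z A y hb hy hl (fun x x' => - ψ x x') (fun x x' => - ψ0 x x') a K
    (fun x x' => by simpa using h0 x x')
    (fun x x' => by rw [← abs_neg]; convert h1 x x' using 2; ring) ω
  rw [e2_neg hA, e2_neg hA] at e2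
  rw [abs_le]; constructor <;> linarith

end

theorem avg_le {n : ℕ} (hn : 1 ≤ n) (S : Finset ℕ) (hS : S.card ≤ n) (a : ℕ → ℝ) (c : ℝ)
    (hc : 0 ≤ c) (ha : ∀ d ∈ S, |a d| ≤ c) : |(1 / (n : ℝ)) * ∑ d ∈ S, a d| ≤ c := by
  have hn' : (0 : ℝ) < n := by exact_mod_cast hn
  have h1 : |∑ d ∈ S, a d| ≤ n * c := by
    refine (abs_sum_le_sum_abs _ _).trans ((sum_le_card_nsmul _ _ c ha).trans ?_)
    rw [nsmul_eq_mul]
    exact mul_le_mul_of_nonneg_right (by exact_mod_cast hS) hc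
  rw [abs_mul, abs_of_pos (by positivity : (0 : ℝ) < 1 / n), one_div, inv_mul_le_iff₀ hn']
  exact h1

theorem abs_sq {a : ℝ} (h : a ^ 2 = 1) : |a| = 1 := by
  rw [← sq_eq_sq₀ (abs_nonneg a) zero_le_one, sq_abs, h, one_pow]

section
variable {Ω : Type}

def psU (n κ : ℕ) (s : Ω → ℝ) (β : ℕ → Ω → ℝ) (x : Ω) : ℝ :=
  1 - (1 / (n : ℝ)) * ∑ d ∈ Icc 1 κ, s x * β d x

def psS (n l : ℕ) (s : Ω → ℝ) (β : ℕ → Ω → ℝ) (x x' : Ω) : ℝ :=
  1 + s x * s x' - (1 / (n : ℝ)) * ∑ d ∈ Ico 1 l, (s x * β d x + s x * β d x') -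
    (ex n l + 1 / (n : ℝ)) * (s x * β l x)

theorem psU_le {n κ : ℕ} (hn : 1 ≤ n) (hκ : κ < n) {s : Ω → ℝ} (hs : ∀ x, s x ^ 2 = 1)
    {β β' : ℕ → Ω → ℝ} {δ : ℝ} (hδ : 0 ≤ δ) (h1 : ∀ d, d ≤ n → ∀ x, |β d x| ≤ 1)
    (h2 : ∀ d, d ≤ n → ∀ x, |β' d x - β d x| ≤ δ) (x : Ω) :
    |psU n κ s β x| ≤ 6 ∧ |psU n κ s β' x - psU n κ s β x| ≤ 4 * δ := by
  have hc : (Icc 1 κ).card ≤ n := by simp; omega
  have a1 := abs_le.1 (avg_le hn _ hc (fun d => s x * β d x) 1 zero_le_one (fun d hd => by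
    rw [abs_mul, abs_sq (hs x), one_mul]; exact h1 d (by have := (mem_Icc.1 hd).2; omega) x))
  have a2 := abs_le.1 (avg_le hn _ hc (fun d => s x * β' d x - s x * β d x) δ hδ (fun d hd => by
    rw [← mul_sub, abs_mul, abs_sq (hs x), one_mul]
    exact h2 d (by have := (mem_Icc.1 hd).2; omega) x))
  rw [sum_sub_distrib, mul_sub] at a2
  unfold psU
  constructor <;> rw [abs_le] <;> constructor <;> linarith [a1.1, a1.2, a2.1, a2.2]

theorem ex_bd {n l : ℕ} (hn : 1 ≤ n) (hl : l < n) :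
    0 ≤ ex n l + 1 / (n : ℝ) ∧ ex n l + 1 / (n : ℝ) ≤ 2 := by
  have hn' : (1 : ℝ) ≤ n := by exact_mod_cast hn
  have h1 : 1 / (n : ℝ) ≤ 1 := by rw [div_le_one (by linarith)]; exact hn'
  have h0 : 0 ≤ 1 / (n : ℝ) := by positivity
  cases l with
  | zero => simp only [ex]; constructor <;> linarith
  | succ l =>
    have h2 : (l : ℝ) / n ≤ 1 := by
      rw [div_le_one (by linarith)]; exact_mod_cast (show l ≤ n by omega)
    have h3 : 0 ≤ (l : ℝ) / n := by positivity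
    simp only [ex]; constructor <;> linarith

theorem psS_le {n l : ℕ} (hn : 1 ≤ n) (hl : l < n) {s : Ω → ℝ} (hs : ∀ x, s x ^ 2 = 1)
    {β β' : ℕ → Ω → ℝ} {δ : ℝ} (hδ : 0 ≤ δ) (h1 : ∀ d, d ≤ n → ∀ x, |β d x| ≤ 1)
    (h2 : ∀ d, d ≤ n → ∀ x, |β' d x - β d x| ≤ δ) (x x' : Ω) :
    |psS n l s β x x'| ≤ 6 ∧ |psS n l s β' x x' - psS n l s β x x'| ≤ 4 * δ := by
  have hc : (Ico 1 l).card ≤ n := by simp; omega
  have b1 : ∀ d, d ≤ n → ∀ z, |s x * β d z| ≤ 1 := fun d hd z => by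
    rw [abs_mul, abs_sq (hs x), one_mul]; exact h1 d hd z
  have b2 : ∀ d, d ≤ n → ∀ z, |s x * β' d z - s x * β d z| ≤ δ := fun d hd z => by
    rw [← mul_sub, abs_mul, abs_sq (hs x), one_mul]; exact h2 d hd z
  have a1 := abs_le.1 (avg_le hn _ hc (fun d => s x * β d x + s x * β d x') 2 (by norm_num)
    (fun d hd => by
      have hd' : d ≤ n := by have := (mem_Ico.1 hd).2; omega
      exact (abs_add_le _ _).trans (by linarith [b1 d hd' x, b1 d hd' x'])))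
  have a2 := abs_le.1 (avg_le hn _ hc
    (fun d => (s x * β' d x + s x * β' d x') - (s x * β d x + s x * β d x')) (2 * δ) (by linarith)
    (fun d hd => by
      have hd' : d ≤ n := by have := (mem_Ico.1 hd).2; omega
      have e1 := abs_le.1 (b2 d hd' x)
      have e2 := abs_le.1 (b2 d hd' x')
      rw [abs_le]; constructor <;> linarith))
  rw [sum_sub_distrib, mul_sub] at a2
  have a3 : |s x * s x'| ≤ 1 := by rw [abs_mul, abs_sq (hs x), abs_sq (hs x')]; norm_num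
  have a3' := abs_le.1 a3
  obtain ⟨c0, c2⟩ := ex_bd hn hl
  have a4 : |(ex n l + 1 / (n : ℝ)) * (s x * β l x)| ≤ 2 := by
    rw [abs_mul, abs_of_nonneg c0]
    nlinarith [b1 l hl.le x, abs_nonneg (s x * β l x)]
  have a5 : |(ex n l + 1 / (n : ℝ)) * (s x * β' l x) - (ex n l + 1 / (n : ℝ)) * (s x * β l x)| ≤
      2 * δ := by
    rw [← mul_sub, abs_mul, abs_of_nonneg c0]
    nlinarith [b2 l hl.le x, abs_nonneg (s x * β' l x - s x * β l x)]
  have a4' := abs_le.1 a4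
  have a5' := abs_le.1 a5
  unfold psS
  constructor <;> rw [abs_le] <;> constructor <;>
    linarith [a1.1, a1.2, a2.1, a2.2, a3'.1, a3'.2, a4'.1, a4'.2, a5'.1, a5'.2]

end

section
variable {Ω : Type} {P : ℕ → Op Ω} {r : ℕ → Ω → Ω → Prop} {κ n : ℕ} {F : Ω → Ω}
  {e s Z0 : Ω → ℝ}

def bb (P : ℕ → Op Ω) (n : ℕ) (Z s : Ω → ℝ) (d : ℕ) : Ω → ℝ := Ce P (ex n) Z 0 (d + 1) s

def WW (P : ℕ → Op Ω) (n : ℕ) (Z A : Ω → ℝ) (l : ℕ) (x : Ω) : ℝ :=
  ∑ j ∈ range l, ex n j * (Ce P (ex n) Z 0 j A x - Ce P (ex n) Z 0 (j + 1) A x)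

theorem ww_high (hA : AApi) (hF : FApi) (hf : Fil P r) (h : Flip P r κ F e s Z0) (y : ℝ) {l : ℕ}
    (hl : κ < l) (x : Ω) :
    e x * s x * WW P n Z0 (fun x => y * e x * s x) (l + 1) x = y * psU n κ s (bb P n Z0 s) x := by
  unfold WW
  rw [abel n (fun j => Ce P (ex n) Z0 0 j (fun x => y * e x * s x) x) l, ce_high hA h _ y hl,
    hA.self P _ Z0 le_rfl]
  have e1 : ∑ d ∈ Ico 1 l, Ce P (ex n) Z0 0 (d + 1) (fun x => y * e x * s x) x =
      ∑ d ∈ Icc 1 κ, y * e x * bb P n Z0 s d x := by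
    rw [← sum_subset (s₁ := Icc 1 κ) (fun d hd => by
      rw [mem_Icc] at hd; rw [mem_Ico]; omega) (fun d hd hd' => by
      rw [mem_Ico] at hd; rw [mem_Icc] at hd'
      exact ce_high hA h _ y (by omega) x)]
    exact sum_congr rfl (fun d hd => ce_low hF hf h _ y (mem_Icc.1 hd).2 x)
  rw [e1, psU, ← mul_sum, ← mul_sum]
  have h1 := h.e2 x
  have h2 := h.s2 x
  generalize ∑ d ∈ Icc 1 κ, bb P n Z0 s d x = T
  linear_combination (y * s x ^ 2 - y * (1 / (n : ℝ)) * s x * T) * h1 + y * h2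

theorem ww_sh (hA : AApi) (hF : FApi) (hf : Fil P r) (h : Flip P r κ F e s Z0) (y : ℝ)
    (hκ1 : 1 ≤ κ) (hκ : κ < n) (x x' : Ω) (hr : r (κ + 1) x x') :
    e x * s x * (WW P n Z0 (fun x => y * e x * s x) (n + 1) x +
      WW P n Z0 (fun x => y * e x * s x) (κ + 1) x') = y * psS n κ s (bb P n Z0 s) x x' := by
  rw [mul_add, ww_high hA hF hf h y hκ]
  unfold WW
  rw [abel n (fun j => Ce P (ex n) Z0 0 j (fun x => y * e x * s x) x') κ,
    ce_low hF hf h _ y le_rfl, hA.self P _ Z0 le_rfl]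
  have e1 : ∑ d ∈ Ico 1 κ, Ce P (ex n) Z0 0 (d + 1) (fun x => y * e x * s x) x' =
      ∑ d ∈ Ico 1 κ, y * e x' * bb P n Z0 s d x' :=
    sum_congr rfl (fun d hd => ce_low hF hf h _ y (mem_Ico.1 hd).2.le x')
  have e2 : Ce P (ex n) Z0 0 (κ + 1) s x' = bb P n Z0 s κ x :=
    (hF.depC hf (ex n) Z0 (Nat.zero_le _) (fun a b hab => by rw [hf.zero a b hab]) x x' hr).symm
  have e3 : Icc 1 κ = insert κ (Ico 1 κ) := by
    ext d; simp only [mem_Icc, mem_insert, mem_Ico]; omega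
  rw [e1, e2, ← h.dep x x' hr, psU, psS, e3, sum_insert (by simp), sum_add_distrib, ← mul_sum,
    ← mul_sum, ← mul_sum]
  have h1 := h.e2 x
  generalize ∑ d ∈ Ico 1 κ, bb P n Z0 s d x = T
  generalize ∑ d ∈ Ico 1 κ, bb P n Z0 s d x' = T'
  linear_combination
    (y * s x * s x' - y * (1 / (n : ℝ)) * s x * T' - y * ex n κ * s x * bb P n Z0 s κ x) * h1

end

section
variable {Ω : Type} {P : ℕ → Op Ω} {r : ℕ → Ω → Ω → Prop} {κ n : ℕ} {F : Ω → Ω}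
  {e s Z0 : Ω → ℝ}

/-- the expansion `l3` with its constant -/
def L3 (C : ℝ) : Prop := ∀ (Ω : Type) (P : ℕ → Op Ω) (r : ℕ → Ω → Ω → Prop) (m : ℕ → ℝ) (t : ℕ),
    Ok P m t → Fil P r → ∀ (Z A : Ω → ℝ) (y : ℝ), (∀ ω, |A ω| ≤ y) → y ≤ 1 → ∀ l, l ≤ t →
    ∀ G : Ω → Ω → ℝ, (∀ x x', |G x x'| ≤ 1) → ∀ ω0,
      |E2 P m (Z + A) l t G ω0 - E2 P m Z l t (fun x x' => G x x' * (1 +
        ∑ j ∈ range t, m j * (Ce P m Z 0 j A x - Ce P m Z 0 (j + 1) A x) +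
        ∑ j ∈ range l, m j * (Ce P m Z 0 j A x' - Ce P m Z 0 (j + 1) A x'))) ω0| ≤ C * y ^ 2

def CC (C : ℝ) : ℝ := |C| + 16 * exp 2 + 72 * exp 6

theorem fin (hA : AApi) {C : ℝ} (hL : L3 C) (ho : Ok P (ex n) (n + 1)) (hf : Fil P r)
    (h : Flip P r κ F e s Z0) {y : ℝ} (hy0 : 0 < y) (hy : y ≤ 1) {l : ℕ} (hl : l ≤ n)
    (φ : Ω → Ω → ℝ) (hφ : ∀ x x', |φ x x'| ≤ 1) (ψ : (ℕ → Ω → ℝ) → Ω → Ω → ℝ)
    (hψ : ∀ (β β' : ℕ → Ω → ℝ) (δ : ℝ), 0 ≤ δ → (∀ d, d ≤ n → ∀ x, |β d x| ≤ 1) →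
      (∀ d, d ≤ n → ∀ x, |β' d x - β d x| ≤ δ) → ∀ x x',
      |ψ β x x'| ≤ 6 ∧ |ψ β' x x' - ψ β x x'| ≤ 4 * δ) (ω0 : Ω)
    (hid : E2 P (ex n) Z0 (l + 1) (n + 1) (fun x x' => φ x x' * (e x * s x) * (1 +
        WW P n Z0 (fun x => y * e x * s x) (n + 1) x +
        WW P n Z0 (fun x => y * e x * s x) (l + 1) x')) ω0 =
      y * E2 P (ex n) Z0 (l + 1) (n + 1) (fun x x' => φ x x' * ψ (bb P n Z0 s) x x') ω0) :
    |E2 P (ex n) (Z0 + fun x => y * e x * s x) (l + 1) (n + 1)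
        (fun x x' => φ x x' * (e x * s x)) ω0 -
      y * E2 P (ex n) (Z0 + fun x => y * e x * s x) (l + 1) (n + 1)
        (fun x x' => φ x x' * ψ (bb P n (Z0 + fun x => y * e x * s x) s) x x') ω0| ≤
      CC C * y ^ 2 := by
  have hb : ∀ x, |y * e x * s x| ≤ y := fun x => by
    rw [abs_mul, abs_mul, abs_sq (h.e2 x), abs_sq (h.s2 x), abs_of_pos hy0]; simp
  have hs : ∀ x, |s x| ≤ 1 := fun x => (abs_sq (h.s2 x)).le
  have a1 := hL Ω P r (ex n) (n + 1) ho hf Z0 (fun x => y * e x * s x) y hb hy (l + 1) (by omega)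
    (fun x x' => φ x x' * (e x * s x)) (fun x x' => by
      rw [abs_mul, abs_mul, abs_sq (h.e2 x), abs_sq (h.s2 x)]; simpa using hφ x x') ω0
  have hid' := hid
  unfold WW at hid'
  rw [hid'] at a1
  have hδ : 0 ≤ 4 * exp 2 * y := by positivity
  have a2 := hψ (bb P n Z0 s) (bb P n (Z0 + fun x => y * e x * s x) s) (4 * exp 2 * y) hδ
    (fun d hd x => hA.abs_le (hA.ce ho Z0 0 (d + 1) (by omega)) hs x)
    (fun d hd x => ce_chg hA ho Z0 _ y hb hy (by omega) s hs x)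
  have a3 := e2_chg hA ho Z0 (fun x => y * e x * s x) y hb hy (l := l + 1) (by omega)
    (fun x x' => φ x x' * ψ (bb P n (Z0 + fun x => y * e x * s x) s) x x')
    (fun x x' => φ x x' * ψ (bb P n Z0 s) x x') (4 * (4 * exp 2 * y)) 6
    (fun x x' => by
      rw [abs_mul]
      nlinarith [hφ x x', (a2 x x').1, abs_nonneg (φ x x'), abs_nonneg (ψ (bb P n Z0 s) x x')])
    (fun x x' => by
      rw [← mul_sub, abs_mul]
      exact (mul_le_mul (hφ x x') (a2 x x').2 (abs_nonneg _) zero_le_one).trans (by linarith)) ω0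
  have a4 := mul_le_mul_of_nonneg_left a3 hy0.le
  rw [← abs_of_pos hy0, ← abs_mul, abs_of_pos hy0, mul_sub] at a4
  have a5 : C * y ^ 2 ≤ |C| * y ^ 2 := mul_le_mul_of_nonneg_right (le_abs_self C) (sq_nonneg y)
  have b1 := abs_le.1 a1
  have b4 := abs_le.1 a4
  unfold CC
  rw [abs_le]; constructor <;> nlinarith [b1.1, b1.2, b4.1, b4.2]

theorem mainU (hA : AApi) (hF : FApi) {C : ℝ} (hL : L3 C) (ho : Ok P (ex n) (n + 1))
    (hf : Fil P r) (h : Flip P r κ F e s Z0) {y : ℝ} (hy0 : 0 < y) (hy : y ≤ 1) {l : ℕ}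
    (hκ : κ < l) (hl : l ≤ n) (φ : Ω → Ω → ℝ) (hφ : ∀ x x', |φ x x'| ≤ 1)
    (hφF : ∀ x x', φ (F x) x' = φ x x') (ω0 : Ω) :
    |E2 P (ex n) (Z0 + fun x => y * e x * s x) (l + 1) (n + 1)
        (fun x x' => φ x x' * (e x * s x)) ω0 -
      y * E2 P (ex n) (Z0 + fun x => y * e x * s x) (l + 1) (n + 1)
        (fun x x' => φ x x' * psU n κ s (bb P n (Z0 + fun x => y * e x * s x) s) x) ω0| ≤
      CC C * y ^ 2 := by
  refine fin hA hL ho hf h hy0 hy hl φ hφ (fun β x _ => psU n κ s β x)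
    (fun β β' δ hδ h1 h2 x _ => psU_le (by omega) (by omega) h.s2 hδ h1 h2 x) ω0 ?_
  set O : Ω → Ω → ℝ := fun x x' => φ x x' * (e x * s x) *
    (1 + WW P n Z0 (fun x => y * e x * s x) (l + 1) x') with hO
  have e0 : E2 P (ex n) Z0 (l + 1) (n + 1) O ω0 = 0 := by
    have e1 := e2_first hA h (ex n) (l := l + 1) (n + 1) (by omega) O ω0
    have e2 : (fun x x' => O (F x) x') = fun x x' => - O x x' := by
      funext x x'; simp only [hO, hφF, h.eF, h.sF]; ring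
    rw [e2, e2_neg hA] at e1
    linarith
  have e3 := hA.e2add P (ex n) Z0 (l + 1) (n + 1)
    (fun x x' => φ x x' * psU n κ s (bb P n Z0 s) x) O y 1 ω0
  rw [e0] at e3
  rw [mul_zero, add_zero] at e3
  rw [← e3]
  congr 1
  funext x x'
  have := ww_high (n := n) hA hF hf h y (l := n) (by omega) x
  simp only [hO]
  linear_combination φ x x' * this

theorem mainS (hA : AApi) (hF : FApi) {C : ℝ} (hL : L3 C) (ho : Ok P (ex n) (n + 1))
    (hf : Fil P r) (h : Flip P r κ F e s Z0) {y : ℝ} (hy0 : 0 < y) (hy : y ≤ 1)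
    (hκ1 : 1 ≤ κ) (hκ : κ < n) (φ : Ω → Ω → ℝ) (hφ : ∀ x x', |φ x x'| ≤ 1)
    (hφF : ∀ x x', φ (F x) (F x') = φ x x') (ω0 : Ω) :
    |E2 P (ex n) (Z0 + fun x => y * e x * s x) (κ + 1) (n + 1)
        (fun x x' => φ x x' * (e x * s x)) ω0 -
      y * E2 P (ex n) (Z0 + fun x => y * e x * s x) (κ + 1) (n + 1)
        (fun x x' => φ x x' * psS n κ s (bb P n (Z0 + fun x => y * e x * s x) s) x x') ω0| ≤
      CC C * y ^ 2 := by
  refine fin hA hL ho hf h hy0 hy hκ.le φ hφ (fun β x x' => psS n κ s β x x')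
    (fun β β' δ hδ h1 h2 x x' => psS_le (by omega) hκ h.s2 hδ h1 h2 x x') ω0 ?_
  set O : Ω → Ω → ℝ := fun x x' => φ x x' * (e x * s x) with hO
  have e0 : E2 P (ex n) Z0 (κ + 1) (n + 1) O ω0 = 0 := by
    have e1 := e2_both hA h (ex n) (l := κ + 1) (t := n + 1) (by omega) (by omega) O ω0
    have e2 : (fun x x' => O (F x) (F x')) = fun x x' => - O x x' := by
      funext x x'; simp only [hO, hφF, h.eF, h.sF]; ring
    rw [e2, e2_neg hA] at e1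
    linarith
  have e3 := hA.e2add P (ex n) Z0 (κ + 1) (n + 1)
    (fun x x' => φ x x' * psS n κ s (bb P n Z0 s) x x') O y 1 ω0
  rw [e0] at e3
  rw [mul_zero, add_zero] at e3
  rw [← e3]
  refine hF.e2supp hf _ _ _ _ _ _ (fun x x' hr => ?_) ω0
  have := ww_sh (n := n) hA hF hf h y hκ1 hκ x x' hr
  simp only [hO]
  linear_combination φ x x' * this

theorem avg (hA : AApi) {I : Type} (m : ℕ → ℝ) (Z : Ω → ℝ) (l t : ℕ) (A : Finset I)
    (hAn : A.Nonempty) {y K : ℝ} (hy0 : 0 < y) (G ψ : I → Ω → Ω → ℝ) (G' ψ' : Ω → Ω → ℝ) (ω0 : Ω)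
    (hG : ∀ x x', G' x x' = (∑ i ∈ A, G i x x') / (y * A.card))
    (hψ : ∀ x x', ψ' x x' = (∑ i ∈ A, ψ i x x') / A.card)
    (h : ∀ i ∈ A, |E2 P m Z l t (G i) ω0 - y * E2 P m Z l t (ψ i) ω0| ≤ K * y ^ 2) :
    |E2 P m Z l t G' ω0 - E2 P m Z l t ψ' ω0| ≤ K * y := by
  have hc : (0 : ℝ) < A.card := by exact_mod_cast hAn.card_pos
  have e1 : E2 P m Z l t G' ω0 = (y * A.card)⁻¹ * ∑ i ∈ A, E2 P m Z l t (G i) ω0 := by
    rw [← hA.e2sum]
    have := hA.e2add P m Z l t (fun x x' => ∑ i ∈ A, G i x x') G' (y * A.card)⁻¹ 0 ω0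
    rw [zero_mul, add_zero] at this
    rw [← this]
    congr 1
    funext x x'
    rw [hG]; ring
  have e2 : E2 P m Z l t ψ' ω0 = (y * A.card)⁻¹ * ∑ i ∈ A, y * E2 P m Z l t (ψ i) ω0 := by
    rw [← mul_sum, ← hA.e2sum]
    have := hA.e2add P m Z l t (fun x x' => ∑ i ∈ A, ψ i x x') G' (A.card : ℝ)⁻¹ 0 ω0
    rw [zero_mul, add_zero] at this
    rw [← mul_assoc, show (y * A.card)⁻¹ * y = (A.card : ℝ)⁻¹ by field_simp, ← this]
    congr 1
    funext x x'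
    rw [hψ]; ring
  rw [e1, e2, ← mul_sub, ← sum_sub_distrib, abs_mul, abs_of_pos (by positivity),
    inv_mul_le_iff₀ (by positivity)]
  refine (abs_sum_le_sum_abs _ _).trans ((sum_le_card_nsmul _ _ _ h).trans (le_of_eq ?_))
  rw [nsmul_eq_mul]; ring

end

section
variable {I ι : Type} [Fintype I] [DecidableEq I] [Fintype ι] [DecidableEq ι]

def fl (i : I) (e : I → Bool) : I → Bool := Function.update e i (!e i)

theorem fl_inv (i : I) : Function.Involutive (fl i) := by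
  intro e; funext j
  by_cases hj : j = i
  · subst hj; simp [fl]
  · simp [fl, Function.update_of_ne hj]

def FF (κ : ℕ) (i : I) (ω : Rs ι I) : Rs ι I :=
  (ω.1, Function.update ω.2.1 κ (fl i (ω.2.1 κ)), ω.2.2)

theorem spin_sq (b : Bool) : spin b ^ 2 = 1 := by cases b <;> simp [spin]

theorem spin_not (b : Bool) : spin (!b) = - spin b := by cases b <;> simp [spin]

theorem hh_FF (A : Finset I) {κ : ℕ} {i : I} (hi : i ∈ A) (k : ℕ) (ω : Rs ι I) :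
    hh A k (FF κ i ω) = hh A k ω -
      if k = κ then 2 * (spin (ω.2.1 κ i) * spin (ω.2.2 i)) else 0 := by
  by_cases hk : k = κ
  · subst hk
    simp only [hh, FF, Function.update_self, if_true]
    rw [← add_sum_erase A _ hi, ← add_sum_erase A _ hi]
    have : ∑ j ∈ A.erase i, spin (fl i (ω.2.1 k) j) * spin (ω.2.2 j) =
        ∑ j ∈ A.erase i, spin (ω.2.1 k j) * spin (ω.2.2 j) :=
      sum_congr rfl (fun j hj => by simp [fl, Function.update_of_ne (ne_of_mem_erase hj)])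
    rw [this]
    simp only [fl, Function.update_self, spin_not]
    ring
  · simp [hh, FF, Function.update_of_ne hk, hk]

theorem flip (L : Sy ι I) (n : ℕ) (f : ℝ → ℝ) (A : Finset I) (y : ℕ → ℝ) {κ : ℕ} (hκ : κ < n)
    {i : I} (hi : i ∈ A) :
    Flip (rch L) rr κ (FF κ i) (fun ω => spin (ω.2.1 κ i)) (fun ω => spin (ω.2.2 i))
      (fun ω => rZ n f A y ω - y κ * spin (ω.2.1 κ i) * spin (ω.2.2 i)) where
  comm := by
    intro j hj g ω
    cases j with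
    | zero => rfl
    | succ d =>
      have hd : d ≠ κ := by omega
      have : rin d ω (fun x => g (FF κ i x)) = rin d (FF κ i ω) g := by
        funext ω'
        simp only [rin, FF, Function.update_of_ne hd.symm, Function.update_comm hd]
      change chain L (d + 1) (rin d ω (fun x => g (FF κ i x))) _ =
        chain L (d + 1) (rin d (FF κ i ω) g) _
      rw [this]
      rfl
  abso := by
    intro g ω
    have : rin κ ω (fun x => g (FF κ i x)) = rin κ ω g := by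
      funext ω'
      simp only [rin, FF, Function.update_self, Function.update_idem]
      congr 1
      exact Equiv.sum_comp (fl_inv i).toPerm
        (fun e => g (Function.update ω.1 κ ω'.1, Function.update ω.2.1 κ e, ω.2.2))
    change chain L (κ + 1) (rin κ ω (fun x => g (FF κ i x))) _ = chain L (κ + 1) (rin κ ω g) _
    rw [this]
  eF := by intro ω; simp [FF, fl, spin_not]
  sF := by intro ω; rfl
  ZF := by
    intro ω
    have e1 : spin ((FF κ i ω).2.1 κ i) = - spin (ω.2.1 κ i) := by simp [FF, fl, spin_not]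
    have e2 : (FF κ i ω).2.2 = ω.2.2 := rfl
    have e3 : (FF κ i ω).1 = ω.1 := rfl
    simp only [rZ, hh_FF A hi, e1, e2, e3, mul_sub, sum_sub_distrib, mul_ite, mul_zero,
      sum_ite_eq', mem_range, hκ, if_true]
    ring
  e2 := fun ω => spin_sq _
  s2 := fun ω => spin_sq _
  dep := by
    intro ω ω' hr
    have := (hr κ le_rfl).2
    simp only [this]

theorem zsplit (n : ℕ) (f : ℝ → ℝ) (A : Finset I) (y : ℕ → ℝ) (κ : ℕ) (i : I) :
    ((fun ω : Rs ι I => rZ n f A y ω - y κ * spin (ω.2.1 κ i) * spin (ω.2.2 i)) +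
      fun ω : Rs ι I => y κ * spin (ω.2.1 κ i) * spin (ω.2.2 i)) = rZ n f A y := by
  funext ω; simp

theorem aR_le (A : Finset I) (hA : A.Nonempty) (x x' : Rs ι I) :
    |aR (fun i (ω : Rs ι I) => spin (ω.2.2 i)) A x x'| ≤ 1 := by
  have hc : (0 : ℝ) < A.card := by exact_mod_cast hA.card_pos
  rw [aR, abs_div, abs_of_pos hc, div_le_one hc]
  refine (abs_sum_le_sum_abs _ _).trans ((sum_le_card_nsmul _ _ 1 (fun i _ => ?_)).trans (by simp))
  rw [abs_mul, abs_sq (spin_sq _), abs_sq (spin_sq _)]; norm_num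

end

section
variable {Ω I : Type}

theorem sumU (P : ℕ → Op Ω) (n κ : ℕ) (Z : Ω → ℝ) (s : I → Ω → ℝ) (A : Finset I)
    (hA : A.Nonempty) (c : ℝ) (x : Ω) :
    c * (1 - (1 / (n : ℝ)) * ∑ d ∈ Icc 1 κ, aρ P n Z s A d x x) =
      (∑ i ∈ A, c * psU n κ (s i) (bb P n Z (s i)) x) / A.card := by
  have hc : (A.card : ℝ) ≠ 0 := by exact_mod_cast hA.card_pos.ne'
  simp only [psU, aρ, bb, ← mul_sum, sum_sub_distrib, sum_const, nsmul_eq_mul, ← sum_div]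
  rw [sum_comm]
  simp only [← mul_sum]
  field_simp

theorem sumS (P : ℕ → Op Ω) (n l : ℕ) (Z : Ω → ℝ) (s : I → Ω → ℝ) (A : Finset I)
    (hA : A.Nonempty) (c : ℝ) (x x' : Ω) :
    c * (1 + aR s A x x' - (1 / (n : ℝ)) * ∑ d ∈ Ico 1 l, (aρ P n Z s A d x x + aρ P n Z s A d x x')
          - (ex n l + 1 / (n : ℝ)) * aρ P n Z s A l x x) =
      (∑ i ∈ A, c * psS n l (s i) (bb P n Z (s i)) x x') / A.card := by
  have hc : (A.card : ℝ) ≠ 0 := by exact_mod_cast hA.card_pos.ne'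
  simp only [psS, aρ, aR, bb, ← mul_sum, sum_sub_distrib, sum_add_distrib, sum_const, nsmul_eq_mul,
    ← sum_div]
  rw [sum_comm (s := Ico 1 l), sum_comm (s := Ico 1 l)]
  simp only [← mul_sum]
  field_simp

end

end Gg

open Gg in
theorem ggStmt (hA : AApi) (hF : FApi) (hR : RecStmt) : GgStmt := by
  obtain ⟨C, hL⟩ := hF.l3
  have hC : 0 ≤ CC C := by unfold CC; positivity
  refine ⟨CC C, hC, fun I ι _ _ _ _ n f L A y Y hn hAn hY hy => ?_⟩
  obtain ⟨ho, hf, -⟩ := hR I ι n f L A hn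
  have hU : ∀ κ l, κ < l → l ≤ n → ∀ φ : Rs ι I → Rs ι I → ℝ, (∀ x x', |φ x x'| ≤ 1) →
      (∀ i x x', φ (FF κ i x) x' = φ x x') →
      |E2 (rch L) (ex n) (rZ n f A y) (l + 1) (n + 1)
          (fun ω1 ω2 => φ ω1 ω2 * (hh A κ ω1 / (y κ * A.card))) (r0 ι I) -
        E2 (rch L) (ex n) (rZ n f A y) (l + 1) (n + 1) (fun ω1 ω2 => φ ω1 ω2 *
          (1 - (1 / (n : ℝ)) * ∑ d ∈ Icc 1 κ,
            aρ (rch L) n (rZ n f A y) (fun i ω => spin (ω.2.2 i)) A d ω1 ω1)) (r0 ι I)| ≤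
        CC C * Y := by
    intro κ l hκ hl φ hφ hφF
    obtain ⟨y0, y1⟩ := hy κ (by omega)
    refine (avg hA _ _ _ _ A hAn y0 (fun i x x' => φ x x' * (spin (x.2.1 κ i) * spin (x.2.2 i)))
      (fun i x x' => φ x x' * psU n κ (fun ω => spin (ω.2.2 i))
        (bb (rch L) n (rZ n f A y) (fun ω => spin (ω.2.2 i))) x) _ _ _ (fun x x' => ?_)
      (fun x x' => sumU _ _ _ _ _ _ hAn _ _) (fun i hi => ?_)).trans
      (mul_le_mul_of_nonneg_left y1 hC)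
    · rw [← mul_sum, hh, mul_div_assoc]
    · have := mainU hA hF hL ho hf (flip L n f A y (by omega : κ < n) hi) y0 (y1.trans hY) hκ hl φ
        hφ (hφF i) (r0 ι I)
      rwa [zsplit] at this
  refine ⟨fun κ hκ => ?_, fun κ l hκ hl => hU κ l hκ hl _ (aR_le A hAn) (fun _ _ _ => rfl),
    fun l hl1 hl => ?_⟩
  · have := hU κ n hκ le_rfl (fun _ _ => 1) (fun _ _ => by simp) (fun _ _ _ => rfl)
    simp only [one_mul] at this
    rwa [hA.e2one ho _ _ le_rfl, hA.e2one ho _ _ le_rfl] at this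
  · obtain ⟨y0, y1⟩ := hy l hl
    refine (avg hA _ _ _ _ A hAn y0
      (fun i x x' => aR (fun i (ω : Rs ι I) => spin (ω.2.2 i)) A x x' *
        (spin (x.2.1 l i) * spin (x.2.2 i)))
      (fun i x x' => aR (fun i (ω : Rs ι I) => spin (ω.2.2 i)) A x x' *
        psS n l (fun ω => spin (ω.2.2 i))
          (bb (rch L) n (rZ n f A y) (fun ω => spin (ω.2.2 i))) x x') _ _ _ (fun x x' => ?_)
      (fun x x' => sumS _ _ _ _ _ _ hAn _ _ _) (fun i hi => ?_)).trans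
      (mul_le_mul_of_nonneg_left y1 hC)
    · rw [← mul_sum, hh, mul_div_assoc]
    · have := mainS hA hF hL ho hf (flip L n f A y hl hi) y0 (y1.trans hY) hl1 hl _
        (aR_le A hAn) (fun _ _ => rfl) (r0 ι I)
      rwa [zsplit] at this

end

end Vale.Agent.P157
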