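import Vale.Agent.P157.Stm

namespace Vale.Agent.P157

open Finset Real

noncomputable section

namespace Gr0

variable {Ω : Type}

lemma op_lin (Q : Op Ω) (a b : ℝ) (u v : Ω → ℝ) (ω : Ω) :
    Q (fun x => a * u x + b * v x) ω = a * Q u ω + b * Q v ω := by
  have : (fun x => a * u x + b * v x) = a • u + b • v := by ext x; simp
  rw [this, map_add, map_smul, map_smul]; simp

lemma op_mul (Q : Op Ω) (a : ℝ) (u : Ω → ℝ) (ω : Ω) : Q (fun x => a * u x) ω = a * Q u ω := by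
  have : (fun x => a * u x) = a • u := by ext x; simp
  rw [this, map_smul]; simp

/-- multiplicative closeness -/
def Cl (η x y : ℝ) : Prop := x ≤ exp η * y ∧ y ≤ exp η * x

lemma Cl.trans {η η' x y z : ℝ} (h : Cl η x y) (h' : Cl η' y z) : Cl (η + η') x z := by
  constructor
  · rw [exp_add, mul_assoc]
    exact h.1.trans (mul_le_mul_of_nonneg_left h'.1 (exp_pos _).le)
  · rw [add_comm, exp_add, mul_assoc]
    exact h'.2.trans (mul_le_mul_of_nonneg_left h.2 (exp_pos _).le)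

lemma Cl.mono {η η' x y : ℝ} (h : Cl η x y) (hη : η ≤ η') (hy : 0 ≤ y) : Cl η' x y := by
  have hx : 0 ≤ x := by
    have := hy.trans h.2
    exact nonneg_of_mul_nonneg_right this (exp_pos η) |> fun h => h
  exact ⟨h.1.trans (mul_le_mul_of_nonneg_right (exp_le_exp.2 hη) hy),
    h.2.trans (mul_le_mul_of_nonneg_right (exp_le_exp.2 hη) hx)⟩

lemma Cl.op (hA : AApi) {Q : Op Ω} (hQ : Mk Q) {η : ℝ} {u v : Ω → ℝ}
    (h : ∀ x, Cl η (u x) (v x)) (ω : Ω) : Cl η (Q u ω) (Q v ω) := by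
  constructor
  · rw [← op_mul]; exact hA.mono' hQ (fun x => (h x).1) ω
  · rw [← op_mul]; exact hA.mono' hQ (fun x => (h x).2) ω

lemma dm_op (hA : AApi) {Q : Op Ω} (hQ : Mk Q) {u w : ℝ} {gp gm g : Ω → ℝ}
    (h : ∀ x, Dm u w (gp x) (gm x) (g x)) (ω : Ω) : Dm u w (Q gp ω) (Q gm ω) (Q g ω) := by
  intro α β
  have e1 : (exp α * Q gp ω + exp β * Q gm ω) / 2 =
      Q (fun x => (exp α * gp x + exp β * gm x) / 2) ω := by
    rw [show (fun x => (exp α * gp x + exp β * gm x) / 2) =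
      fun x => (exp α / 2) * gp x + (exp β / 2) * gm x from funext fun x => by ring, op_lin]
    ring
  rw [e1, ← op_mul, ← op_mul]
  exact ⟨hA.mono' hQ (fun x => (h x α β).1) ω, hA.mono' hQ (fun x => (h x α β).2) ω⟩

lemma dm_cl {u w gp gm g g' η : ℝ} (h : Dm u w gp gm g) (hc : Cl η g g') :
    Dm (u + η) w gp gm g' := by
  intro α β
  constructor
  · refine le_trans ?_ (h α β).1
    calc exp ((α + β) / 2 - (u + η)) * g' ≤ exp ((α + β) / 2 - (u + η)) * (exp η * g) :=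
          mul_le_mul_of_nonneg_left hc.2 (exp_pos _).le
      _ = _ := by rw [← mul_assoc, ← exp_add]; congr 2; ring
  · refine (h α β).2.trans ?_
    calc exp ((α + β) / 2 + u) * cosh (|α - β| / 2 + w) * g
        ≤ exp ((α + β) / 2 + u) * cosh (|α - β| / 2 + w) * (exp η * g') :=
          mul_le_mul_of_nonneg_left hc.1 (by positivity)
      _ = _ := by
          rw [show (α + β) / 2 + (u + η) = (α + β) / 2 + u + η by ring, exp_add (_ + u)]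
          ring

lemma avg_exp (α β : ℝ) : (exp α + exp β) / 2 = exp ((α + β) / 2) * cosh ((α - β) / 2) := by
  rw [cosh_eq, mul_div_assoc', mul_add, ← exp_add, ← exp_add]
  congr 3 <;> ring

lemma mid_bounds {α β c : ℝ} (h : (exp α + exp β) / 2 = 1) (hc : |α - β| / 2 ≤ c) :
    -(c ^ 2 / 2) ≤ (α + β) / 2 ∧ (α + β) / 2 ≤ 0 := by
  rw [avg_exp] at h
  have h1 := one_le_cosh ((α - β) / 2)
  have h2 := cosh_le_exp_half_sq ((α - β) / 2)
  have h3 : ((α - β) / 2) ^ 2 ≤ c ^ 2 := by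
    rw [← sq_abs, abs_div, abs_two]
    exact pow_le_pow_left₀ (by positivity) hc 2
  constructor
  · have h4 : exp 0 ≤ exp ((α + β) / 2 + ((α - β) / 2) ^ 2 / 2) := by
      rw [exp_zero, exp_add, ← h]
      exact mul_le_mul_of_nonneg_left h2 (exp_pos _).le
    have := exp_le_exp.1 h4
    linarith
  · have h4 : exp ((α + β) / 2) ≤ exp 0 := by
      rw [exp_zero, ← h]
      exact le_mul_of_one_le_right (exp_pos _).le h1
    exact exp_le_exp.1 h4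

/-- a chain with one extra symmetric step at level `κ` -/
structure Set0 (P P' : ℕ → Op Ω) (m : ℕ → ℝ) (t κ : ℕ) (τp τm : Ω → Ω) (Z : Ω → ℝ) (b : ℝ) :
    Prop where
  ok : Ok P m t
  ok' : Ok P' m t
  lt : κ + 1 ≤ t
  ne : ∀ j, j ≠ κ → P' j = P j
  eq : ∀ g ω, P' κ g ω = (P κ g (τp ω) + P κ g (τm ω)) / 2
  cp : ∀ j (g : Ω → ℝ) ω, P j (fun x => g (τp x)) ω = P j g (τp ω)
  cm : ∀ j (g : Ω → ℝ) ω, P j (fun x => g (τm x)) ω = P j g (τm ω)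
  b0 : 0 ≤ b
  b1 : b ≤ 1
  z1 : ∀ ω, |Z (τp ω) - Z (τm ω)| ≤ 2 * b
  z2 : ∀ ω, |Z (τp ω) + Z (τm ω) - 2 * Z ω| ≤ b ^ 2

variable {P P' : ℕ → Op Ω} {m : ℕ → ℝ} {t κ : ℕ} {τp τm : Ω → Ω} {Z : Ω → ℝ} {b : ℝ}

lemma chg_cl (hA : AApi) (hO : Ok P m t) (Z Z' : Ω → ℝ) {c : ℝ} (h : ∀ ω, |Z' ω - Z ω| ≤ c)
    (a j : ℕ) (hj : j ≤ t) {g : Ω → ℝ} (hg : ∀ ω, 0 ≤ g ω) (ω : Ω) :
    Cl (2 * c) (Ce P m Z' a j g ω) (Ce P m Z a j g ω) := by
  constructor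
  · have := hA.chg hO Z (fun x => Z' x - Z x) c h a j hj g hg ω
    rwa [show (Z + fun x => Z' x - Z x) = Z' from funext fun x => by simp] at this
  · have := hA.chg hO Z' (fun x => Z x - Z' x) c (fun x => by rw [abs_sub_comm]; exact h x)
      a j hj g hg ω
    rwa [show (Z' + fun x => Z x - Z' x) = Z from funext fun x => by simp] at this

lemma xabs (hA : AApi) (hO : Ok P m t) (Z Z' : Ω → ℝ) {c : ℝ} (h : ∀ ω, |Z' ω - Z ω| ≤ c)
    (j : ℕ) (hj : j ≤ t) (ω : Ω) : |XX P m Z' j ω - XX P m Z j ω| ≤ c := by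
  have h1 := hA.xle hO (Z := Z') (Z' := Z) (c := c)
    (fun x => by linarith [(abs_le.1 (h x)).2]) j hj ω
  have h2 := hA.xle hO (Z := Z) (Z' := Z') (c := c)
    (fun x => by linarith [(abs_le.1 (h x)).1]) j hj ω
  rw [abs_le]; constructor <;> linarith

lemma dom' (hA : AApi) (hD : DomStmt) (H : Set0 P P' m t κ τp τm Z b) {u w : ℝ} (hw : 0 ≤ w)
    {gp gm g : Ω → ℝ} (hg : ∀ ω, 0 ≤ g ω) (h : ∀ ω, Dm u w (gp ω) (gm ω) (g ω)) (a j : ℕ)
    (hj : j ≤ t) (ω : Ω) :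
    Dm (u + 3 * b ^ 2) (w + 2 * b) (Ce P m (fun x => Z (τp x)) a j gp ω)
      (Ce P m (fun x => Z (τm x)) a j gm ω) (Ce P m Z a j g ω) := by
  have h1 := hD Ω P m t H.ok (fun x => (Z (τp x) + Z (τm x)) / 2)
    (fun x => (Z (τp x) - Z (τm x)) / 2) b
    (fun x => by rw [abs_div, abs_two]; linarith [H.z1 x]) H.b1 u w hw gp gm g hg h a j hj ω
  rw [show ((fun x => (Z (τp x) + Z (τm x)) / 2) + fun x => (Z (τp x) - Z (τm x)) / 2) =
      fun x => Z (τp x) from funext fun x => by simp only [Pi.add_apply]; ring,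
    show ((fun x => (Z (τp x) + Z (τm x)) / 2) - fun x => (Z (τp x) - Z (τm x)) / 2) =
      fun x => Z (τm x) from funext fun x => by simp only [Pi.sub_apply]; ring] at h1
  have h2 := chg_cl hA H.ok Z (fun x => (Z (τp x) + Z (τm x)) / 2) (c := b ^ 2 / 2)
    (fun x => by
      rw [show (Z (τp x) + Z (τm x)) / 2 - Z x = (Z (τp x) + Z (τm x) - 2 * Z x) / 2 by ring,
        abs_div, abs_two]
      linarith [H.z2 x]) a j hj hg ω
  have h3 := dm_cl h1 h2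
  rwa [show u + 2 * b ^ 2 + 2 * (b ^ 2 / 2) = u + 3 * b ^ 2 by ring] at h3

lemma low_X (hA : AApi) (H : Set0 P P' m t κ τp τm Z b) (j : ℕ) (hj : j ≤ κ) :
    XX P' m Z j = XX P m Z j :=
  funext fun ω => (hA.tw (P := P) (P' := P') m κ (fun _ x => x)
    (fun j hj g ω => by rw [H.ne j hj.ne]) Z).1 j hj ω

lemma low_C (hA : AApi) (H : Set0 P P' m t κ τp τm Z b) (a j : ℕ) (ha : a ≤ j) (hj : j ≤ κ)
    (g : Ω → ℝ) : Ce P' m Z a j g = Ce P m Z a j g :=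
  funext fun ω => (hA.tw (P := P) (P' := P') m κ (fun _ x => x)
    (fun j hj g ω => by rw [H.ne j hj.ne]) Z).2.1 a j ha hj g ω

lemma tr_X (hA : AApi) {τ : Ω → Ω}
    (h : ∀ j (g : Ω → ℝ) ω, P j (fun x => g (τ x)) ω = P j g (τ ω)) (j : ℕ) (ω : Ω) :
    XX P m (fun x => Z (τ x)) j ω = XX P m Z j (τ ω) :=
  (hA.tw (P := P) (P' := P) m j (fun _ => τ) (fun j _ g ω => h j g ω) Z).1 j le_rfl ω

lemma tr_C (hA : AApi) {τ : Ω → Ω}
    (h : ∀ j (g : Ω → ℝ) ω, P j (fun x => g (τ x)) ω = P j g (τ ω)) (a j : ℕ) (ha : a ≤ j)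
    (g : Ω → ℝ) (ω : Ω) :
    Ce P m (fun x => Z (τ x)) a j (fun x => g (τ x)) ω = Ce P m Z a j g (τ ω) :=
  (hA.tw (P := P) (P' := P) m j (fun _ => τ) (fun j _ g ω => h j g ω) Z).2.1 a j ha le_rfl g ω

lemma ce_succ (P : ℕ → Op Ω) (m : ℕ → ℝ) (Z : Ω → ℝ) {a j : ℕ} (h : a ≤ j) (g : Ω → ℝ) (ω : Ω) :
    Ce P m Z a (j + 1) g ω = exp (-(m j * XX P m Z (j + 1) ω)) *
      P j (fun x => exp (m j * XX P m Z j x) * Ce P m Z a j g x) ω := by
  simp only [Ce, if_pos h, QQ, LinearMap.coe_comp, Function.comp_apply, LinearMap.mulLeft_apply,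
    Pi.mul_apply]
  rfl

lemma mid_C (hA : AApi) (H : Set0 P P' m t κ τp τm Z b) {a : ℕ} (ha : a ≤ κ) (G : Ω → ℝ)
    (ω : Ω) : Ce P' m Z a (κ + 1) G ω =
      (exp (m κ * (XX P m Z (κ + 1) (τp ω) - XX P' m Z (κ + 1) ω)) * Ce P m Z a (κ + 1) G (τp ω) +
        exp (m κ * (XX P m Z (κ + 1) (τm ω) - XX P' m Z (κ + 1) ω)) *
          Ce P m Z a (κ + 1) G (τm ω)) / 2 := by
  rw [ce_succ P' m Z ha, ce_succ P m Z ha, ce_succ P m Z ha, H.eq, low_X hA H κ le_rfl,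
    low_C hA H a κ ha le_rfl, ← mul_assoc, ← mul_assoc, ← exp_add, ← exp_add,
    show m κ * (XX P m Z (κ + 1) (τp ω) - XX P' m Z (κ + 1) ω) +
      -(m κ * XX P m Z (κ + 1) (τp ω)) = -(m κ * XX P' m Z (κ + 1) ω) by ring,
    show m κ * (XX P m Z (κ + 1) (τm ω) - XX P' m Z (κ + 1) ω) +
      -(m κ * XX P m Z (κ + 1) (τm ω)) = -(m κ * XX P' m Z (κ + 1) ω) by ring]
  ring

lemma mid_X (hA : AApi) (H : Set0 P P' m t κ τp τm Z b) (ω : Ω) :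
    |m κ * (XX P m Z (κ + 1) (τp ω) - XX P' m Z (κ + 1) ω) -
        m κ * (XX P m Z (κ + 1) (τm ω) - XX P' m Z (κ + 1) ω)| / 2 ≤ m κ * b ∧
    (exp (m κ * (XX P m Z (κ + 1) (τp ω) - XX P' m Z (κ + 1) ω)) +
      exp (m κ * (XX P m Z (κ + 1) (τm ω) - XX P' m Z (κ + 1) ω))) / 2 = 1 := by
  constructor
  · have h1 := xabs hA H.ok (fun x => Z (τm x)) (fun x => Z (τp x)) H.z1 (κ + 1) H.lt ω
    rw [tr_X hA H.cp, tr_X hA H.cm] at h1
    have h2 := H.ok.pos κ H.lt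
    rw [← mul_sub, abs_mul, abs_of_pos h2, sub_sub_sub_cancel_right]
    nlinarith
  · have h1 := mid_C hA H (le_refl κ) (fun _ => 1) ω
    rw [hA.const (hA.ce H.ok' Z _ _ H.lt), hA.const (hA.ce H.ok Z _ _ H.lt),
      hA.const (hA.ce H.ok Z _ _ H.lt), mul_one, mul_one] at h1
    exact h1.symm

lemma step (hA : AApi) (hD : DomStmt) (H : Set0 P P' m t κ τp τm Z b) {u w : ℝ} (hw : 0 ≤ w)
    {G G0 : Ω → ℝ} (hg : ∀ ω, 0 ≤ G0 ω) (h : ∀ ω, Dm u w (G (τp ω)) (G (τm ω)) (G0 ω)) {a : ℕ}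
    (ha : a ≤ κ) (ω : Ω) :
    Cl (u + 4 * b ^ 2 + (w + 3 * b) ^ 2 / 2) (Ce P' m Z a (κ + 1) G ω) (Ce P m Z a (κ + 1) G0 ω) := by
  have h1 := dom' hA hD H hw hg h a (κ + 1) H.lt ω
  rw [tr_C hA H.cp a _ (by omega), tr_C hA H.cm a _ (by omega)] at h1
  rw [mid_C hA H ha]
  obtain ⟨h2, h3⟩ := mid_X hA H ω
  set α := m κ * (XX P m Z (κ + 1) (τp ω) - XX P' m Z (κ + 1) ω)
  set β := m κ * (XX P m Z (κ + 1) (τm ω) - XX P' m Z (κ + 1) ω)
  have hb := H.b0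
  have h4 : |α - β| / 2 ≤ b := h2.trans (mul_le_of_le_one_left hb (H.ok.le1 κ H.lt))
  obtain ⟨h5, h6⟩ := mid_bounds h3 h4
  obtain ⟨h7, h8⟩ := h1 α β
  have h9 : 0 ≤ Ce P m Z a (κ + 1) G0 ω := (hA.ce H.ok Z _ _ H.lt).1 _ hg ω
  constructor
  · refine h8.trans (mul_le_mul_of_nonneg_right ?_ h9)
    have c1 : cosh (|α - β| / 2 + (w + 2 * b)) ≤ exp ((w + 3 * b) ^ 2 / 2) := by
      refine (cosh_le_exp_half_sq _).trans (exp_le_exp.2 ?_)
      have : (|α - β| / 2 + (w + 2 * b)) ^ 2 ≤ (w + 3 * b) ^ 2 :=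
        pow_le_pow_left₀ (by positivity) (by linarith) 2
      linarith
    rw [exp_add (u + 4 * b ^ 2)]
    exact mul_le_mul (exp_le_exp.2 (by nlinarith)) c1 (cosh_pos _).le (exp_pos _).le
  · refine le_trans ?_ (mul_le_mul_of_nonneg_left h7 (exp_pos _).le)
    rw [← mul_assoc, ← exp_add]
    refine le_mul_of_one_le_left h9 (one_le_exp ?_)
    nlinarith [sq_nonneg (w + 3 * b), sq_nonneg b]

lemma top_X (hA : AApi) (H : Set0 P P' m t κ τp τm Z b) (ω : Ω) :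
    |XX P' m Z (κ + 1) ω - XX P m Z (κ + 1) ω| ≤ 2 * b ^ 2 := by
  obtain ⟨h2, h3⟩ := mid_X hA H ω
  obtain ⟨h5, h6⟩ := mid_bounds h3 h2
  have hm := H.ok.pos κ H.lt
  have hm1 := H.ok.le1 κ H.lt
  set Y : Ω → ℝ := fun x => (Z (τp x) + Z (τm x)) / 2 with hY
  set A : Ω → ℝ := fun x => (Z (τp x) - Z (τm x)) / 2 with hAd
  have hAb : ∀ x, |A x| ≤ b := fun x => by rw [abs_div, abs_two]; linarith [H.z1 x]
  have f1 := hA.first H.ok Y A b hAb H.b1 (κ + 1) H.lt ω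
  have f2 := hA.first H.ok Y (-A) b (fun x => by rw [Pi.neg_apply, abs_neg]; exact hAb x) H.b1
    (κ + 1) H.lt ω
  rw [show Y + A = fun x => Z (τp x) from funext fun x => by
    simp only [Pi.add_apply, hY, hAd]; ring, tr_X hA H.cp] at f1
  rw [show Y + -A = fun x => Z (τm x) from funext fun x => by
    simp only [Pi.add_apply, Pi.neg_apply, hY, hAd]; ring, tr_X hA H.cm, map_neg,
    Pi.neg_apply] at f2
  have f3 := xabs hA H.ok Z Y (c := b ^ 2 / 2) (fun x => by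
      rw [show Y x - Z x = (Z (τp x) + Z (τm x) - 2 * Z x) / 2 by simp only [hY]; ring,
        abs_div, abs_two]
      linarith [H.z2 x]) (κ + 1) H.lt ω
  set D := (XX P m Z (κ + 1) (τp ω) + XX P m Z (κ + 1) (τm ω)) / 2 - XX P' m Z (κ + 1) ω with hD
  have e1 : (m κ * (XX P m Z (κ + 1) (τp ω) - XX P' m Z (κ + 1) ω) +
      m κ * (XX P m Z (κ + 1) (τm ω) - XX P' m Z (κ + 1) ω)) / 2 = m κ * D := by
    rw [hD]; ring
  rw [e1] at h5 h6
  have d1 : D ≤ 0 := by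
    by_contra hc
    push Not at hc
    nlinarith [mul_pos hm hc]
  have d2 : -(b ^ 2 / 2) ≤ D := by
    have : m κ * (-(b ^ 2 / 2)) ≤ m κ * D := by
      refine le_trans ?_ h5
      nlinarith [mul_nonneg (mul_nonneg hm.le (sq_nonneg b)) (sub_nonneg.2 hm1)]
    exact le_of_mul_le_mul_left this hm
  rw [abs_le] at f1 f2 f3 ⊢
  constructor <;> linarith [f1.1, f1.2, f2.1, f2.2, f3.1, f3.2]

lemma outer (hA : AApi) (H : Set0 P P' m t κ τp τm Z b) {a j : ℕ} (ha : κ + 1 ≤ a)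
    (haj : a ≤ j) (hj : j ≤ t) {g : Ω → ℝ} (hg : ∀ ω, 0 ≤ g ω) (ω : Ω) :
    Cl (4 * b ^ 2) (Ce P' m Z a j g ω) (Ce P m Z a j g ω) := by
  obtain ⟨a', rfl⟩ := Nat.exists_eq_add_of_le ha
  obtain ⟨j', rfl⟩ := Nat.exists_eq_add_of_le (ha.trans haj)
  rw [← (hA.shift P' m Z (κ + 1)).2, ← (hA.shift P m Z (κ + 1)).2,
    show (fun k => P' (κ + 1 + k)) = fun k => P (κ + 1 + k) from
      funext fun k => H.ne _ (by omega)]
  have hO : Ok (fun k => P (κ + 1 + k)) (fun k => m (κ + 1 + k)) j' :=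
    ⟨fun k => H.ok.mk' _, fun k hk => H.ok.pos _ (by omega), fun k hk => H.ok.le1 _ (by omega),
      fun k hk => H.ok.anti (κ + 1 + k) (by omega)⟩
  have := chg_cl hA hO (XX P m Z (κ + 1)) (XX P' m Z (κ + 1)) (top_X hA H) a' j' le_rfl hg ω
  rwa [show 2 * (2 * b ^ 2) = 4 * b ^ 2 by ring] at this

lemma full (hA : AApi) (hD : DomStmt) (H : Set0 P P' m t κ τp τm Z b) {u w : ℝ} (hw : 0 ≤ w)
    {G G0 : Ω → ℝ} (hg : ∀ ω, 0 ≤ G0 ω) (h : ∀ ω, Dm u w (G (τp ω)) (G (τm ω)) (G0 ω)) {a j : ℕ}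
    (ha : a ≤ κ) (hj : κ + 1 ≤ j) (hjt : j ≤ t) (ω : Ω) :
    Cl (u + 8 * b ^ 2 + (w + 3 * b) ^ 2 / 2) (Ce P' m Z a j G ω) (Ce P m Z a j G0 ω) := by
  rw [← hA.comp P' m Z (show a ≤ κ + 1 by omega) hj, ← hA.comp P m Z (show a ≤ κ + 1 by omega) hj]
  have h1 := Cl.op hA (hA.ce H.ok' Z (κ + 1) j hjt) (step hA hD H hw hg h ha) ω
  have h2 := outer hA H le_rfl hj hjt ((hA.ce H.ok Z a _ H.lt).1 _ hg) ω
  have h3 := h1.trans h2
  rwa [show u + 4 * b ^ 2 + (w + 3 * b) ^ 2 / 2 + 4 * b ^ 2 =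
    u + 8 * b ^ 2 + (w + 3 * b) ^ 2 / 2 by ring] at h3

lemma main (hA : AApi) (hD : DomStmt) (H : Set0 P P' m t κ τp τm Z b) {u w : ℝ} (hu : 0 ≤ u)
    (hw : 0 ≤ w) {φ : Ω → Ω → ℝ} (hφ : ∀ x y, 0 ≤ φ x y)
    (h11 : ∀ x y, Dm u w (φ (τp x) (τp y)) (φ (τm x) (τm y)) (φ x y))
    (h01 : ∀ x y, Dm u w (φ x (τp y)) (φ x (τm y)) (φ x y))
    (h10 : ∀ x y, Dm u w (φ (τp x) y) (φ (τm x) y) (φ x y)) {l : ℕ} (hl : l ≤ t) (ω0 : Ω) :
    Cl (2 * u + 20 * b ^ 2 + (w + 7 * b) ^ 2) (E2 P' m Z l t φ ω0) (E2 P m Z l t φ ω0) := by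
  have hb := H.b0
  have hM := hA.ce H.ok Z 0 l hl
  have hF : ∀ ω, 0 ≤ Ce P m Z 0 l (fun ω1 => Ce P m Z 0 l (fun ω2 => φ ω1 ω2) ω) ω :=
    fun ω => hM.1 _ (fun ω1 => hM.1 _ (hφ ω1) ω) ω
  have hpos : 0 ≤ E2 P m Z l t φ ω0 := (hA.ce H.ok Z l t le_rfl).1 _ hF ω0
  unfold E2 at hpos ⊢
  rcases le_or_gt l κ with hlk | hlk
  · have e1 : (fun ω => Ce P' m Z 0 l (fun ω1 => Ce P' m Z 0 l (fun ω2 => φ ω1 ω2) ω) ω) =
        fun ω => Ce P m Z 0 l (fun ω1 => Ce P m Z 0 l (fun ω2 => φ ω1 ω2) ω) ω := by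
      ext ω
      simp only [low_C hA H 0 l (Nat.zero_le _) hlk]
    rw [e1]
    have h1 : ∀ ω, Dm (u + 3 * b ^ 2 + 3 * b ^ 2) (w + 2 * b + 2 * b)
        (Ce P m Z 0 l (fun ω1 => Ce P m Z 0 l (fun ω2 => φ ω1 ω2) (τp ω)) (τp ω))
        (Ce P m Z 0 l (fun ω1 => Ce P m Z 0 l (fun ω2 => φ ω1 ω2) (τm ω)) (τm ω))
        (Ce P m Z 0 l (fun ω1 => Ce P m Z 0 l (fun ω2 => φ ω1 ω2) ω) ω) := by
      intro ω
      rw [← tr_C hA H.cp 0 l (Nat.zero_le _), ← tr_C hA H.cm 0 l (Nat.zero_le _)]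
      refine dom' hA hD H (by positivity) (fun ω1 => hM.1 _ (hφ ω1) ω) (fun ω1 => ?_) 0 l hl ω
      rw [← tr_C hA H.cp 0 l (Nat.zero_le _), ← tr_C hA H.cm 0 l (Nat.zero_le _)]
      exact dom' hA hD H hw (hφ ω1) (h11 ω1) 0 l hl ω
    refine (full hA hD H (by positivity) hF h1 hlk H.lt le_rfl ω0).mono ?_ hpos
    nlinarith [sq_nonneg b, sq_nonneg (w + 7 * b)]
  · have h1 : ∀ ω, Cl ((u + 8 * b ^ 2 + (w + 3 * b) ^ 2 / 2) + (u + 8 * b ^ 2 + (w + 3 * b) ^ 2 / 2))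
        (Ce P' m Z 0 l (fun ω1 => Ce P' m Z 0 l (fun ω2 => φ ω1 ω2) ω) ω)
        (Ce P m Z 0 l (fun ω1 => Ce P m Z 0 l (fun ω2 => φ ω1 ω2) ω) ω) := by
      intro ω
      refine (Cl.op hA (hA.ce H.ok' Z 0 l hl) (fun ω1 =>
        full hA hD H hw (hφ ω1) (h01 ω1) (Nat.zero_le κ) hlk hl ω) ω).trans ?_
      exact full hA hD H hw (G := fun ω1 => Ce P m Z 0 l (fun ω2 => φ ω1 ω2) ω)
        (fun ω1 => hM.1 _ (hφ ω1) ω) (fun ω1 => dm_op hA hM (h10 ω1) ω) (Nat.zero_le κ) hlk hl ω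
    refine ((Cl.op hA (hA.ce H.ok' Z l t le_rfl) h1 ω0).trans
      (outer hA H hlk hl le_rfl hF ω0)).mono ?_ hpos
    nlinarith [mul_nonneg hw hb, sq_nonneg b]

variable {O S : Type} [Fintype O] [DecidableEq O] [Fintype S] [Inhabited S]

omit [Fintype O] [Inhabited S] in
lemma chain_tr (hC : CApi) (L : Multiset (St O S)) (a : O → S → ℝ) (j : ℕ) (g : Om O S → ℝ)
    (ω : Om O S) :
    chain L j (fun x => g (x.1 + a, x.2)) ω = chain L j g (ω.1 + a, ω.2) := by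
  cases j with
  | zero => rfl
  | succ d =>
    have := hC.lv_map (AddMonoidHom.id (O → S → ℝ)) a (fun σ : S => σ)
      ((L.filter (fun s => s.1 = d)).map vec) g ω
    simpa [chain] using this

omit [Fintype S] [Inhabited S] in
lemma zz_tr (g : O → ℝ → ℝ) (s : St O S) (c : ℝ) (ω : Om O S) :
    ZZ g (ω.1 + c • vec s, ω.2) = ZZ g ω +
      (g s.2.1 (ω.1 s.2.1 ω.2 + c * s.2.2 ω.2) - g s.2.1 (ω.1 s.2.1 ω.2)) := by
  unfold ZZ
  rw [← add_sum_erase _ _ (mem_univ s.2.1), ← add_sum_erase _ _ (mem_univ s.2.1)]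
  have : ∑ o ∈ univ.erase s.2.1, g o ((ω.1 + c • vec s) o ω.2) =
      ∑ o ∈ univ.erase s.2.1, g o (ω.1 o ω.2) := by
    refine sum_congr rfl fun o ho => ?_
    simp [vec, Pi.single_eq_of_ne (ne_of_mem_erase ho)]
  simp only [this]
  simp [vec]
  ring

end Gr0

open Gr0 in
theorem gr0Stmt (hA : AApi) (hC : CApi) (hD : DomStmt) : Gr0Stmt := by
  intro B K hB hK
  refine ⟨2 * K + 20 * B ^ 2 + (K + 7 * B) ^ 2, ?_⟩
  intro O S _ _ _ _ n g L s φ d hn hd hg hs hb hφ hL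
  have hx : 0 ≤ ‖s.2.2‖ := norm_nonneg _
  have hw : ∀ σ, |s.2.2 σ| ≤ ‖s.2.2‖ := fun σ => norm_le_pi_norm s.2.2 σ
  have H : Set0 (chain L) (chain (s ::ₘ L)) (ex n) (n + 1) (s.1 + 1)
      (fun ω => (ω.1 + (1 : ℝ) • vec s, ω.2)) (fun ω => (ω.1 + (-1 : ℝ) • vec s, ω.2)) (ZZ g)
      (B * ‖s.2.2‖) := by
    refine ⟨hC.ok n L hn, hC.ok n _ hn, by omega, fun j hj => ?_, fun G ω => ?_,
      fun j G ω => chain_tr hC L _ j G ω, fun j G ω => chain_tr hC L _ j G ω, by positivity, hb,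
      fun ω => ?_, fun ω => ?_⟩
    · cases j with
      | zero => rfl
      | succ k =>
        simp only [chain]
        rw [Multiset.filter_cons_of_neg _ (fun h => hj (by rw [h]))]
    · simp only [chain]
      rw [Multiset.filter_cons_of_pos (p := fun s' : St O S => s'.1 = s.1) _ rfl, Multiset.map_cons,
        hC.lv_cons]
      simp [sgo, sub_eq_add_neg]
    · rw [zz_tr, zz_tr]
      have h1 := ((hg s.2.1) (ω.1 s.2.1 ω.2 + -1 * s.2.2 ω.2) (2 * s.2.2 ω.2)).1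
      rw [show ω.1 s.2.1 ω.2 + -1 * s.2.2 ω.2 + 2 * s.2.2 ω.2 =
        ω.1 s.2.1 ω.2 + 1 * s.2.2 ω.2 by ring, abs_mul, abs_two] at h1
      have h2 := mul_le_mul_of_nonneg_left (hw ω.2) (show 0 ≤ B by linarith)
      rw [show ∀ a b c e : ℝ, a + (b - c) - (a + (e - c)) = b - e from fun a b c e => by ring]
      linarith
    · rw [zz_tr, zz_tr]
      have h1 := ((hg s.2.1) (ω.1 s.2.1 ω.2) (s.2.2 ω.2)).2
      rw [show ∀ a b c e : ℝ, a + (b - c) + (a + (e - c)) - 2 * a = b + e - 2 * c from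
        fun a b c e => by ring, one_mul, neg_one_mul, ← sub_eq_add_neg]
      refine h1.trans ?_
      have h2 : s.2.2 ω.2 ^ 2 ≤ ‖s.2.2‖ ^ 2 := by
        rw [← sq_abs]; exact pow_le_pow_left₀ (abs_nonneg _) (hw ω.2) 2
      have h3 : B ≤ B ^ 2 := by nlinarith
      rw [mul_pow]
      exact mul_le_mul h3 h2 (sq_nonneg _) (by positivity)
  have := main hA hD H (u := K * ‖s.2.2‖ ^ 2) (w := K * ‖s.2.2‖) (by positivity) (by positivity) hφ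
    (fun x y => by
      have := hL x y 1 1 (Or.inr rfl) (Or.inr rfl)
      simpa [sub_eq_add_neg] using this)
    (fun x y => by
      have := hL x y 0 1 (Or.inl rfl) (Or.inr rfl)
      simpa [sub_eq_add_neg] using this)
    (fun x y => by
      have := hL x y 1 0 (Or.inr rfl) (Or.inl rfl)
      simpa [sub_eq_add_neg] using this) (l := d + 1) (by omega) (0, default)
  rw [show 2 * (K * ‖s.2.2‖ ^ 2) + 20 * (B * ‖s.2.2‖) ^ 2 + (K * ‖s.2.2‖ + 7 * (B * ‖s.2.2‖)) ^ 2 =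
    (2 * K + 20 * B ^ 2 + (K + 7 * B) ^ 2) * ‖s.2.2‖ ^ 2 by ring] at this
  exact this

end

end Vale.Agent.P157
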