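import Vale.Agent.P157.C

namespace Vale.Agent.P157

open Finset Real

set_option linter.unusedSectionVars false
set_option linter.unusedVariables false

namespace Gr1

theorem dm_exp {u w g x y : ℝ} (hg : 0 ≤ g) (h1 : |x + y| ≤ 2 * u) (h2 : |x - y| ≤ 2 * w) :
    Dm u w (g * exp x) (g * exp y) g := by
  intro α β
  have key : (exp α * (g * exp x) + exp β * (g * exp y)) / 2 =
      exp ((α + β) / 2 + (x + y) / 2) * cosh ((α - β) / 2 + (x - y) / 2) * g := by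
    rw [cosh_eq]
    have e1 : exp α * exp x = exp ((α + β) / 2 + (x + y) / 2) * exp ((α - β) / 2 + (x - y) / 2) := by
      rw [← exp_add, ← exp_add]; congr 1; ring
    have e2 : exp β * exp y =
        exp ((α + β) / 2 + (x + y) / 2) * exp (-((α - β) / 2 + (x - y) / 2)) := by
      rw [← exp_add, ← exp_add]; congr 1; ring
    linear_combination (g / 2) * e1 + (g / 2) * e2
  rw [key]
  have h3 := abs_le.1 h1
  constructor
  · refine mul_le_mul_of_nonneg_right ?_ hg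
    have a1 : exp ((α + β) / 2 - u) ≤ exp ((α + β) / 2 + (x + y) / 2) := by
      rw [exp_le_exp]; linarith [h3.1]
    have a2 := one_le_cosh ((α - β) / 2 + (x - y) / 2)
    have a3 := exp_pos ((α + β) / 2 + (x + y) / 2)
    nlinarith
  · refine mul_le_mul_of_nonneg_right ?_ hg
    refine mul_le_mul ?_ ?_ (cosh_pos _).le (exp_pos _).le
    · rw [exp_le_exp]; linarith [h3.2]
    · rw [cosh_le_cosh]
      have hw : 0 ≤ w := by linarith [abs_nonneg (x - y)]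
      rw [abs_of_nonneg (by positivity : 0 ≤ |α - β| / 2 + w)]
      have := abs_add_le ((α - β) / 2) ((x - y) / 2)
      rw [abs_div, abs_div, abs_two] at this
      linarith

theorem log_bd {z c : ℝ} (hc : 1 ≤ c) (hz : 1 ≤ c * z) : |log z| ≤ c * |z - 1| := by
  have hz0 : 0 < z := by nlinarith
  have h1 := log_le_sub_one_of_pos hz0
  have h2 := one_sub_inv_le_log_of_pos hz0
  have h3 := le_abs_self (z - 1)
  have h4 := neg_abs_le (z - 1)
  have h5 := abs_nonneg (z - 1)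
  have h6 : z⁻¹ ≤ c := by rw [inv_le_iff_one_le_mul₀ hz0]; linarith
  have h7 : 1 - z⁻¹ = z⁻¹ * (z - 1) := by field_simp
  have h8 : 0 < z⁻¹ := inv_pos.2 hz0
  rw [abs_le]
  constructor <;> nlinarith

theorem dm_rat {δ gp gm g M : ℝ} (hM : 0 < M) (hδ : 0 ≤ δ) (h0 : M ≤ g) (h0' : g ≤ 3 * M)
    (hp : M ≤ gp) (hm : M ≤ gm) (h1 : |gp - g| ≤ 2 * M * δ) (h2 : |gm - g| ≤ 2 * M * δ)
    (h3 : |gp + gm - 2 * g| ≤ 4 * M * δ ^ 2) : Dm (36 * δ ^ 2) (36 * δ) gp gm g := by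
  have hg : 0 < g := by linarith
  set a := gp / g with ha
  set b := gm / g with hb
  have ha0 : 0 < a := div_pos (by linarith) hg
  have hb0 : 0 < b := div_pos (by linarith) hg
  have ea : gp = g * a := by rw [ha]; field_simp
  have eb : gm = g * b := by rw [hb]; field_simp
  have a3 : 1 ≤ 3 * a := by
    rw [ha, ← mul_div_assoc, le_div_iff₀ hg]; linarith
  have b3 : 1 ≤ 3 * b := by
    rw [hb, ← mul_div_assoc, le_div_iff₀ hg]; linarith
  have hd : ∀ x c : ℝ, 0 ≤ c → |g * x| ≤ M * c → |x| ≤ c := by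
    intro x c hc hx
    rw [abs_mul, abs_of_pos hg] at hx
    have : g * |x| ≤ g * c := hx.trans (mul_le_mul_of_nonneg_right h0 hc)
    exact le_of_mul_le_mul_left this hg
  have a1 : |a - 1| ≤ 2 * δ := hd _ _ (by positivity) (by
    rw [show g * (a - 1) = gp - g by rw [ea]; ring]; linarith)
  have b1 : |b - 1| ≤ 2 * δ := hd _ _ (by positivity) (by
    rw [show g * (b - 1) = gm - g by rw [eb]; ring]; linarith)
  have ab : |a + b - 2| ≤ 4 * δ ^ 2 := hd _ _ (by positivity) (by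
    rw [show g * (a + b - 2) = gp + gm - 2 * g by rw [ea, eb]; ring]; linarith)
  have ab2 : |a * b - 1| ≤ 8 * δ ^ 2 := by
    have e : a * b - 1 = (a + b - 2) + (a - 1) * (b - 1) := by ring
    have t1 := abs_add_le (a + b - 2) ((a - 1) * (b - 1))
    have t2 : |(a - 1) * (b - 1)| ≤ (2 * δ) * (2 * δ) := by
      rw [abs_mul]; exact mul_le_mul a1 b1 (abs_nonneg _) (by positivity)
    rw [e]; nlinarith
  have la := log_bd (by norm_num : (1 : ℝ) ≤ 3) a3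
  have lb := log_bd (by norm_num : (1 : ℝ) ≤ 3) b3
  have lab := log_bd (by norm_num : (1 : ℝ) ≤ 9) (by nlinarith : 1 ≤ 9 * (a * b))
  rw [log_mul ha0.ne' hb0.ne'] at lab
  have := @dm_exp (36 * δ ^ 2) (36 * δ) g (log a) (log b) hg.le (by linarith) (by
    have := abs_sub (log a) (log b); linarith)
  rwa [exp_log ha0, exp_log hb0, ← ea, ← eb] at this

variable {O S : Type} [Fintype O] [DecidableEq O] [Fintype S] [Inhabited S]

theorem ee_bd (n : ℕ) (g : O → ℝ → ℝ) (L : Multiset (St O S)) (d : ℕ) (hn : 1 ≤ n) (hd : d ≤ n)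
    (φ : Om O S → Om O S → ℝ) (a b : ℝ) (h : ∀ ω ω', a ≤ φ ω ω' ∧ φ ω ω' ≤ b) :
    a ≤ EE n g L d φ ∧ EE n g L d φ ≤ b := by
  have hk := Cc.ok n L hn
  constructor
  · have := Aa.e2mono hk (ZZ g) (d + 1) (by omega) (φ := fun _ _ => a) (ψ := φ)
      (fun x x' => (h x x').1) (0, default)
    rwa [Aa.e2const hk _ _ (by omega)] at this
  · have := Aa.e2mono hk (ZZ g) (d + 1) (by omega) (ψ := fun _ _ => b) (φ := φ)
      (fun x x' => (h x x').2) (0, default)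
    rwa [Aa.e2const hk _ _ (by omega)] at this

theorem ee_nn (n : ℕ) (g : O → ℝ → ℝ) (L : Multiset (St O S)) (d : ℕ) (hn : 1 ≤ n) (hd : d ≤ n)
    (φ : Om O S → Om O S → ℝ) (h : ∀ ω ω', 0 ≤ φ ω ω') : 0 ≤ EE n g L d φ := by
  have hk := Cc.ok n L hn
  have := Aa.e2mono hk (ZZ g) (d + 1) (by omega) (φ := fun _ _ => 0) (ψ := φ) h (0, default)
  rwa [Aa.e2const hk _ _ (by omega)] at this

theorem vr_cons (s : St O S) (L : Multiset (St O S)) : vr (s ::ₘ L) = ‖s.2.2‖ ^ 2 + vr L := by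
  simp [vr]

theorem vr_nn (L : Multiset (St O S)) : 0 ≤ vr L := by
  induction L using Multiset.induction_on with
  | empty => simp [vr]
  | cons s L ih => rw [vr_cons]; positivity

end Gr1

namespace Gr1

theorem multi (h : Gr0Stmt) (B K : ℝ) (hB : 1 ≤ B) (hK : 0 ≤ K) : ∃ C : ℝ, 0 ≤ C ∧
    ∀ (O S : Type) [Fintype O] [DecidableEq O] [Fintype S] [Inhabited S] (n : ℕ)
    (g : O → ℝ → ℝ) (L L' : Multiset (St O S)) (φ : Om O S → Om O S → ℝ) (d : ℕ), 1 ≤ n → d ≤ n →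
    (∀ o, D2 B (g o)) → Small n B L' → (∀ ω ω', 0 ≤ φ ω ω') → (∀ s ∈ L', LG K s φ) →
    EE n g (L + L') d φ ≤ exp (C * vr L') * EE n g L d φ ∧
      EE n g L d φ ≤ exp (C * vr L') * EE n g (L + L') d φ := by
  obtain ⟨C, hC⟩ := h B K hB hK
  refine ⟨|C|, abs_nonneg _, ?_⟩
  intro O S _ _ _ _ n g L L' φ d hn hd hg hs hφ hL
  induction L' using Multiset.induction_on with
  | empty => simp [vr]
  | cons s L' ih =>
    obtain ⟨i1, i2⟩ := ih (fun t ht => hs t (Multiset.mem_cons_of_mem ht))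
      (fun t ht => hL t (Multiset.mem_cons_of_mem ht))
    have hs' := hs s (Multiset.mem_cons_self _ _)
    obtain ⟨j1, j2⟩ := hC O S n g (L + L') s φ d hn hd hg hs'.1 hs'.2 hφ
      (hL s (Multiset.mem_cons_self _ _))
    have he : exp (C * ‖s.2.2‖ ^ 2) ≤ exp (|C| * ‖s.2.2‖ ^ 2) := by
      rw [exp_le_exp]; exact mul_le_mul_of_nonneg_right (le_abs_self C) (by positivity)
    have n1 := ee_nn n g (L + L') d hn hd φ hφ
    have n2 := ee_nn n g (s ::ₘ (L + L')) d hn hd φ hφ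
    rw [Multiset.add_cons, vr_cons, mul_add, exp_add]
    constructor
    · calc _ ≤ exp (|C| * ‖s.2.2‖ ^ 2) * EE n g (L + L') d φ :=
            j1.trans (mul_le_mul_of_nonneg_right he n1)
        _ ≤ exp (|C| * ‖s.2.2‖ ^ 2) * (exp (|C| * vr L') * EE n g L d φ) :=
            mul_le_mul_of_nonneg_left i1 (exp_pos _).le
        _ = _ := by ring
    · calc _ ≤ exp (|C| * vr L') * EE n g (L + L') d φ := i2
        _ ≤ exp (|C| * vr L') * (exp (|C| * ‖s.2.2‖ ^ 2) * EE n g (s ::ₘ (L + L')) d φ) :=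
            mul_le_mul_of_nonneg_left (j2.trans (mul_le_mul_of_nonneg_right he n2)) (exp_pos _).le
        _ = _ := by ring

theorem prod_bd {K δ u up um v vp vm χ : ℝ} (hK : 1 ≤ K) (hδ : 0 ≤ δ) (h1 : |u| ≤ K)
    (h2 : |up| ≤ K) (h3 : |um| ≤ K) (h4 : |v| ≤ K) (h5 : |vp| ≤ K) (h6 : |vm| ≤ K) (hχ : |χ| ≤ 1)
    (a1 : |up - u| ≤ K * δ) (a2 : |um - u| ≤ K * δ) (a3 : |up + um - 2 * u| ≤ K * δ ^ 2)
    (b1 : |vp - v| ≤ K * δ) (b2 : |vm - v| ≤ K * δ) (b3 : |vp + vm - 2 * v| ≤ K * δ ^ 2) :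
    Dm (36 * δ ^ 2) (36 * δ) (2 * K ^ 2 + up * vp * χ) (2 * K ^ 2 + um * vm * χ)
      (2 * K ^ 2 + u * v * χ) := by
  have hK0 : 0 ≤ K := by linarith
  have m1 : ∀ {x y a b : ℝ}, |x| ≤ a → |y| ≤ b → |x * y| ≤ a * b := fun {x y a b} hx hy => by
    rw [abs_mul]; exact mul_le_mul hx hy (abs_nonneg _) ((abs_nonneg _).trans hx)
  have t1 := abs_le.1 (m1 (m1 h1 h4) hχ)
  have t2 := abs_le.1 (m1 (m1 h2 h5) hχ)
  have t3 := abs_le.1 (m1 (m1 h3 h6) hχ)
  refine dm_rat (M := K ^ 2) (by positivity) hδ (by nlinarith) (by nlinarith) (by nlinarith)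
    (by nlinarith) ?_ ?_ ?_
  · have c1 := abs_le.1 (m1 (m1 a1 h5) hχ)
    have c2 := abs_le.1 (m1 (m1 h1 b1) hχ)
    rw [abs_le]; constructor <;> nlinarith
  · have c1 := abs_le.1 (m1 (m1 a2 h6) hχ)
    have c2 := abs_le.1 (m1 (m1 h1 b2) hχ)
    rw [abs_le]; constructor <;> nlinarith
  · have c1 := abs_le.1 (m1 (m1 h1 b3) hχ)
    have c2 := abs_le.1 (m1 (m1 a3 h4) hχ)
    have c3 := abs_le.1 (m1 (m1 a1 b1) hχ)
    have c4 := abs_le.1 (m1 (m1 a2 b2) hχ)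
    rw [abs_le]; constructor <;> nlinarith

variable {O S : Type} [Fintype O] [DecidableEq O] [Fintype S] [Inhabited S]

theorem vec_le (s : St O S) (o : O) (σ : S) (a : ℝ) (ha : a = 0 ∨ a = 1) :
    |a * vec s o σ| ≤ ‖s.2.2‖ := by
  have h1 : |vec s o σ| ≤ ‖s.2.2‖ := by
    unfold vec
    by_cases h : o = s.2.1
    · subst h; rw [Pi.single_eq_same]; exact norm_le_pi_norm s.2.2 σ
    · rw [Pi.single_eq_of_ne h]; simp
  rcases ha with rfl | rfl
  · simp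
  · simpa using h1

theorem d2_le {K δ h : ℝ} {u : ℝ → ℝ} (hK : 0 ≤ K) (hu : D2 K u) (hh : |h| ≤ δ) (t : ℝ) :
    |u (t + h) - u t| ≤ K * δ ∧ |u (t - h) - u t| ≤ K * δ ∧
      |u (t + h) + u (t - h) - 2 * u t| ≤ K * δ ^ 2 := by
  refine ⟨(hu t h).1.trans (by gcongr), ?_, (hu t h).2.trans ?_⟩
  · have := (hu t (-h)).1
    rw [← sub_eq_add_neg, abs_neg] at this
    exact this.trans (by gcongr)
  · have : h ^ 2 ≤ δ ^ 2 := by rw [← sq_abs h]; gcongr
    gcongr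

theorem lg_prod {K : ℝ} (hK : 1 ≤ K) (s : St O S) (o : O) (u u' : ℝ → ℝ) (χ : S → S → ℝ)
    (hu : D2 K u) (hu' : D2 K u') (hb : ∀ t, |u t| ≤ K) (hb' : ∀ t, |u' t| ≤ K)
    (hχ : ∀ σ σ', |χ σ σ'| ≤ 1) :
    LG 36 s (fun ω ω' => 2 * K ^ 2 + u (ω.1 o ω.2) * u' (ω'.1 o ω'.2) * χ ω.2 ω'.2) := by
  intro ω ω' a a' ha ha'
  have h1 := d2_le (by linarith) hu (vec_le s o ω.2 a ha) (ω.1 o ω.2)
  have h2 := d2_le (by linarith) hu' (vec_le s o ω'.2 a' ha') (ω'.1 o ω'.2)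
  simp only [Pi.add_apply, Pi.sub_apply, Pi.smul_apply, smul_eq_mul]
  exact prod_bd hK (norm_nonneg _) (hb _) (hb _) (hb _) (hb' _) (hb' _) (hb' _) (hχ _ _)
    h1.1 h1.2.1 h1.2.2 h2.1 h2.2.1 h2.2.2

theorem exp_sub {C v : ℝ} (hC : 0 ≤ C) (hv : 0 ≤ v) (hv1 : v ≤ 1) :
    exp (C * v) - 1 ≤ C * exp C * v := by
  have h1 := add_one_le_exp (-(C * v))
  have h2 : exp (-(C * v)) * exp (C * v) = 1 := by rw [← exp_add]; simp
  have h3 : exp (C * v) ≤ exp C := by rw [exp_le_exp]; nlinarith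
  have h4 := exp_pos (C * v)
  have h5 : 0 ≤ C * v := by positivity
  nlinarith

end Gr1

theorem graStmt (h : Gr0Stmt) : GraStmt := by
  intro B hB
  obtain ⟨C, hC0, hC⟩ := Gr1.multi h B 0 hB le_rfl
  refine ⟨C, hC0, ?_⟩
  intro O S _ _ _ _ n g L L' χ d hn hd hg hs hχ
  refine hC O S n g L L' _ d hn hd hg hs (fun ω ω' => hχ _ _) ?_
  intro s _ ω ω' a a' _ _
  have := @Gr1.dm_exp 0 0 (χ ω.2 ω'.2) 0 0 (hχ _ _) (by simp) (by simp)
  simpa using this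

theorem grbStmt (hA : AApi) (hC : CApi) (h : Gr0Stmt) : GrbStmt := by
  intro B K hB hK
  obtain ⟨C, hC0, hC⟩ := Gr1.multi h B 36 hB (by norm_num)
  refine ⟨3 * K ^ 2 * (C * exp C), by positivity, ?_⟩
  intro O S _ _ _ _ n g L L' o u u' χ d hn hd hg hs hv hu hu' hb hb' hχ
  have hr : ∀ ω ω' : Om O S,
      0 ≤ 2 * K ^ 2 + u (ω.1 o ω.2) * u' (ω'.1 o ω'.2) * χ ω.2 ω'.2 ∧
      2 * K ^ 2 + u (ω.1 o ω.2) * u' (ω'.1 o ω'.2) * χ ω.2 ω'.2 ≤ 3 * K ^ 2 := by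
    intro ω ω'
    have : |u (ω.1 o ω.2) * u' (ω'.1 o ω'.2) * χ ω.2 ω'.2| ≤ K * K * 1 := by
      rw [abs_mul, abs_mul]
      exact mul_le_mul (mul_le_mul (hb _) (hb' _) (abs_nonneg _) (by linarith)) (hχ _ _)
        (abs_nonneg _) (by positivity)
    have := abs_le.1 this
    constructor <;> nlinarith
  obtain ⟨i1, i2⟩ := hC O S n g L L' _ d hn hd hg hs (fun ω ω' => (hr ω ω').1)
    (fun s _ => Gr1.lg_prod hK s o u u' χ hu hu' hb hb' hχ)
  have b1 := Gr1.ee_bd n g L d hn hd _ _ _ hr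
  have b2 := Gr1.ee_bd n g (L + L') d hn hd _ _ _ hr
  have e : ∀ M : Multiset (St O S), EE n g M d (fun ω ω' => 2 * K ^ 2 +
      u (ω.1 o ω.2) * u' (ω'.1 o ω'.2) * χ ω.2 ω'.2) = 2 * K ^ 2 +
      EE n g M d (fun ω ω' => u (ω.1 o ω.2) * u' (ω'.1 o ω'.2) * χ ω.2 ω'.2) := by
    intro M
    have := Aa.e2add (chain M) (ex n) (ZZ g) (d + 1) (n + 1) (fun _ _ => 2 * K ^ 2)
      (fun ω ω' => u (ω.1 o ω.2) * u' (ω'.1 o ω'.2) * χ ω.2 ω'.2) 1 1 (0, default)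
    rw [Aa.e2const (Cc.ok n M hn) _ _ (by omega)] at this
    simpa [EE] using this
  rw [e] at b1 b2
  rw [e, e] at i1 i2
  have hx := Gr1.exp_sub hC0 (Gr1.vr_nn L') hv
  have hx0 : 0 ≤ exp (C * vr L') - 1 := by
    have := add_one_le_exp (C * vr L')
    have := mul_nonneg hC0 (Gr1.vr_nn L')
    linarith
  have k1 := mul_le_mul hx b1.2 b1.1 (hx0.trans hx)
  have k2 := mul_le_mul hx b2.2 b2.1 (hx0.trans hx)
  rw [abs_le]
  constructor <;> nlinarith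

end Vale.Agent.P157
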