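import Vale.Agent.P157.Stm

/-! P157: continuity of the pattern functional in the head sums of the path. -/

namespace Vale.Agent.P157

open Finset Real Filter Topology

noncomputable section

namespace Hl

theorem swap (hA : AApi) (hG : GApi) (hM : MsStmt) (B : ℝ) (hB : 1 ≤ B) : ∃ C : ℝ, 0 ≤ C ∧
    ∀ (n : ℕ) (f f1 f2 : ℝ → ℝ) (p p' : ℕ → ℝ) (τ c : ℝ), 1 ≤ n → Sm B f f1 f2 → Path n p →
      Path n p' → p 0 = 1 → p' 0 = 1 → 0 ≤ τ → 0 ≤ c → B * √c ≤ 1 → c ≤ 1 →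
      (∀ κ, κ < n → |(1 / (n : ℝ)) * ∑ d ∈ Icc 1 κ, (p d - p' d)| ≤ τ) → ∀ l,
      |HD n f (l + sprof n p c) - HD n f (l + sprof n p' c)| ≤ c * (B ^ 2 * τ) + C * (c * √c) := by
  obtain ⟨C, hC, hM⟩ := hM B hB
  refine ⟨2 * C, by positivity, fun n f f1 f2 p p' τ c hn hf hp hp' h0 h0' hτ hc hc1 hc2 hs l => ?_⟩
  set L : Multiset (St Unit Unit) := lift () (fun _ => 1) l
  set W : ℕ → ℝ := fun d => EE n (fun _ : Unit => f) L d
    (fun ω ω' => ob f1 () (fun _ => 1) ω * ob f1 () (fun _ => 1) ω')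
  have key : ∀ p : ℕ → ℝ, Path n p → p 0 = 1 → |HD n f (l + sprof n p c) - HD n f l -
      c * (E1 n (fun _ : Unit => f) L (ob (fun t => f2 t + f1 t ^ 2) () (fun _ => 1)) -
        (1 / (n : ℝ)) * ∑ d ∈ Ico 1 n, p d * W d) / 2| ≤ C * (c * √c) := fun p hp h0 => by
    obtain ⟨v1, -, v3⟩ := hG.sprof_var n p c hp hc
    rw [h0, mul_one] at v1 v3
    have e1 : vr (lift () (fun _ : Unit => (1 : ℝ)) (sprof n p c)) = c := by
      rw [(hG.lift_vr _ _ _ (by simp)).1, v1]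
    have e2 := (hM Unit Unit n (fun _ => f) (fun _ => f1) (fun _ => f2) L
      (lift () (fun _ => 1) (sprof n p c)) hn (fun _ => hf)
      (hG.lift_small n B _ _ _ (by simp) fun s hs => ⟨(v3 s hs).1,
        (mul_le_mul_of_nonneg_left (v3 s hs).2 (by linarith)).trans hc1⟩)).2 (by rwa [e1])
    rw [e1, hG.gam_prof n _ _ _ _ _ _ p c hn hp hc (by simp), h0, one_mul] at e2
    rw [HD, lift, Multiset.map_add]
    exact e2
  obtain ⟨w1, w2⟩ := hG.w_path n (fun _ : Unit => f) L (ob f1 () (fun _ => 1)) B hn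
    fun ω => by simpa [ob] using hf.b1 _
  have h3 := hA.abel n _ (fun d => (1 / (n : ℝ)) * (p d - p' d)) τ w1 hτ fun κ hκ => by
    rw [← mul_sum]; exact hs κ hκ
  have h4 : ∑ d ∈ Ico 1 n, (if d < n then W d else 0) * ((1 / (n : ℝ)) * (p d - p' d)) =
      (1 / (n : ℝ)) * ∑ d ∈ Ico 1 n, p d * W d - (1 / (n : ℝ)) * ∑ d ∈ Ico 1 n, p' d * W d := by
    rw [mul_sum, mul_sum, ← sum_sub_distrib]
    refine sum_congr rfl fun d hd => ?_
    rw [if_pos (mem_Ico.1 hd).2]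
    ring
  simp only [if_pos (show 0 < n from hn)] at h3
  rw [h4] at h3
  obtain ⟨a1, a2⟩ := abs_le.1 (h3.trans (mul_le_mul_of_nonneg_right w2 hτ))
  obtain ⟨b1, b2⟩ := abs_le.1 (key p hp h0)
  obtain ⟨c1, c2⟩ := abs_le.1 (key p' hp' h0')
  have a1' := mul_le_mul_of_nonneg_left a1 hc
  have a2' := mul_le_mul_of_nonneg_left a2 hc
  have : 0 ≤ c * (B ^ 2 * τ) := by positivity
  exact abs_le.2 ⟨by linarith, by linarith⟩

theorem many {F : Multiset (ℕ × ℝ) → ℝ} {a b : Multiset (ℕ × ℝ)} {e : ℝ}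
    (h : ∀ l, |F (l + a) - F (l + b)| ≤ e) (D : ℕ) :
    ∀ l, |F (l + D • a) - F (l + D • b)| ≤ D * e := by
  induction D with
  | zero => simp
  | succ D ih =>
    intro l
    have h1 := h (l + D • a)
    have h2 := ih (l + b)
    rw [add_right_comm l b] at h2
    rw [succ_nsmul, ← add_assoc, succ_nsmul', ← add_assoc]
    obtain ⟨a1, a2⟩ := abs_le.1 h1
    obtain ⟨b1, b2⟩ := abs_le.1 h2
    push_cast
    exact abs_le.2 ⟨by linarith, by linarith⟩

end Hl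

theorem hlStmt (hA : AApi) (_hC : CApi) (hG : GApi) (hM : MsStmt) (h2 : G2Stmt) : HlStmt := by
  intro B n f f1 f2 p p' τ hB hn hf hp hp' h0 h0' hτ hs
  obtain ⟨C, hC, hsw⟩ := Hl.swap hA hG hM B hB
  refine le_of_forall_pos_le_add fun ε hε => ?_
  obtain ⟨η, hη, hg⟩ := h2 n B 1 (ε / 3) hn (by positivity)
  have t : Tendsto (fun D : ℕ => √(1 / (D : ℝ))) atTop (𝓝 0) := by
    simpa using tendsto_one_div_atTop_nhds_zero_nat.sqrt
  have t1 := t.eventually (ge_mem_nhds hη)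
  have t2 := (t.const_mul B).eventually (ge_mem_nhds (show B * 0 < 1 by simp))
  have t3 := (t.const_mul C).eventually (ge_mem_nhds (show C * 0 < ε / 3 by simpa using hε))
  obtain ⟨D, e1, e2, e3, e4⟩ := (t1.and (t2.and (t3.and (eventually_ge_atTop 1)))).exists
  have hD : (1 : ℝ) ≤ D := by exact_mod_cast e4
  have hc : (0 : ℝ) ≤ 1 / D := by positivity
  have key : ∀ p : ℕ → ℝ, Path n p → p 0 = 1 →
      |HD n f (D • sprof n p (1 / D)) - Hf n f p| ≤ ε / 3 := fun p hp h0 => by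
    obtain ⟨-, v2, v3⟩ := hG.sprof_var n p _ hp hc
    rw [h0, mul_one] at v3
    refine (hg p _ hp h0.le (fun s hs => (v3 s (Multiset.mem_of_mem_nsmul hs)).2.trans e1)
      fun d hd => ?_).1 f fun t h => (hf.d0 t h).1
    rw [(hG.lvar_add _ 0 D d).2, v2 d hd, ← mul_assoc, mul_one_div_cancel (by linarith), one_mul,
      sub_self, abs_zero]
    exact hη.le
  have h3 := Hl.many (hsw n f f1 f2 p p' τ _ hn hf hp hp' h0 h0' hτ hc e2
    ((div_le_one (by linarith)).2 hD) hs) D 0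
  rw [zero_add, zero_add, show (D : ℝ) * (1 / D * (B ^ 2 * τ) + C * (1 / D * √(1 / D))) =
    B ^ 2 * τ + C * √(1 / D) by field_simp] at h3
  obtain ⟨a1, a2⟩ := abs_le.1 h3
  obtain ⟨b1, b2⟩ := abs_le.1 (key p hp h0)
  obtain ⟨c1, c2⟩ := abs_le.1 (key p' hp' h0')
  exact abs_le.2 ⟨by linarith, by linarith⟩

end

end Vale.Agent.P157
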