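import Vale.Agent.P157.A

/-! P157, module L1: second order expansion of a cascade. -/

namespace Vale.Agent.P157

open Finset Real

namespace L1m

/-- remainder of `(e^{μ t} - 1) / μ` after two terms -/
noncomputable def rm (μ t : ℝ) : ℝ := (exp (μ * t) - 1 - μ * t - (μ * t) ^ 2 / 2) / μ

theorem e3 {x : ℝ} (hx : |x| ≤ 1) : |exp x - 1 - x - x ^ 2 / 2| ≤ |x| ^ 3 := by
  have h := Real.exp_bound hx (n := 3) (by norm_num)
  have e : ∑ m ∈ range 3, x ^ m / (m.factorial : ℝ) = 1 + x + x ^ 2 / 2 := by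
    simp [sum_range_succ, Nat.factorial]
  rw [e] at h
  have e2 : exp x - 1 - x - x ^ 2 / 2 = exp x - (1 + x + x ^ 2 / 2) := by ring
  rw [e2]
  refine h.trans ?_
  have : (0 : ℝ) ≤ |x| ^ 3 := by positivity
  norm_num [Nat.factorial]
  nlinarith

theorem mt {μ t : ℝ} (h0 : 0 < μ) (h1 : μ ≤ 1) (ht : |t| ≤ 1) : |μ * t| ≤ 1 := by
  rw [abs_mul, abs_of_pos h0]
  nlinarith [abs_nonneg t]

theorem rm_le {μ t : ℝ} (h0 : 0 < μ) (h1 : μ ≤ 1) (ht : |t| ≤ 1) : |rm μ t| ≤ |t| ^ 3 := by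
  rw [rm, abs_div, abs_of_pos h0, div_le_iff₀ h0]
  refine (e3 (mt h0 h1 ht)).trans ?_
  rw [abs_mul, abs_of_pos h0, mul_pow, mul_comm]
  refine mul_le_mul_of_nonneg_left ?_ (by positivity)
  nlinarith [mul_pos h0 h0]

theorem rm_lip {μ μ' t : ℝ} (h0 : 0 < μ') (hle : μ' ≤ μ) (h1 : μ ≤ 1) (ht : |t| ≤ 1) :
    |rm μ t - rm μ' t| ≤ 2 * |t| ^ 3 * (μ - μ') := by
  have hd : ∀ x ∈ Set.Icc μ' μ, HasDerivWithinAt (fun x => rm x t)
      (((exp (x * t) * t - t - x * t * t) * x -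
        (exp (x * t) - 1 - x * t - (x * t) ^ 2 / 2)) / x ^ 2) (Set.Icc μ' μ) x := by
    intro x hx
    have hx0 : x ≠ 0 := (h0.trans_le hx.1).ne'
    have a1 : HasDerivAt (fun x : ℝ => x * t) t x := by simpa using (hasDerivAt_id x).mul_const t
    have a2 : HasDerivAt (fun x : ℝ => exp (x * t) - 1 - x * t - (x * t) ^ 2 / 2)
        (exp (x * t) * t - t - x * t * t) x := by
      have := ((a1.exp.sub_const 1).sub a1).sub ((a1.pow 2).div_const 2)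
      refine this.congr_deriv ?_
      simp only [Nat.cast_ofNat, Nat.add_one_sub_one, pow_one]
      ring
    have := (a2.fun_div (hasDerivAt_id' x) hx0).hasDerivWithinAt (s := Set.Icc μ' μ)
    rw [mul_one] at this
    exact this
  have hb : ∀ x ∈ Set.Icc μ' μ, ‖((exp (x * t) * t - t - x * t * t) * x -
      (exp (x * t) - 1 - x * t - (x * t) ^ 2 / 2)) / x ^ 2‖ ≤ 2 * |t| ^ 3 := by
    intro x hx
    have hx0 : 0 < x := h0.trans_le hx.1
    have hx1 : x ≤ 1 := hx.2.trans h1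
    have hy := mt hx0 hx1 ht
    have b1 := e3 hy
    have b2 := Real.abs_exp_sub_one_sub_id_le hy
    have e : (exp (x * t) * t - t - x * t * t) * x = (x * t) * (exp (x * t) - 1 - x * t) := by ring
    rw [Real.norm_eq_abs, abs_div, abs_of_pos (pow_pos hx0 2), div_le_iff₀ (pow_pos hx0 2), e]
    refine (abs_sub _ _).trans ?_
    rw [abs_mul]
    have b3 : |x * t| * |exp (x * t) - 1 - x * t| ≤ |x * t| ^ 3 := by
      rw [← sq_abs] at b2
      nlinarith [abs_nonneg (x * t)]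
    have b4 : |x * t| ^ 3 ≤ |t| ^ 3 * x ^ 2 := by
      rw [abs_mul, abs_of_pos hx0, mul_pow, mul_comm]
      refine mul_le_mul_of_nonneg_left ?_ (by positivity)
      nlinarith [mul_pos hx0 hx0]
    linarith
  have := (convex_Icc μ' μ).norm_image_sub_le_of_norm_hasDerivWithin_le hd hb
    (Set.left_mem_Icc.2 hle) (Set.right_mem_Icc.2 hle)
  rwa [Real.norm_eq_abs, Real.norm_eq_abs, abs_of_nonneg (sub_nonneg.2 hle)] at this

variable {Ω : Type} {P : ℕ → Op Ω} {m : ℕ → ℝ} {t : ℕ}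

/-- the increments -/
noncomputable def DD (P : ℕ → Op Ω) (m : ℕ → ℝ) (Z A : Ω → ℝ) (j : ℕ) (ω : Ω) : ℝ :=
  XX P m (Z + A) j ω - XX P m Z j ω

noncomputable def gm (μ s : ℝ) : ℝ := s + μ * s ^ 2 / 2 + rm μ s

theorem gm_eq {μ : ℝ} (h : μ ≠ 0) (s : ℝ) : gm μ s = -μ⁻¹ + μ⁻¹ * exp (μ * s) := by
  simp only [gm, rm]
  field_simp
  ring

theorem step (h : Ok P m t) (Z A : Ω → ℝ) {j : ℕ} (hj : j < t) (ω : Ω) :
    gm (m j) (DD P m Z A (j + 1) ω) = QQ P m Z j (fun x => gm (m j) (DD P m Z A j x)) ω := by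
  have hm := (h.pos j hj).ne'
  simp only [gm_eq hm]
  rw [Aa.aff (Aa.qq_mk h Z hj), DD, Aa.basic h Z (Z + A) hj]
  rfl

/-- the main term -/
noncomputable def FF (P : ℕ → Op Ω) (m : ℕ → ℝ) (Z A : Ω → ℝ) (j : ℕ) : Ω → ℝ :=
  Ce P m Z 0 (j + 1) A + (m 0 / 2) • Ce P m Z 0 (j + 1) (fun x => A x ^ 2) -
    ∑ i ∈ range j, ((m i - m (i + 1)) / 2) •
      Ce P m Z (i + 1) (j + 1) (fun x => Ce P m Z 0 (i + 1) A x ^ 2)

theorem sq_cl (h : Ok P m t) (Z A : Ω → ℝ) {b : ℝ} (hA : ∀ ω, |A ω| ≤ b) (hb : b ≤ 1) {j : ℕ}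
    (hj : j ≤ t) (ω : Ω) : |DD P m Z A j ω ^ 2 - Ce P m Z 0 j A ω ^ 2| ≤ 2 * b ^ 3 := by
  have h1 := Aa.first h Z A b hA hb j hj ω
  have h2 := Aa.dbd h Z A hA j hj ω
  have h3 := Aa.abs_le' (Aa.ce h Z 0 j hj) hA ω
  have e : DD P m Z A j ω ^ 2 - Ce P m Z 0 j A ω ^ 2 =
      (XX P m (Z + A) j ω - XX P m Z j ω - Ce P m Z 0 j A ω) *
        (XX P m (Z + A) j ω - XX P m Z j ω + Ce P m Z 0 j A ω) := by
    simp only [DD]; ring
  rw [e, abs_mul]
  have h4 := (abs_add_le _ _).trans (add_le_add h2 h3)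
  calc _ ≤ b ^ 2 * (b + b) := mul_le_mul h1 h4 (abs_nonneg _) (sq_nonneg b)
    _ = 2 * b ^ 3 := by ring

theorem qabs {Q : Op Ω} (hQ : Mk Q) {g f : Ω → ℝ} {c : ℝ} (H : ∀ x, |g x - f x| ≤ c) (ω : Ω) :
    |Q g ω - Q f ω| ≤ c := by
  have := Aa.abs_le' hQ (g := g - f) H ω
  rwa [map_sub] at this

theorem main (h : Ok P m t) (Z A : Ω → ℝ) {b : ℝ} (hA : ∀ ω, |A ω| ≤ b) (hb : b ≤ 1) (j : ℕ)
    (hj : j + 1 ≤ t) (ω : Ω) :
    |gm (m j) (DD P m Z A (j + 1) ω) - FF P m Z A j ω| ≤ (1 + 3 * (m 0 - m j)) * b ^ 3 := by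
  have cube : ∀ {s : ℝ}, |s| ≤ b → |s| ^ 3 ≤ b ^ 3 := fun hs =>
    pow_le_pow_left₀ (abs_nonneg _) hs 3
  induction j generalizing ω with
  | zero =>
    have e : FF P m Z A 0 = QQ P m Z 0 (A + (m 0 / 2) • fun x => A x ^ 2) := by
      simp only [FF, range_zero, sum_empty, sub_zero, map_add, map_smul,
        Aa.ce_succ Z (le_refl 0), Aa.self P m Z (le_refl 0)]
    rw [step h Z A hj, e]
    refine qabs (Aa.qq_mk h Z hj) (fun x => ?_) ω
    have e2 : DD P m Z A 0 x = A x := by simp [DD, XX]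
    have := rm_le (h.pos 0 hj) (h.le1 0 hj) ((hA x).trans hb)
    rw [e2]
    simp only [gm, Pi.add_apply, Pi.smul_apply, smul_eq_mul, sub_self, mul_zero, add_zero, one_mul]
    refine le_trans (le_of_eq ?_) (this.trans (cube (hA x)))
    congr 1
    ring
  | succ j ih =>
    have e : FF P m Z A (j + 1) = QQ P m Z (j + 1) (FF P m Z A j -
        ((m j - m (j + 1)) / 2) • fun x => Ce P m Z 0 (j + 1) A x ^ 2) := by
      simp only [FF, map_add, map_smul, map_sub, map_sum, sum_range_succ]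
      rw [← Aa.ce_succ Z (Nat.zero_le _), ← Aa.ce_succ Z (Nat.zero_le _),
        Aa.ce_succ Z (le_refl (j + 1)), Aa.self P m Z (le_refl (j + 1)),
        sum_congr rfl fun i hi => by
          rw [Aa.ce_succ Z (show i + 1 ≤ j + 1 by have := mem_range.1 hi; omega)]]
      abel
    rw [step h Z A hj, e]
    refine qabs (Aa.qq_mk h Z hj) (fun x => ?_) ω
    have h1 := ih (by omega) x
    have hD : |DD P m Z A (j + 1) x| ≤ b := Aa.dbd h Z A hA (j + 1) (by omega) x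
    have hm := h.anti j hj
    have h2 := rm_lip (h.pos (j + 1) hj) hm (h.le1 j (by omega)) (hD.trans hb)
    have h3 := sq_cl h Z A hA hb (j := j + 1) (by omega) x
    have h4 := cube hD
    simp only [gm, Pi.sub_apply, Pi.smul_apply, smul_eq_mul] at h1 ⊢
    rw [abs_le] at h1 h2 h3 ⊢
    have hδ : 0 ≤ m j - m (j + 1) := sub_nonneg.2 hm
    constructor <;> nlinarith [mul_le_mul_of_nonneg_left h3.1 hδ, mul_le_mul_of_nonneg_left h3.2 hδ,
      mul_le_mul_of_nonneg_left h4 hδ]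

theorem m_le (h : Ok P m t) {j : ℕ} (hj : j < t) : m 0 - m j ≤ 1 := by
  linarith [h.le1 0 (by omega), h.pos j hj]

end L1m

theorem l1Stmt (_hA : AApi) : L1Stmt := by
  refine ⟨6, fun Ω P m t h Z A b hA hb j hj ω => ?_⟩
  have h1 := L1m.main h Z A hA hb j hj ω
  have hD : |L1m.DD P m Z A (j + 1) ω| ≤ b := Aa.dbd h Z A hA (j + 1) hj ω
  have h2 := L1m.rm_le (h.pos j hj) (h.le1 j hj) (hD.trans hb)
  have h3 := L1m.sq_cl h Z A hA hb hj ω
  have h4 : |L1m.DD P m Z A (j + 1) ω| ^ 3 ≤ b ^ 3 := pow_le_pow_left₀ (abs_nonneg _) hD 3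
  have h5 := L1m.m_le h hj
  have hb0 : 0 ≤ b ^ 3 := pow_nonneg ((abs_nonneg _).trans hD) 3
  have hm0 := (h.pos j hj).le
  have hm1 := h.le1 j hj
  have e : ∑ i ∈ range j, (m i - m (i + 1)) *
      Ce P m Z (i + 1) (j + 1) (fun x => Ce P m Z 0 (i + 1) A x ^ 2) ω =
      2 * ∑ i ∈ range j, (m i - m (i + 1)) / 2 *
        Ce P m Z (i + 1) (j + 1) (fun x => Ce P m Z 0 (i + 1) A x ^ 2) ω := by
    rw [mul_sum]
    exact sum_congr rfl fun i _ => by ring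
  simp only [L1m.gm, L1m.FF, Pi.sub_apply, Pi.add_apply, Pi.smul_apply, smul_eq_mul,
    Finset.sum_apply] at h1
  rw [e]
  change |L1m.DD P m Z A (j + 1) ω - _ - _| ≤ _
  rw [abs_le] at h1 h2 h3 ⊢
  constructor <;> nlinarith [mul_le_mul_of_nonneg_left h3.1 hm0, mul_le_mul_of_nonneg_left h3.2 hm0,
    mul_le_mul_of_nonneg_right h5 hb0, mul_le_mul_of_nonneg_right hm1 hb0]

end Vale.Agent.P157
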