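import Vale.Agent.P157.Ub

namespace Vale.Agent.P157

open Finset Real Filter

noncomputable section

namespace Lb

/-- the first `j` elements -/
def ini (N j : ℕ) : Finset (Fin N) := univ.filter (fun i => (i : ℕ) < j)

lemma ini_card {N j : ℕ} (h : j ≤ N) : (ini N j).card = j := by
  unfold ini
  rw [Fin.card_filter_val_lt, min_eq_right h]

lemma ini_mono (N : ℕ) {j j' : ℕ} (h : j ≤ j') : ini N j ⊆ ini N j' := fun _ hi =>
  mem_filter.2 ⟨mem_univ _, (mem_filter.1 hi).2.trans_le h⟩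

lemma ini_top (N : ℕ) : ini N N = univ := filter_true_of_mem fun i _ => i.2

lemma climb (G : ℕ → (ℕ → ℝ) → ℝ) (w : ℕ → ℝ) (m b N j0 : ℕ) (a : ℝ) (hm : m ≤ j0)
    (h : ∀ j, m ≤ j → j + b ≤ N → ∀ y', ∃ y, G j y' + b * a - (w (j + b) - w j) ≤ G (j + b) y)
    (y0 : ℕ → ℝ) (r : ℕ) (hr : j0 + r * b ≤ N) :
    ∃ y, G j0 y0 + (r * b : ℕ) * a - (w (j0 + r * b) - w j0) ≤ G (j0 + r * b) y := by
  induction r with
  | zero => exact ⟨y0, by simp⟩
  | succ r ih =>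
    have e : j0 + (r + 1) * b = j0 + r * b + b := by ring
    obtain ⟨y, hy⟩ := ih (by omega)
    obtain ⟨y', hy'⟩ := h (j0 + r * b) (by omega) (by omega) y
    refine ⟨y', ?_⟩
    rw [e]
    push_cast at hy ⊢
    linarith

lemma vn_le (hb : BddStmt) {n : ℕ} (hn : 1 ≤ n) {α B : ℝ} (hα : 0 < α) {f : ℝ → ℝ}
    (hm : Measurable f) (hf : ∀ t, |f t| ≤ B) : Vn n α f ≤ α * B := by
  have hp : Path n (fun d => if d = 0 then 1 else 0) :=
    ⟨fun d _ => by by_cases h : d = 0 <;> simp [h], if_neg (by omega)⟩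
  have hbdd : BddBelow (valSet n α f) := by
    refine ⟨-(α * B), ?_⟩
    rintro t ⟨p, h1, h2, rfl⟩
    obtain ⟨-, a2, -, a4⟩ := hb n p hn h1 h2
    have := mul_le_mul_of_nonneg_left (abs_le.1 (a4 f B hm hf)).1 hα.le
    linarith
  obtain ⟨-, -, a3, a4⟩ := hb n _ hn hp (if_pos rfl)
  refine (csInf_le hbdd ⟨_, hp, if_pos rfl, rfl⟩).trans ?_
  have h1 : sSup (dualSet n (fun d => if d = 0 then 1 else 0)) ≤ 0 := by
    refine Real.sSup_nonpos ?_
    rintro t ⟨q, hq, rfl⟩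
    have : ip n (fun d => if d = 0 then 1 else 0) q = 0 := by
      unfold ip
      rw [sum_eq_zero, mul_zero]
      intro d hd
      have : d ≠ 0 := by have := (mem_Ico.1 hd).1; omega
      simp [this]
    rw [this, add_zero]
    exact a3 q hq
  have := mul_le_mul_of_nonneg_left (abs_le.1 (a4 f B hm hf)).2 hα.le
  linarith

variable {I ι : Type} [Fintype I] [DecidableEq I] [Fintype ι] [DecidableEq ι]

lemma start (hC : CApi) (hG : GApi) (hP : PatStmt) {n : ℕ} (hn : 1 ≤ n) {B : ℝ} {f : ℝ → ℝ}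
    (hf : ∀ t, |f t| ≤ B) (A : Finset I) (J : Finset ι) (D : ℕ) (c : ℝ) :
    Fintype.card ι * f 0 - 2 * B * J.card ≤ TT n (gg ι f) (sys n A J D c) := by
  have key : ∀ K : Multiset ι, Fintype.card ι * f 0 - 2 * B * K.card ≤
      TT n (gg ι f) (K.bind (fun a => D • round (some a) A (n - 1) c)) := by
    intro K
    induction K using Multiset.induction_on with
    | empty =>
      rw [Multiset.zero_bind, hC.tt0 n _ hn, Fintype.sum_option]
      simp [gg]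
    | cons a K ih =>
      rw [Multiset.cons_bind, add_comm, Multiset.card_cons]
      have := (hP (Option ι) (I → Bool) n (gg ι f)
        (K.bind (fun a => D • round (some a) A (n - 1) c)) (D • round (some a) A (n - 1) c)
        (some a) B hn hf (fun s hs =>
          (hG.round_vr n B (some a) A (n - 1) c).2.2 s (Multiset.mem_of_mem_nsmul hs))).1
      push_cast
      linarith [(abs_le.1 this).1]
  exact key J.val

lemma floor_step {α : ℝ} (hα : 0 < α) (j b : ℕ) :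
    ⌊α * (j : ℝ)⌋₊ ≤ ⌊α * ((j + b : ℕ) : ℝ)⌋₊ ∧
    ⌊α * ((j + b : ℕ) : ℝ)⌋₊ ≤ ⌊α * (j : ℝ)⌋₊ + (⌊α * (b : ℝ)⌋₊ + 2) ∧
    |((⌊α * ((j + b : ℕ) : ℝ)⌋₊ : ℝ) - ⌊α * (j : ℝ)⌋₊) - α * b| ≤ 1 := by
  have h1 : ((⌊α * (j : ℝ)⌋₊ : ℕ) : ℝ) ≤ α * j := Nat.floor_le (by positivity)
  have h2 := Nat.lt_floor_add_one (α * (j : ℝ))
  have h3 : ((⌊α * ((j + b : ℕ) : ℝ)⌋₊ : ℕ) : ℝ) ≤ α * ((j + b : ℕ) : ℝ) :=
    Nat.floor_le (by positivity)
  have h4 := Nat.lt_floor_add_one (α * ((j + b : ℕ) : ℝ))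
  have h5 := Nat.lt_floor_add_one (α * (b : ℝ))
  have h6 : α * ((j + b : ℕ) : ℝ) = α * j + α * b := by push_cast; ring
  refine ⟨Nat.floor_le_floor (by rw [h6]; exact le_add_of_nonneg_right (by positivity)), ?_, ?_⟩
  · have : ((⌊α * ((j + b : ℕ) : ℝ)⌋₊ : ℕ) : ℝ) ≤
        ((⌊α * (j : ℝ)⌋₊ + (⌊α * (b : ℝ)⌋₊ + 2) : ℕ) : ℝ) := by
      rw [Nat.cast_add ⌊α * (j : ℝ)⌋₊, Nat.cast_add ⌊α * (b : ℝ)⌋₊, Nat.cast_ofNat]
      linarith
    exact_mod_cast this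
  · rw [abs_le]; constructor <;> linarith

lemma step_arith {B α ε b dM H f0 V : ℝ} (hε : 0 < ε) (hb : 1 ≤ b) (hH : |H| ≤ B)
    (hd : |dM - α * b| ≤ 1) :
    b * (V - (B / b + (2 + α) * ε)) - dM * f0 ≤ b * (V - α * H - ε) + dM * (H - f0 - ε) := by
  have h1 : |(dM - α * b) * H| ≤ B := by
    rw [abs_mul]
    calc _ ≤ 1 * B := mul_le_mul hd hH (abs_nonneg _) zero_le_one
      _ = B := one_mul B
  have h2 := (abs_le.1 h1).1
  have h3 := mul_le_mul_of_nonneg_right (abs_le.1 hd).2 hε.le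
  have h4 : b * (B / b) = B := by field_simp
  have h5 := mul_le_mul_of_nonneg_right hb hε.le
  nlinarith

lemma e_mono {δ K lam N j : ℝ} (hδ : 0 < δ) (hδ1 : δ ≤ 1) (hK : 0 ≤ K) (hl : 0 < lam)
    (hN : 0 < N) (hj : δ * N ≤ j) :
    K * (lam + √(N / lam) / (lam * j)) ≤ K / δ * (lam + √(N / lam) / (lam * N)) := by
  have h1 : K * lam ≤ K / δ * lam :=
    mul_le_mul_of_nonneg_right (le_div_self hK hδ hδ1) hl.le
  have h2 : √(N / lam) / (lam * j) ≤ √(N / lam) / (lam * (δ * N)) :=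
    div_le_div_of_nonneg_left (sqrt_nonneg _) (by positivity)
      (mul_le_mul_of_nonneg_left hj hl.le)
  have h3 : K * (√(N / lam) / (lam * (δ * N))) = K / δ * (√(N / lam) / (lam * N)) := by
    field_simp
  have h4 := mul_le_mul_of_nonneg_left h2 hK
  rw [mul_add, mul_add]
  linarith

lemma fin_arith {B α ε δ lam n N M M0 j0 rb V e2 f0 R G0 GN : ℝ} (hα : 0 < α) (hB : 1 ≤ B)
    (hn : 0 < n) (hN : 0 < N) (hl : 0 < lam) (hj : 0 ≤ j0) (hj1 : j0 ≤ 2 * δ * N) (hjN : j0 ≤ N)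
    (hrb : j0 + rb = N) (hM0 : 0 ≤ M0) (hM1 : M0 ≤ α * j0) (hV : V ≤ α * B) (he0 : 0 ≤ e2)
    (he2 : e2 ≤ ε / 2) (hδ : 8 * α * B * δ ≤ ε / 4) (hl2 : lam ≤ ε / (20 * n)) (hf : |f0| ≤ B)
    (h1 : M * f0 - 2 * B * M0 - j0 * (n * (2 * lam)) ≤ G0)
    (h2 : G0 + rb * (V - e2) - (M * f0 - M0 * f0) ≤ GN) (h3 : GN ≤ R + 3 * n * N * lam) :
    N * (V - ε) ≤ R := by
  have a1 : -(B * M0) ≤ M0 * f0 := by nlinarith [(abs_le.1 hf).1]
  have a2 : B * M0 ≤ B * (α * j0) := mul_le_mul_of_nonneg_left hM1 (by linarith)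
  have a3 : j0 * (V - e2) ≤ j0 * (α * B) := mul_le_mul_of_nonneg_left (by linarith) hj
  have a4 : α * B * j0 ≤ α * B * (2 * δ * N) := mul_le_mul_of_nonneg_left hj1 (by positivity)
  have a5 : N * (8 * α * B * δ) ≤ N * (ε / 4) := mul_le_mul_of_nonneg_left hδ hN.le
  have a6 : j0 * (n * (2 * lam)) ≤ N * (n * (2 * lam)) :=
    mul_le_mul_of_nonneg_right hjN (by positivity)
  have a7 : N * (lam * (20 * n)) ≤ N * ε := by
    rw [le_div_iff₀ (by positivity)] at hl2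
    exact mul_le_mul_of_nonneg_left hl2 hN.le
  have a8 : N * e2 ≤ N * (ε / 2) := mul_le_mul_of_nonneg_left he2 hN.le
  have a9 : rb = N - j0 := by linarith
  subst a9
  nlinarith

end Lb

open Lb in
theorem lbStmt (hC : CApi) (hG : GApi) (hm : MaxStmt) (hn : ConStmt) (hk : BlockStmt)
    (hP : PatStmt) (hb : BddStmt) : LbStmt := by
  intro B α ε f f1 f2 hB hα hε hS hf
  obtain ⟨δ, hδ0, hδ1, hδ2⟩ : ∃ δ : ℝ, 0 < δ ∧ δ ≤ 1 ∧ 8 * α * B * δ ≤ ε / 4 := by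
    refine ⟨min 1 (ε / (32 * α * B)), by positivity, min_le_left _ _, ?_⟩
    have h1 := min_le_right 1 (ε / (32 * α * B))
    rw [le_div_iff₀ (by positivity)] at h1
    linarith
  obtain ⟨b, hb1, hb2⟩ : ∃ b : ℕ, 1 ≤ b ∧ B / b ≤ ε / 4 := by
    refine ⟨⌈4 * B / ε⌉₊ + 1, by omega, ?_⟩
    have h1 := Nat.le_ceil (4 * B / ε)
    rw [div_le_iff₀ hε] at h1
    rw [div_le_iff₀ (by positivity)]
    push_cast
    nlinarith
  obtain ⟨ε', hε'0, hε'1⟩ : ∃ ε' : ℝ, 0 < ε' ∧ (2 + α) * ε' ≤ ε / 4 :=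
    ⟨ε / (4 * (2 + α)), by positivity, le_of_eq (by field_simp)⟩
  obtain ⟨e0, he0, hk⟩ := hk B α α ε' b (⌊α * (b : ℝ)⌋₊ + 2) hB hα.le hα hε'0
  filter_upwards [Ub.ev_sqrt (12 / √e0 ^ 2), eventually_ge_atTop 1] with n hn1 hn2
  obtain ⟨K, hK0, hn⟩ := hn n hn2
  obtain ⟨η, hη0, hk⟩ := hk n hn2
  have hn0 : (0 : ℝ) < n := by exact_mod_cast hn2
  have hse : 0 < √e0 := sqrt_pos.2 he0
  obtain ⟨lam, hl0, hl1, hl2, hl3, hl4⟩ : ∃ lam : ℝ, 0 < lam ∧ lam ≤ 1 / 3 ∧ lam ≤ ε / (20 * n) ∧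
      lam ≤ √e0 ^ 2 / (3 * (K / δ + 1)) ∧ lam ≤ η / 3 :=
    ⟨min (min (1 / 3) (η / 3)) (min (ε / (20 * n)) (√e0 ^ 2 / (3 * (K / δ + 1)))), by positivity,
      (min_le_left _ _).trans (min_le_left _ _), (min_le_right _ _).trans (min_le_left _ _),
      (min_le_right _ _).trans (min_le_right _ _), (min_le_left _ _).trans (min_le_right _ _)⟩
  filter_upwards [Ub.ev_sqrt (3 * (K / δ) / (√lam * lam * √e0 ^ 2)), eventually_ge_atTop 1,
    tendsto_natCast_atTop_atTop.eventually_ge_atTop (1 / (e0 * δ)),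
    tendsto_natCast_atTop_atTop.eventually_ge_atTop ((1 + b : ℝ) / δ)] with N hN1 hN2 hN3 hN4
  have hN0 : (0 : ℝ) < N := by exact_mod_cast hN2
  have he1 : 4 / √(n : ℝ) + K / δ * (lam + √(N / lam) / (lam * N)) ≤ e0 := by
    have := Ub.e_small hse (by positivity) hl0 hn0 hN0 hn1 hl3 hN1
    rwa [sqrt_le_sqrt_iff he0.le] at this
  rw [frequently_atTop]
  intro D1
  obtain ⟨F, hF⟩ : N ∣ (N + 1).factorial := Nat.dvd_factorial hN2 (Nat.le_succ N)
  have hF1 : 1 ≤ F := by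
    rcases Nat.eq_zero_or_pos F with h | h
    · rw [h, mul_zero] at hF; exact absurd hF (Nat.factorial_ne_zero _)
    · exact h
  obtain ⟨t, ht1, ht2, ht3⟩ : ∃ t : ℕ, D1 ≤ t ∧ 1 ≤ t ∧ 1 / η ≤ t :=
    ⟨D1 + 1 + ⌈1 / η⌉₊, by omega, by omega, (Nat.le_ceil _).trans (by exact_mod_cast by omega)⟩
  have hD1 : t ≤ t * F := Nat.le_mul_of_pos_right _ hF1
  refine ⟨t * F, ht1.trans hD1, ?_⟩
  have hdvd : ∀ j, 1 ≤ j → j ≤ N → j * (j + 1) ∣ N * (t * F) := by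
    intro j h1 h2
    rw [show N * (t * F) = (N + 1).factorial * t by rw [hF]; ring]
    refine Dvd.dvd.mul_right (dvd_trans ?_ (Nat.factorial_dvd_factorial (Nat.succ_le_succ h2))) _
    rw [Nat.factorial_succ, mul_comm j]
    exact Nat.mul_dvd_mul_left _ (Nat.dvd_factorial h1 le_rfl)
  have hDη : 1 / η ≤ ((t * F : ℕ) : ℝ) := ht3.trans (by exact_mod_cast hD1)
  have hDpos : 1 ≤ t * F := ht2.trans hD1
  generalize t * F = D at hdvd hDη hDpos ⊢
  have hD0 : (0 : ℝ) < D := by exact_mod_cast hDpos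
  have hc1 : ((N * D : ℕ) : ℝ) * (1 / √((N : ℝ) * D)) ^ 2 = 1 := by
    rw [div_pow, one_pow, sq_sqrt (by positivity)]; push_cast; field_simp
  have hc2 : (N : ℝ) * (1 / √((N : ℝ) * D)) ^ 2 ≤ η := by
    rw [div_pow, one_pow, sq_sqrt (by positivity), show (N : ℝ) * (1 / (N * D)) = 1 / D by
      field_simp, div_le_iff₀ hD0]
    rw [div_le_iff₀ hη0] at hDη
    linarith
  unfold RV
  generalize 1 / √((N : ℝ) * D) = c at hc1 hc2 ⊢
  set M := ⌊α * (N : ℝ)⌋₊ with hM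
  have hMj : ∀ j, j ≤ N → ⌊α * (j : ℝ)⌋₊ ≤ M := fun j hj =>
    Nat.floor_le_floor (mul_le_mul_of_nonneg_left (by exact_mod_cast hj) hα.le)
  set G : ℕ → (ℕ → ℝ) → ℝ := fun j y =>
    TT n (gg (Fin M) f) (sys n (ini N j) (ini M ⌊α * (j : ℝ)⌋₊) (N * D / j) c +
      fld (Fin M) (ini N j) (ys n y)) - pen n lam (N / lam) y with hGd
  have hm1 : δ * N ≤ (⌈δ * N⌉₊ : ℕ) := Nat.le_ceil _
  have hm2 : ((⌈δ * N⌉₊ : ℕ) : ℝ) < δ * N + 1 := Nat.ceil_lt_add_one (by positivity)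
  have hm3 : ⌈δ * N⌉₊ ≤ N := Nat.ceil_le.2 (mul_le_of_le_one_left hN0.le hδ1)
  generalize ⌈δ * N⌉₊ = m at hm1 hm2 hm3
  have hstep : ∀ j, m ≤ j → j + b ≤ N → ∀ y', ∃ y, G j y' +
      b * (Vn n α f - (B / b + (2 + α) * ε')) -
      ((⌊α * ((j + b : ℕ) : ℝ)⌋₊ : ℝ) * f 0 - (⌊α * (j : ℝ)⌋₊ : ℝ) * f 0) ≤ G (j + b) y := by
    intro j hj hjb y'
    have hjN : j ≤ N := by omega
    have hjδ : δ * N ≤ j := hm1.trans (by exact_mod_cast hj)
    have hj0 : (0 : ℝ) < j := lt_of_lt_of_le (by positivity) hjδ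
    have hne : (ini N j).Nonempty := by
      rw [← card_pos, ini_card hjN]; exact_mod_cast hj0
    obtain ⟨y, hy⟩ := hm (Fin N) (Fin M) n f
      (sys n (ini N j) (ini M ⌊α * (j : ℝ)⌋₊) (N * D / j) c) (ini N j) lam (N / lam) hn2 hl0
      (by rw [div_mul_cancel₀ _ hl0.ne', ini_card hjN]; exact_mod_cast hjN)
    have hcon := hn (Fin N) (Fin M) f _ _ lam _ y hne hl0 (by linarith) (by positivity) hy
    obtain ⟨p1, p2⟩ := hG.ovl_path n f (sys n (ini N j) (ini M ⌊α * (j : ℝ)⌋₊) (N * D / j) c +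
      fld (Fin M) (ini N j) (ys n y)) (ini N j) hn2 hne
    obtain ⟨f1', f2', f3'⟩ := floor_step hα j b
    have key := hk (Fin N) (Fin M) f f1 f2 (ini N j) (ini N (j + b)) (ini M ⌊α * (j : ℝ)⌋₊)
      (ini M ⌊α * ((j + b : ℕ) : ℝ)⌋₊) (N * D) c y _ hS hf (ini_mono N (Nat.le_add_right j b))
      (by rw [ini_card hjN, ini_card hjb]) (ini_mono M f1')
      (by rw [ini_card (hMj j hjN), ini_card (hMj _ hjb)]; exact f2')
      (by
        rw [ini_card hjN]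
        rw [div_le_iff₀ (by positivity)] at hN3
        nlinarith)
      (by rw [ini_card hjN, ini_card (hMj j hjN)]; exact Nat.floor_le (by positivity))
      (fun i h1 h2 => hdvd i h1 (by rw [ini_card hjb] at h2; omega)) hc1
      (by
        rw [ini_card hjb]
        exact le_trans (mul_le_mul_of_nonneg_right (by exact_mod_cast hjb) (sq_nonneg c)) hc2)
      (fun κ hκ => by
        rw [abs_of_pos (hl0.trans_le (hy.1 κ hκ).1)]
        linarith [(hy.1 κ hκ).2]) p1 p2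
      (by
        rw [ini_card hjN] at hcon ⊢
        refine le_trans hcon ?_
        linarith [e_mono hδ0 hδ1 hK0 hl0 hN0 hjδ])
    rw [ini_card hjN, ini_card hjb, ini_card (hMj j hjN), ini_card (hMj _ hjb)] at key
    have a1 := step_arith (V := Vn n α f) (f0 := f 0) hε'0 (by exact_mod_cast hb1)
      ((hb n _ hn2 p1 p2).2.2.2 f B (Ub.meas hS.d0) hf) f3'
    have a2 := hy.2 y'
    refine ⟨y, ?_⟩
    simp only [hGd]
    linarith
  have hr1 : (N - m) / b * b ≤ N - m := Nat.div_mul_le_self _ _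
  have hr2 : N - m < (N - m) / b * b + b := Nat.lt_div_mul_add hb1
  generalize (N - m) / b = r at hr1 hr2
  have hj0 : N - r * b + r * b = N := by omega
  obtain ⟨y, hy⟩ := climb G (fun j => (⌊α * (j : ℝ)⌋₊ : ℝ) * f 0) m b N (N - r * b)
    (Vn n α f - (B / b + (2 + α) * ε')) (by omega) hstep (fun _ => 2 * lam) r hj0.le
  rw [hj0] at hy
  have hj1 : N - r * b ≤ m + b := by omega
  have hjN : N - r * b ≤ N := Nat.sub_le _ _
  generalize N - r * b = j0 at hj0 hy hj1 hjN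
  have s1 := start hC hG hP hn2 hf (ini N j0) (ini M ⌊α * (j0 : ℝ)⌋₊) (N * D / j0) c
  have s2 := (abs_le.1 (Ub.fld_crude hC hG hn2 f
    (sys n (ini N j0) (ini M ⌊α * (j0 : ℝ)⌋₊) (N * D / j0) c) (ini N j0) (fun _ => 2 * lam))).1
  rw [sum_const, card_range, nsmul_eq_mul, abs_of_pos (by positivity : 0 < 2 * lam),
    ini_card hjN] at s2
  rw [Fintype.card_fin, ini_card (hMj j0 hjN)] at s1
  have s3 := (abs_le.1 (Ub.fld_crude hC hG hn2 f
    (sys n (univ : Finset (Fin N)) (univ : Finset (Fin M)) D c) univ y)).2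
  have s4 := Ub.pen_bound n hl0 hN0.le y
  rw [card_univ, Fintype.card_fin] at s3
  refine fin_arith (G0 := G j0 (fun _ => 2 * lam)) (GN := G N y) (M := M)
    (M0 := (⌊α * (j0 : ℝ)⌋₊ : ℕ)) (j0 := j0) (rb := (r * b : ℕ)) (f0 := f 0) hα hB hn0 hN0 hl0
    (by positivity) ?_ (by exact_mod_cast hjN) (by exact_mod_cast hj0) (by positivity)
    (Nat.floor_le (by positivity)) (vn_le hb hn2 hα (Ub.meas hS.d0) hf) (by positivity)
    (show B / b + (2 + α) * ε' ≤ ε / 2 by linarith) hδ2 hl2 (hf 0) ?_ hy ?_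
  · have : (j0 : ℝ) ≤ m + b := by exact_mod_cast hj1
    rw [div_le_iff₀ hδ0] at hN4
    linarith
  · have e3 : pen n lam (N / lam) (fun _ => 2 * lam) = 0 := by simp [pen]
    simp only [hGd, e3]
    linarith
  · simp only [hGd]
    rw [← hM, ini_top, ini_top, Nat.mul_div_cancel_left D hN2]
    linarith

end

end Vale.Agent.P157
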