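import Vale.Agent.P157.Stm

/-! P157: a uniform central limit estimate for sign sums (Lindeberg replacement). -/

namespace Vale.Agent.P157

open MeasureTheory ProbabilityTheory Finset Real

noncomputable section

namespace Lin

/-- bounded continuous function with a second order expansion -/
def Tay (M : ℝ) (φ : ℝ → ℝ) : Prop :=
  Continuous φ ∧ (∃ B, ∀ y, |φ y| ≤ B) ∧ ∃ φ1 φ2 : ℝ → ℝ, (∀ y, |φ2 y| ≤ M) ∧
    ∀ y h, |φ (y + h) - φ y - h * φ1 y - h ^ 2 * φ2 y / 2| ≤ M * |h| ^ 3

theorem mvt {f f' : ℝ → ℝ} (hf : ∀ t, HasDerivAt f (f' t) t) (h0 : f 0 = 0) {M : ℝ} (hM : 0 ≤ M)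
    (k : ℕ) (hb : ∀ t, |f' t| ≤ M * |t| ^ k) (h : ℝ) : |f h| ≤ M * |h| ^ (k + 1) := by
  have := (convex_closedBall (0 : ℝ) |h|).norm_image_sub_le_of_norm_hasDerivWithin_le
    (f := f) (f' := f') (C := M * |h| ^ k) (x := 0) (y := h)
    (fun x _ => (hf x).hasDerivWithinAt)
    (fun x hx => by
      have hx' : |x| ≤ |h| := by simpa using hx
      refine (hb x).trans ?_
      gcongr)
    (by simp) (by simp)
  rw [h0] at this
  simpa [pow_succ, mul_assoc] using this

theorem bdd_of_loc {f : ℝ → ℝ} (hf : Continuous f) (h : ∀ t, t < 0 ∨ 1 < t → f t = 0) :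
    ∃ M, 0 ≤ M ∧ ∀ t, |f t| ≤ M := by
  obtain ⟨M, hM⟩ := (isCompact_Icc (a := (0 : ℝ)) (b := 1)).exists_bound_of_continuousOn
    hf.continuousOn
  refine ⟨max M 0, le_max_right _ _, fun t => ?_⟩
  by_cases ht : t < 0 ∨ 1 < t
  · rw [h t ht]; simp
  · push Not at ht
    exact (hM t ⟨ht.1, ht.2⟩).trans (le_max_left _ _)

theorem der_loc {f : ℝ → ℝ} {c d : ℝ} (h0 : ∀ t, t < 0 → f t = c) (h1 : ∀ t, 1 < t → f t = d) :
    ∀ t, t < 0 ∨ 1 < t → deriv f t = 0 := by
  rintro t (ht | ht)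
  · have : f =ᶠ[nhds t] fun _ => c := (eventually_lt_nhds ht).mono h0
    rw [this.deriv_eq]; simp
  · have : f =ᶠ[nhds t] fun _ => d := (eventually_gt_nhds ht).mono h1
    rw [this.deriv_eq]; simp

theorem tay_sig : ∃ M, 0 ≤ M ∧ Tay M smoothTransition := by
  set s0 := smoothTransition with hs0
  have c0 : ContDiff ℝ 3 s0 := smoothTransition.contDiff (n := 3)
  have c1 : ContDiff ℝ 2 (deriv s0) := (contDiff_succ_iff_deriv.1 (show ContDiff ℝ (2 + 1) s0 from c0)).2.2
  have c2 : ContDiff ℝ 1 (deriv (deriv s0)) :=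
    (contDiff_succ_iff_deriv.1 (show ContDiff ℝ (1 + 1) (deriv s0) from c1)).2.2
  have c3 : Continuous (deriv (deriv (deriv s0))) := c2.continuous_deriv le_rfl
  have z1 := der_loc (f := s0) (fun t ht => smoothTransition.zero_of_nonpos ht.le)
    (fun t ht => smoothTransition.one_of_one_le ht.le)
  have z2 := der_loc (f := deriv s0) (fun t ht => z1 t (Or.inl ht)) (fun t ht => z1 t (Or.inr ht))
  have z3 := der_loc (f := deriv (deriv s0)) (fun t ht => z2 t (Or.inl ht))
    (fun t ht => z2 t (Or.inr ht))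
  obtain ⟨M2, h2, hM2⟩ := bdd_of_loc c2.continuous z2
  obtain ⟨M3, h3, hM3⟩ := bdd_of_loc c3 z3
  have d0 : ∀ t, HasDerivAt s0 (deriv s0 t) t := fun t =>
    (c0.differentiable (by norm_num) t).hasDerivAt
  have d1 : ∀ t, HasDerivAt (deriv s0) (deriv (deriv s0) t) t := fun t =>
    (c1.differentiable (by norm_num) t).hasDerivAt
  have d2 : ∀ t, HasDerivAt (deriv (deriv s0)) (deriv (deriv (deriv s0)) t) t := fun t =>
    (c2.differentiable (by norm_num) t).hasDerivAt
  refine ⟨M2 + M3, by positivity, c0.continuous, ⟨1, fun y => ?_⟩, deriv s0, deriv (deriv s0),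
    fun y => (hM2 y).trans (by linarith), fun y h => ?_⟩
  · rw [abs_of_nonneg (smoothTransition.nonneg y)]; exact smoothTransition.le_one y
  · have e2 : ∀ t, |deriv (deriv s0) (y + t) - deriv (deriv s0) y| ≤ M3 * |t| ^ (0 + 1) :=
      mvt (f := fun t => deriv (deriv s0) (y + t) - deriv (deriv s0) y)
        (f' := fun t => deriv (deriv (deriv s0)) (y + t))
        (fun t => ((d2 (y + t)).comp_const_add y t).sub_const _) (by simp) h3 0
        (fun t => by simpa using hM3 _)
    have e1 : ∀ t, |deriv s0 (y + t) - deriv s0 y - t * deriv (deriv s0) y| ≤ M3 * |t| ^ (1 + 1) :=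
      mvt (f := fun t => deriv s0 (y + t) - deriv s0 y - t * deriv (deriv s0) y)
        (f' := fun t => deriv (deriv s0) (y + t) - deriv (deriv s0) y)
        (fun t => ((((d1 (y + t)).comp_const_add y t).sub_const (deriv s0 y)).fun_sub
            ((hasDerivAt_id' t).mul_const (deriv (deriv s0) y))).congr_deriv (by ring))
        (by simp) h3 1 e2
    have e0 := mvt (f := fun t => s0 (y + t) - s0 y - t * deriv s0 y - t ^ 2 * deriv (deriv s0) y / 2)
        (f' := fun t => deriv s0 (y + t) - deriv s0 y - t * deriv (deriv s0) y)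
        (fun t => (((((d0 (y + t)).comp_const_add y t).sub_const (s0 y)).fun_sub
            ((hasDerivAt_id' t).mul_const (deriv s0 y))).fun_sub
            (((hasDerivAt_pow 2 t).mul_const (deriv (deriv s0) y)).div_const 2)).congr_deriv
            (by norm_num; ring)) (by simp) h3 2 e1 h
    refine e0.trans ?_
    show M3 * |h| ^ 3 ≤ _
    gcongr; linarith

theorem tay_const (c : ℝ) : Tay 0 (fun _ => c) :=
  ⟨continuous_const, ⟨|c|, fun _ => le_rfl⟩, fun _ => 0, fun _ => 0, by simp, by simp⟩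

theorem tay_add {M N : ℝ} {φ ψ : ℝ → ℝ} (h : Tay M φ) (h' : Tay N ψ) :
    Tay (M + N) (fun y => φ y + ψ y) := by
  obtain ⟨c, ⟨B, hB⟩, a1, a2, ha, ht⟩ := h
  obtain ⟨c', ⟨B', hB'⟩, b1, b2, hb, ht'⟩ := h'
  refine ⟨c.add c', ⟨B + B', fun y => (abs_add_le _ _).trans (add_le_add (hB y) (hB' y))⟩,
    fun y => a1 y + b1 y, fun y => a2 y + b2 y,
    fun y => (abs_add_le _ _).trans (add_le_add (ha y) (hb y)), fun y h => ?_⟩
  have := (abs_add_le _ _).trans (add_le_add (ht y h) (ht' y h))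
  refine le_of_eq_of_le (congrArg _ ?_) (this.trans_eq ?_) <;> ring

theorem tay_aff {M D r : ℝ} {φ : ℝ → ℝ} (h : Tay M φ) (hr : 1 ≤ r) (c t : ℝ) (hc : |c| ≤ D) :
    Tay (D * M * r ^ 3) (fun y => c * φ ((y - t) * r)) := by
  obtain ⟨hφ, ⟨B, hB⟩, a1, a2, ha, ht⟩ := h
  have hD : 0 ≤ D := (abs_nonneg _).trans hc
  have hM : 0 ≤ M := (abs_nonneg _).trans (ha 0)
  have hr0 : 0 ≤ r := by linarith
  refine ⟨by fun_prop, ⟨D * B, fun y => ?_⟩, fun y => c * r * a1 ((y - t) * r),
    fun y => c * r ^ 2 * a2 ((y - t) * r), fun y => ?_, fun y h => ?_⟩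
  · rw [abs_mul]; exact mul_le_mul hc (hB _) (abs_nonneg _) hD
  · rw [abs_mul, abs_mul, abs_of_nonneg (pow_nonneg hr0 2)]
    have h1 : r ^ 2 ≤ r ^ 3 := pow_le_pow_right₀ hr (by norm_num)
    calc |c| * r ^ 2 * |a2 ((y - t) * r)| ≤ D * r ^ 3 * M := by gcongr; exact ha _
      _ = _ := by ring
  · have h1 := ht ((y - t) * r) (h * r)
    have e : c * φ ((y + h - t) * r) - c * φ ((y - t) * r) - h * (c * r * a1 ((y - t) * r)) -
        h ^ 2 * (c * r ^ 2 * a2 ((y - t) * r)) / 2 = c * (φ ((y - t) * r + h * r) - φ ((y - t) * r) -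
        h * r * a1 ((y - t) * r) - (h * r) ^ 2 * a2 ((y - t) * r) / 2) := by
      rw [show (y + h - t) * r = (y - t) * r + h * r by ring]; ring
    rw [e, abs_mul]
    rw [abs_mul, abs_of_nonneg hr0] at h1
    calc _ ≤ D * (M * (|h| * r) ^ 3) := mul_le_mul hc h1 (abs_nonneg _) hD
      _ = _ := by ring

/-- smooth interpolation on a grid -/
theorem grid {M D r t0 : ℝ} (hM : Tay M smoothTransition) (hr : 1 ≤ r) (g : ℝ → ℝ) (N : ℕ)
    (hg : ∀ a b, t0 ≤ a → t0 ≤ b → a ≤ t0 + N / r → b ≤ t0 + N / r → |a - b| ≤ 1 / r →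
      |g a - g b| ≤ D) (hD : 0 ≤ D) :
    ∀ n : ℕ, n ≤ N → ∃ φ, Tay (n * (D * M * r ^ 3)) φ ∧ (∀ y, y ≤ t0 → φ y = g t0) ∧
      (∀ y, t0 + n / r ≤ y → φ y = g (t0 + n / r)) ∧
      ∀ y, t0 ≤ y → y ≤ t0 + n / r → |φ y - g y| ≤ D := by
  have hr0 : 0 < r := by linarith
  intro n
  induction n with
  | zero =>
    intro _
    refine ⟨fun _ => g t0, by simpa using tay_const _, fun _ _ => rfl, by simp, fun y h1 h2 => ?_⟩
    have : y = t0 := le_antisymm (by simpa using h2) h1
    simp [this, hD]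
  | succ n ih =>
    intro hn
    obtain ⟨φ, h1, h2, h3, h4⟩ := ih (by omega)
    have hn' : ((n : ℝ) + 1) / r ≤ N / r := by
      gcongr; exact_mod_cast hn
    have e1 : ((n : ℝ) + 1) / r = n / r + 1 / r := by ring
    have p1 : 0 ≤ (n : ℝ) / r := by positivity
    have p2 : 0 < 1 / r := by positivity
    set a := t0 + n / r with ha
    have hc : |g (a + 1 / r) - g a| ≤ D :=
      hg _ _ (by linarith) (by linarith) (by linarith) (by linarith) (by simp [abs_of_pos hr0])
    have ea : t0 + ((n + 1 : ℕ) : ℝ) / r = a + 1 / r := by push_cast; rw [e1]; ring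
    refine ⟨fun y => φ y + (g (a + 1 / r) - g a) * smoothTransition ((y - a) * r), ?_, ?_, ?_, ?_⟩
    · convert tay_add h1 (tay_aff hM hr _ a hc) using 1
      push_cast; ring
    · intro y hy
      beta_reduce
      rw [smoothTransition.zero_of_nonpos (mul_nonpos_of_nonpos_of_nonneg (by linarith) hr0.le),
        h2 y hy]; simp
    · intro y hy
      rw [ea] at hy ⊢
      have : 1 ≤ (y - a) * r := by
        have := mul_le_mul_of_nonneg_right (show 1 / r ≤ y - a by linarith) hr0.le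
        rwa [one_div_mul_cancel hr0.ne'] at this
      beta_reduce
      rw [smoothTransition.one_of_one_le this, h3 y (by linarith)]; ring
    · intro y hy hy'
      rw [ea] at hy'
      beta_reduce
      rcases le_total y a with h | h
      · rw [smoothTransition.zero_of_nonpos (mul_nonpos_of_nonpos_of_nonneg (by linarith) hr0.le)]
        simpa using h4 y hy h
      · rw [h3 y h]
        have b1 := hg a y (by linarith) hy (by linarith) (by linarith)
          (by rw [abs_le]; constructor <;> linarith)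
        have b2 := hg (a + 1 / r) y (by linarith) hy (by linarith) (by linarith)
          (by rw [abs_le]; constructor <;> linarith)
        have s0 := smoothTransition.nonneg ((y - a) * r)
        have s1 := smoothTransition.le_one ((y - a) * r)
        set θ := smoothTransition ((y - a) * r)
        rw [abs_le] at b1 b2 ⊢
        constructor <;> nlinarith

/-- bounded smooth approximation with a `cosh` weight -/
theorem approx (K δ : ℝ) (hK : 0 ≤ K) (hδ : 0 < δ) : ∃ M, 0 ≤ M ∧ ∀ g : ℝ → ℝ,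
    (∀ R y y', |y| ≤ R → |y'| ≤ R → |g y - g y'| ≤ K * |y - y'| * exp (K * R)) →
    ∃ φ, Tay M φ ∧ ∀ y, |g y - φ y| ≤ δ * cosh ((K + 2) * y) := by
  obtain ⟨M, hM0, hM⟩ := tay_sig
  obtain ⟨R, hR⟩ : ∃ R : ℕ, 4 * K ≤ δ * R := by
    obtain ⟨R, hR⟩ := exists_nat_ge (4 * K / δ)
    exact ⟨R, by rw [div_le_iff₀ hδ] at hR; linarith⟩
  obtain ⟨r, hr1, hr⟩ : ∃ r : ℕ, (1 : ℝ) ≤ r ∧ K * exp (K * R) ≤ δ * r := by
    obtain ⟨r, hr⟩ := exists_nat_ge (K * exp (K * R) / δ + 1)
    have : 0 ≤ K * exp (K * R) / δ := by positivity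
    refine ⟨r, by linarith, ?_⟩
    have h2 : K * exp (K * R) / δ ≤ r := by linarith
    rw [div_le_iff₀ hδ] at h2; linarith
  have hr0 : (0 : ℝ) < r := by linarith
  refine ⟨(2 * R * r : ℕ) * (δ * M * r ^ 3), by positivity, fun g hg => ?_⟩
  have eR : -(R : ℝ) + ((2 * R * r : ℕ) : ℝ) / r = R := by push_cast; field_simp; ring
  obtain ⟨φ, h1, h2, h3, h4⟩ := grid (D := δ) (t0 := -R) hM hr1 g (2 * R * r) (by
    intro a b ha hb ha' hb' hab
    rw [eR] at ha' hb'
    refine (hg R a b (abs_le.2 ⟨ha, ha'⟩) (abs_le.2 ⟨hb, hb'⟩)).trans ?_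
    calc K * |a - b| * exp (K * R) ≤ K * (1 / r) * exp (K * R) := by gcongr
      _ = K * exp (K * R) / r := by ring
      _ ≤ δ := by rw [div_le_iff₀ hr0]; exact hr) hδ.le (2 * R * r) le_rfl
  rw [eR] at h3 h4
  refine ⟨φ, h1, fun y => ?_⟩
  have far : ∀ y' : ℝ, (R : ℝ) ≤ |y| → |y'| ≤ |y| → |g y - g y'| ≤ δ * cosh ((K + 2) * y) := by
    intro y' hy hy'
    refine (hg |y| y y' le_rfl hy').trans ?_
    have a1 : |y - y'| ≤ 2 * |y| := (abs_sub _ _).trans (by linarith)
    have a2 : exp ((K + 2) * |y|) / 2 ≤ cosh ((K + 2) * y) := by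
      rw [← cosh_abs, abs_mul, abs_of_nonneg (by linarith : 0 ≤ K + 2), cosh_eq]
      have := exp_pos (-((K + 2) * |y|))
      linarith
    have a3 : |y| ≤ exp |y| := by linarith [add_one_le_exp |y|]
    have a4 : exp ((K + 2) * |y|) = exp (K * |y|) * exp |y| * exp |y| := by
      rw [← exp_add, ← exp_add]; ring_nf
    have a5 : 4 * K ≤ δ * exp |y| := hR.trans (by gcongr; linarith)
    have a6 := exp_pos (K * |y|)
    calc K * |y - y'| * exp (K * |y|) ≤ K * (2 * exp |y|) * exp (K * |y|) := by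
          gcongr; linarith
      _ = (4 * K) * (exp |y| * exp (K * |y|)) / 2 := by ring
      _ ≤ (δ * exp |y|) * (exp |y| * exp (K * |y|)) / 2 := by gcongr
      _ = δ * (exp ((K + 2) * |y|) / 2) := by rw [a4]; ring
      _ ≤ _ := by gcongr
  have hR0 : (0 : ℝ) ≤ R := by positivity
  rcases le_total y (-R) with h | h
  · rw [h2 y h]
    have : (R : ℝ) ≤ |y| := by rw [abs_of_nonpos (by linarith)]; linarith
    exact far _ this (by simpa using this)
  · rcases le_total y R with h' | h'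
    · rw [abs_sub_comm]
      refine (h4 y h h').trans ?_
      have := one_le_cosh ((K + 2) * y)
      nlinarith
    · rw [h3 y h']
      have : (R : ℝ) ≤ |y| := h'.trans (le_abs_self _)
      exact far _ this (by simpa using this)

/-! ### sign averages and Gaussian averages -/

def LL (l : Multiset ℝ) (φ : ℝ → ℝ) (y : ℝ) : ℝ := (lv l : Op (ℝ × Unit)) (fun ω => φ ω.1) (y, ())

def GG (s : ℝ) (φ : ℝ → ℝ) (y : ℝ) : ℝ := ∫ z, φ (y + √s * z) ∂gaussianReal 0 1

theorem LL_zero (φ : ℝ → ℝ) (y : ℝ) : LL 0 φ y = φ y := rfl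

theorem LL_cons (a : ℝ) (l : Multiset ℝ) (φ : ℝ → ℝ) (y : ℝ) :
    LL (a ::ₘ l) φ y = (LL l φ (y + a) + LL l φ (y - a)) / 2 := by
  unfold LL lv
  rw [Multiset.foldr_cons]
  rfl

theorem LL_le (l : Multiset ℝ) {φ ψ χ : ℝ → ℝ} {c d e : ℝ} (h : ∀ y, φ y ≤ c * ψ y + d * χ y + e) :
    ∀ y, LL l φ y ≤ c * LL l ψ y + d * LL l χ y + e := by
  induction l using Multiset.induction_on with
  | empty => exact h
  | cons a l ih => intro y; simp only [LL_cons]; linarith [ih (y + a), ih (y - a)]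

theorem LL_aff (l : Multiset ℝ) (φ : ℝ → ℝ) (x c d : ℝ) :
    ∀ y, LL l (fun t => c * φ (x + t) + d) y = c * LL l φ (x + y) + d := by
  induction l using Multiset.induction_on with
  | empty => intro y; rfl
  | cons a l ih => intro y; simp only [LL_cons, ih, add_assoc, add_sub_assoc]; ring

theorem LL_cosh (l : Multiset ℝ) (k : ℝ) : ∀ y, LL l (fun t => cosh (k * t)) y ≤
    exp (k ^ 2 * (l.map (fun a => a ^ 2)).sum / 2) * cosh (k * y) := by
  induction l using Multiset.induction_on with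
  | empty => intro y; simp [LL_zero]
  | cons a l ih =>
    intro y
    rw [LL_cons, Multiset.map_cons, Multiset.sum_cons]
    have h1 := ih (y + a)
    have h2 := ih (y - a)
    rw [mul_add, cosh_add] at h1
    rw [mul_sub, cosh_sub] at h2
    have h3 := cosh_le_exp_half_sq (k * a)
    have e : exp (k ^ 2 * (a ^ 2 + (l.map (fun a => a ^ 2)).sum) / 2) =
        exp (k ^ 2 * (l.map (fun a => a ^ 2)).sum / 2) * exp ((k * a) ^ 2 / 2) := by
      rw [← exp_add]; ring_nf
    rw [e]
    have h4 := mul_le_mul_of_nonneg_left h3 (mul_pos (exp_pos (k ^ 2 * (l.map (fun a => a ^ 2)).sum / 2))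
      (cosh_pos (k * y))).le
    linarith

theorem int_cosh (k : ℝ) : Integrable (fun z => cosh (k * z)) (gaussianReal 0 1) ∧
    ∫ z, cosh (k * z) ∂gaussianReal 0 1 = exp (k ^ 2 / 2) := by
  have h1 := integrable_exp_mul_gaussianReal (μ := 0) (v := 1) k
  have h2 := integrable_exp_mul_gaussianReal (μ := 0) (v := 1) (-k)
  have e : (fun z => cosh (k * z)) = fun z => (exp (k * z) + exp (-k * z)) / 2 := by
    ext z; rw [cosh_eq, neg_mul]
  have m1 := congrFun (mgf_fun_id_gaussianReal (μ := 0) (v := 1)) k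
  have m2 := congrFun (mgf_fun_id_gaussianReal (μ := 0) (v := 1)) (-k)
  simp only [mgf] at m1 m2
  rw [e]
  refine ⟨(h1.add h2).div_const 2, ?_⟩
  rw [integral_div, integral_add h1 h2, m1, m2]
  simp

theorem int_bdd {φ : ℝ → ℝ} (hc : Continuous φ) {B : ℝ} (hB : ∀ y, |φ y| ≤ B) (μ : Measure ℝ)
    [IsFiniteMeasure μ] : Integrable φ μ :=
  Integrable.of_bound hc.aestronglyMeasurable B (ae_of_all _ hB)

theorem int_sc {φ : ℝ → ℝ} (hc : Continuous φ) (a : ℝ) :
    ∫ z, φ (a * z) ∂gaussianReal 0 1 = ∫ z, φ z ∂gaussianReal 0 (.mk (a ^ 2) (sq_nonneg _)) := by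
  have := gaussianReal_map_const_mul (μ := 0) (v := 1) a
  rw [mul_zero, mul_one] at this
  rw [← this, integral_map (by fun_prop) hc.aestronglyMeasurable]

theorem semi {φ : ℝ → ℝ} (hc : Continuous φ) {B : ℝ} (hB : ∀ y, |φ y| ≤ B) {s : ℝ} (hs : 0 ≤ s)
    (a y : ℝ) : GG (a ^ 2 + s) φ y =
      ∫ z, ∫ w, φ (y + √s * z + a * w) ∂gaussianReal 0 1 ∂gaussianReal 0 1 := by
  have c1 : Continuous fun t => φ (y + t) := by fun_prop
  have c2 : Continuous fun t => ∫ w, φ (y + t + a * w) ∂gaussianReal 0 1 :=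
    continuous_of_dominated (bound := fun _ => B) (fun t => by fun_prop)
      (fun t => ae_of_all _ fun w => hB _) (integrable_const _) (ae_of_all _ fun w => by fun_prop)
  rw [GG, int_sc c1, int_sc c2]
  have e : (NNReal.mk (√(a ^ 2 + s) ^ 2) (sq_nonneg _)) =
      NNReal.mk (√s ^ 2) (sq_nonneg _) + NNReal.mk (a ^ 2) (sq_nonneg _) := by
    ext; simp only [NNReal.coe_mk, NNReal.coe_add]
    rw [sq_sqrt hs, sq_sqrt (by positivity)]; ring
  have g := gaussianReal_conv_gaussianReal (m₁ := 0) (m₂ := 0)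
    (v₁ := NNReal.mk (√s ^ 2) (sq_nonneg _)) (v₂ := NNReal.mk (a ^ 2) (sq_nonneg _))
  rw [add_zero] at g
  rw [e, ← g, integral_conv (int_bdd c1 (fun t => hB _) _)]
  refine integral_congr_ae (ae_of_all _ fun t => ?_)
  have := int_sc (φ := fun w => φ (y + t + w)) (by fun_prop) a
  simp only [← add_assoc, this]

theorem mom : Integrable (fun z : ℝ => z) (gaussianReal 0 1) ∧
    Integrable (fun z : ℝ => z ^ 2) (gaussianReal 0 1) ∧
    Integrable (fun z : ℝ => |z| ^ 3) (gaussianReal 0 1) ∧ ∫ z, z ^ 2 ∂gaussianReal 0 1 = 1 := by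
  refine ⟨(memLp_id_gaussianReal' 1 (by simp)).integrable le_rfl,
    (memLp_id_gaussianReal' 2 (by simp)).integrable_sq, ?_, ?_⟩
  · have := (memLp_id_gaussianReal' (μ := 0) (v := 1) (3 : ℕ) (by simp)).integrable_norm_pow
      (by norm_num)
    simpa using this
  · have := variance_fun_id_gaussianReal (μ := 0) (v := 1)
    rw [variance_eq_integral (by fun_prop)] at this
    simpa using this

def c3 : ℝ := ∫ z, |z| ^ 3 ∂gaussianReal 0 1

theorem c3_nonneg : 0 ≤ c3 := integral_nonneg fun _ => by positivity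

theorem step {M : ℝ} {φ : ℝ → ℝ} (h : Tay M φ) (y a : ℝ) :
    |(φ (y + a) + φ (y - a)) / 2 - ∫ w, φ (y + a * w) ∂gaussianReal 0 1| ≤ M * (1 + c3) * |a| ^ 3 ∧
    |φ y - ∫ w, φ (y + a * w) ∂gaussianReal 0 1| ≤ M * (a ^ 2 + c3 * |a| ^ 3) := by
  obtain ⟨hc, ⟨B, hB⟩, f1, f2, h2, ht⟩ := h
  obtain ⟨m1, m2, m3, m4⟩ := mom
  have i0 : Integrable (fun w => φ (y + a * w)) (gaussianReal 0 1) :=
    int_bdd (by fun_prop) (fun _ => hB _) _
  have key : |∫ w, φ (y + a * w) ∂gaussianReal 0 1 - (φ y + a ^ 2 * f2 y / 2)| ≤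
      M * c3 * |a| ^ 3 := by
    have e : ∫ w, (φ (y + a * w) - (φ y + (a * f1 y) * w + (a ^ 2 * f2 y / 2) * w ^ 2))
        ∂gaussianReal 0 1 = ∫ w, φ (y + a * w) ∂gaussianReal 0 1 - (φ y + a ^ 2 * f2 y / 2) := by
      have i1 : Integrable (fun w : ℝ => φ y + (a * f1 y) * w) (gaussianReal 0 1) :=
        (integrable_const _).add (m1.const_mul _)
      have i2 : Integrable (fun w : ℝ => φ y + (a * f1 y) * w + (a ^ 2 * f2 y / 2) * w ^ 2)
        (gaussianReal 0 1) := i1.add (m2.const_mul _)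
      rw [integral_sub i0 i2, integral_add i1 (m2.const_mul _),
        integral_add (integrable_const _) (m1.const_mul _), integral_const_mul, integral_const_mul,
        m4, integral_id_gaussianReal]
      simp
    rw [← e]
    have := norm_integral_le_of_norm_le (μ := gaussianReal 0 1)
      (f := fun w => φ (y + a * w) - (φ y + (a * f1 y) * w + (a ^ 2 * f2 y / 2) * w ^ 2))
      (m3.const_mul (M * |a| ^ 3)) (ae_of_all _ fun w => by
        have := ht y (a * w)
        rw [abs_mul, mul_pow] at this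
        refine le_of_eq_of_le (congrArg _ ?_) (this.trans_eq ?_) <;> ring)
    rw [integral_const_mul] at this
    refine this.trans_eq ?_
    unfold c3; ring
  have t1 := ht y a
  have t2 := ht y (-a)
  rw [abs_neg, ← sub_eq_add_neg] at t2
  have t3 : |a ^ 2 * f2 y| ≤ a ^ 2 * M := by
    rw [abs_mul, abs_of_nonneg (sq_nonneg a)]; gcongr; exact h2 y
  have t4 : 0 ≤ a ^ 2 * M := (abs_nonneg _).trans t3
  rw [abs_le] at key t1 t2 t3
  constructor <;> rw [abs_le] <;> constructor <;> nlinarith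

theorem gdiff {φ ψ : ℝ → ℝ} (hφ : Integrable φ (gaussianReal 0 1))
    (hψ : Integrable ψ (gaussianReal 0 1)) {c : ℝ} (h : ∀ z, |φ z - ψ z| ≤ c) :
    |∫ z, φ z ∂gaussianReal 0 1 - ∫ z, ψ z ∂gaussianReal 0 1| ≤ c := by
  rw [← integral_sub hφ hψ]
  simpa using norm_integral_le_of_norm_le_const (μ := gaussianReal 0 1)
    (f := fun z => φ z - ψ z) (ae_of_all _ h)

theorem int_in {φ : ℝ → ℝ} (hc : Continuous φ) {B : ℝ} (hB : ∀ y, |φ y| ≤ B) (y b a : ℝ) :
    Integrable (fun z => ∫ w, φ (y + b * z + a * w) ∂gaussianReal 0 1) (gaussianReal 0 1) := by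
  refine int_bdd (B := B) (continuous_of_dominated (bound := fun _ => B) (fun t => by fun_prop)
      (fun t => ae_of_all _ fun w => hB _) (integrable_const _) (ae_of_all _ fun w => by fun_prop))
      (fun z => ?_) _
  simpa using norm_integral_le_of_norm_le_const (μ := gaussianReal 0 1)
    (f := fun w => φ (y + b * z + a * w)) (ae_of_all _ fun w => hB _)

theorem sq_sum_nonneg (l : Multiset ℝ) : 0 ≤ (l.map (fun a => a ^ 2)).sum :=
  Multiset.sum_nonneg (by simp only [Multiset.mem_map]; rintro _ ⟨a, -, rfl⟩; positivity)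

theorem lind {M η : ℝ} {φ : ℝ → ℝ} (h : Tay M φ) (hM : 0 ≤ M) (l : Multiset ℝ)
    (hl : ∀ a ∈ l, |a| ≤ η) : ∀ y, |LL l φ y - GG (l.map (fun a => a ^ 2)).sum φ y| ≤
      M * (1 + c3) * η * (l.map (fun a => a ^ 2)).sum := by
  induction l using Multiset.induction_on with
  | empty => intro y; simp [LL_zero, GG]
  | cons a l ih =>
    intro y
    have ih' := ih (fun b hb => hl b (Multiset.mem_cons_of_mem hb))
    have ha := hl a (Multiset.mem_cons_self _ _)
    obtain ⟨hc, ⟨B, hB⟩, -⟩ := id h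
    rw [LL_cons, Multiset.map_cons, Multiset.sum_cons, semi hc hB (sq_sum_nonneg l)]
    set s := (l.map (fun a => a ^ 2)).sum
    have i1 : ∀ x, Integrable (fun z => φ (x + √s * z)) (gaussianReal 0 1) := fun x =>
      int_bdd (by fun_prop) (fun _ => hB _) _
    have e : (GG s φ (y + a) + GG s φ (y - a)) / 2 =
        ∫ z, (φ (y + a + √s * z) + φ (y - a + √s * z)) / 2 ∂gaussianReal 0 1 := by
      rw [integral_div, integral_add (i1 _) (i1 _)]; rfl
    have k := gdiff (((i1 (y + a)).add (i1 (y - a))).div_const 2) (int_in hc hB y √s a)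
      (c := M * (1 + c3) * |a| ^ 3) (fun z => by
        have := (step h (y + √s * z) a).1
        rwa [add_right_comm, add_sub_right_comm] at this)
    simp only [Pi.add_apply] at k
    rw [← e] at k
    have k2 : M * (1 + c3) * |a| ^ 3 ≤ M * (1 + c3) * η * a ^ 2 := by
      have := c3_nonneg
      calc M * (1 + c3) * |a| ^ 3 = M * (1 + c3) * |a| * a ^ 2 := by rw [← sq_abs a]; ring
        _ ≤ _ := by gcongr
    have k3 := ih' (y + a)
    have k4 := ih' (y - a)
    rw [abs_le] at k k3 k4 ⊢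
    constructor <;> linarith [k.1, k.2, k3.1, k3.2, k4.1, k4.2]

theorem gvar {M η s s' : ℝ} {φ : ℝ → ℝ} (h : Tay M φ) (hM : 0 ≤ M) (hs : 0 ≤ s) (hs' : s ≤ s')
    (hη : s' - s ≤ η) (h1 : η ≤ 1) (y : ℝ) : |GG s φ y - GG s' φ y| ≤ M * (1 + c3) * η := by
  obtain ⟨hc, ⟨B, hB⟩, -⟩ := id h
  have e : s' = √(s' - s) ^ 2 + s := by rw [sq_sqrt (by linarith)]; ring
  rw [e, semi hc hB hs]
  refine gdiff (int_bdd (by fun_prop) (fun _ => hB _) _) (int_in hc hB y √s _) fun z => ?_
  refine (step h _ _).2.trans ?_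
  have b1 : √(s' - s) ≤ 1 := sqrt_le_one.2 (by linarith)
  have b2 : √(s' - s) ^ 2 ≤ η := by rw [sq_sqrt (by linarith)]; exact hη
  have b3 : |√(s' - s)| ^ 3 ≤ η := by
    rw [abs_of_nonneg (sqrt_nonneg _), pow_succ]
    nlinarith [sqrt_nonneg (s' - s), sq_nonneg √(s' - s)]
  have := c3_nonneg
  calc _ ≤ M * (η + c3 * η) := by gcongr
    _ = _ := by ring

theorem core (K Q ε : ℝ) (hK : 0 ≤ K) (hQ : 0 ≤ Q) (hε : 0 < ε) : ∃ η : ℝ, 0 < η ∧ η ≤ 1 ∧
    ∀ (g : ℝ → ℝ) (l : Multiset ℝ) (s : ℝ), Continuous g →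
    (∀ R y y', |y| ≤ R → |y'| ≤ R → |g y - g y'| ≤ K * |y - y'| * exp (K * R)) → 0 ≤ s → s ≤ Q →
    (∀ a ∈ l, |a| ≤ η) → |(l.map (fun a => a ^ 2)).sum - s| ≤ η → |LL l g 0 - GG s g 0| ≤ ε := by
  set E := exp ((K + 2) ^ 2 * (Q + 1) / 2) with hE
  have hE0 : 0 < E := exp_pos _
  obtain ⟨M, hM, hA⟩ := approx K (ε / (4 * E)) hK (by positivity)
  have h3 := c3_nonneg
  set C := M * (1 + c3) * (Q + 2) + 1 with hC
  have hC0 : 0 < C := by positivity
  refine ⟨min 1 (ε / (2 * C)), by positivity, min_le_left _ _, fun g l s hg hl h0 hs ha hv => ?_⟩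
  set η := min 1 (ε / (2 * C))
  have η1 : η ≤ 1 := min_le_left _ _
  have η2 : η * C ≤ ε / 2 := by
    have : η ≤ ε / (2 * C) := min_le_right _ _
    rw [le_div_iff₀ (by positivity)] at this; linarith
  have η0 : 0 ≤ η := (abs_nonneg _).trans hv
  obtain ⟨φ, hφ, hd⟩ := hA g hl
  set δ := ε / (4 * E)
  have hδ : δ * E = ε / 4 := by simp only [δ]; field_simp
  have hδ0 : 0 < δ := by positivity
  have k1 := lind hφ hM l ha 0
  have kc := LL_cosh l (K + 2) 0
  have hS := sq_sum_nonneg l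
  set S := (l.map (fun a => a ^ 2)).sum
  rw [abs_le] at hv
  have k2 : |GG S φ 0 - GG s φ 0| ≤ M * (1 + c3) * η := by
    rcases le_total S s with h | h
    · exact gvar hφ hM hS h (by linarith) η1 0
    · rw [abs_sub_comm]; exact gvar hφ hM h0 h (by linarith) η1 0
  have kc' : δ * LL l (fun t => cosh ((K + 2) * t)) 0 ≤ ε / 4 := by
    rw [← hδ]
    gcongr
    refine kc.trans ?_
    rw [mul_zero, cosh_zero, mul_one, hE]
    gcongr; linarith
  have k3 := LL_le l (φ := g) (ψ := φ) (χ := fun t => cosh ((K + 2) * t)) (c := 1) (d := δ) (e := 0)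
    (fun y => by linarith [(abs_le.1 (hd y)).2]) 0
  have k4 := LL_le l (φ := φ) (ψ := g) (χ := fun t => cosh ((K + 2) * t)) (c := 1) (d := δ) (e := 0)
    (fun y => by linarith [(abs_le.1 (hd y)).1]) 0
  obtain ⟨hc, ⟨B, hB⟩, -⟩ := id hφ
  obtain ⟨ic, ec⟩ := int_cosh ((K + 2) * √s)
  have iφ : Integrable (fun z => φ (0 + √s * z)) (gaussianReal 0 1) :=
    int_bdd (by fun_prop) (fun _ => hB _) _
  have bd : ∀ z, ‖g (0 + √s * z) - φ (0 + √s * z)‖ ≤ δ * cosh ((K + 2) * √s * z) := fun z => by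
    have := hd (0 + √s * z)
    rwa [show (K + 2) * (0 + √s * z) = (K + 2) * √s * z by ring] at this
  have id : Integrable (fun z => g (0 + √s * z) - φ (0 + √s * z)) (gaussianReal 0 1) :=
    (ic.const_mul δ).mono' (by fun_prop) (ae_of_all _ bd)
  have k5 : |GG s g 0 - GG s φ 0| ≤ ε / 4 := by
    have ig : Integrable (fun z => g (0 + √s * z)) (gaussianReal 0 1) := by
      exact (id.add iφ).congr (ae_of_all _ fun z => by simp)
    rw [GG, GG, ← integral_sub ig iφ]
    refine (norm_integral_le_of_norm_le (ic.const_mul δ) (ae_of_all _ bd)).trans ?_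
    rw [integral_const_mul, ec, ← hδ, hE, mul_pow, sq_sqrt h0]
    gcongr; linarith
  have k6 : M * (1 + c3) * η * S ≤ M * (1 + c3) * η * (Q + 1) := by gcongr; linarith
  rw [abs_le] at k1 k2 k5 ⊢
  constructor <;> nlinarith [k1.1, k1.2, k2.1, k2.2, k5.1, k5.2]

theorem abs_le_cosh (t : ℝ) : |t| ≤ cosh t := by
  rw [← cosh_abs, cosh_eq]
  have h1 := quadratic_le_exp_of_nonneg (abs_nonneg t)
  have h2 := add_one_le_exp (-|t|)
  nlinarith [sq_nonneg (|t| - 1), sq_nonneg (|t| - 2)]

theorem log_diff {A B m e : ℝ} (hm : 0 < m) (hA : m ≤ A) (hB : m ≤ B) (h : |A - B| ≤ e * m) :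
    |log A - log B| ≤ e := by
  have key : ∀ A B : ℝ, m ≤ A → m ≤ B → |A - B| ≤ e * m → log A - log B ≤ e := by
    intro A B hA hB h
    have hB0 : 0 < B := by linarith
    rw [← log_div (by linarith) hB0.ne']
    refine (log_le_sub_one_of_pos (div_pos (by linarith) hB0)).trans ?_
    have he : 0 ≤ e := nonneg_of_mul_nonneg_left ((abs_nonneg _).trans h) hm
    rw [sub_le_iff_le_add, div_le_iff₀ hB0]
    nlinarith [le_abs_self (A - B)]
  rw [abs_le]
  constructor
  · linarith [key B A hB hA (by rwa [abs_sub_comm])]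
  · exact key A B hA hB h

end Lin

open Lin in
theorem linStmt (_hA : AApi) (_hC : CApi) : LinStmt := by
  intro K Q ε hε
  set E := exp (|K| ^ 2 * (|Q| + 1) / 2) with hE
  set m := exp (-E) / 2 with hm
  have hm0 : 0 < m := by positivity
  obtain ⟨η, h0, h1, hc⟩ := core |K| |Q| (min ε (min ε 1 * m)) (abs_nonneg _) (abs_nonneg _)
    (by positivity)
  refine ⟨η, h0, fun u l s x hu hs hQ hl hv => ?_⟩
  have hu' : ∀ y y', |u (x + y) - u (x + y')| ≤ |K| * |y - y'| := fun y y' => by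
    have := hu (x + y') (y - y')
    rw [show x + y' + (y - y') = x + y by ring] at this
    exact this.trans (by gcongr; exact le_abs_self _)
  have cu : Continuous u := by
    refine (LipschitzWith.of_dist_le_mul (K := ⟨|K|, abs_nonneg _⟩) fun a b => ?_).continuous
    have := hu' (a - x) (b - x)
    simp only [add_sub_cancel, sub_sub_sub_cancel_right] at this
    exact this
  have hQ' : s ≤ |Q| := hQ.trans (le_abs_self _)
  constructor
  · have := hc (fun t => 1 * u (x + t) + 0) l s (by fun_prop) (fun R y y' hy _ => by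
      have h2 : 1 ≤ exp (|K| * R) := one_le_exp (mul_nonneg (abs_nonneg _) ((abs_nonneg _).trans hy))
      simp only [one_mul, add_zero]
      exact (hu' y y').trans (le_mul_of_one_le_right (by positivity) h2)) hs hQ' hl hv
    rw [LL_aff] at this
    simp only [GG, LL, one_mul, add_zero, zero_add] at this
    exact this.trans (min_le_left _ _)
  · have hv0 : ∀ y, |u (x + y) - u x| ≤ |K| * |y| := fun y => by simpa using hu' y 0
    have ee : ∀ t, exp (-u x) * exp (u (x + t)) + 0 = exp (u (x + t) - u x) := fun t => by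
      rw [← exp_add]; ring_nf
    have k := hc (fun t => exp (-u x) * exp (u (x + t)) + 0) l s (by fun_prop) (fun R y y' hy hy' => by
      simp only [ee]
      have key : ∀ a b : ℝ, a ≤ |K| * R → exp a - exp b ≤ |a - b| * exp (|K| * R) := by
        intro a b ha
        have e1 : exp b = exp a * exp (b - a) := by rw [← exp_add]; ring_nf
        have e2 := add_one_le_exp (b - a)
        have e3 := exp_le_exp.2 ha
        have e4 := exp_pos a
        calc exp a - exp b ≤ (a - b) * exp a := by rw [e1]; nlinarith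
          _ ≤ |a - b| * exp a := by gcongr; exact le_abs_self _
          _ ≤ _ := by gcongr
      have b1 : ∀ y, |y| ≤ R → u (x + y) - u x ≤ |K| * R := fun y hy =>
        (le_abs_self _).trans ((hv0 y).trans (by gcongr))
      have b2 := key _ (u (x + y') - u x) (b1 y hy)
      have b3 := key _ (u (x + y) - u x) (b1 y' hy')
      rw [sub_sub_sub_cancel_right] at b2 b3
      rw [abs_sub_comm] at b3
      have b4 := mul_le_mul_of_nonneg_right (hu' y y') (exp_pos (|K| * R)).le
      rw [abs_le]; constructor <;> linarith) hs hQ' hl hv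
    have low : 2 * m ≤ LL l (fun t => exp (-u x) * exp (u (x + t)) + 0) 0 := by
      have a1 := LL_le l (φ := fun _ => exp (-E) * (1 + E))
        (ψ := fun t => exp (-u x) * exp (u (x + t)) + 0) (χ := fun t => cosh (|K| * t))
        (c := 1) (d := exp (-E)) (e := 0) (fun y => by
          rw [ee]
          have b1 : |K| * |y| ≤ cosh (|K| * y) := by
            simpa [abs_mul] using abs_le_cosh (|K| * y)
          have b2 := (abs_le.1 (hv0 y)).1
          have b3 := add_one_le_exp (u (x + y) - u x + E)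
          have b4 : exp (u (x + y) - u x) = exp (-E) * exp (u (x + y) - u x + E) := by
            rw [← exp_add]; ring_nf
          rw [b4]
          nlinarith [exp_pos (-E)]) 0
      have a2 := LL_aff l (fun _ => 0) 0 0 (exp (-E) * (1 + E)) 0
      simp only [zero_mul, zero_add] at a2
      have a3 : LL l (fun t => cosh (|K| * t)) 0 ≤ E := by
        refine (LL_cosh l |K| 0).trans ?_
        rw [mul_zero, cosh_zero, mul_one, hE]
        gcongr
        linarith [(abs_le.1 hv).2]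
      rw [a2] at a1
      nlinarith [exp_pos (-E)]
    have k1 := k.trans (min_le_right _ _)
    have k2 : min ε 1 * m ≤ m := mul_le_of_le_one_left hm0.le (min_le_right _ _)
    have k3 := log_diff hm0 (by linarith : m ≤ _) (by linarith [(abs_le.1 k1).2] : m ≤ _) k1
    have pA : 0 < LL l (fun t => exp (-u x) * exp (u (x + t)) + 0) 0 := by linarith
    have pB : 0 < GG s (fun t => exp (-u x) * exp (u (x + t)) + 0) 0 := by
      linarith [(abs_le.1 k1).2]
    rw [LL_aff l (fun t => exp (u t))] at k3 pA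
    simp only [GG, LL, add_zero, zero_add, integral_const_mul] at k3 pA pB
    rw [log_mul (exp_pos _).ne' ((mul_pos_iff_of_pos_left (exp_pos _)).1 pA).ne',
      log_mul (exp_pos _).ne' ((mul_pos_iff_of_pos_left (exp_pos _)).1 pB).ne', add_sub_add_left_eq_sub] at k3
    exact k3.trans (min_le_left _ _)

end

end Vale.Agent.P157
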