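import Vale.Agent.P157.Stm

/-! P157: the one-coordinate step systems are scalar recursions. -/

namespace Vale.Agent.P157

open Finset Real

noncomputable section

namespace Link

theorem gen (hC : CApi) {S : Type} [Fintype S] [Inhabited S] (n : ℕ) (l : Multiset (ℕ × ℝ))
    (w : S → ℝ) (g Φ : ℝ → ℝ)
    (h : ∀ x, log ((∑ σ, exp (g (x * w σ))) / (Fintype.card S : ℝ)) = Φ x) (j : ℕ) :
    ∀ (x : ℝ) (σ : S), XX (chain (lift () w l)) (ex n) (ZZ fun _ : Unit => g) (j + 1)
      (Pi.single () (x • w), σ) = sc n l Φ j x := by
  induction j with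
  | zero =>
    intro x σ
    simpa [XX, chain, ex, res, ZZ, sc] using h x
  | succ j ih =>
    intro x σ
    let φ : ℝ →+ (Unit → S → ℝ) :=
      { toFun := fun t => Pi.single () (t • w)
        map_zero' := by simp
        map_add' := fun a b => by rw [add_smul, Pi.single_add] }
    have e : ((lift () w l).filter (fun s => s.1 = j)).map vec =
        ((l.filter (fun s => s.1 = j)).map Prod.snd).map φ := by
      rw [lift, Multiset.filter_map, Multiset.map_map, Multiset.map_map]
      rfl
    have e2 := hC.lv_map φ 0 (fun _ : Unit => σ) ((l.filter (fun s => s.1 = j)).map Prod.snd)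
      (fun ω' => exp (ex n (j + 1) *
        XX (chain (lift () w l)) (ex n) (ZZ fun _ : Unit => g) (j + 1) ω')) (x, ())
    simp only [add_zero] at e2
    rw [XX, chain, e]
    change _ * log (lv _ _ (φ x, σ)) = _
    rw [← e2]
    simp only [φ, AddMonoidHom.coe_mk, ZeroHom.coe_mk, ih]
    rfl

end Link

theorem linkStmt (_hA : AApi) (hC : CApi) : LinkStmt := by
  intro n l _
  refine ⟨fun f => ?_, ?_⟩
  · have := Link.gen hC n l (fun _ : Unit => (1 : ℝ)) f f (fun x => by simp) n 0 default
    rw [zero_smul, Pi.single_zero] at this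
    exact this
  · have := Link.gen hC n l spin id (fun x => log (cosh x)) (fun x => by
      simp [spin, cosh_eq]) n 0 default
    rw [zero_smul, Pi.single_zero] at this
    exact this

end

end Vale.Agent.P157
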