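import Vale.Agent.P157.Stm

namespace Vale.Agent.P157

open MeasureTheory ProbabilityTheory Finset Real Filter Topology

namespace Mn

theorem path1 (n : ℕ) (hn : 1 ≤ n) :
    Path n (fun d => if d = 0 then (1 : ℝ) else 0) ∧ (fun d => if d = 0 then (1 : ℝ) else 0) 0 = 1 := by
  refine ⟨⟨fun d _ => ?_, ?_⟩, by simp⟩
  · by_cases h : d = 0 <;> simp [h]
  · have : n ≠ 0 := by omega
    simp [this]

theorem bddB (hb : BddStmt) (n : ℕ) (hn : 1 ≤ n) {α B : ℝ} (hα : 0 < α) {f : ℝ → ℝ}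
    (hf : Measurable f) (hB : ∀ t, |f t| ≤ B) : BddBelow (valSet n α f) := by
  refine ⟨-(α * B), ?_⟩
  rintro t ⟨p, hp, hp0, rfl⟩
  obtain ⟨-, h0, -, h1⟩ := hb n p hn hp hp0
  have := (abs_le.1 (h1 f B hf hB)).1
  nlinarith

theorem vn_le (hb : BddStmt) (n : ℕ) (hn : 1 ≤ n) {α B c : ℝ} (hα : 0 < α) {f g : ℝ → ℝ}
    (hf : Measurable f) (hB : ∀ t, |f t| ≤ B)
    (h : ∀ p, Path n p → p 0 = 1 → Hf n f p ≤ Hf n g p + c) :
    Vn n α f ≤ Vn n α g + α * c := by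
  have hne : (valSet n α g).Nonempty := ⟨_, _, (path1 n hn).1, (path1 n hn).2, rfl⟩
  have : Vn n α f - α * c ≤ Vn n α g := by
    refine le_csInf hne ?_
    rintro t ⟨p, hp, hp0, rfl⟩
    have h1 : Vn n α f ≤ α * Hf n f p + sSup (dualSet n p) :=
      csInf_le (bddB hb n hn hα hf hB) ⟨p, hp, hp0, rfl⟩
    have := h p hp hp0
    nlinarith
  linarith

theorem sm_meas {B : ℝ} {g g1 g2 : ℝ → ℝ} (h : Sm B g g1 g2) : Measurable g := by
  have hB : 0 ≤ B := le_trans (abs_nonneg _) (h.b1 0)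
  have : LipschitzWith ⟨B, hB⟩ g := by
    refine LipschitzWith.of_dist_le_mul fun x y => ?_
    have := (h.d0 y (x - y)).1
    rw [add_sub_cancel] at this
    exact this
  exact this.continuous.measurable

theorem smooth (hU : UbStmt) (hL : LbStmt) (hT : TiltStmt) (hG : G1Stmt) {B α ε : ℝ}
    {f f1 f2 : ℝ → ℝ} (hB : 1 ≤ B) (hα : 0 < α) (hε : 0 < ε) (hs : Sm B f f1 f2)
    (hb : ∀ t, |f t| ≤ B) :
    ∀ᶠ n : ℕ in atTop, ∀ᶠ N : ℕ in atTop, |meanP f N ⌊α * N⌋₊ - Vn n α f| ≤ 3 * ε := by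
  obtain ⟨C, hC⟩ := hT B
  have hn0 : ∀ᶠ n : ℕ in atTop, |C| * α / n ≤ ε := by
    have : Tendsto (fun n : ℕ => |C| * α / (n : ℝ)) atTop (𝓝 0) :=
      tendsto_const_div_atTop_nhds_zero_nat _
    exact this.eventually (ge_mem_nhds hε)
  filter_upwards [hU B α ε f f1 f2 hB hα hε hs hb, hL B α ε f f1 f2 hB hα hε hs hb, hn0,
    eventually_ge_atTop 1] with n h1 h2 h3 hn
  filter_upwards [h1, h2, eventually_ge_atTop 1] with N h4 h5 hN
  have h6 := hG B ε f N ⌊α * N⌋₊ hε hN hb (fun t h => (hs.d0 t h).1)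
  obtain ⟨D, h7, h8, h9⟩ := (h5.and_eventually (h4.and h6)).exists
  have h10 := hC n f N ⌊α * N⌋₊ D hn hb
  have hN' : (1 : ℝ) ≤ N := by exact_mod_cast hN
  have hn' : (0 : ℝ) < n := by exact_mod_cast hn
  have hM : (⌊α * N⌋₊ : ℝ) ≤ α * N := Nat.floor_le (by positivity)
  have h11 : C * ⌊α * N⌋₊ / n ≤ N * ε := by
    calc C * ⌊α * N⌋₊ / n ≤ |C| * (α * N) / n := by
          gcongr
          exact le_abs_self C
      _ = N * (|C| * α / n) := by ring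
      _ ≤ N * ε := by gcongr
  have hNε : ε ≤ N * ε := by nlinarith
  rw [abs_le] at h9 h10 ⊢
  constructor
  · have : N * (-(3 * ε)) ≤ N * (meanP f N ⌊α * N⌋₊ - Vn n α f) := by nlinarith
    exact le_of_mul_le_mul_left this (by linarith)
  · have : N * (meanP f N ⌊α * N⌋₊ - Vn n α f) ≤ N * (3 * ε) := by nlinarith
    exact le_of_mul_le_mul_left this (by linarith)

theorem general (hU : UbStmt) (hL : LbStmt) (hT : TiltStmt) (hG : G1Stmt) (hb : BddStmt)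
    (hf' : SmfStmt) (hh' : SmhStmt) (hn' : SmnStmt) {α B ε : ℝ} (hα : 0 < α) (hε : 0 < ε)
    {f : ℝ → ℝ} (hf : Measurable f) (hB : ∀ t, |f t| ≤ B) :
    ∀ᶠ n : ℕ in atTop, ∀ᶠ N : ℕ in atTop, |meanP f N ⌊α * N⌋₊ - Vn n α f| ≤ ε := by
  obtain ⟨C1, hC1, h1⟩ := hh' B
  obtain ⟨C2, hC2, h2⟩ := hn' B
  set δ : ℝ := ε / (4 * (α * (C1 + C2) + 1)) with hδ
  have hpos : 0 < α * (C1 + C2) + 1 := by positivity
  have hδ0 : 0 < δ := by positivity
  have hδ1 : α * (C1 + C2) * δ ≤ ε / 4 := by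
    rw [hδ, mul_div_assoc', div_le_div_iff₀ (by positivity) (by positivity)]
    nlinarith
  obtain ⟨B', g, g1, g2, hB', hs, hgB, hBB, hI⟩ := hf' B δ f hδ0 hf hB
  have hgm := sm_meas hs
  have hI0 : 0 ≤ ∫ z, |f z - g z| ∂gaussianReal 0 1 := integral_nonneg fun z => abs_nonneg _
  filter_upwards [smooth hU hL hT hG hB' hα (by positivity : 0 < ε / 4) hs
    (fun t => (hgB t).trans hBB), eventually_ge_atTop 1] with n h3 hn
  filter_upwards [h3, eventually_ge_atTop 1] with N h4 hN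
  have hN' : (0 : ℝ) < N := by exact_mod_cast hN
  have hM : (⌊α * N⌋₊ : ℝ) / N ≤ α := by
    rw [div_le_iff₀ hN']; exact Nat.floor_le (by positivity)
  have h5 := h2 N ⌊α * N⌋₊ f g hN hf hgm hB hgB
  have h6 : C2 * (⌊α * N⌋₊ / N) * ∫ z, |f z - g z| ∂gaussianReal 0 1 ≤ C2 * α * δ := by
    gcongr
  have hH : ∀ p, Path n p → p 0 = 1 → |Hf n f p - Hf n g p| ≤ C1 * δ := fun p hp hp0 =>
    (h1 n f g p hn hf hgm hB hgB hp hp0).trans (by gcongr)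
  have h7 := vn_le hb n hn (c := C1 * δ) (g := g) hα hf hB
    (fun p hp hp0 => by have := (abs_le.1 (hH p hp hp0)).2; linarith)
  have h8 := vn_le hb n hn (c := C1 * δ) (g := f) hα hgm hgB
    (fun p hp hp0 => by have := (abs_le.1 (hH p hp hp0)).1; linarith)
  rw [abs_le] at h4 h5 ⊢
  constructor <;> nlinarith

theorem lim_of {a : ℕ → ℝ} {v : ℕ → ℝ}
    (h : ∀ ε : ℝ, 0 < ε → ∀ᶠ n : ℕ in atTop, ∀ᶠ N : ℕ in atTop, |a N - v n| ≤ ε) :
    ∃ l, Tendsto v atTop (𝓝 l) ∧ Tendsto a atTop (𝓝 l) := by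
  have hc : CauchySeq a := by
    refine Metric.cauchySeq_iff.2 fun ε hε => ?_
    obtain ⟨n, hn⟩ := (h (ε / 3) (by positivity)).exists
    obtain ⟨N0, hN0⟩ := eventually_atTop.1 hn
    refine ⟨N0, fun m hm k hk => ?_⟩
    have h1 := abs_le.1 (hN0 m hm)
    have h2 := abs_le.1 (hN0 k hk)
    rw [Real.dist_eq, abs_lt]
    constructor <;> linarith [h1.1, h1.2, h2.1, h2.2]
  obtain ⟨l, hl⟩ := cauchySeq_tendsto_of_complete hc
  refine ⟨l, ?_, hl⟩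
  refine Metric.tendsto_nhds.2 fun ε hε => ?_
  filter_upwards [h (ε / 2) (by positivity)] with n hn
  have h1 : Tendsto (fun N => |a N - v n|) atTop (𝓝 |l - v n|) := (hl.sub_const _).abs
  have h2 := le_of_tendsto h1 hn
  rw [Real.dist_eq, abs_sub_comm]
  linarith

end Mn

theorem mainOf (hU : UbStmt) (hL : LbStmt) (hT : TiltStmt) (hG : G1Stmt) (hb : BddStmt)
    (hf' : SmfStmt) (hh' : SmhStmt) (hn' : SmnStmt) (α : ℝ) (hα : 0 < α) (f : ℝ → ℝ)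
    (hf : Measurable f) (hB : ∃ B, ∀ t, |f t| ≤ B) :
    (∀ n, 1 ≤ n → (∀ p, Path n p → p 0 = 1 → BddAbove (dualSet n p)) ∧ BddBelow (valSet n α f)) ∧
    ∃ l : ℝ, Tendsto (fun n => Vn n α f) atTop (𝓝 l) ∧
      Tendsto (fun N : ℕ => meanP f N ⌊α * N⌋₊) atTop (𝓝 l) := by
  obtain ⟨B, hB⟩ := hB
  refine ⟨fun n hn => ⟨fun p hp hp0 => (hb n p hn hp hp0).1, Mn.bddB hb n hn hα hf hB⟩, ?_⟩
  exact Mn.lim_of fun ε hε => Mn.general hU hL hT hG hb hf' hh' hn' hα hε hf hB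

end Vale.Agent.P157
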