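import Vale.Agent.P157.Stm

namespace Vale.Agent.P157

open Finset Real Filter Topology

set_option linter.unusedSectionVars false

namespace Max

variable {I ι : Type} [Fintype I] [DecidableEq I] [Fintype ι] [DecidableEq ι]

theorem lip0 (hC : CApi) (n : ℕ) (hn : 1 ≤ n) (f : ℝ → ℝ) {α : Type} (T : Multiset α) (κ : α → ℕ)
    (u v : α → (I → Bool) → ℝ) (L : Sy ι I) :
    |TT n (gg ι f) (L + T.map fun a => (κ a, none, u a)) -
      TT n (gg ι f) (L + T.map fun a => (κ a, none, v a))| ≤ (T.map fun a => ‖u a - v a‖).sum := by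
  induction T using Multiset.induction_on generalizing L with
  | empty => simp
  | cons a T ih =>
    have h1 := hC.rep n (gg ι f) 1 (L + T.map fun a => (κ a, none, u a)) (κ a) none (u a) (v a) hn
      (fun t h => by simp [gg])
    have h2 := ih ((κ a, none, v a) ::ₘ L)
    simp only [Multiset.map_cons, Multiset.sum_cons, Multiset.add_cons, Multiset.cons_add] at h2 ⊢
    exact (abs_sub_le _ _ _).trans (add_le_add (by simpa using h1) h2)

theorem fld_eq (n : ℕ) (A : Finset I) (y : ℕ → ℝ) : fld ι A (ys n y) =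
    (A ×ˢ range n).val.map fun p => (p.2, none, y p.2 • sp p.1) := by
  rw [fld, product_val, SProd.sprod, Multiset.instSProd]
  simp only [Multiset.product, Multiset.map_bind, Multiset.map_map, lift, ys, Function.comp_def]

theorem lip (hC : CApi) (n : ℕ) (hn : 1 ≤ n) (f : ℝ → ℝ) (L : Sy ι I) (A : Finset I)
    (y z : ℕ → ℝ) : |TT n (gg ι f) (L + fld ι A (ys n y)) - TT n (gg ι f) (L + fld ι A (ys n z))| ≤
      A.card * ∑ κ ∈ range n, |y κ - z κ| := by
  rw [fld_eq, fld_eq]
  refine (lip0 hC n hn f _ _ _ _ L).trans ?_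
  rw [← nsmul_eq_mul, ← sum_const, ← sum_product']
  refine sum_le_sum fun p _ => ?_
  refine (pi_norm_le_iff_of_nonneg (abs_nonneg _)).2 fun σ => ?_
  rw [← sub_smul, Pi.smul_apply, smul_eq_mul, Real.norm_eq_abs, abs_mul]
  have : |sp p.1 σ| = 1 := by unfold sp spin; split_ifs <;> simp
  rw [this, mul_one]

theorem clamp {lam k a : ℝ} (hl : 0 < lam) (ha : 0 ≤ a) (hk : a ≤ k * lam) (t : ℝ) :
    a * |t - max lam (min t (3 * lam))| ≤
      k * ((t - 2 * lam) ^ 2 - (max lam (min t (3 * lam)) - 2 * lam) ^ 2) := by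
  have hk0 : 0 ≤ k := nonneg_of_mul_nonneg_left (ha.trans hk) hl
  refine (mul_le_mul_of_nonneg_right hk (abs_nonneg _)).trans ?_
  rw [mul_assoc]
  refine mul_le_mul_of_nonneg_left ?_ hk0
  rcases le_total t lam with h | h
  · rw [min_eq_left (by linarith), max_eq_left h, abs_of_nonpos (by linarith)]
    nlinarith
  · rcases le_total t (3 * lam) with h' | h'
    · rw [min_eq_left h', max_eq_right h]; simp
    · rw [min_eq_right h', max_eq_right (by linarith), abs_of_nonneg (by linarith)]
      nlinarith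

end Max

theorem maxStmt (hC : CApi) : MaxStmt := by
  intro I ι _ _ _ _ n f L A lam k hn hl hk
  have hc : Continuous fun y : ℕ → ℝ => TT n (gg ι f) (L + fld ι A (ys n y)) := by
    refine continuous_iff_continuousAt.2 fun z => tendsto_iff_norm_sub_tendsto_zero.2 ?_
    refine squeeze_zero (fun _ => norm_nonneg _) (fun y => Max.lip hC n hn f L A y z) ?_
    have : Continuous fun y : ℕ → ℝ => (A.card : ℝ) * ∑ κ ∈ range n, |y κ - z κ| := by fun_prop
    simpa using this.tendsto z
  have hp : Continuous fun y : ℕ → ℝ => pen n lam k y := by unfold pen; fun_prop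
  obtain ⟨y, hy, hm⟩ := (isCompact_univ_pi fun _ : ℕ => isCompact_Icc (a := lam)
    (b := 3 * lam)).exists_isMaxOn ⟨fun _ => lam, fun _ _ => ⟨le_rfl, by linarith⟩⟩
    (hc.sub hp).continuousOn
  refine ⟨y, fun κ _ => hy κ trivial, fun y' => le_trans ?_
    (hm (a := fun κ => max lam (min (y' κ) (3 * lam))) fun κ _ =>
      ⟨le_max_left _ _, max_le (by linarith) (min_le_right _ _)⟩)⟩
  have h1 := (abs_le.1 (Max.lip hC n hn f L A y' fun κ => max lam (min (y' κ) (3 * lam)))).2
  have h2 := sum_le_sum fun κ (_ : κ ∈ range n) => Max.clamp hl (Nat.cast_nonneg A.card) hk (y' κ)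
  rw [← mul_sum, ← mul_sum, sum_sub_distrib, mul_sub] at h2
  simp only [pen, Pi.sub_apply]
  linarith

end Vale.Agent.P157
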