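import Vale.Agent.P157.Mono1

/-! P157: monotonicity on the lattice (part 2: unfolding the cascade into single steps). -/

namespace Vale.Agent.P157

open Real Finset

noncomputable section

namespace Mono

def mu (n d : ℕ) : ℝ := 1 - (d : ℝ) / n

theorem mu_pos {n d : ℕ} (h : d < n) : 0 < mu n d := by
  have h0 : (0 : ℝ) < n := by exact_mod_cast (Nat.zero_le d).trans_lt h
  have h1 : (d : ℝ) < n := by exact_mod_cast h
  unfold mu
  rw [sub_pos, div_lt_one h0]; exact h1

theorem mu_anti (n : ℕ) {d d' : ℕ} (h : d' ≤ d) : mu n d ≤ mu n d' := by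
  have h1 : (d' : ℝ) ≤ d := by exact_mod_cast h
  unfold mu
  have := div_le_div_of_nonneg_right h1 (Nat.cast_nonneg (α := ℝ) n)
  linarith

theorem mu_le (n d : ℕ) : mu n d ≤ 1 := by
  unfold mu
  have : (0 : ℝ) ≤ (d : ℝ) / n := by positivity
  linarith

/-- the head of the list is the outermost step -/
def rX (n : ℕ) : List ℕ → (ℤ → ℝ) → ℤ → ℝ
  | [], X => X
  | d :: l, X => sX (mu n d) (rX n l X)

def rG (n : ℕ) : List ℕ → (ℤ → ℝ) → (ℤ → ℝ) → ℤ → ℝ
  | [], _, g => g
  | d :: l, X, g => sG (mu n d) (rX n l X) (rG n l X g)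

theorem rX_append (n : ℕ) (l l' : List ℕ) (X : ℤ → ℝ) : rX n (l ++ l') X = rX n l (rX n l' X) := by
  induction l with
  | nil => rfl
  | cons d l ih => simp only [List.cons_append, rX, ih]

theorem rG_append (n : ℕ) (l l' : List ℕ) (X g : ℤ → ℝ) :
    rG n (l ++ l') X g = rG n l (rX n l' X) (rG n l' X g) := by
  induction l with
  | nil => rfl
  | cons d l ih => simp only [List.cons_append, rG, ih, rX_append]

theorem cmp {e : ℝ} (he : e = 1 ∨ e = -1) (n : ℕ) (X g Y h : ℤ → ℝ) :
    ∀ (l' l : List ℕ), l.Pairwise (· ≥ ·) → l'.Pairwise (· ≥ ·) → (∀ d ∈ l, d < n) →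
      (∀ d, l'.countP (d ≤ ·) ≤ l.countP (d ≤ ·)) →
      Rel e (rX n (l.drop l'.length) X) (rG n (l.drop l'.length) X g) Y h →
      Rel e (rX n l X) (rG n l X g) (rX n l' Y) (rG n l' Y h) := by
  intro l'
  induction l' with
  | nil => intro l _ _ _ _ H; exact H
  | cons b l' ih =>
    intro l h1 h2 h3 h4 H
    cases l with
    | nil => have := h4 0; simp at this
    | cons a l =>
      rw [List.pairwise_cons] at h1 h2
      have hab : b ≤ a := by
        by_contra hh
        have := h4 b
        have h0 : (a :: l).countP (b ≤ ·) = 0 := by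
          rw [List.countP_eq_zero]
          intro x hx
          rcases List.mem_cons.1 hx with rfl | hx
          · simpa using hh
          · have := h1.1 x hx
            simp only [decide_eq_true_eq]; omega
        rw [h0] at this
        simp at this
      have H' := ih l h1.2 h2.2 (fun d hd => h3 d (List.mem_cons_of_mem _ hd)) (fun d => by
        by_cases hd : d ≤ b
        · have := h4 d
          rw [List.countP_cons_of_pos (by simpa using hd),
            List.countP_cons_of_pos (by simpa using hd.trans hab)] at this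
          omega
        · have h0 : l'.countP (d ≤ ·) = 0 := by
            rw [List.countP_eq_zero]
            intro x hx
            have := h2.1 x hx
            simp only [decide_eq_true_eq]; omega
          omega) (by simpa using H)
      exact H'.step he (mu_pos (h3 a List.mem_cons_self)) (mu_anti n hab)

theorem pad (n : ℕ) {η : ℝ} (hη : 0 ≤ η) : ∀ l : List ℕ, (∀ d ∈ l, d < n) →
    Rel (-1) (rX n l (X0 η)) (rG n l (X0 η) (u0 η)) (X0 η) (u0 η)
  | [], _ => ⟨iX0 η, iX0 η, iu0 hη, iu0 hη, fun _ _ => le_rfl, fun _ _ => le_rfl⟩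
  | d :: l, h => (pad n hη l (fun d hd => h d (List.mem_cons_of_mem _ hd))).pad
      (mu_pos (h d List.mem_cons_self)) (mu_le n d)

theorem inv (n : ℕ) {X g : ℤ → ℝ} (hX : IX X) (hg : IG 1 g) : ∀ l : List ℕ, (∀ d ∈ l, d < n) →
    IX (rX n l X) ∧ IG 1 (rG n l X g)
  | [], _ => ⟨hX, hg⟩
  | d :: l, h => by
    have := inv n hX hg l (fun d hd => h d (List.mem_cons_of_mem _ hd))
    exact ⟨this.1.step (mu_pos (h d List.mem_cons_self)), this.2.step (Or.inl rfl) this.1 _⟩

theorem top (n d : ℕ) (hd : d < n) {X g : ℤ → ℝ} (hX : IX X) (hg : IG 1 g) (s : ℕ) :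
    g 0 ≤ rG n (List.replicate (2 * s) d) X g 0 := by
  induction s with
  | zero => exact le_rfl
  | succ s ih =>
    have := inv n hX hg (List.replicate (2 * s) d)
      (fun x hx => by rw [List.eq_of_mem_replicate hx]; exact hd)
    rw [show 2 * (s + 1) = 2 * s + 1 + 1 by ring, List.replicate_succ, List.replicate_succ]
    exact ih.trans (two_step this.1 this.2 _)

/-- the levels of the steps in `[a, b)`, outermost first -/
def lev (c : ℕ → ℕ) (a : ℕ) : ℕ → List ℕ
  | 0 => []
  | b + 1 => if a ≤ b then List.replicate (c b) b ++ lev c a b else []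

theorem lev_lt (c : ℕ → ℕ) (a : ℕ) : ∀ b, ∀ d ∈ lev c a b, d < b
  | 0, d, h => by simp [lev] at h
  | b + 1, d, h => by
    unfold lev at h
    split_ifs at h
    · rcases List.mem_append.1 h with h | h
      · rw [List.eq_of_mem_replicate h]; omega
      · have := lev_lt c a b d h; omega
    · simp at h

theorem lev_sorted (c : ℕ → ℕ) (a : ℕ) : ∀ b, (lev c a b).Pairwise (· ≥ ·)
  | 0 => by simp [lev]
  | b + 1 => by
    unfold lev
    split_ifs
    · rw [List.pairwise_append]
      refine ⟨by simp [List.pairwise_replicate], lev_sorted c a b, fun x hx y hy => ?_⟩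
      have := lev_lt c a b y hy
      rw [List.eq_of_mem_replicate hx]; omega
    · simp

theorem lev_count (c : ℕ → ℕ) (a d : ℕ) :
    ∀ b, (lev c a b).countP (d ≤ ·) = ∑ κ ∈ Ico (max a d) b, c κ
  | 0 => by simp [lev]
  | b + 1 => by
    unfold lev
    split_ifs with h
    · rw [List.countP_append, lev_count c a d b, List.countP_replicate]
      by_cases hd : d ≤ b
      · rw [sum_Ico_succ_top (max_le h hd)]
        simp [hd, add_comm]
      · rw [Ico_eq_empty_of_le (a := max a d) (b := b) (by omega),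
          Ico_eq_empty_of_le (a := max a d) (b := b + 1) (by omega)]
        simp [hd]
    · rw [Ico_eq_empty_of_le (by omega)]; simp

theorem lev_self (c : ℕ → ℕ) (a : ℕ) : lev c a a = [] := by
  cases a with
  | zero => rfl
  | succ a => simp [lev]

theorem lev_split (c : ℕ → ℕ) (a : ℕ) : ∀ b, a ≤ b → lev c 0 b = lev c a b ++ lev c 0 a := by
  intro b hb
  induction b, hb using Nat.le_induction with
  | base => simp [lev_self]
  | succ b hb ih => simp only [lev, hb, if_true, Nat.zero_le, ih, List.append_assoc]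

theorem count_zero (l : List ℕ) : l.countP (0 ≤ ·) = l.length := by simp

/-- the comparison for the unfolded recursions -/
theorem main (n : ℕ) {η : ℝ} (c c' : ℕ → ℕ) (j s : ℕ) (hη : 0 ≤ η) (hj : j < n)
    (h1 : cum n c' j = cum n c j + 2 * s) (h2 : ∀ d, d < n → cum n c' d ≤ cum n c d + 2 * s) :
    rG n (lev c j n) (rX n (lev c 0 j) (X0 η))
        (fun k => rG n (lev c 0 j) (X0 η) (u0 η) k * rG n (lev c 0 j) (X0 η) (u0 η) k) 0 ≤
      rG n (lev c' j n) (rX n (lev c' 0 j) (X0 η))
        (fun k => rG n (lev c' 0 j) (X0 η) (u0 η) k * rG n (lev c' 0 j) (X0 η) (u0 η) k) 0 := by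
  unfold cum at h1 h2
  have hlt : ∀ d ∈ lev c 0 j, d < n := fun d hd => (lev_lt c 0 j d hd).trans hj
  have R1 := cmp (Or.inr rfl) n (X0 η) (u0 η) (X0 η) (u0 η) (lev c' 0 j) (lev c 0 j)
    (lev_sorted _ _ _) (lev_sorted _ _ _) hlt (fun d => by
      rw [lev_count, lev_count, max_eq_right (Nat.zero_le d)]
      by_cases hd : d ≤ j
      · have e1 := sum_Ico_consecutive c hd hj.le
        have e2 := sum_Ico_consecutive c' hd hj.le
        have := h2 d (by omega)
        omega
      · rw [Ico_eq_empty_of_le (by omega)]; simp)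
    (pad n hη _ (fun d hd => hlt d (List.mem_of_mem_drop hd)))
  have R2 := R1.sq
  have hc : ∀ d, (List.replicate (2 * s) (n - 1) ++ lev c j n).countP (d ≤ ·) =
      (if d ≤ n - 1 then 2 * s else 0) + ∑ κ ∈ Ico (max j d) n, c κ := fun d => by
    rw [List.countP_append, lev_count, List.countP_replicate]; simp
  have hlen : (List.replicate (2 * s) (n - 1) ++ lev c j n).length = (lev c' j n).length := by
    rw [← count_zero, ← count_zero, hc, lev_count, max_eq_left (Nat.zero_le j)]
    simp only [Nat.zero_le, if_true]; omega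
  have R3 := cmp (Or.inl rfl) n _ _ _ _ (lev c' j n) (List.replicate (2 * s) (n - 1) ++ lev c j n)
    (by
      rw [List.pairwise_append]
      refine ⟨by simp [List.pairwise_replicate], lev_sorted c j n, fun x hx y hy => ?_⟩
      have := lev_lt c j n y hy
      rw [List.eq_of_mem_replicate hx]; omega)
    (lev_sorted _ _ _)
    (fun d hd => by
      rcases List.mem_append.1 hd with h | h
      · rw [List.eq_of_mem_replicate h]; omega
      · exact lev_lt c j n d h)
    (fun d => by
      rw [hc, lev_count]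
      by_cases hd : d ≤ n - 1
      · have := h2 (max j d) (by omega)
        rw [if_pos hd]; omega
      · rw [Ico_eq_empty_of_le (by omega)]; simp)
    (by rw [← hlen, List.drop_length]; exact R2)
  refine le_trans ?_ (R3.le 0 le_rfl)
  rw [rG_append]
  have := inv n R2.iX R2.ig (lev c j n) (lev_lt c j n)
  exact top n (n - 1) (by omega) this.1 this.2 s

theorem it_rep (n d : ℕ) (hd : d < n) (X g : ℤ → ℝ) : ∀ r : ℕ,
    av^[r] (fun i => exp (mu n d * X i)) =
        (fun i => exp (mu n d * rX n (List.replicate r d) X i)) ∧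
      av^[r] (fun i => exp (mu n d * X i) * g i) =
        (fun i => exp (mu n d * rX n (List.replicate r d) X i) * rG n (List.replicate r d) X g i)
  | 0 => ⟨rfl, rfl⟩
  | r + 1 => by
    obtain ⟨h1, h2⟩ := it_rep n d hd X g r
    rw [Function.iterate_succ_apply', Function.iterate_succ_apply', h1, h2, List.replicate_succ]
    constructor
    · ext k; simp only [rX]; rw [exp_sX (mu_pos hd)]
    · ext k
      simp only [rX, rG]
      rw [exp_sX (mu_pos hd), sG, mul_div_cancel₀ _ (av_pos _ _ _).ne']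

/-! the cascade on the lattice -/

def pt (η : ℝ) (k : ℤ) : Unit → Bool → ℝ := fun _ σ => k * η * spin σ

def vv (η : ℝ) : Unit → Bool → ℝ := fun _ σ => η * spin σ

theorem lv_rep (hC : CApi) (η : ℝ) (σ : Bool) (F : Om Unit Bool → ℝ) : ∀ (r : ℕ) (k : ℤ),
    (lv (Multiset.replicate r (vv η)) : Op (Om Unit Bool)) F (pt η k, σ) =
      av^[r] (fun i => F (pt η i, σ)) k
  | 0, k => by rw [Multiset.replicate_zero, hC.lv_zero]; rfl
  | r + 1, k => by
    rw [Multiset.replicate_succ, hC.lv_cons, Function.iterate_succ_apply']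
    have e1 : pt η k + vv η = pt η (k + 1) := by
      ext u x; simp only [pt, vv, Pi.add_apply]; push_cast; ring
    have e2 : pt η k - vv η = pt η (k - 1) := by
      ext u x; simp only [pt, vv, Pi.sub_apply]; push_cast; ring
    change (lv (Multiset.replicate r (vv η)) F (pt η k + vv η, σ) +
      lv (Multiset.replicate r (vv η)) F (pt η k - vv η, σ)) / 2 = _
    rw [e1, e2, lv_rep hC η σ F r, lv_rep hC η σ F r]
    rfl

theorem chain_lat (η : ℝ) (c : ℕ → ℕ) (d : ℕ) : ∀ n : ℕ,
    ((lift () spin (lat n η c)).filter (fun s => s.1 = d)).map vec =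
      if d < n then Multiset.replicate (c d) (vv η) else 0
  | 0 => by simp [lat, lift]
  | n + 1 => by
    have ih := chain_lat η c d n
    unfold lat lift at *
    rw [sum_range_succ, Multiset.map_add, Multiset.filter_add, Multiset.map_add, ih,
      Multiset.nsmul_singleton, Multiset.map_replicate]
    have hv : vec ((n, (), η • spin) : St Unit Bool) = vv η := by
      ext u x; simp [vec, vv]
    by_cases h : n = d
    · subst h
      rw [Multiset.filter_eq_self.2 (fun s hs => by rw [Multiset.eq_of_mem_replicate hs]),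
        Multiset.map_replicate, hv]
      simp
    · rw [Multiset.filter_eq_nil.2 (fun s hs => by rw [Multiset.eq_of_mem_replicate hs]; exact h)]
      by_cases h' : d < n
      · rw [if_pos h', if_pos (by omega)]; simp
      · rw [if_neg h', if_neg (by omega)]; simp

abbrev PP (n : ℕ) (η : ℝ) (c : ℕ → ℕ) : ℕ → Op (Om Unit Bool) := chain (lift () spin (lat n η c))

abbrev Z0 : Om Unit Bool → ℝ := ZZ (fun _ : Unit => id)

theorem PP_succ (hC : CApi) {n d : ℕ} (hd : d < n) (η : ℝ) (c : ℕ → ℕ) (F : Om Unit Bool → ℝ)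
    (k : ℤ) (σ : Bool) : PP n η c (d + 1) F (pt η k, σ) = av^[c d] (fun i => F (pt η i, σ)) k := by
  rw [← lv_rep hC]
  simp only [PP, chain]
  rw [chain_lat, if_pos hd]

theorem XX_one (n : ℕ) (η : ℝ) (c : ℕ → ℕ) (k : ℤ) (σ : Bool) :
    XX (PP n η c) (ex n) Z0 1 (pt η k, σ) = X0 η k := by
  simp [XX, PP, chain, res, ex, ZZ, pt, spin, X0, cosh_eq]

theorem XX_eq (hC : CApi) (n : ℕ) (η : ℝ) (c : ℕ → ℕ) : ∀ d, d ≤ n → ∀ (k : ℤ) (σ : Bool),
    XX (PP n η c) (ex n) Z0 (d + 1) (pt η k, σ) = rX n (lev c 0 d) (X0 η) k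
  | 0, _, k, σ => XX_one n η c k σ
  | d + 1, hd, k, σ => by
    have ih := XX_eq hC n η c d (by omega)
    rw [XX]
    beta_reduce
    rw [PP_succ hC hd]
    simp only [ih]
    change (mu n d)⁻¹ * log (av^[c d] (fun i => exp (mu n d * rX n (lev c 0 d) (X0 η) i)) k) = _
    rw [(it_rep n d hd _ 0 _).1, log_exp, lev, if_pos (Nat.zero_le d), rX_append,
      ← mul_assoc, inv_mul_cancel₀ (mu_pos hd).ne', one_mul]

theorem Ce_eq (hC : CApi) (hA : AApi) (n : ℕ) (η : ℝ) (c : ℕ → ℕ) (a : ℕ) (Γ : Om Unit Bool → ℝ)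
    (γ : ℤ → ℝ) (hΓ : ∀ k σ, Γ (pt η k, σ) = γ k) : ∀ d, a ≤ d → d ≤ n → ∀ (k : ℤ) (σ : Bool),
    Ce (PP n η c) (ex n) Z0 (a + 1) (d + 1) Γ (pt η k, σ) =
      rG n (lev c a d) (rX n (lev c 0 a) (X0 η)) γ k := by
  intro d hd
  induction d, hd using Nat.le_induction with
  | base => intro _ k σ; rw [hA.self _ _ _ le_rfl, lev_self, hΓ]; rfl
  | succ d hd ih =>
    intro hn k σ
    have ih := ih (by omega)
    rw [Ce, if_pos (by omega)]
    change exp (-(ex n (d + 1) * XX (PP n η c) (ex n) Z0 (d + 1 + 1) (pt η k, σ))) *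
      PP n η c (d + 1) (fun ω => exp (ex n (d + 1) * XX (PP n η c) (ex n) Z0 (d + 1) ω) *
        Ce (PP n η c) (ex n) Z0 (a + 1) (d + 1) Γ ω) (pt η k, σ) = _
    rw [PP_succ hC hn, XX_eq hC n η c (d + 1) hn]
    simp only [ih, XX_eq hC n η c d (by omega)]
    change exp (-(mu n d * _)) * av^[c d] (fun i => exp (mu n d * rX n (lev c 0 d) (X0 η) i) *
      rG n (lev c a d) (rX n (lev c 0 a) (X0 η)) γ i) k = _
    rw [(it_rep n d hn _ _ _).2]
    simp only [lev, hd, Nat.zero_le, if_true, rX_append, rG_append]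
    rw [← mul_assoc, ← exp_add, neg_add_cancel, exp_zero, one_mul, ← rX_append,
      ← lev_split c a d hd]

theorem Ce_one (n : ℕ) (η : ℝ) (c : ℕ → ℕ) (k : ℤ) (σ : Bool) :
    Ce (PP n η c) (ex n) Z0 0 1 (fun ω => spin ω.2) (pt η k, σ) = u0 η k := by
  change exp (-(ex n 0 * XX (PP n η c) (ex n) Z0 1 (pt η k, σ))) *
      PP n η c 0 (fun ω => exp (ex n 0 * Z0 ω) * spin ω.2) (pt η k, σ) = _
  rw [XX_one]
  simp only [ex, one_mul, X0, exp_neg, exp_log (cosh_pos _), u0]
  simp [PP, chain, res, ZZ, pt, spin, sinh_eq, exp_neg]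
  ring

theorem piD_eq (hC : CApi) (hA : AApi) (n : ℕ) (η : ℝ) (c : ℕ → ℕ) (j : ℕ) (hj : j ≤ n) :
    piD n (lat n η c) j = rG n (lev c j n) (rX n (lev c 0 j) (X0 η))
      (fun k => rG n (lev c 0 j) (X0 η) (u0 η) k * rG n (lev c 0 j) (X0 η) (u0 η) k) 0 := by
  have h0 : (0 : Unit → Bool → ℝ) = pt η 0 := by ext u x; simp [pt]
  unfold piD EE
  rw [hA.e2mul _ _ _ _ _ (fun ω : Om Unit Bool => spin ω.2) (fun ω : Om Unit Bool => spin ω.2), h0]
  refine Ce_eq hC hA n η c j _ _ (fun k σ => ?_) n hj le_rfl 0 _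
  have := Ce_eq hC hA n η c 0 _ _ (Ce_one n η c) j (Nat.zero_le j) hj k σ
  rw [hA.comp _ _ _ (by omega) (by omega)] at this
  exact congrArg₂ (· * ·) this this

end Mono

theorem monoStmt (hA : AApi) (hC : CApi) (_hk : LinkStmt) : MonoStmt := by
  intro n η c c' j s hη _ hj h1 h2
  rw [Mono.piD_eq hC hA n η c j hj.le, Mono.piD_eq hC hA n η c' j hj.le]
  exact Mono.main n c c' j s hη hj h1 h2

end

end Vale.Agent.P157
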