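import Vale.Agent.P157.Gr1

namespace Vale.Agent.P157

open Finset Real

set_option linter.unusedSectionVars false
set_option linter.unusedVariables false

namespace Ms

theorem m1 {x y a b : ℝ} (hx : |x| ≤ a) (hy : |y| ≤ b) : |x * y| ≤ a * b := by
  rw [abs_mul]; exact mul_le_mul hx hy (abs_nonneg _) ((abs_nonneg _).trans hx)

theorem d2_mono {K K' : ℝ} {u : ℝ → ℝ} (h : D2 K u) (hK : K ≤ K') : D2 K' u := fun t x =>
  ⟨(h t x).1.trans (mul_le_mul_of_nonneg_right hK (abs_nonneg _)),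
    (h t x).2.trans (mul_le_mul_of_nonneg_right hK (sq_nonneg _))⟩

theorem d2_one {K : ℝ} (hK : 0 ≤ K) : D2 K (fun _ => 1) := fun t x => by
  constructor
  · simp only [sub_self, abs_zero]; positivity
  · rw [show (1 : ℝ) + 1 - 2 * 1 = 0 by ring, abs_zero]; positivity

theorem d2_U {B : ℝ} {g g1 g2 : ℝ → ℝ} (hB : 1 ≤ B) (h : Sm B g g1 g2) :
    D2 (5 * B ^ 2) (fun t => g2 t + g1 t ^ 2) := by
  intro t x
  have hB2 : B ≤ B ^ 2 := by nlinarith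
  have hx := abs_nonneg x
  obtain ⟨a1, a2, a3⟩ := Gr1.d2_le (by linarith) h.d1 (le_refl |x|) t
  obtain ⟨b1, b2, b3⟩ := Gr1.d2_le (by linarith) h.d2 (le_refl |x|) t
  have c1 := abs_le.1 (m1 a1 (h.b1 t))
  have c2 := abs_le.1 (m1 a1 (h.b1 (t + x)))
  have c3 := abs_le.1 (m1 a3 (h.b1 t))
  have c4 := abs_le.1 (m1 a1 a1)
  have c5 := abs_le.1 (m1 a2 a2)
  have d1 := abs_le.1 b1
  have d3 := abs_le.1 b3
  have e1 : B * |x| ≤ B ^ 2 * |x| := by gcongr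
  have e2 : B * |x| ^ 2 ≤ B ^ 2 * |x| ^ 2 := by gcongr
  have e3 : 0 ≤ B ^ 2 * |x| := by positivity
  constructor
  · rw [abs_le]; constructor <;> nlinarith
  · rw [← sq_abs x, abs_le]; constructor <;> nlinarith

theorem U_bd {B : ℝ} {g g1 g2 : ℝ → ℝ} (hB : 1 ≤ B) (h : Sm B g g1 g2) (t : ℝ) :
    |g2 t + g1 t ^ 2| ≤ 5 * B ^ 2 := by
  have c1 := abs_le.1 (m1 (h.b1 t) (h.b1 t))
  have c2 := abs_le.1 (h.b2 t)
  rw [abs_le]; constructor <;> nlinarith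

variable {O S : Type} [Fintype O] [DecidableEq O] [Fintype S] [Inhabited S]

noncomputable def ch (w : S → ℝ) (σ σ' : S) : ℝ := w σ * w σ' / ‖w‖ ^ 2

theorem ch_le (w : S → ℝ) (σ σ' : S) : |ch w σ σ'| ≤ 1 := by
  have h := m1 (norm_le_pi_norm w σ) (norm_le_pi_norm w σ')
  unfold ch
  rw [abs_div, abs_of_nonneg (sq_nonneg ‖w‖)]
  exact div_le_one_of_le₀ (by rw [sq]; exact h) (sq_nonneg _)

theorem ch_mul (w : S → ℝ) (σ σ' : S) : ‖w‖ ^ 2 * ch w σ σ' = w σ * w σ' := by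
  by_cases h : ‖w‖ = 0
  · rw [norm_eq_zero] at h; simp [h]
  · unfold ch; field_simp

theorem ee_smul (n : ℕ) (g : O → ℝ → ℝ) (L : Multiset (St O S)) (d : ℕ) (c : ℝ)
    (φ : Om O S → Om O S → ℝ) :
    EE n g L d (fun ω ω' => c * φ ω ω') = c * EE n g L d φ := by
  have := Aa.e2add (chain L) (ex n) (ZZ g) (d + 1) (n + 1) φ φ c 0 (0, default)
  simpa [EE] using this

noncomputable def t1 (n : ℕ) (g g1 g2 : O → ℝ → ℝ) (L : Multiset (St O S)) (s : St O S) : ℝ :=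
  EE n g L 0 (fun ω ω' => (g2 s.2.1 (ω.1 s.2.1 ω.2) + g1 s.2.1 (ω.1 s.2.1 ω.2) ^ 2) * 1 *
    ch s.2.2 ω.2 ω.2)

noncomputable def t2 (n : ℕ) (g g1 : O → ℝ → ℝ) (L : Multiset (St O S)) (s : St O S) (d : ℕ) : ℝ :=
  EE n g L d (fun ω ω' => g1 s.2.1 (ω.1 s.2.1 ω.2) * g1 s.2.1 (ω'.1 s.2.1 ω'.2) *
    ch s.2.2 ω.2 ω'.2)

theorem gam_eq (n : ℕ) (g g1 g2 : O → ℝ → ℝ) (L : Multiset (St O S)) (s : St O S) (hn : 1 ≤ n) :
    Gam n g g1 g2 L s = ‖s.2.2‖ ^ 2 *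
      ((t1 n g g1 g2 L s - (1 / (n : ℝ)) * ∑ d ∈ Icc 1 s.1, t2 n g g1 L s d) / 2) := by
  have h1 : E1 n g L (ob (fun t => g2 s.2.1 t + g1 s.2.1 t ^ 2) s.2.1 (fun σ => s.2.2 σ ^ 2)) =
      ‖s.2.2‖ ^ 2 * t1 n g g1 g2 L s := by
    unfold t1
    rw [← ee_smul]
    unfold E1 EE
    rw [← Aa.e2one (Cc.ok n L hn) _ (0 + 1) (by omega)]
    congr 1
    funext ω ω'
    unfold ob
    linear_combination (-(g2 s.2.1 (ω.1 s.2.1 ω.2) + g1 s.2.1 (ω.1 s.2.1 ω.2) ^ 2)) *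
      ch_mul s.2.2 ω.2 ω.2
  have h2 : ∀ d, EE n g L d
      (fun ω ω' => ob (g1 s.2.1) s.2.1 s.2.2 ω * ob (g1 s.2.1) s.2.1 s.2.2 ω') =
      ‖s.2.2‖ ^ 2 * t2 n g g1 L s d := by
    intro d
    unfold t2
    rw [← ee_smul]
    congr 1
    funext ω ω'
    unfold ob
    linear_combination (-(g1 s.2.1 (ω.1 s.2.1 ω.2) * g1 s.2.1 (ω'.1 s.2.1 ω'.2))) *
      ch_mul s.2.2 ω.2 ω'.2
  unfold Gam
  simp only [h1, h2, ← mul_sum]
  ring

theorem avg_le (n k : ℕ) (a : ℕ → ℝ) (c : ℝ) (hn : 1 ≤ n) (hk : k < n) (hc : 0 ≤ c)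
    (h : ∀ d, d ≤ n → |a d| ≤ c) : |(1 / (n : ℝ)) * ∑ d ∈ Icc 1 k, a d| ≤ c := by
  have hn' : (0 : ℝ) < n := by exact_mod_cast hn
  have h1 : |∑ d ∈ Icc 1 k, a d| ≤ ∑ d ∈ Icc 1 k, c :=
    (abs_sum_le_sum_abs _ _).trans (sum_le_sum fun d hd => h d (by
      have := (mem_Icc.1 hd).2; omega))
  rw [sum_const, Nat.card_Icc, nsmul_eq_mul] at h1
  have h2 : ((k + 1 - 1 : ℕ) : ℝ) ≤ n := by exact_mod_cast (by omega : k + 1 - 1 ≤ n)
  rw [abs_mul, abs_of_pos (by positivity : 0 < 1 / (n : ℝ)), one_div, inv_mul_le_iff₀ hn']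
  exact h1.trans (by gcongr)

theorem gam_bd {B : ℝ} (hB : 1 ≤ B) (n : ℕ) (g g1 g2 : O → ℝ → ℝ) (L : Multiset (St O S))
    (s : St O S) (hn : 1 ≤ n) (hg : ∀ o, Sm B (g o) (g1 o) (g2 o)) (hs : s.1 < n) :
    |Gam n g g1 g2 L s| ≤ 5 * B ^ 2 * ‖s.2.2‖ ^ 2 := by
  have h1 : |t1 n g g1 g2 L s| ≤ 5 * B ^ 2 := by
    refine abs_le.2 (Gr1.ee_bd n g L 0 hn (by omega) _ _ _ fun ω ω' => abs_le.1 ?_)
    have := m1 (U_bd hB (hg s.2.1) (ω.1 s.2.1 ω.2)) (ch_le s.2.2 ω.2 ω.2)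
    simpa using this
  have h2 : ∀ d, d ≤ n → |t2 n g g1 L s d| ≤ 5 * B ^ 2 := by
    intro d hd
    refine abs_le.2 (Gr1.ee_bd n g L d hn hd _ _ _ fun ω ω' => abs_le.1 ?_)
    have := m1 (m1 ((hg s.2.1).b1 (ω.1 s.2.1 ω.2)) ((hg s.2.1).b1 (ω'.1 s.2.1 ω'.2)))
      (ch_le s.2.2 ω.2 ω'.2)
    nlinarith
  have h3 := abs_le.1 (avg_le n s.1 _ _ hn hs (by positivity) h2)
  have h4 := abs_le.1 h1
  rw [gam_eq n g g1 g2 L s hn, abs_mul, abs_of_nonneg (sq_nonneg _), mul_comm]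
  refine mul_le_mul_of_nonneg_right ?_ (sq_nonneg _)
  rw [abs_le]; constructor <;> linarith

end Ms

namespace Ms

theorem gam_diff (hb : GrbStmt) {B : ℝ} (hB : 1 ≤ B) : ∃ C : ℝ, 0 ≤ C ∧
    ∀ (O S : Type) [Fintype O] [DecidableEq O] [Fintype S] [Inhabited S] (n : ℕ)
    (g g1 g2 : O → ℝ → ℝ) (L L' : Multiset (St O S)) (s : St O S), 1 ≤ n →
    (∀ o, Sm B (g o) (g1 o) (g2 o)) → Small n B L' → vr L' ≤ 1 → s.1 < n →
    |Gam n g g1 g2 (L + L') s - Gam n g g1 g2 L s| ≤ C * vr L' * ‖s.2.2‖ ^ 2 := by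
  have hK : 1 ≤ 5 * B ^ 2 := by nlinarith
  have hK' : B ≤ 5 * B ^ 2 := by nlinarith
  obtain ⟨C, hC0, hC⟩ := hb B (5 * B ^ 2) hB hK
  refine ⟨C, hC0, ?_⟩
  intro O S _ _ _ _ n g g1 g2 L L' s hn hg hs hv hsn
  have hv0 := Gr1.vr_nn L'
  have h1 : |t1 n g g1 g2 (L + L') s - t1 n g g1 g2 L s| ≤ C * vr L' :=
    hC O S n g L L' s.2.1 (fun t => g2 s.2.1 t + g1 s.2.1 t ^ 2) (fun _ => 1)
      (fun σ _ => ch s.2.2 σ σ) 0 hn (by omega) (fun o => (hg o).d0) hs hv (d2_U hB (hg _))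
      (d2_one (by linarith)) (U_bd hB (hg _)) (fun _ => by simpa using hK)
      (fun σ _ => ch_le _ _ _)
  have h2 : ∀ d, d ≤ n → |t2 n g g1 (L + L') s d - t2 n g g1 L s d| ≤ C * vr L' := fun d hd =>
    hC O S n g L L' s.2.1 (g1 s.2.1) (g1 s.2.1) (ch s.2.2) d hn hd (fun o => (hg o).d0) hs hv
      (d2_mono (hg _).d1 hK') (d2_mono (hg _).d1 hK') (fun t => ((hg _).b1 t).trans hK')
      (fun t => ((hg _).b1 t).trans hK') (ch_le _)
  have h3 := abs_le.1 (avg_le n s.1 _ _ hn hsn (by positivity) h2)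
  have h4 := abs_le.1 h1
  rw [sum_sub_distrib, mul_sub] at h3
  rw [gam_eq n g g1 g2 L s hn, gam_eq n g g1 g2 (L + L') s hn, ← mul_sub, abs_mul,
    abs_of_nonneg (sq_nonneg _), mul_comm]
  refine mul_le_mul_of_nonneg_right ?_ (sq_nonneg _)
  rw [abs_le]; constructor <;> linarith

end Ms

theorem msStmt (hA : AApi) (hC : CApi) (h1 : St1Stmt) (hb : GrbStmt) : MsStmt := by
  intro B hB
  obtain ⟨C1, hC1⟩ := h1 B hB
  obtain ⟨C2, hC20, hC2⟩ := Ms.gam_diff hb hB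
  have ha := abs_nonneg C1
  refine ⟨|C1| + 5 * B ^ 2 + C2, by positivity, ?_⟩
  intro O S _ _ _ _ n g g1 g2 L L' hn hg hs
  have st : ∀ (M : Multiset (St O S)) (s : St O S), s.1 < n → B * ‖s.2.2‖ ≤ 1 →
      |TT n g (s ::ₘ M) - TT n g M - Gam n g g1 g2 M s| ≤ |C1| * ‖s.2.2‖ ^ 3 := fun M s h h' =>
    (hC1 O S n g g1 g2 M s hn hg h h').trans
      (mul_le_mul_of_nonneg_right (le_abs_self _) (by positivity))
  constructor
  · induction L' using Multiset.induction_on with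
    | empty => simp [vr]
    | cons s L' ih =>
      have i1 := abs_le.1 (ih (fun t ht => hs t (Multiset.mem_cons_of_mem ht)))
      have hs' := hs s (Multiset.mem_cons_self _ _)
      have i2 := abs_le.1 (st (L + L') s hs'.1 hs'.2)
      have i3 := abs_le.1 (Ms.gam_bd hB n g g1 g2 (L + L') s hn hg hs'.1)
      have hδ := norm_nonneg s.2.2
      have hδ1 : ‖s.2.2‖ ≤ 1 := by nlinarith [hs'.2]
      have i4 : |C1| * ‖s.2.2‖ ^ 3 ≤ |C1| * ‖s.2.2‖ ^ 2 :=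
        mul_le_mul_of_nonneg_left (pow_le_pow_of_le_one hδ hδ1 (by norm_num)) ha
      have i5 : 0 ≤ C2 * ‖s.2.2‖ ^ 2 := by positivity
      rw [Multiset.add_cons, Gr1.vr_cons, abs_le]
      constructor <;> linarith
  · intro hv
    have key : ∀ V : ℝ, V ≤ 1 → vr L' ≤ V →
        |TT n g (L + L') - TT n g L - (L'.map (Gam n g g1 g2 L)).sum| ≤
          (|C1| + C2) * (vr L' * √V) := by
      intro V hV1
      clear hv
      induction L' using Multiset.induction_on with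
      | empty => simp [vr]
      | cons s L' ih =>
        intro hV
        rw [Gr1.vr_cons] at hV
        have hv0 := Gr1.vr_nn L'
        have hδ := norm_nonneg s.2.2
        have hδ2 := sq_nonneg ‖s.2.2‖
        have hsm : Small n B L' := fun t ht => hs t (Multiset.mem_cons_of_mem ht)
        have i1 := abs_le.1 (ih hsm (by linarith))
        have hs' := hs s (Multiset.mem_cons_self _ _)
        have i2 := abs_le.1 (st (L + L') s hs'.1 hs'.2)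
        have i3 := abs_le.1 (hC2 O S n g g1 g2 L L' s hn hg hsm (by linarith) hs'.1)
        have j1 : ‖s.2.2‖ ≤ √V := le_sqrt_of_sq_le (by linarith)
        have j2 : vr L' ≤ √V := by
          refine le_sqrt_of_sq_le ?_
          nlinarith
        have i4 : |C1| * ‖s.2.2‖ ^ 3 ≤ |C1| * (‖s.2.2‖ ^ 2 * √V) := by
          refine mul_le_mul_of_nonneg_left ?_ ha
          rw [pow_succ]; gcongr
        have i5 : C2 * vr L' * ‖s.2.2‖ ^ 2 ≤ C2 * (‖s.2.2‖ ^ 2 * √V) := by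
          rw [mul_assoc, mul_comm (vr L')]; gcongr
        rw [Multiset.add_cons, Gr1.vr_cons, Multiset.map_cons, Multiset.sum_cons, abs_le]
        constructor <;> linarith
    refine (key _ hv le_rfl).trans (mul_le_mul_of_nonneg_right (by nlinarith) ?_)
    have := Gr1.vr_nn L'
    positivity

end Vale.Agent.P157
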