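import Vale.Agent.P157.Stm

namespace Vale.Agent.P157

open Finset Real

set_option linter.unusedSectionVars false

namespace P1

section
variable {E E' S S' : Type} [AddCommGroup E] [AddCommGroup E']

theorem cons_apply (hC : CApi) (v : E) (l : Multiset E) (g : E × S → ℝ) (ω : E × S) :
    lv (v ::ₘ l) g ω = (lv l g (ω.1 + v, ω.2) + lv l g (ω.1 - v, ω.2)) / 2 := by
  rw [hC.lv_cons]; rfl

/-- factors that do not see the steps can be pulled out -/
theorem pull (hC : CApi) (φ : E →+ E') (l : Multiset E) (hl : ∀ v ∈ l, φ v = 0) (G : E' → S → ℝ)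
    (H : E × S → ℝ) (ω : E × S) :
    lv l (fun x => G (φ x.1) x.2 * H x) ω = G (φ ω.1) ω.2 * lv l H ω := by
  induction l using Multiset.induction_on generalizing ω with
  | empty => rfl
  | cons v l ih =>
    have h0 := hl v (Multiset.mem_cons_self _ _)
    have ih' := ih fun w hw => hl w (Multiset.mem_cons_of_mem hw)
    rw [cons_apply hC, cons_apply hC, ih', ih']
    simp only [map_add, map_sub, h0, add_zero, sub_zero]
    ring

theorem lv_map0 (hC : CApi) (φ : E →+ E') (ρ : S → S') (l : Multiset E) (g : E' × S' → ℝ)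
    (ω : E × S) : lv l (fun x : E × S => g (φ x.1, ρ x.2)) ω = lv (l.map φ) g (φ ω.1, ρ ω.2) := by
  simpa only [add_zero] using hC.lv_map φ 0 ρ l g ω

end

variable {O S : Type} [Fintype O] [DecidableEq O] [Fintype S] [Inhabited S]

/-- make the coordinate `o` constant -/
def p0 (S : Type) [Inhabited S] (o : O) : (O → S → ℝ) →+ (O → S → ℝ) where
  toFun x := Function.update x o fun _ => x o default
  map_zero' := by ext o' σ; by_cases h : o' = o <;> simp [h]
  map_add' x y := by ext o' σ; by_cases h : o' = o <;> simp [h]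

/-- erase the coordinate `o` -/
def p1 (S : Type) (o : O) : (O → S → ℝ) →+ (O → S → ℝ) where
  toFun x := Function.update x o 0
  map_zero' := by ext o' σ; by_cases h : o' = o <;> simp [h]
  map_add' x y := by ext o' σ; by_cases h : o' = o <;> simp [h]

/-- read the coordinate `o` -/
def p2 (S : Type) [Inhabited S] (o : O) : (O → S → ℝ) →+ (Unit → Unit → ℝ) where
  toFun x := fun _ _ => x o default
  map_zero' := rfl
  map_add' _ _ := rfl

theorem ne_vec {o : O} {s : St O S} (h : s.2.1 ≠ o) :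
    p0 S o (vec s) = vec s ∧ p1 S o (vec s) = vec s ∧ p2 S o (vec s) = 0 := by
  have h0 : vec s o = 0 := Pi.single_eq_of_ne h.symm _
  refine ⟨?_, ?_, ?_⟩
  · exact Function.update_eq_self_iff.2 (by rw [h0]; rfl)
  · exact Function.update_eq_self_iff.2 h0.symm
  · ext a b; exact congrFun h0 default

theorem eq_vec (o : O) (κ : ℕ) (c : ℝ) :
    p0 S o (vec (κ, o, c • fun _ : S => (1 : ℝ))) = vec (κ, o, c • fun _ : S => (1 : ℝ)) ∧
      p1 S o (vec (κ, o, c • fun _ : S => (1 : ℝ))) = 0 ∧
      p2 S o (vec (κ, o, c • fun _ : S => (1 : ℝ))) = vec (κ, (), c • fun _ : Unit => (1 : ℝ)) := by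
  refine ⟨?_, ?_, ?_⟩
  · exact Function.update_eq_self_iff.2 (by ext σ; simp [vec])
  · ext o' σ
    by_cases h : o' = o <;> simp [p1, vec, h]
  · ext a b; simp [p2, vec]

theorem lv_congr {E S : Type} [AddCommGroup E] {α : Type} {T : Multiset α} {u v : α → E}
    (h : ∀ a ∈ T, u a = v a) (g : E × S → ℝ) (ω : E × S) :
    lv (T.map u) g ω = lv (T.map v) g ω := by
  rw [Multiset.map_congr rfl h]

theorem filter_lift (o : O) (w : S → ℝ) (l : Multiset (ℕ × ℝ)) (j : ℕ) :
    ((lift o w l).filter fun s => s.1 = j).map vec =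
      (l.filter fun s => s.1 = j).map fun s => vec (s.1, o, s.2 • w) := by
  rw [lift, Multiset.filter_map, Multiset.map_map]
  rfl

/-- the terminal function without the coordinate `o` -/
noncomputable def Z1 (g : O → ℝ → ℝ) (o : O) (ω : Om O S) : ℝ :=
  ∑ a ∈ univ.erase o, g a (ω.1 a ω.2)

theorem dec (hA : AApi) (hC : CApi) (n : ℕ) (g : O → ℝ → ℝ) (L : Multiset (St O S)) (o : O)
    (l : Multiset (ℕ × ℝ)) (hn : 1 ≤ n) (hL : ∀ s ∈ L, s.2.1 ≠ o) :
    TT n g (L + lift o (fun _ => 1) l) =
      XX (chain L) (ex n) (Z1 g o) (n + 1) (0, default) + HD n (g o) l ∧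
    ∀ (u : ℝ → ℝ) (w : S → ℝ) (d : ℕ), d ≤ n →
      EE n g (L + lift o (fun _ => 1) l) d (fun ω ω' => ob u o w ω * ob u o w ω') =
        E2 (chain L) (ex n) (Z1 g o) (d + 1) (n + 1) (fun ω ω' => w ω.2 * w ω'.2) (0, default) *
          WD n (g o) u l d := by
  have h1 := hA.tw (P := chain (L + lift o (fun _ => 1) l))
    (P' := chain (L + lift o (fun _ => 1) l)) (ex n) (n + 1) (fun _ ω => (p0 S o ω.1, ω.2))
    (fun j _ G ω => by
      cases j with
      | zero => rfl
      | succ j =>
        refine (lv_map0 hC (p0 S o) id _ G ω).trans ?_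
        rw [Multiset.map_map]
        refine lv_congr (fun s hs => ?_) _ _
        rcases Multiset.mem_add.1 (Multiset.mem_of_mem_filter hs) with h | h
        · exact (ne_vec (hL s h)).1
        · obtain ⟨t, -, rfl⟩ := Multiset.mem_map.1 h
          exact (eq_vec o t.1 t.2).1) (ZZ g)
  have h2 := hA.prod (P := chain (L + lift o (fun _ => 1) l)) (hC.ok n L hn)
    (hC.ok n (lift () (fun _ : Unit => 1) l) hn) (fun ω => (p1 S o ω.1, ω.2))
    (fun ω => (p2 S o ω.1, ())) (fun j _ g1 g2 ω => by
      cases j with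
      | zero =>
        show (∑ σ, g1 (p1 S o ω.1, σ) * g2 (p2 S o ω.1, ())) / _ =
          (∑ σ, g1 (p1 S o ω.1, σ)) / _ * ((∑ _σ : Unit, g2 (p2 S o ω.1, ())) / _)
        rw [← sum_mul]
        simp
        ring
      | succ j =>
        show lv _ _ _ = lv _ _ _ * lv _ _ _
        rw [Multiset.filter_add, Multiset.map_add, hC.lv_add, filter_lift, filter_lift,
          LinearMap.comp_apply]
        have e1 : lv ((l.filter fun s => s.1 = j).map fun s => vec (s.1, o, s.2 • fun _ : S => 1))
            (fun x : Om O S => g1 (p1 S o x.1, x.2) * g2 (p2 S o x.1, ())) = fun x =>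
            lv ((l.filter fun s => s.1 = j).map fun s => vec (s.1, (), s.2 • fun _ : Unit => 1))
              g2 (p2 S o x.1, ()) * g1 (p1 S o x.1, x.2) := by
          ext x
          rw [pull hC (p1 S o) _ (fun v hv => by
            obtain ⟨s, -, rfl⟩ := Multiset.mem_map.1 hv
            exact (eq_vec o s.1 s.2).2.1) (fun a b => g1 (a, b)), mul_comm,
            lv_map0 hC (p2 S o) (fun _ => ()), Multiset.map_map]
          exact congrArg (· * _) (lv_congr (fun s _ => (eq_vec o s.1 s.2).2.2) _ _)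
        rw [e1, pull hC (p2 S o) _ (fun v hv => by
            obtain ⟨s, hs, rfl⟩ := Multiset.mem_map.1 hv
            exact (ne_vec (hL s (Multiset.mem_of_mem_filter hs))).2.2)
          (fun a _ => lv _ g2 (a, ())), mul_comm]
        congr 1
        refine (lv_map0 hC (p1 S o) id _ g1 ω).trans ?_
        rw [Multiset.map_map]
        exact lv_congr (fun s hs => (ne_vec (hL s (Multiset.mem_of_mem_filter hs))).2.1) _ _)
    (Z1 g o) (ZZ fun _ : Unit => g o)
  have hz : (fun x : Om O S => ZZ g (p0 S o x.1, x.2)) = fun x =>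
      Z1 g o (p1 S o x.1, x.2) + ZZ (fun _ : Unit => g o) (p2 S o x.1, ()) := by
    ext x
    rw [ZZ, ← sum_erase_add _ _ (mem_univ o)]
    congr 1
    · exact sum_congr rfl fun a ha => by simp [p0, p1, ne_of_mem_erase ha]
    · simp [ZZ, p0, p2]
  rw [hz] at h1
  refine ⟨?_, fun u w d hd => ?_⟩
  · have e1 := h1.1 (n + 1) le_rfl (0, default)
    have e2 := h2.1 (n + 1) le_rfl (0, default)
    simp only [map_zero] at e1 e2
    exact e1.symm.trans e2
  · have e1 := h1.2.2 (d + 1) (by omega) (fun ω ω' => ob u o w ω * ob u o w ω') (0, default)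
    have e2 := h2.2.2 (d + 1) (by omega) (fun ω ω' => w ω.2 * w ω'.2)
      (fun ω ω' => u (ω.1 () ()) * u (ω'.1 () ())) (0, default)
    simp only [map_zero] at e1 e2
    refine e1.symm.trans (Eq.trans ?_ e2)
    congr 1
    ext x x'
    simp only [ob, p0, p2, AddMonoidHom.coe_mk, ZeroHom.coe_mk, Function.update_self]
    ring

end P1

theorem p1Stmt (hA : AApi) (hC : CApi) : P1Stmt := by
  intro O S _ _ _ _ n g L o l hn hL
  obtain ⟨h1, h2⟩ := P1.dec hA hC n g L o l hn hL
  obtain ⟨h3, h4⟩ := P1.dec hA hC n g L o 0 hn hL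
  have e0 : L + lift o (fun _ => 1) 0 = L := add_zero L
  rw [e0] at h3 h4
  refine ⟨?_, fun u w d hd => ?_⟩
  · have e1 : HD n (g o) 0 = g o 0 := (hC.tt0 n (fun _ : Unit => g o) hn).trans (by simp)
    rw [h1, h3, e1]
    ring
  · have e1 : WD n (g o) (fun _ => 1) 0 d = 1 * 1 :=
      hA.e2const (hC.ok n _ hn) _ (d + 1) (by omega) _ _
    have e2 := h4 (fun _ => 1) w d hd
    simp only [e1, ob, one_mul, mul_one] at e2
    rw [h2 u w d hd, e2, mul_comm]

end Vale.Agent.P157
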