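import Vale.Agent.P157.Stm

namespace Vale.Agent.P157

open Finset Real

set_option linter.unusedSectionVars false

namespace P2

/-- product of two operators -/
def tens {Ω1 Ω2 : Type} (P1 : Op Ω1) (P2 : Op Ω2) : Op (Ω1 × Ω2) where
  toFun g := fun ω => P1 (fun x => P2 (fun y => g (x, y)) ω.2) ω.1
  map_add' g h := by
    ext ω
    have : (fun x => P2 (fun y => (g + h) (x, y)) ω.2) =
        (fun x => P2 (fun y => g (x, y)) ω.2) + (fun x => P2 (fun y => h (x, y)) ω.2) := by
      ext x
      have : (fun y => (g + h) (x, y)) = (fun y => g (x, y)) + (fun y => h (x, y)) := rfl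
      rw [this, map_add]; rfl
    rw [this, map_add]; rfl
  map_smul' c g := by
    ext ω
    have : (fun x => P2 (fun y => (c • g) (x, y)) ω.2) =
        c • (fun x => P2 (fun y => g (x, y)) ω.2) := by
      ext x
      have : (fun y => (c • g) (x, y)) = c • (fun y => g (x, y)) := rfl
      rw [this, map_smul]; rfl
    rw [this, map_smul]; rfl

theorem tens_mul {Ω1 Ω2 : Type} (P1 : Op Ω1) (P2 : Op Ω2) (g1 : Ω1 → ℝ) (g2 : Ω2 → ℝ)
    (ω : Ω1 × Ω2) : tens P1 P2 (fun x => g1 x.1 * g2 x.2) ω = P1 g1 ω.1 * P2 g2 ω.2 := by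
  show P1 (fun x => P2 (fun y => g1 x * g2 y) ω.2) ω.1 = _
  have : (fun x => P2 (fun y => g1 x * g2 y) ω.2) = P2 g2 ω.2 • g1 := by
    ext x
    have : (fun y => g1 x * g2 y) = g1 x • g2 := rfl
    rw [this, map_smul]
    simp [mul_comm]
  rw [this, map_smul]
  simp [mul_comm]

variable {I ι : Type} [Fintype I] [DecidableEq I] [Fintype ι] [DecidableEq ι]

/-- forget the dependence on the spin `i` -/
def f1 (ι : Type) (i : I) : (Option ι → (I → Bool) → ℝ) →+ (Option ι → (I → Bool) → ℝ) where
  toFun x := fun o s => x o (Function.update s i true)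
  map_zero' := rfl
  map_add' _ _ := rfl

/-- the field of the spin `i` -/
noncomputable def f2 (ι : Type) [DecidableEq ι] (i : I) :
    (Unit → Bool → ℝ) →+ (Option ι → (I → Bool) → ℝ) where
  toFun t := Pi.single none (fun s => t () (s i))
  map_zero' := Pi.single_zero _
  map_add' a b := by
    rw [← Pi.single_add]; rfl

noncomputable def Th (ι : Type) [DecidableEq ι] (i : I)
    (ω : Om (Option ι) (I → Bool) × Om Unit Bool) : Om (Option ι) (I → Bool) :=
  (f1 ι i ω.1.1 + f2 ι i ω.2.1, Function.update ω.1.2 i ω.2.2)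

def t1 (ι : Type) (i : I) (ω : Om (Option ι) (I → Bool)) : Om (Option ι) (I → Bool) :=
  (f1 ι i ω.1, ω.2)

theorem map1 {i : I} {L : Sy ι I} (h : Ind i L) (d : ℕ) :
    ((L.filter (fun s => s.1 = d)).map vec).map (f1 ι i) = (L.filter (fun s => s.1 = d)).map vec := by
  rw [Multiset.map_map]
  refine Multiset.map_congr rfl fun s hs => ?_
  have hs' := h s (Multiset.mem_of_mem_filter hs)
  ext o σ
  show vec s o (Function.update σ i true) = vec s o σ
  unfold vec
  by_cases ho : o = s.2.1
  · subst ho; simp only [Pi.single_eq_same]; exact hs' σ true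
  · simp only [Pi.single_eq_of_ne ho]; rfl

theorem map2 (i : I) (l : Multiset (ℕ × ℝ)) (d : ℕ) :
    (((lift () spin l).filter (fun s => s.1 = d)).map vec).map (f2 ι i) =
      ((lift (none : Option ι) (sp i) l).filter (fun s => s.1 = d)).map vec := by
  unfold lift
  rw [Multiset.filter_map, Multiset.filter_map, Multiset.map_map, Multiset.map_map,
    Multiset.map_map]
  refine Multiset.map_congr rfl fun s _ => ?_
  show (Pi.single none (fun σ : I → Bool => vec (s.1, (), s.2 • spin) () (σ i)) :
      Option ι → (I → Bool) → ℝ) = Pi.single none (s.2 • sp i)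
  congr 1

/-- flip of one spin -/
def flp (i : I) : (I → Bool) ≃ (I → Bool) :=
  Function.Involutive.toPerm (fun e => Function.update e i (!(e i))) (by
    intro e; ext j
    by_cases h : j = i
    · subst h; simp
    · simp [Function.update_of_ne h])

theorem sum_upd (i : I) (F : (I → Bool) → ℝ) :
    ∑ s : I → Bool, (∑ b : Bool, F (Function.update s i b)) / (Fintype.card Bool : ℝ) = ∑ s, F s := by
  have h1 : ∀ s : I → Bool, (∑ b : Bool, F (Function.update s i b)) / (Fintype.card Bool : ℝ) =
      (F s + F (flp i s)) / 2 := by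
    intro s
    have h2 : flp i s = Function.update s i (!(s i)) := rfl
    rw [h2, Fintype.sum_bool, Fintype.card_bool]
    have h3 : Function.update s i (s i) = s := Function.update_eq_self i s
    cases h : s i
    · rw [h] at h3; rw [h3, add_comm]; simp
    · rw [h] at h3; rw [h3]; simp
  rw [sum_congr rfl (fun s _ => h1 s), ← sum_div, sum_add_distrib, Equiv.sum_comp (flp i) F]
  ring

theorem stepA (hC : CApi) {i : I} {L : Sy ι I} (h : Ind i L) (l : Multiset (ℕ × ℝ)) (j : ℕ)
    (g : Om (Option ι) (I → Bool) → ℝ) (ω : Om (Option ι) (I → Bool) × Om Unit Bool) :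
    tens (chain L j) (chain (lift () spin l) j) (fun x => g (Th ι i x)) ω =
      chain (L + lift none (sp i) l) j g (Th ι i ω) := by
  cases j with
  | zero =>
    show (∑ s : I → Bool, (∑ b : Bool, g (f1 ι i ω.1.1 + f2 ι i ω.2.1, Function.update s i b)) /
      (Fintype.card Bool : ℝ)) / _ = (∑ s, g (f1 ι i ω.1.1 + f2 ι i ω.2.1, s)) / _
    rw [sum_upd i (fun s => g (f1 ι i ω.1.1 + f2 ι i ω.2.1, s))]
  | succ d =>
    show lv _ (fun x : Om (Option ι) (I → Bool) => lv _ (fun y : Om Unit Bool =>
        g (f1 ι i x.1 + f2 ι i y.1, Function.update x.2 i y.2)) ω.2) ω.1 =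
      lv (((L + lift none (sp i) l : Sy ι I).filter (fun s => s.1 = d)).map vec) g
        (f1 ι i ω.1.1 + f2 ι i ω.2.1, Function.update ω.1.2 i ω.2.2)
    rw [Multiset.filter_add, Multiset.map_add, hC.lv_add, LinearMap.comp_apply, ← map2]
    have h0 := fun G => hC.lv_map (f1 ι i) (f2 ι i ω.2.1)
      (fun s : I → Bool => Function.update s i ω.2.2) ((L.filter (fun s => s.1 = d)).map vec) G ω.1
    rw [map1 h d] at h0
    rw [← h0]
    refine congrFun (congrArg _ ?_) _
    ext x
    have := hC.lv_map (f2 ι i) (f1 ι i x.1) (fun b : Bool => Function.update x.2 i b)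
      (((lift () spin l).filter (fun s => s.1 = d)).map vec) g ω.2
    simp only [add_comm (f2 ι i _) (f1 ι i x.1)] at this
    exact this

theorem stepB (hC : CApi) {i : I} {L : Sy ι I} (h : Ind i L) (j : ℕ)
    (g : Om (Option ι) (I → Bool) → ℝ) (ω : Om (Option ι) (I → Bool)) :
    chain L j (fun x => g (t1 ι i x)) ω = chain L j g (t1 ι i ω) := by
  cases j with
  | zero => rfl
  | succ d =>
    have := hC.lv_map (f1 ι i) 0 (fun s : I → Bool => s)
      ((L.filter (fun s => s.1 = d)).map vec) g ω
    simp only [add_zero] at this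
    rw [map1 h d] at this
    exact this

theorem term (f : ℝ → ℝ) (i : I) :
    (fun x : Om (Option ι) (I → Bool) × Om Unit Bool => ZZ (gg ι f) (Th ι i x)) =
      fun x => ZZ (gg ι f) (t1 ι i x.1) + ZZ (fun _ : Unit => id) x.2 := by
  ext ω
  unfold ZZ
  rw [Fintype.sum_option, Fintype.sum_option, Fintype.sum_unique (M := ℝ) (ι := Unit)]
  have h1 : ∀ a : ι, f2 ι i ω.2.1 (some a) = 0 := fun a =>
    Pi.single_eq_of_ne (M := fun _ : Option ι => (I → Bool) → ℝ) (Option.some_ne_none a)
      (fun s => ω.2.1 () (s i))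
  have h2 : f2 ι i ω.2.1 none = fun s => ω.2.1 () (s i) :=
    Pi.single_eq_same (M := fun _ : Option ι => (I → Bool) → ℝ) none (fun s => ω.2.1 () (s i))
  have h3 : ∀ o, f1 ι i ω.1.1 o (Function.update ω.1.2 i ω.2.2) = f1 ι i ω.1.1 o ω.1.2 := by
    intro o
    show ω.1.1 o (Function.update (Function.update ω.1.2 i ω.2.2) i true) =
      ω.1.1 o (Function.update ω.1.2 i true)
    rw [Function.update_idem]
  simp only [Th, t1, gg, Option.elim, id, Pi.add_apply, h1, h2, h3, Pi.zero_apply, add_zero,
    Function.update_self]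
  ring

theorem top (i : I) : Th ι i ((0, default), (0, default)) = (0, default) := by
  unfold Th
  simp only [map_zero, add_zero]
  congr 1
  exact Function.update_eq_self i _

theorem top1 (i : I) : t1 ι i (0, default) = (0, default) := rfl

end P2

theorem p2Stmt (hA : AApi) (hC : CApi) : P2Stmt := by
  intro I ι _ _ _ _ n f L i l hn hI
  have h1 := hA.tw (P' := fun j => P2.tens (chain L j) (chain (lift () spin l) j)) (ex n) (n + 1)
    (fun _ => P2.Th ι i) (fun j _ g ω => P2.stepA hC hI l j g ω) (ZZ (gg ι f))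
  have h2 := hA.tw (ex n) (n + 1) (fun _ => P2.t1 ι i) (fun j _ g ω => P2.stepB hC hI j g ω)
    (ZZ (gg ι f))
  have o2 := hC.ok n (lift () spin l) hn
  have h3 := hA.prod (P := fun j => P2.tens (chain L j) (chain (lift () spin l) j))
    (hC.ok n L hn) o2 Prod.fst Prod.snd (fun j _ g1 g2 ω => P2.tens_mul _ _ g1 g2 ω)
    (fun x => ZZ (gg ι f) (P2.t1 ι i x)) (ZZ (fun _ : Unit => id))
  rw [P2.term] at h1
  refine ⟨?_, fun χ d hd hχ => ?_⟩
  · have a1 := h1.1 (n + 1) le_rfl ((0, default), (0, default))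
    have a2 := h2.1 (n + 1) le_rfl (0, default)
    have a3 := h3.1 (n + 1) le_rfl ((0, default), (0, default))
    rw [P2.top] at a1
    rw [P2.top1] at a2
    unfold TT PD TT
    rw [← a1, a3, a2]
  · have a1 := h1.2.2 (d + 1) (by omega) (fun ω ω' => χ ω.2 ω'.2) ((0, default), (0, default))
    have a2 := h2.2.2 (d + 1) (by omega) (fun ω ω' => χ ω.2 ω'.2) (0, default)
    have a3 := h3.2.2 (d + 1) (by omega) (fun ω ω' => χ ω.2 ω'.2) (fun _ _ => 1)
      ((0, default), (0, default))
    rw [P2.top] at a1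
    rw [P2.top1] at a2
    rw [hA.e2const o2 _ _ (by omega), mul_one] at a3
    unfold EE
    rw [← a1, ← a2]
    refine Eq.trans ?_ a3
    congr 1
    ext x x'
    rw [mul_one]
    exact hχ _ _ _ _

end Vale.Agent.P157
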