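import Vale.Agent.P157.C

namespace Vale.Agent.P157

open Finset Real

set_option linter.unusedSectionVars false
set_option linter.unusedVariables false

namespace Pat

theorem lv_zeros {E S : Type} [AddCommGroup E] (l : Multiset E) (h : ∀ v ∈ l, v = 0) :
    (lv l : Op (E × S)) = LinearMap.id := by
  induction l using Multiset.induction_on with
  | empty => rfl
  | cons v l ih =>
    rw [Cc.lv_cons, ih (fun w hw => h w (Multiset.mem_cons_of_mem hw)),
      h v (Multiset.mem_cons_self _ _)]
    ext g ω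
    simp [Cc.sgo_apply]

variable {O S : Type} [Fintype O] [DecidableEq O] [Fintype S] [Inhabited S]

def kill (S : Type) (o : O) : (O → S → ℝ) →+ (O → S → ℝ) where
  toFun x := Function.update x o 0
  map_zero' := by simp
  map_add' x y := by
    ext o' σ
    by_cases h : o' = o
    · subst h; simp
    · simp [Function.update_of_ne h]

def th (o : O) (ω : Om O S) : Om O S := (kill S o ω.1, ω.2)

noncomputable def pc (o : O) (L : Multiset (St O S)) : ℕ → Op (Om O S)
  | 0 => res
  | d + 1 => lv (((L.filter (fun s => s.1 = d)).map vec).map (kill S o))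

theorem tw1 (o : O) (L : Multiset (St O S)) (j : ℕ) (g : Om O S → ℝ) (ω : Om O S) :
    chain L j (fun x => g (th o x)) ω = pc o L j g (th o ω) := by
  cases j with
  | zero => rfl
  | succ j =>
    have := Cc.lv_map (kill S o) 0 id ((L.filter (fun s => s.1 = j)).map vec) g ω
    simp only [add_zero, id] at this
    exact this

theorem pc_add (o : O) (L L' : Multiset (St O S)) (h : ∀ s ∈ L', s.2.1 = o) :
    pc o (L + L') = pc o L := by
  funext j
  cases j with
  | zero => rfl
  | succ j =>
    show lv _ = lv _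
    rw [Multiset.filter_add, Multiset.map_add, Multiset.map_add, Cc.lv_add,
      lv_zeros (((L'.filter (fun s => s.1 = j)).map vec).map (kill S o))]
    · rfl
    · intro v hv
      simp only [Multiset.mem_map, Multiset.mem_filter] at hv
      obtain ⟨_, ⟨s, ⟨hs, -⟩, rfl⟩, rfl⟩ := hv
      show Function.update (vec s) o 0 = 0
      rw [← h s hs]
      ext o' σ
      by_cases h' : o' = s.2.1
      · subst h'; simp
      · simp [vec, Function.update_of_ne h', Pi.single_eq_of_ne h']

theorem zz_th (g : O → ℝ → ℝ) (o : O) :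
    (fun x : Om O S => ZZ (Function.update g o (fun _ => 0)) (th o x)) =
      ZZ (Function.update g o (fun _ => 0)) := by
  funext x
  refine sum_congr rfl fun o' _ => ?_
  by_cases h : o' = o
  · subst h; simp
  · show _ = _
    simp only [th, kill, AddMonoidHom.coe_mk, ZeroHom.coe_mk, Function.update_of_ne h]

theorem zz_split (g : O → ℝ → ℝ) (o : O) :
    (ZZ g : Om O S → ℝ) = ZZ (Function.update g o (fun _ => 0)) + fun ω => g o (ω.1 o ω.2) := by
  funext ω
  simp only [Pi.add_apply, ZZ]
  rw [← add_sum_erase _ _ (mem_univ o), ← add_sum_erase _ _ (mem_univ o)]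
  have : ∑ x ∈ univ.erase o, Function.update g o (fun _ => 0) x (ω.1 x ω.2) =
      ∑ x ∈ univ.erase o, g x (ω.1 x ω.2) :=
    sum_congr rfl fun x hx => by rw [Function.update_of_ne (ne_of_mem_erase hx)]
  rw [this]
  simp only [Function.update_self]
  ring

theorem zz_split' (g : O → ℝ → ℝ) (o : O) :
    (ZZ (Function.update g o (fun _ => 0)) : Om O S → ℝ) = ZZ g + fun ω => -g o (ω.1 o ω.2) := by
  rw [zz_split g o]
  funext ω
  simp

theorem th0 (o : O) : th o ((0, default) : Om O S) = (0, default) := by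
  simp [th]

theorem tt_eq (n : ℕ) (g : O → ℝ → ℝ) (o : O) (L : Multiset (St O S)) :
    TT n (Function.update g o (fun _ => 0)) L =
      XX (pc o L) (ex n) (ZZ (Function.update g o (fun _ => 0))) (n + 1) (0, default) := by
  have := Aa.twX (P := pc o L) (P' := chain L) (ex n) (n + 1) (fun _ => th o)
    (fun j _ g ω => tw1 o L j g ω) (ZZ (Function.update g o (fun _ => 0))) (n + 1) le_rfl
    (0, default)
  rw [zz_th, th0] at this
  exact this

theorem ee_eq (n : ℕ) (g : O → ℝ → ℝ) (o : O) (L : Multiset (St O S)) (χ : S → S → ℝ) (d : ℕ)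
    (hd : d ≤ n) :
    EE n (Function.update g o (fun _ => 0)) L d (fun ω ω' => χ ω.2 ω'.2) =
      E2 (pc o L) (ex n) (ZZ (Function.update g o (fun _ => 0))) (d + 1) (n + 1)
        (fun ω ω' => χ ω.2 ω'.2) (0, default) := by
  have := (aApi.tw (P := pc o L) (P' := chain L) (ex n) (n + 1) (fun _ => th o)
    (fun j _ g ω => tw1 o L j g ω) (ZZ (Function.update g o (fun _ => 0)))).2.2 (d + 1) (by omega)
    (fun ω ω' => χ ω.2 ω'.2) (0, default)
  rw [zz_th, th0] at this
  exact this

theorem tt_bd (n : ℕ) (g : O → ℝ → ℝ) (o : O) (B : ℝ) (L : Multiset (St O S)) (hn : 1 ≤ n)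
    (hg : ∀ t, |g o t| ≤ B) : |TT n g L - TT n (Function.update g o (fun _ => 0)) L| ≤ B := by
  have hk := Cc.ok n L hn
  have h1 := Aa.xle hk (Z := ZZ g) (Z' := ZZ (Function.update g o (fun _ => 0))) (c := B)
    (fun ω => by
      rw [zz_split g o]; have := (abs_le.1 (hg (ω.1 o ω.2))).2
      simp only [Pi.add_apply]; linarith) (n + 1) le_rfl (0, default)
  have h2 := Aa.xle hk (Z' := ZZ g) (Z := ZZ (Function.update g o (fun _ => 0))) (c := B)
    (fun ω => by
      rw [zz_split' g o]; have := (abs_le.1 (hg (ω.1 o ω.2))).1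
      simp only [Pi.add_apply]; linarith) (n + 1) le_rfl (0, default)
  unfold TT
  rw [abs_le]; constructor <;> linarith

theorem ee_bd (n : ℕ) (g : O → ℝ → ℝ) (o : O) (B : ℝ) (L : Multiset (St O S)) (hn : 1 ≤ n)
    (hg : ∀ t, |g o t| ≤ B) (d : ℕ) (hd : d ≤ n) (φ : Om O S → Om O S → ℝ)
    (hφ : ∀ ω ω', 0 ≤ φ ω ω') :
    EE n g L d φ ≤ exp (6 * B) * EE n (Function.update g o (fun _ => 0)) L d φ ∧
      EE n (Function.update g o (fun _ => 0)) L d φ ≤ exp (6 * B) * EE n g L d φ := by
  have hk := Cc.ok n L hn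
  constructor
  · have := Aa.chg2 hk (ZZ (Function.update g o (fun _ => 0))) (fun ω => g o (ω.1 o ω.2)) B
      (fun ω => hg _) (d + 1) (by omega) φ hφ (0, default)
    rw [← zz_split g o] at this
    exact this
  · have := Aa.chg2 hk (ZZ g) (fun ω => -g o (ω.1 o ω.2)) B
      (fun ω => by rw [abs_neg]; exact hg _) (d + 1) (by omega) φ hφ (0, default)
    rw [← zz_split' g o] at this
    exact this

end Pat

theorem patStmt (hA : AApi) (hC : CApi) : PatStmt := by
  intro O S _ _ _ _ n g L L' o B hn hg hL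
  constructor
  · have h1 := abs_le.1 (Pat.tt_bd n g o B L hn hg)
    have h2 := abs_le.1 (Pat.tt_bd n g o B (L + L') hn hg)
    rw [Pat.tt_eq, Pat.pc_add o L L' hL, ← Pat.tt_eq] at h2
    rw [abs_le]; constructor <;> linarith
  · intro χ d hd hχ
    obtain ⟨h1, h2⟩ := Pat.ee_bd n g o B L hn hg d hd (fun ω ω' => χ ω.2 ω'.2) (fun _ _ => hχ _ _)
    obtain ⟨h3, h4⟩ := Pat.ee_bd n g o B (L + L') hn hg d hd (fun ω ω' => χ ω.2 ω'.2)
      (fun _ _ => hχ _ _)
    rw [Pat.ee_eq _ _ _ _ _ _ hd, Pat.pc_add o L L' hL, ← Pat.ee_eq _ _ _ _ _ _ hd] at h3 h4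
    have e : exp (12 * B) = exp (6 * B) * exp (6 * B) := by rw [← exp_add]; congr 1; ring
    have p := (exp_pos (6 * B)).le
    rw [e, mul_assoc, mul_assoc]
    exact ⟨h3.trans (mul_le_mul_of_nonneg_left h2 p), h1.trans (mul_le_mul_of_nonneg_left h4 p)⟩

end Vale.Agent.P157
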