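import Vale.Agent.P157.Stm

namespace Vale.Agent.P157

open MeasureTheory ProbabilityTheory Finset Real Filter

set_option linter.unusedSectionVars false

namespace Pc

variable {I ι : Type} [Fintype I] [DecidableEq I] [Fintype ι] [DecidableEq ι]

/-- concentration survives arbitrary steps on one pattern -/
theorem conc_pat (hP : PatStmt) {n : ℕ} {f : ℝ → ℝ} {B : ℝ} {L L' : Sy ι I} {A : Finset I} {a : ι}
    {P : ℕ → ℝ} {e : ℝ} (hn : 1 ≤ n) (hf : ∀ t, |f t| ≤ B) (hL' : ∀ s ∈ L', s.2.1 = some a)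
    (hc : Conc n f L A P e) : Conc n f (L + L') A P (exp (12 * B) * e) := by
  have h := (hP (Option ι) (I → Bool) n (gg ι f) L L' (some a) B hn hf hL').2
  unfold Conc at hc ⊢
  refine le_trans ?_ (mul_le_mul_of_nonneg_left hc (exp_pos _).le)
  rw [mul_left_comm]
  refine mul_le_mul_of_nonneg_left ?_ (by positivity)
  rw [mul_sum]
  refine sum_le_sum fun d hd => ?_
  exact (h (fun σ σ' => (Rr A σ σ' - P d) ^ 2) d (mem_Ico.1 hd).2.le fun _ _ => sq_nonneg _).1

theorem fk_mem {a : ι} {l : Multiset (ℕ × ℝ)} : ∀ s ∈ fk I a l, s.2.1 = some a := by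
  intro s hs
  obtain ⟨x, -, rfl⟩ := Multiset.mem_map.1 hs
  rfl

theorem gam_diff (hG : GApi) {B : ℝ} {n : ℕ} {f f1 f2 : ℝ → ℝ} {L : Sy ι I} {A : Finset I}
    (a : ι) {P : ℕ → ℝ} {e : ℝ} (c : ℝ) (hn : 1 ≤ n) (hs : Sm B f f1 f2) (hA : A.Nonempty)
    (hp : Path n P) (h0 : P 0 = 1) (hc : Conc n f L A P e) :
    |((round (some a) A (n - 1) c).map (Gam n (gg ι f) (gg1 ι f1) (gg2 ι f2) L)).sum -
      ((fk I a (sprof n P (A.card * c ^ 2))).map
        (Gam n (gg ι f) (gg1 ι f1) (gg2 ι f2) L)).sum| ≤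
      (A.card * c ^ 2) * (B ^ 2 * √e) := by
  have hv : (0 : ℝ) ≤ A.card * c ^ 2 := by positivity
  have hB : 0 ≤ B := (abs_nonneg _).trans (hs.b1 0)
  rw [hG.gam_round n _ _ _ L (some a) A c hn hA]
  unfold fk
  rw [hG.gam_prof n _ _ _ L (some a) (fun _ => 1) P _ hn hp hv (by simp), h0]
  have key := hG.conc_abs n f L A P e (B ^ 2)
    (fun _ ω ω' => f1 (ω.1 (some a) ω.2) * f1 (ω'.1 (some a) ω'.2)) hn hc (fun _ ω ω' => by
      rw [abs_mul, sq]
      exact mul_le_mul (hs.b1 _) (hs.b1 _) (abs_nonneg _) hB)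
  have e1 : (fun ω ω' : Om (Option ι) (I → Bool) =>
      ob (gg1 ι f1 (some a)) (some a) (fun _ => 1) ω *
        ob (gg1 ι f1 (some a)) (some a) (fun _ => 1) ω') =
      fun ω ω' => f1 (ω.1 (some a) ω.2) * f1 (ω'.1 (some a) ω'.2) := by
    ext ω ω'; simp [ob, gg1]
  have e2 : (fun ω ω' : Om (Option ι) (I → Bool) =>
      gg1 ι f1 (some a) (ω.1 (some a) ω.2) * gg1 ι f1 (some a) (ω'.1 (some a) ω'.2) *
        Rr A ω.2 ω'.2) =
      fun ω ω' => f1 (ω.1 (some a) ω.2) * f1 (ω'.1 (some a) ω'.2) * Rr A ω.2 ω'.2 := rfl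
  rw [e1, e2]
  set x : ℕ → ℝ := fun d => EE n (gg ι f) L d
    (fun ω ω' => f1 (ω.1 (some a) ω.2) * f1 (ω'.1 (some a) ω'.2) * Rr A ω.2 ω'.2) with hx
  set y : ℕ → ℝ := fun d => P d * EE n (gg ι f) L d
    (fun ω ω' => f1 (ω.1 (some a) ω.2) * f1 (ω'.1 (some a) ω'.2)) with hy
  have h1 : |(1 / (n : ℝ)) * ∑ d ∈ Ico 1 n, x d - (1 / (n : ℝ)) * ∑ d ∈ Ico 1 n, y d| ≤
      B ^ 2 * √e := by
    rw [← mul_sub, ← sum_sub_distrib, abs_mul, abs_of_nonneg (by positivity : 0 ≤ 1 / (n : ℝ))]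
    exact le_trans (mul_le_mul_of_nonneg_left (abs_sum_le_sum_abs _ _) (by positivity)) key
  have h2 : 0 ≤ B ^ 2 * √e := by positivity
  generalize (1 / (n : ℝ)) * ∑ d ∈ Ico 1 n, x d = X at h1 ⊢
  generalize (1 / (n : ℝ)) * ∑ d ∈ Ico 1 n, y d = Y at h1 ⊢
  generalize E1 n (gg ι f) L _ = E
  generalize (A.card : ℝ) * c ^ 2 = v at hv ⊢
  rw [show v * (E - X) / 2 - v * (1 * E - Y) / 2 = v * (-(X - Y) / 2) by ring, abs_mul,
    abs_of_nonneg hv, abs_div, abs_neg, abs_two]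
  exact mul_le_mul_of_nonneg_left (by linarith) hv

end Pc

theorem pcStmt (hG : GApi) (hC : CApi) (hM : MsStmt) (hP : PatStmt) : PcStmt := by
  intro B hB
  obtain ⟨C, hC0, hM⟩ := hM B hB
  refine ⟨2 * C + B ^ 2 * √(exp (12 * B)), by positivity, ?_⟩
  intro I ι _ _ _ _ n f f1 f2 L A a P e c D hn hs hf hA hp h0 hv1 hc
  set v : ℝ := A.card * c ^ 2 with hv
  have hv0 : 0 ≤ v := by positivity
  have hB2 : 1 ≤ B ^ 2 := one_le_pow₀ hB
  have hv2 : v ≤ 1 := by nlinarith
  have hcard : (1 : ℝ) ≤ A.card := by exact_mod_cast hA.card_pos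
  have hBc : B * |c| ≤ 1 := by
    have : (B * |c|) ^ 2 ≤ 1 := by
      rw [mul_pow, sq_abs]
      refine le_trans (mul_le_mul_of_nonneg_left ?_ (by positivity)) hv1
      exact le_mul_of_one_le_left (sq_nonneg c) hcard
    exact (sq_le_one_iff₀ (by positivity)).1 this
  have hr := hG.round_vr n B (some a) A (n - 1) c
  have hsp := hG.sprof_var n P v hp hv0
  rw [h0, mul_one] at hsp
  have hfv : vr (fk I a (sprof n P v)) = v :=
    (hG.lift_vr (some a) (fun _ : I → Bool => (1 : ℝ)) _ (by simp)).1.trans hsp.1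
  have hfs : Small n B (fk I a (sprof n P v)) := by
    refine hG.lift_small n B (some a) (fun _ : I → Bool => (1 : ℝ)) _ (by simp) fun s hs' => ?_
    refine ⟨(hsp.2.2 s hs').1, ?_⟩
    have h1 : (B * √v) ^ 2 ≤ 1 := by rw [mul_pow, sq_sqrt hv0]; exact hv1
    have h2 : B * √v ≤ 1 := (sq_le_one_iff₀ (by positivity)).1 h1
    exact le_trans (mul_le_mul_of_nonneg_left (hsp.2.2 s hs').2 (by linarith)) h2
  have one : ∀ L' : Sy ι I, (∀ s ∈ L', s.2.1 = some a) →
      |TT n (gg ι f) (L + L' + round (some a) A (n - 1) c) -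
        TT n (gg ι f) (L + L' + fk I a (sprof n P v))| ≤
        (2 * C + B ^ 2 * √(exp (12 * B))) * v * (√e + √v) := by
    intro L' hL'
    have hsm := hC.smg ι B f f1 f2 hB hs
    have h1 := (hM _ _ n _ _ _ (L + L') _ hn hsm (hr.2.1 (by omega) hBc)).2 (hr.1.le.trans hv2)
    have h2 := (hM _ _ n _ _ _ (L + L') _ hn hsm hfs).2 (hfv.le.trans hv2)
    have h3 := Pc.gam_diff hG a c hn hs hA hp h0 (Pc.conc_pat hP hn hf hL' hc)
    rw [hr.1] at h1
    rw [hfv] at h2
    rw [sqrt_mul (exp_pos _).le] at h3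
    rw [← hv] at h1 h3
    have h4 : 0 ≤ C * v * √e := by positivity
    have h5 : 0 ≤ B ^ 2 * √(exp (12 * B)) * v * √v := by positivity
    rw [abs_le] at h1 h2 h3 ⊢
    constructor <;> nlinarith [h1.1, h1.2, h2.1, h2.2, h3.1, h3.2]
  have main : ∀ (D : ℕ) (L' : Sy ι I), (∀ s ∈ L', s.2.1 = some a) →
      |TT n (gg ι f) (L + L' + D • round (some a) A (n - 1) c) -
        TT n (gg ι f) (L + L' + D • fk I a (sprof n P v))| ≤
        (2 * C + B ^ 2 * √(exp (12 * B))) * (D * v) * (√e + √v) := by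
    intro D
    induction D with
    | zero => intro L' _; simp
    | succ D ih =>
      intro L' hL'
      have h1 := ih (L' + round (some a) A (n - 1) c) fun s hs => by
        rcases Multiset.mem_add.1 hs with hs | hs
        · exact hL' s hs
        · exact hr.2.2 s hs
      have h2 := one (L' + D • fk I a (sprof n P v)) fun s hs => by
        rcases Multiset.mem_add.1 hs with hs | hs
        · exact hL' s hs
        · exact Pc.fk_mem s (Multiset.mem_of_mem_nsmul hs)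
      have e1 : L + L' + (D + 1) • round (some a) A (n - 1) c =
          L + (L' + round (some a) A (n - 1) c) + D • round (some a) A (n - 1) c := by
        rw [succ_nsmul]; abel
      have e2 : L + L' + (D + 1) • fk I a (sprof n P v) =
          L + (L' + D • fk I a (sprof n P v)) + fk I a (sprof n P v) := by
        rw [succ_nsmul]; abel
      have e3 : L + (L' + round (some a) A (n - 1) c) + D • fk I a (sprof n P v) =
          L + (L' + D • fk I a (sprof n P v)) + round (some a) A (n - 1) c := by abel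
      rw [e3] at h1
      rw [e1, e2]
      refine le_trans (abs_sub_le _ _ _) (le_trans (add_le_add h1 h2) (le_of_eq ?_))
      push_cast; ring
  simpa using main D 0 (by simp)

end Vale.Agent.P157
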