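import Vale.Agent.P157.Stm

namespace Vale.Agent.P157

open Finset Real

set_option linter.unusedSectionVars false

namespace Rec

variable {I ι : Type} [Fintype I] [DecidableEq I] [Fintype ι] [DecidableEq ι]

theorem cons_apply (hC : CApi) {E S : Type} [AddCommGroup E] (v : E) (l : Multiset E)
    (g : E × S → ℝ) (ω : E × S) :
    lv (v ::ₘ l) g ω = (lv l g (ω.1 + v, ω.2) + lv l g (ω.1 - v, ω.2)) / 2 := by
  rw [hC.lv_cons]; rfl

/-- flip of one sign -/
def flp (i : I) : (I → Bool) ≃ (I → Bool) :=
  Function.Involutive.toPerm (fun e => Function.update e i (!(e i))) (by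
    intro e; ext j
    by_cases h : j = i
    · subst h; simp
    · simp [Function.update_of_ne h])

theorem lv_avg (hC : CApi) {E S : Type} [AddCommGroup E] [Module ℝ E] (v : I → E) (A : Finset I)
    (g : E × S → ℝ) (x : E) (σ : S) :
    lv (A.val.map v) g (x, σ) =
      (∑ e : I → Bool, g (x + ∑ i ∈ A, spin (e i) • v i, σ)) / (Fintype.card (I → Bool) : ℝ) := by
  have hc : (0 : ℝ) < Fintype.card (I → Bool) := by exact_mod_cast Fintype.card_pos
  induction A using Finset.induction_on generalizing x with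
  | empty =>
    simp only [Finset.empty_val, Multiset.map_zero, hC.lv_zero, LinearMap.id_coe, id, sum_empty,
      add_zero, sum_const, card_univ, nsmul_eq_mul]
    field_simp
  | insert i A hi ih =>
    rw [Finset.insert_val_of_notMem hi, Multiset.map_cons, cons_apply hC, ih, ih]
    have h2 : ∑ e : I → Bool, g (x + ∑ j ∈ insert i A, spin (e j) • v j, σ) =
        ∑ e : I → Bool, g (x + ∑ j ∈ insert i A, spin (flp i e j) • v j, σ) :=
      (Equiv.sum_comp (flp i) (fun e => g (x + ∑ j ∈ insert i A, spin (e j) • v j, σ))).symm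
    have h3 : ∀ e : I → Bool, g (x + ∑ j ∈ insert i A, spin (e j) • v j, σ) +
        g (x + ∑ j ∈ insert i A, spin (flp i e j) • v j, σ) =
        g (x + v i + ∑ j ∈ A, spin (e j) • v j, σ) + g (x - v i + ∑ j ∈ A, spin (e j) • v j, σ) := by
      intro e
      have h4 : ∑ j ∈ A, spin (flp i e j) • v j = ∑ j ∈ A, spin (e j) • v j := by
        refine sum_congr rfl fun j hj => ?_
        have : j ≠ i := fun h => hi (h ▸ hj)
        show spin (Function.update e i (!(e i)) j) • _ = _
        rw [Function.update_of_ne this]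
      have h5 : flp i e i = !(e i) := by
        show Function.update e i (!(e i)) i = _
        simp
      rw [sum_insert hi, sum_insert hi, h4, h5]
      cases e i
      · simp only [spin, Bool.not_false, Bool.false_eq_true, if_false, if_true, one_smul, neg_smul]
        rw [add_comm, ← add_assoc, ← add_assoc, ← sub_eq_add_neg]
      · simp only [spin, Bool.not_true, Bool.false_eq_true, if_false, if_true, one_smul, neg_smul]
        rw [← add_assoc, ← add_assoc, ← sub_eq_add_neg]
    have h6 := sum_congr (s₁ := (univ : Finset (I → Bool))) rfl (fun e _ => h3 e)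
    rw [sum_add_distrib, sum_add_distrib, ← h2] at h6
    simp only at h6 ⊢
    field_simp
    linarith

theorem filt_one (n d : ℕ) (hd : d < n) (y : ℕ → ℝ) (w : (I → Bool) → ℝ) :
    (lift (none : Option ι) w (ys n y)).filter (fun s => s.1 = d) = {(d, none, y d • w)} := by
  unfold lift ys
  rw [Multiset.map_map, Multiset.filter_map]
  have : Multiset.filter ((fun s : St (Option ι) (I → Bool) => s.1 = d) ∘
      ((fun s : ℕ × ℝ => ((s.1, none, s.2 • w) : St (Option ι) (I → Bool))) ∘ fun κ => (κ, y κ)))
      (range n).val = {d} := by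
    have h := Finset.filter_eq' (range n) d
    rw [if_pos (mem_range.2 hd)] at h
    have h' := congrArg Finset.val h
    rw [Finset.filter_val] at h'
    exact (Multiset.filter_congr (fun _ _ => Iff.rfl)).trans h'
  rw [this]; rfl

theorem filt (n d : ℕ) (hd : d < n) (y : ℕ → ℝ) (A : Finset I) :
    ((fld ι A (ys n y)).filter (fun s => s.1 = d)).map vec =
      A.val.map (fun i => (Pi.single none (y d • sp i) : Option ι → (I → Bool) → ℝ)) := by
  unfold fld
  induction A.val using Multiset.induction_on with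
  | empty => simp
  | cons i s ih =>
    rw [Multiset.cons_bind, Multiset.filter_add, Multiset.map_add, ih, filt_one n d hd,
      Multiset.map_cons]
    rfl

/-- recorded field of the levels in `[d, n)` -/
noncomputable def fl (n : ℕ) (A : Finset I) (y : ℕ → ℝ) (d : ℕ) (e : ℕ → I → Bool) :
    Option ι → (I → Bool) → ℝ :=
  ∑ k ∈ Ico d n, ∑ i ∈ A, spin (e k i) • (Pi.single none (y k • sp i) : Option ι → (I → Bool) → ℝ)

noncomputable def th (n : ℕ) (A : Finset I) (y : ℕ → ℝ) : ℕ → Rs ι I → Om (Option ι) (I → Bool)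
  | 0 => fun ω => (ω.1 0 + fl n A y 0 ω.2.1, ω.2.2)
  | d + 1 => fun ω => (ω.1 d + fl n A y d ω.2.1, ω.2.2)

theorem lv_sh (hC : CApi) {E S : Type} [AddCommGroup E] (l : Multiset E) (g : E × S → ℝ)
    (x x0 : E) (σ σ0 : S) :
    lv l (fun ω : E × S => g (ω.1 + x0, σ0)) (x, σ) = lv l g (x + x0, σ0) := by
  have := hC.lv_map (AddMonoidHom.id E) x0 (fun _ : S => σ0) l g (x, σ)
  simpa using this

theorem step (hC : CApi) (n : ℕ) (L : Sy ι I) (A : Finset I) (y : ℕ → ℝ) (j : ℕ) (hj : j < n + 1)
    (g : Om (Option ι) (I → Bool) → ℝ) (ω : Rs ι I) :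
    rch L j (fun x => g (th n A y j x)) ω =
      chain (L + fld ι A (ys n y)) j g (th n A y (j + 1) ω) := by
  cases j with
  | zero => rfl
  | succ d =>
    have hd : d < n := by omega
    show chain L (d + 1) (rin d ω (fun x => g (th n A y (d + 1) x))) (ω.1 (d + 1), ω.2.2) =
      lv (((L + fld ι A (ys n y)).filter (fun s => s.1 = d)).map vec) g
        (ω.1 (d + 1) + fl n A y (d + 1) ω.2.1, ω.2.2)
    rw [Multiset.filter_add, Multiset.map_add, hC.lv_add, filt n d hd, LinearMap.comp_apply,
      ← lv_sh hC _ _ _ _ ω.2.2]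
    show lv _ _ _ = _
    refine congrFun (congrArg _ ?_) _
    ext ω'
    rw [lv_avg hC]
    unfold rin
    congr 1
    refine sum_congr rfl fun e _ => ?_
    show g (Function.update ω.1 d ω'.1 d + fl n A y d (Function.update ω.2.1 d e), ω.2.2) = _
    rw [Function.update_self]
    congr 2
    unfold fl
    rw [sum_eq_sum_Ico_succ_bot hd, Function.update_self, add_assoc, add_comm (∑ k ∈ Ico (d + 1) n, _)]
    congr 2
    refine sum_congr rfl fun k hk => ?_
    have : k ≠ d := by have := (mem_Ico.1 hk).1; omega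
    rw [Function.update_of_ne this]

theorem term (n : ℕ) (f : ℝ → ℝ) (A : Finset I) (y : ℕ → ℝ) :
    (fun x : Rs ι I => ZZ (gg ι f) (th n A y 0 x)) = rZ n f A y := by
  ext ω
  unfold rZ ZZ hh
  rw [Fintype.sum_option, Fintype.sum_option]
  simp only [th, fl, gg, Option.elim, id, Pi.add_apply, Finset.sum_apply, Pi.smul_apply,
    Pi.single_eq_same, smul_eq_mul, sp, Nat.Ico_zero_eq_range, mul_sum]
  have : ∀ a : ι, ∀ k i, (Pi.single none (y k • sp i) : Option ι → (I → Bool) → ℝ) (some a) = 0 :=
    fun a k i => Pi.single_eq_of_ne (Option.some_ne_none a) _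
  simp only [this, Pi.zero_apply, mul_zero, sum_const_zero, add_zero]
  rw [add_right_comm]
  congr 1
  refine sum_congr rfl fun k _ => sum_congr rfl fun i _ => ?_
  ring

theorem top (n : ℕ) (A : Finset I) (y : ℕ → ℝ) : th n A y (n + 1) (r0 ι I) = (0, default) := by
  simp [th, fl, r0]

theorem mk (hC : CApi) (L : Sy ι I) (j : ℕ) : Mk (rch L j) := by
  have hc : (0 : ℝ) < Fintype.card (I → Bool) := by exact_mod_cast Fintype.card_pos
  cases j with
  | zero =>
    refine ⟨fun g hg ω => div_nonneg (sum_nonneg fun σ _ => hg _) hc.le, fun ω => ?_⟩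
    show (∑ _σ : I → Bool, (1 : ℝ)) / _ = 1
    rw [sum_const, card_univ, nsmul_eq_mul, mul_one, div_self hc.ne']
  | succ d =>
    refine ⟨fun g hg ω => (hC.lv_mk _).1 _ (fun ω' => ?_) _, fun ω => ?_⟩
    · exact div_nonneg (sum_nonneg fun σ _ => hg _) hc.le
    · have : rin d ω (fun _ => (1 : ℝ)) = fun _ => 1 := by
        ext ω'
        show (∑ _σ : I → Bool, (1 : ℝ)) / _ = 1
        rw [sum_const, card_univ, nsmul_eq_mul, mul_one, div_self hc.ne']
      show chain L (d + 1) (rin d ω (fun _ => (1 : ℝ))) _ = 1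
      rw [this]
      exact (hC.lv_mk _).2 _

theorem fil (hC : CApi) (L : Sy ι I) : Fil (rch L) rr := by
  refine ⟨fun d ω => ?_, fun d ω ω' h => ?_, fun d ω ω' ω'' h h' => ?_, fun ω ω' h => h,
    fun d ω ω' h => ?_, fun d u u' ω h => ?_, fun d u hu ω ω' h => ?_⟩
  · cases d with
    | zero => rfl
    | succ d => exact fun k _ => ⟨rfl, rfl⟩
  · cases d with
    | zero => exact Eq.symm h
    | succ d => exact fun k hk => ⟨(h k hk).1.symm, (h k hk).2.symm⟩
  · cases d with
    | zero => exact Eq.trans h h'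
    | succ d => exact fun k hk => ⟨(h k hk).1.trans (h' k hk).1, (h k hk).2.trans (h' k hk).2⟩
  · cases d with
    | zero => have : ω = ω' := h
              subst this
              exact fun k _ => ⟨rfl, rfl⟩
    | succ d => exact fun k hk => h k (by omega)
  · cases d with
    | zero =>
      show (∑ σ, u (ω.1, ω.2.1, σ)) / _ = (∑ σ, u' (ω.1, ω.2.1, σ)) / _
      congr 1
      exact sum_congr rfl fun σ _ => h _ (fun k _ => ⟨rfl, rfl⟩)
    | succ d =>
      have : rin d ω u = rin d ω u' := by
        ext ω'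
        unfold rin
        congr 1
        refine sum_congr rfl fun e _ => h _ (fun k hk => ?_)
        have : k ≠ d := by omega
        exact ⟨(Function.update_of_ne this _ _).symm, (Function.update_of_ne this _ _).symm⟩
      show chain L (d + 1) (rin d ω u) _ = chain L (d + 1) (rin d ω u') _
      rw [this]
  · cases d with
    | zero =>
      have h1 : ω.1 = ω'.1 := funext fun k => (h k (Nat.zero_le k)).1
      have h2 : ω.2.1 = ω'.2.1 := funext fun k => (h k (Nat.zero_le k)).2
      show (∑ σ, u (ω.1, ω.2.1, σ)) / _ = (∑ σ, u (ω'.1, ω'.2.1, σ)) / _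
      rw [h1, h2]
    | succ d =>
      have h0 : rin d ω u = fun x => rin d ω' u (x.1 + 0, ω'.2.2) := by
        ext x
        unfold rin
        congr 1
        refine sum_congr rfl fun e _ => hu _ _ (fun k hk => ?_)
        by_cases hkd : k = d
        · subst hkd; simp
        · have h1 := h k (by omega)
          simp only [Function.update_of_ne hkd]
          exact h1
      show lv _ (rin d ω u) (ω.1 (d + 1), ω.2.2) = lv _ (rin d ω' u) (ω'.1 (d + 1), ω'.2.2)
      rw [h0, lv_sh hC, add_zero, (h (d + 1) le_rfl).1]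

end Rec

theorem recStmt (hA : AApi) (hC : CApi) : RecStmt := by
  intro I ι _ _ _ _ n f L A hn
  have ho := hC.ok n L hn
  refine ⟨⟨Rec.mk hC L, ho.pos, ho.le1, ho.anti⟩, Rec.fil hC L, fun y => ?_⟩
  have h := hA.tw (ex n) (n + 1) (Rec.th n A y) (Rec.step hC n L A y) (ZZ (gg ι f))
  rw [Rec.term] at h
  refine ⟨?_, fun χ d hd => ?_⟩
  · rw [h.1 (n + 1) le_rfl, Rec.top]; rfl
  · have := h.2.2 (d + 1) (by omega) (fun ω ω' => χ ω.2 ω'.2) (r0 ι I)
    rw [Rec.top] at this
    exact this.symm

end Vale.Agent.P157
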