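import Vale.Agent.P157.Sc1

/-! P157: spin cavity, value (part 2: the chain of moves). -/

namespace Vale.Agent.P157

open Real Finset Filter Topology

noncomputable section

namespace Sc

variable {I ι : Type} [Fintype I] [DecidableEq I] [Fintype ι] [DecidableEq ι]

theorem chain_moves (Φ : Multiset ι → Multiset ι → ℝ) (T : Multiset ι) (δ e : ℝ)
    (h : ∀ a K1 K2, a ::ₘ (K1 + K2) = T → |Φ K1 (a ::ₘ K2) - Φ (a ::ₘ K1) K2 - δ| ≤ e) :
    ∀ K1 K2, K1 + K2 = T →
      |Φ 0 T - Φ K1 K2 - Multiset.card K1 * δ| ≤ Multiset.card K1 * e := by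
  intro K1
  induction K1 using Multiset.induction_on with
  | empty => intro K2 hK; rw [zero_add] at hK; subst hK; simp
  | cons a K1 ih =>
    intro K2 hK
    have h1 := h a K1 K2 (by rw [← hK, Multiset.cons_add])
    have h2 := ih (a ::ₘ K2) (by rw [← hK, Multiset.cons_add, Multiset.add_cons])
    rw [Multiset.card_cons]
    push_cast
    obtain ⟨x1, x2⟩ := abs_le.1 h1
    obtain ⟨x3, x4⟩ := abs_le.1 h2
    rw [abs_le]
    constructor <;> linarith

theorem vr_rd (hG : GApi) (n : ℕ) (A : Finset I) (c : ℝ) (a : ι) :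
    vr (rd n A c a) = A.card * c ^ 2 := (hG.round_vr n 1 (some a) A (n - 1) c).1

theorem ee_nonneg (hA : AApi) (hC : CApi) {n d : ℕ} (hn : 1 ≤ n) (hd : d ≤ n) (f : ℝ → ℝ)
    (L : Sy ι I) (φ : Om (Option ι) (I → Bool) → Om (Option ι) (I → Bool) → ℝ) :
    0 ≤ EE n (gg ι f) L d (fun ω ω' => φ ω ω' ^ 2) := by
  rw [← hA.e2const (hC.ok n L hn) (ZZ (gg ι f)) (d + 1) (by omega) 0 (0, default)]
  exact hA.e2mono (hC.ok n L hn) _ _ (by omega) (fun _ _ => sq_nonneg _) _

theorem filt0 {L : Sy ι I} {a : ι} (h : ∀ s ∈ L, s.2.1 ≠ some a) :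
    L.filter (fun s => s.2.1 = some a) = 0 := Multiset.filter_eq_nil.2 h

/-- the steps added to the common subsystem -/
def xt (n : ℕ) (A : Finset I) (τ : I) (c : ℝ) (W : ℕ → ℝ) (K1 K2 : Multiset ι) : Sy ι I :=
  K1.bind (rd n A c) + K2.bind (ts n A τ c) +
    Multiset.card K1 • lift none (sp τ) (sprof n W (A.card * c ^ 2))

theorem ext_cons1 (n : ℕ) (A : Finset I) (τ : I) (c : ℝ) (W : ℕ → ℝ) (a : ι) (K1 K2 : Multiset ι) :
    xt n A τ c W (a ::ₘ K1) K2 = xt n A τ c W K1 K2 +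
      (rd n A c a + lift none (sp τ) (sprof n W (A.card * c ^ 2))) := by
  simp only [xt, Multiset.cons_bind, Multiset.card_cons, succ_nsmul]; abel

theorem ext_cons2 (n : ℕ) (A : Finset I) (τ : I) (c : ℝ) (W : ℕ → ℝ) (a : ι) (K1 K2 : Multiset ι) :
    xt n A τ c W K1 (a ::ₘ K2) = xt n A τ c W K1 K2 + ts n A τ c a := by
  simp only [xt, Multiset.cons_bind]; abel

theorem ext_small (hG : GApi) {n : ℕ} (hn : 1 ≤ n) {B c : ℝ} (hB : 1 ≤ B) {A : Finset I}
    (hA0 : A.Nonempty) (τ : I) {W : ℕ → ℝ} (hW : Path n W) (hW0 : W 0 ≤ B ^ 2)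
    (hc : 2 * B ^ 4 * (A.card * c ^ 2) ≤ 1) (K1 K2 : Multiset ι) :
    Small n B (xt n A τ c W K1 K2) ∧ vr (xt n A τ c W K1 K2) ≤
      Multiset.card (K1 + K2) * (A.card * c ^ 2) * (1 + B ^ 2) := by
  have hj : (1 : ℝ) ≤ A.card := by exact_mod_cast hA0.card_pos
  have hθ0 : 0 ≤ A.card * c ^ 2 := by positivity
  obtain ⟨hc1, -⟩ := small_c hB hj hc
  obtain ⟨s2, v2⟩ := small_pf (ι := ι) hG hB τ hW hW0 hθ0 hc
  refine ⟨small_add (small_add (small_bind _ fun a => (hG.round_vr n B (some a) A (n - 1) c).2.1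
    (by omega) hc1) (small_bind _ (small_ts hG hn A τ hc1))) (small_nsmul _ s2), ?_⟩
  rw [xt, (hG.vr_add _ _ 0).1, (hG.vr_add _ _ 0).1, (hG.vr_add _ 0 _).2.1,
    vr_bind hG K1 (vr_rd hG n A c), vr_bind hG K2 (vr_ts hG n A τ c),
    Multiset.card_add]
  push_cast
  have h1 := mul_le_mul_of_nonneg_left v2 (Nat.cast_nonneg (α := ℝ) (Multiset.card K1))
  have h2 : 0 ≤ (Multiset.card K2 : ℝ) * (A.card * c ^ 2) * B ^ 2 := by positivity
  nlinarith

theorem filt (hG : GApi) (n : ℕ) (A : Finset I) (J : Finset ι) (τ : I) (c : ℝ) (W : ℕ → ℝ) (D : ℕ)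
    (l lτ : Multiset (ℕ × ℝ)) (a : ι) (K1 K2 : Multiset ι) :
    (sys n A (J.erase a) D c + fld ι A l + lift none (sp τ) lτ + xt n A τ c W K1 K2).filter
      (fun s => s.2.1 = some a) = (K1.bind (rd n A c)).filter (fun s => s.2.1 = some a) +
        (K2.bind (ts n A τ c)).filter (fun s => s.2.1 = some a) := by
  simp only [xt, Multiset.filter_add]
  rw [filt0 (L := sys n A (J.erase a) D c) (fun s hs e => by
      obtain ⟨b, hb, i, _, rfl⟩ := mem_sys hs
      exact (mem_erase.1 hb).1 (Option.some.inj e)),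
    filt0 (L := fld ι A l) (fun s hs e => by
      rw [(hG.fld_vr n 1 A l 0).2.2.2.2 s hs] at e; cases e),
    filt0 (L := lift none (sp τ) lτ) (fun s hs e => by
      rw [lift_none hs] at e; cases e),
    filt0 (L := Multiset.card K1 • _) (fun s hs e => by
      rw [lift_none (Multiset.mem_of_mem_nsmul hs)] at e; cases e)]
  simp

theorem filt_bd (hG : GApi) {n : ℕ} (hn : 1 ≤ n) {B c : ℝ} (A : Finset I) (J : Finset ι) (τ : I)
    (W : ℕ → ℝ) (D : ℕ) (l lτ : Multiset (ℕ × ℝ)) (a : ι) (K1 K2 : Multiset ι) (hc : B * |c| ≤ 1) :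
    Small n B ((sys n A (J.erase a) D c + fld ι A l + lift none (sp τ) lτ +
      xt n A τ c W K1 K2).filter (fun s => s.2.1 = some a)) ∧
    vr ((sys n A (J.erase a) D c + fld ι A l + lift none (sp τ) lτ +
      xt n A τ c W K1 K2).filter (fun s => s.2.1 = some a)) =
      Multiset.count a (K1 + K2) * (A.card * c ^ 2) := by
  rw [filt hG]
  refine ⟨small_add (fun s hs => small_bind K1 (fun a => (hG.round_vr n B (some a) A (n - 1) c).2.1
    (by omega) hc) s (Multiset.mem_of_mem_filter hs))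
    (fun s hs => small_bind K2 (small_ts hG hn A τ hc) s (Multiset.mem_of_mem_filter hs)), ?_⟩
  rw [(hG.vr_add _ _ 0).1, vr_filter hG K1 (vr_rd hG n A c)
    (fun a => (hG.round_vr n B (some a) A (n - 1) c).2.2), vr_filter hG K2 (vr_ts hG n A τ c)
    (fun a s hs => by rw [ts_eq] at hs; rw [Multiset.eq_of_mem_replicate hs]), Multiset.count_add]
  push_cast; ring

theorem consts (B β CM CK Ee : ℝ) {ε : ℝ} (hε : 0 < ε) :
    ∃ t e0 : ℝ, 0 < t ∧ 2 * B ^ 4 * t ≤ 1 ∧ 0 < e0 ∧ 2 * B ^ 4 * e0 ≤ 1 ∧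
      β * (CM * √e0 + CM * ((1 + B ^ 2) * √((1 + B ^ 2) * e0)) + B ^ 2 * √(Ee * e0) / 2 +
        CK * ((√(Ee * e0) + √e0 + e0) / t + √t) / 2) ≤ ε := by
  have hb : ∀ᶠ x in 𝓝 (0 : ℝ), 2 * B ^ 4 * x < 1 :=
    (show Continuous fun x : ℝ => 2 * B ^ 4 * x by fun_prop).continuousAt.eventually_lt
      continuousAt_const (by simp)
  have h1 : ∀ᶠ x in 𝓝 (0 : ℝ), β * (CK * √x / 2) < ε / 2 :=
    (show Continuous fun x : ℝ => β * (CK * √x / 2) by fun_prop).continuousAt.eventually_lt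
      continuousAt_const (by simpa using hε)
  obtain ⟨t, ⟨t1, t2⟩, t3⟩ := (((hb.and h1).filter_mono nhdsWithin_le_nhds).and
    (self_mem_nhdsWithin (s := Set.Ioi (0 : ℝ)))).exists
  have h2 : ∀ᶠ x in 𝓝 (0 : ℝ), β * (CM * √x + CM * ((1 + B ^ 2) * √((1 + B ^ 2) * x)) +
      B ^ 2 * √(Ee * x) / 2 + CK * ((√(Ee * x) + √x + x) / t) / 2) < ε / 2 :=
    (show Continuous fun x : ℝ => β * (CM * √x + CM * ((1 + B ^ 2) * √((1 + B ^ 2) * x)) +
      B ^ 2 * √(Ee * x) / 2 + CK * ((√(Ee * x) + √x + x) / t) / 2) by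
        fun_prop).continuousAt.eventually_lt continuousAt_const (by simpa using hε)
  obtain ⟨e, ⟨e1, e2⟩, e3⟩ := (((hb.and h2).filter_mono nhdsWithin_le_nhds).and
    (self_mem_nhdsWithin (s := Set.Ioi (0 : ℝ)))).exists
  exact ⟨t, e, t3, t1.le, e3, e1.le, by linarith⟩

end Sc

open Sc in
theorem scStmt (hA : AApi) (hC : CApi) (hG : GApi) (hM : MsStmt) (ha : GraStmt) (h2 : P2Stmt)
    (hK : KeyStmt) : ScStmt := by
  intro B β ε hB hβ hε
  obtain ⟨CM, hCM, hM⟩ := hM B hB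
  obtain ⟨CG, hCG, ha⟩ := ha B hB
  obtain ⟨CK, hCK, hK⟩ := hK B hB
  obtain ⟨t, e0, t0, t1, e1, e2, hE⟩ := consts B β CM CK
    (exp (CG * (β * (1 + B ^ 2))) * exp (CG * β)) hε
  refine ⟨e0, e1, ?_⟩
  intro I ι _ _ _ _ n f f1 f2 A J τ R c l P hn hf hfB hτ hj hJ hR hθ hP hP0 hco
  have hA0 : A.Nonempty := by
    rw [← card_pos, Nat.pos_iff_ne_zero]
    intro h; rw [h] at hj; norm_num at hj
  have hj1 : (1 : ℝ) ≤ A.card := by exact_mod_cast hA0.card_pos
  have hθ0 : 0 ≤ A.card * c ^ 2 := by positivity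
  have hc : 2 * B ^ 4 * (A.card * c ^ 2) ≤ 1 :=
    (mul_le_mul_of_nonneg_left hθ (by positivity)).trans e2
  obtain ⟨hc1, hc2⟩ := small_c hB hj1 hc
  have hRθ : (R : ℝ) * (A.card * c ^ 2) = 1 / (A.card + 1) := by
    rw [eq_div_iff (by positivity)]; linarith
  have hinv : 1 / ((A.card : ℝ) + 1) ≤ e0 := by
    rw [div_le_iff₀ (by positivity)]; nlinarith
  have hT : (Multiset.card (R • J.val) : ℝ) * (A.card * c ^ 2) = J.card / (A.card + 1) := by
    rw [Multiset.card_nsmul, card_val]; push_cast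
    rw [mul_comm (R : ℝ), mul_assoc, hRθ]; ring
  have hρ : (J.card : ℝ) / (A.card + 1) ≤ β := by
    rw [div_le_iff₀ (by positivity)]; nlinarith
  have hD2 : ∀ o, D2 B (gg ι f o) := fun o => (hC.smg ι B f f1 f2 hB hf o).d0
  obtain ⟨hW, hW0⟩ := hG.w_path n (fun _ : Unit => f) (lift () (fun _ : Unit => 1)
    ((A.card * R) • sprof n P (A.card * c ^ 2))) (fun ω => f1 (ω.1 () ())) B hn (fun ω => hf.b1 _)
  set W : ℕ → ℝ := fun d => if d < n then
    WD n f f1 ((A.card * R) • sprof n P (A.card * c ^ 2)) d else 0 with hWd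
  have hW' : Path n W := hW
  have hW0' : W 0 ≤ B ^ 2 := by rw [hWd]; simp only [if_pos (show 0 < n by omega)]; exact hW0
  refine ⟨W, hW', hW0', fun lτ => ?_⟩
  have c0 : Conc n f (sys n A J (A.card * R) c + fld ι A l) A P (exp (CG * β) * e0) := by
    refine conc_tr (exp_pos _).le (fun d hd => ?_) hco
    rw [sys_succ, add_right_comm]
    refine (ha _ _ n _ _ _ (fun σ σ' => (Rr A σ σ' - P d) ^ 2) d hn hd hD2
      (small_bind _ fun a => (hG.round_vr n B (some a) A (n - 1) c).2.1 (by omega) hc1)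
      (fun _ _ => sq_nonneg _)).2.trans (mul_le_mul_of_nonneg_right (exp_le_exp.2 ?_) ?_)
    · change CG * vr ((R • J.val).bind (rd n A c)) ≤ _
      rw [vr_bind hG _ (vr_rd hG n A c), hT]
      exact mul_le_mul_of_nonneg_left hρ hCG
    · exact ee_nonneg hA hC hn hd f _ (fun ω ω' => Rr A ω.2 ω'.2 - P d)
  have c1 : Conc n f (sys n A J (A.card * R) c + fld ι A l + lift none (sp τ) lτ) A P
      (exp (CG * β) * e0) := by
    rw [← one_mul (exp (CG * β) * e0)]
    refine conc_tr zero_le_one (fun d hd => ?_) c0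
    rw [one_mul]
    exact ((h2 I ι n f _ τ lτ hn (ind_core n J _ c l hτ)).2 (fun σ σ' => (Rr A σ σ' - P d) ^ 2) d hd
      (fun σ σ' b b' => by rw [Rr_upd hτ])).le
  have key := chain_moves (fun K1 K2 => TT n (gg ι f) (sys n A J (A.card * R) c + fld ι A l +
    lift none (sp τ) lτ + xt n A τ c W K1 K2)) (R • J.val)
    (A.card * c ^ 2 * (ip n P W - W 0 / 2)) (A.card * c ^ 2 * (CM * √e0 +
      CM * ((1 + B ^ 2) * √((1 + B ^ 2) * e0)) +
      B ^ 2 * √(exp (CG * (β * (1 + B ^ 2))) * exp (CG * β) * e0) / 2 +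
      CK * ((√(exp (CG * (β * (1 + B ^ 2))) * exp (CG * β) * e0) + √e0 + e0) / t + √t) / 2))
    (fun a K1 K2 hK12 => by
      have hle : K1 + K2 ≤ R • J.val := hK12 ▸ Multiset.le_cons_self _ _
      have haJ : a ∈ J := Multiset.mem_of_mem_nsmul (hK12 ▸ Multiset.mem_cons_self _ _)
      obtain ⟨s1, s2⟩ := ext_small hG hn hB hA0 τ hW' hW0' hc K1 K2
      have c2 : Conc n f (sys n A J (A.card * R) c + fld ι A l + lift none (sp τ) lτ +
          xt n A τ c W K1 K2) A P (exp (CG * (β * (1 + B ^ 2))) * exp (CG * β) * e0) := by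
        rw [mul_assoc]
        refine conc_tr (exp_pos _).le (fun d hd => ?_) c1
        refine (ha _ _ n _ _ _ (fun σ σ' => (Rr A σ σ' - P d) ^ 2) d hn hd hD2 s1
          (fun _ _ => sq_nonneg _)).1.trans (mul_le_mul_of_nonneg_right (exp_le_exp.2 ?_) ?_)
        · refine mul_le_mul_of_nonneg_left (s2.trans (mul_le_mul_of_nonneg_right ?_
            (by positivity))) hCG
          refine le_trans (mul_le_mul_of_nonneg_right ?_ hθ0) (hT.le.trans hρ)
          exact_mod_cast Multiset.card_le_card hle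
        · exact ee_nonneg hA hC hn hd f _ (fun ω ω' => Rr A ω.2 ω'.2 - P d)
      have eL : sys n A J (A.card * R) c + fld ι A l + lift none (sp τ) lτ + xt n A τ c W K1 K2 =
          sys n A (J.erase a) (A.card * R) c + fld ι A l + lift none (sp τ) lτ +
            xt n A τ c W K1 K2 + (A.card * R) • round (some a) A (n - 1) c := by
        rw [sys_erase n A _ c haJ]; abel
      obtain ⟨f1', f2'⟩ := filt_bd hG hn A J τ W (A.card * R) l lτ a K1 K2 hc1
      have k1 := hK I ι n f f1 f2 _ A a (sp τ) P _ c e0 t (A.card * R) hn hf hfB hA0 (sp_sq τ) hP hP0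
        (by nlinarith) (by
          push_cast
          rw [mul_assoc, hRθ, mul_one_div, div_le_one (by positivity)]; linarith) t0 t1 f1'
        (by
          rw [f2']
          refine le_trans (mul_le_mul_of_nonneg_right ?_ hθ0) (hRθ.le.trans hinv)
          have x1 := Multiset.count_le_of_le a hle
          rw [Multiset.count_nsmul] at x1
          have x2 := Multiset.nodup_iff_count_le_one.1 J.nodup a
          exact_mod_cast x1.trans ((Nat.mul_le_mul_left R x2).trans_eq (mul_one R))) (eL ▸ c2)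
      rw [← eL] at k1
      have mv := move hA hC hG hn hf hB hCM hA0 τ a hW' hW0' hc _
        (fun L' h1 h2 => (hM _ _ n _ _ _ _ L' hn (hC.smg ι B f f1 f2 hB hf) h1).2 h2) c2 k1
      rw [ext_cons1, ext_cons2, ← add_assoc _ _ (ts n A τ c a), ← add_assoc _ (xt n A τ c W K1 K2)]
      refine mv.trans (mul_le_mul_of_nonneg_left ?_ hθ0)
      gcongr) (R • J.val) 0 (add_zero _)
  have a1 : sys n A J (A.card * R) c + fld ι A l + lift none (sp τ) lτ + xt n A τ c W 0 (R • J.val) =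
      sys n (insert τ A) J (A.card * R) c + fld ι A l + lift none (sp τ) lτ := by
    rw [sys_insert n A J R c hτ]; simp only [xt, Multiset.zero_bind, Multiset.card_zero, zero_nsmul]
    abel
  have a2 : sys n A J (A.card * R) c + fld ι A l + lift none (sp τ) lτ + xt n A τ c W (R • J.val) 0 =
      sys n A J ((A.card + 1) * R) c + fld ι A l +
        lift none (sp τ) (lτ + (J.card * R) • sprof n W (A.card * c ^ 2)) := by
    rw [sys_succ]
    simp only [xt, Multiset.zero_bind, Multiset.card_nsmul, card_val, lift, Multiset.map_add,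
      Multiset.map_nsmul, mul_comm R]
    abel
  simp only [a1, a2] at key
  rw [(h2 I ι n f _ τ _ hn (ind_core n J _ c l hτ)).1, 
    ← mul_assoc (Multiset.card (R • J.val) : ℝ) (A.card * c ^ 2),
    ← mul_assoc (Multiset.card (R • J.val) : ℝ) (A.card * c ^ 2), hT, ← sub_sub] at key
  refine key.trans (le_trans (mul_le_mul_of_nonneg_right hρ ?_) hE)
  positivity

end

end Vale.Agent.P157
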