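import Vale.Agent.P157.End

namespace Vale.Agent.P157

open MeasureTheory ProbabilityTheory Finset Real Filter

set_option linter.unusedSectionVars false

namespace Sc2

variable {I ι : Type} [Fintype I] [DecidableEq I] [Fintype ι] [DecidableEq ι]

theorem sp_sq (i : I) (σ : I → Bool) : sp i σ ^ 2 = 1 := by
  unfold sp spin; split_ifs <;> norm_num

theorem sp_abs (i : I) (σ : I → Bool) : |sp i σ| = 1 := by
  unfold sp spin; split_ifs <;> norm_num

theorem rr_abs (A : Finset I) (σ σ' : I → Bool) : |Rr A σ σ'| ≤ 1 := by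
  unfold Rr
  rw [abs_div, Nat.abs_cast]
  refine div_le_one_of_le₀ (le_trans (abs_sum_le_sum_abs _ _) ?_) (Nat.cast_nonneg _)
  simp [abs_mul, sp_abs]

theorem rr_insert {τ : I} {A : Finset I} (h : τ ∉ A) (hA : A.Nonempty) (σ σ' : I → Bool) (p : ℝ) :
    (Rr (insert τ A) σ σ' - p) ^ 2 ≤ 2 * (Rr A σ σ' - p) ^ 2 + 8 / A.card * 1 := by
  have hj : (1 : ℝ) ≤ A.card := by exact_mod_cast hA.card_pos
  have h1 : Rr (insert τ A) σ σ' = Rr A σ σ' + (sp τ σ * sp τ σ' - Rr A σ σ') / (A.card + 1) := by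
    unfold Rr
    rw [sum_insert h, card_insert_of_notMem h]
    push_cast
    field_simp
    ring
  have h2 : |sp τ σ * sp τ σ' - Rr A σ σ'| ≤ 2 := by
    refine le_trans (abs_sub _ _) ?_
    rw [abs_mul, sp_abs, sp_abs]
    linarith [rr_abs A σ σ']
  have h3 : ((sp τ σ * sp τ σ' - Rr A σ σ') / (A.card + 1)) ^ 2 ≤ 4 / A.card := by
    rw [div_pow, div_le_div_iff₀ (by positivity) (by positivity)]
    have : (sp τ σ * sp τ σ' - Rr A σ σ') ^ 2 ≤ 2 ^ 2 := sq_le_sq' (abs_le.1 h2).1 (abs_le.1 h2).2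
    nlinarith
  rw [h1]
  generalize (sp τ σ * sp τ σ' - Rr A σ σ') / (A.card + 1) = x at h3
  have : 8 / (A.card : ℝ) = 2 * (4 / A.card) := by ring
  nlinarith [sq_nonneg (Rr A σ σ' - p - x)]

theorem rr_upd {τ : I} {A : Finset I} (h : τ ∉ A) (σ σ' : I → Bool) (b b' : Bool) :
    Rr A (Function.update σ τ b) (Function.update σ' τ b') = Rr A σ σ' := by
  unfold Rr
  congr 1
  refine sum_congr rfl fun i hi => ?_
  have : i ≠ τ := fun e => h (e ▸ hi)
  rw [End.sp_upd this, End.sp_upd this]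

theorem sys_add (n : ℕ) (A : Finset I) (J : Finset ι) (D D' : ℕ) (c : ℝ) :
    sys n A J (D + D') c = sys n A J D c + sys n A J D' c := by
  unfold sys
  simp only [add_nsmul, Multiset.bind_add]

theorem sys_insert (n : ℕ) {τ : I} {A : Finset I} (h : τ ∉ A) (J : Finset ι) (D : ℕ) (c : ℝ) :
    sys n (insert τ A) J D c = sys n A J D c + sys n {τ} J D c := by
  unfold sys round
  rw [← Multiset.bind_add]
  refine Multiset.bind_congr fun a _ => ?_
  rw [← nsmul_add, insert_val_of_notMem h, Multiset.map_cons, singleton_val, Multiset.map_singleton,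
    add_comm, Multiset.singleton_add]

theorem sys_mem {n : ℕ} {A : Finset I} {J : Finset ι} {D : ℕ} {c : ℝ} {s : St (Option ι) (I → Bool)}
    (hs : s ∈ sys n A J D c) : ∃ a ∈ J, s ∈ round (some a) A (n - 1) c := by
  obtain ⟨a, ha, hs⟩ := Multiset.mem_bind.1 hs
  exact ⟨a, ha, Multiset.mem_of_mem_nsmul hs⟩

theorem sys_small (hG : GApi) {n : ℕ} {B c : ℝ} (hn : 1 ≤ n) (hc : B * |c| ≤ 1) (A : Finset I)
    (J : Finset ι) (D : ℕ) : Small n B (sys n A J D c) := by
  intro s hs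
  obtain ⟨a, -, hs⟩ := sys_mem hs
  exact (hG.round_vr n B (some a) A (n - 1) c).2.1 (by omega) hc s hs

theorem sys_vr (hG : GApi) (n : ℕ) (A : Finset I) (J : Finset ι) (D : ℕ) (c : ℝ) :
    vr (sys n A J D c) = J.card * (D * (A.card * c ^ 2)) := by
  induction J using Finset.induction_on with
  | empty => simp [sys, vr]
  | insert a J ha ih =>
    have : sys n A (insert a J) D c = D • round (some a) A (n - 1) c + sys n A J D c := by
      unfold sys; rw [insert_val_of_notMem ha, Multiset.cons_bind]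
    rw [this, (hG.vr_add _ _ 0).1, (hG.vr_add _ 0 D).2.1, ih,
      (hG.round_vr n 0 (some a) A (n - 1) c).1, card_insert_of_notMem ha]
    push_cast; ring

theorem ind_sys {n : ℕ} {τ : I} {A : Finset I} (h : τ ∉ A) (J : Finset ι) (D : ℕ) (c : ℝ) :
    Ind τ (sys n A J D c) := by
  intro s hs σ b
  obtain ⟨a, -, hs⟩ := sys_mem hs
  obtain ⟨j, hj, rfl⟩ := Multiset.mem_map.1 hs
  have hji : j ≠ τ := fun e => h (e ▸ hj)
  simp only [Pi.smul_apply, End.sp_upd hji]

theorem ee_nonneg (hA : AApi) (hC : CApi) {n : ℕ} (hn : 1 ≤ n) (f : ℝ → ℝ) (L : Sy ι I) {d : ℕ}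
    (hd : d ≤ n) {φ : Om (Option ι) (I → Bool) → Om (Option ι) (I → Bool) → ℝ}
    (h : ∀ x x', 0 ≤ φ x x') : 0 ≤ EE n (gg ι f) L d φ := by
  have hk := hC.ok n L hn
  have := hA.e2mono hk (ZZ (gg ι f)) (d + 1) (by omega) (φ := fun _ _ => 0) h (0, default)
  rwa [hA.e2const hk _ _ (by omega)] at this

theorem conc_nonneg (hA : AApi) (hC : CApi) {n : ℕ} (hn : 1 ≤ n) {f : ℝ → ℝ} {L : Sy ι I}
    {A : Finset I} {P : ℕ → ℝ} {e : ℝ} (h : Conc n f L A P e) : 0 ≤ e :=
  le_trans (mul_nonneg (by positivity) (sum_nonneg fun _ hd =>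
    ee_nonneg hA hC hn f L (mem_Ico.1 hd).2.le fun _ _ => sq_nonneg _)) h

/-- adding a site to the overlap -/
theorem conc_insert (hA : AApi) (hC : CApi) {n : ℕ} (hn : 1 ≤ n) {f : ℝ → ℝ} {L : Sy ι I}
    {τ : I} {A : Finset I} (h : τ ∉ A) (hne : A.Nonempty) {P : ℕ → ℝ} {e : ℝ}
    (hc : Conc n f L A P e) : Conc n f L (insert τ A) P (2 * e + 8 / A.card) := by
  have hk := hC.ok n L hn
  have hn' : (0 : ℝ) < n := by exact_mod_cast hn
  unfold Conc at hc ⊢
  have h1 : ∀ d ∈ Ico 1 n,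
      EE n (gg ι f) L d (fun ω ω' => (Rr (insert τ A) ω.2 ω'.2 - P d) ^ 2) ≤
        2 * EE n (gg ι f) L d (fun ω ω' => (Rr A ω.2 ω'.2 - P d) ^ 2) + 8 / A.card := by
    intro d hd
    have hd' : d + 1 ≤ n + 1 := by have := (mem_Ico.1 hd).2; omega
    refine le_trans (hA.e2mono hk (ZZ (gg ι f)) (d + 1) hd'
      (fun x x' => rr_insert h hne x.2 x'.2 (P d)) (0, default)) (le_of_eq ?_)
    rw [hA.e2add (chain L) _ _ _ _ (fun x x' => (Rr A x.2 x'.2 - P d) ^ 2) (fun _ _ => 1),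
      hA.e2const hk _ _ hd', mul_one]
    rfl
  refine le_trans (mul_le_mul_of_nonneg_left (sum_le_sum h1) (by positivity)) ?_
  rw [sum_add_distrib, ← mul_sum, sum_const, Nat.card_Ico, nsmul_eq_mul, mul_add, mul_left_comm]
  refine add_le_add (by linarith) ?_
  rw [← mul_assoc]
  refine mul_le_of_le_one_left (by positivity) ?_
  rw [one_div, inv_mul_le_iff₀ hn', mul_one]
  exact_mod_cast Nat.sub_le n 1

/-- termwise comparison -/
theorem conc_le {n : ℕ} {f : ℝ → ℝ} {L L' : Sy ι I} {A : Finset I} {P : ℕ → ℝ} {e K : ℝ}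
    (hK : 0 ≤ K) (h : ∀ d, d ≤ n →
      EE n (gg ι f) L' d (fun ω ω' => (Rr A ω.2 ω'.2 - P d) ^ 2) ≤
        K * EE n (gg ι f) L d (fun ω ω' => (Rr A ω.2 ω'.2 - P d) ^ 2))
    (hc : Conc n f L A P e) : Conc n f L' A P (K * e) := by
  unfold Conc at hc ⊢
  refine le_trans ?_ (mul_le_mul_of_nonneg_left hc hK)
  rw [mul_left_comm]
  refine mul_le_mul_of_nonneg_left ?_ (by positivity)
  rw [mul_sum]
  exact sum_le_sum fun d hd => h d (mem_Ico.1 hd).2.le

theorem conc_mono {n : ℕ} {f : ℝ → ℝ} {L : Sy ι I} {A : Finset I} {P : ℕ → ℝ} {e e' : ℝ}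
    (hc : Conc n f L A P e) (h : e ≤ e') : Conc n f L A P e' := le_trans hc h

end Sc2

theorem sc2Stmt (hA : AApi) (hC : CApi) (hG : GApi) (ha : GraStmt) (h2 : P2Stmt) : Sc2Stmt := by
  intro B β hB hβ
  obtain ⟨C, hC0, ha⟩ := ha B hB
  refine ⟨2 * (exp (C * β) * exp (C * β)) + 8, by
    have : 0 ≤ exp (C * β) * exp (C * β) := by positivity
    linarith, ?_⟩
  intro I ι _ _ _ _ n f f1 f2 A J τ R c e l lτ P hn hs hτ hne hJ hc1 hBc hc
  have hj : (1 : ℝ) ≤ A.card := by exact_mod_cast hne.card_pos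
  have he := Sc2.conc_nonneg hA hC hn hc
  have hD : ∀ o, D2 B (gg ι f o) := fun o => (hC.smg ι B f f1 f2 hB hs o).d0
  have hv : (J.card : ℝ) * (R * (A.card * c ^ 2)) ≤ β := by
    have h0 : (0 : ℝ) ≤ R * c ^ 2 := by positivity
    have h1 : (A.card : ℝ) * (R * (A.card * c ^ 2)) ≤ 1 := by nlinarith
    have h3 : (0 : ℝ) ≤ R * (A.card * c ^ 2) := by positivity
    nlinarith [mul_le_mul_of_nonneg_right hJ h3, mul_le_mul_of_nonneg_left h1 hβ]
  set core : Sy ι I := sys n A J (A.card * R) c + fld ι A l with hcore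
  have e1 : sys n A J ((A.card + 1) * R) c + fld ι A l = core + sys n A J R c := by
    rw [add_mul, one_mul, Sc2.sys_add, hcore]; abel
  have e2 : sys n (insert τ A) J (A.card * R) c + fld ι A l + lift none (sp τ) lτ =
      core + lift none (sp τ) lτ + sys n {τ} J (A.card * R) c := by
    rw [Sc2.sys_insert n hτ, hcore]; abel
  rw [e1] at hc
  rw [e2]
  have c1 : Conc n f core A P (exp (C * β) * e) := by
    refine Sc2.conc_le (exp_pos _).le (fun d hd => ?_) hc
    refine le_trans (ha _ _ n _ core _ (fun σ σ' => (Rr A σ σ' - P d) ^ 2) d hn hd hD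
      (Sc2.sys_small hG hn hBc A J R) fun _ _ => sq_nonneg _).2 ?_
    refine mul_le_mul_of_nonneg_right (exp_le_exp.2 ?_)
      (Sc2.ee_nonneg hA hC hn f _ hd fun _ _ => sq_nonneg _)
    rw [Sc2.sys_vr hG]
    exact mul_le_mul_of_nonneg_left hv hC0
  have c2 : Conc n f (core + lift none (sp τ) lτ) A P (1 * (exp (C * β) * e)) := by
    refine Sc2.conc_le zero_le_one (fun d hd => le_of_eq ?_) c1
    rw [one_mul]
    exact (h2 I ι n f core τ lτ hn
      (End.ind_add (Sc2.ind_sys hτ _ _ _) (End.ind_fld hτ l))).2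
      (fun σ σ' => (Rr A σ σ' - P d) ^ 2) d hd fun σ σ' b b' => by rw [Sc2.rr_upd hτ]
  have c3 : Conc n f (core + lift none (sp τ) lτ + sys n {τ} J (A.card * R) c) A P
      (exp (C * β) * (1 * (exp (C * β) * e))) := by
    refine Sc2.conc_le (exp_pos _).le (fun d hd => ?_) c2
    refine le_trans (ha _ _ n _ _ _ (fun σ σ' => (Rr A σ σ' - P d) ^ 2) d hn hd hD
      (Sc2.sys_small hG hn hBc {τ} J (A.card * R)) fun _ _ => sq_nonneg _).1 ?_
    refine mul_le_mul_of_nonneg_right (exp_le_exp.2 ?_)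
      (Sc2.ee_nonneg hA hC hn f _ hd fun _ _ => sq_nonneg _)
    rw [Sc2.sys_vr hG]
    refine mul_le_mul_of_nonneg_left (le_trans (le_of_eq ?_) hv) hC0
    simp only [card_singleton]; push_cast; ring
  refine Sc2.conc_mono (Sc2.conc_insert hA hC hn hτ hne c3) ?_
  have h5 : 0 ≤ exp (C * β) * exp (C * β) * (1 / A.card) := by positivity
  have h6 : 8 / (A.card : ℝ) = 8 * (1 / A.card) := by ring
  rw [h6]
  nlinarith

end Vale.Agent.P157
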