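import Vale.Agent.P157.Lin

/-! P157: smooth bounded approximation in `L¹` of the Gaussian measure. -/

namespace Vale.Agent.P157

open MeasureTheory ProbabilityTheory Finset Real

noncomputable section

namespace Smf

/-- smooth with compact support -/
def Cs (u : ℝ → ℝ) : Prop := ContDiff ℝ ((⊤ : ℕ∞) : WithTop ℕ∞) u ∧ HasCompactSupport u

theorem Cs.der {u : ℝ → ℝ} (h : Cs u) : Cs (deriv u) :=
  ⟨(contDiff_infty_iff_deriv.1 h.1).2, h.2.deriv⟩

theorem Cs.hd {u : ℝ → ℝ} (h : Cs u) (t : ℝ) : HasDerivAt u (deriv u t) t :=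
  ((contDiff_infty_iff_deriv.1 h.1).1 t).hasDerivAt

theorem Cs.bd {u : ℝ → ℝ} (h : Cs u) : ∃ M, 0 ≤ M ∧ ∀ t, |u t| ≤ M := by
  obtain ⟨M, hM⟩ := h.1.continuous.bounded_above_of_compact_support h.2
  exact ⟨M, (abs_nonneg _).trans (hM 0), hM⟩

theorem t1 {u : ℝ → ℝ} (h : Cs u) {M : ℝ} (hM : 0 ≤ M) (hb : ∀ t, |deriv u t| ≤ M) (y t : ℝ) :
    |u (y + t) - u y| ≤ M * |t| ^ (0 + 1) :=
  Lin.mvt (f := fun t => u (y + t) - u y) (f' := fun t => deriv u (y + t))
    (fun t => ((h.hd (y + t)).comp_const_add y t).sub_const _) (by simp) hM 0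
    (fun t => by simpa using hb _) t

theorem t2 {u : ℝ → ℝ} (h : Cs u) {M : ℝ} (hM : 0 ≤ M) (hb : ∀ t, |deriv (deriv u) t| ≤ M)
    (y t : ℝ) : |u (y + t) - u y - t * deriv u y| ≤ M * |t| ^ (1 + 1) :=
  Lin.mvt (f := fun t => u (y + t) - u y - t * deriv u y)
    (f' := fun t => deriv u (y + t) - deriv u y)
    (fun t => ((((h.hd (y + t)).comp_const_add y t).sub_const (u y)).fun_sub
      ((hasDerivAt_id' t).mul_const (deriv u y))).congr_deriv (by ring))
    (by simp) hM 1 (t1 h.der hM hb y) t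

theorem t3 {u : ℝ → ℝ} (h : Cs u) {M : ℝ} (hM : 0 ≤ M)
    (hb : ∀ t, |deriv (deriv (deriv u)) t| ≤ M) (y t : ℝ) :
    |u (y + t) - u y - t * deriv u y - t ^ 2 * deriv (deriv u) y / 2| ≤ M * |t| ^ (2 + 1) :=
  Lin.mvt (f := fun t => u (y + t) - u y - t * deriv u y - t ^ 2 * deriv (deriv u) y / 2)
    (f' := fun t => deriv u (y + t) - deriv u y - t * deriv (deriv u) y)
    (fun t => (((((h.hd (y + t)).comp_const_add y t).sub_const (u y)).fun_sub
      ((hasDerivAt_id' t).mul_const (deriv u y))).fun_sub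
      (((hasDerivAt_pow 2 t).mul_const (deriv (deriv u) y)).div_const 2)).congr_deriv
      (by norm_num; ring)) (by simp) hM 2 (t2 h.der hM hb y) t

theorem d2 {u : ℝ → ℝ} (h : Cs u) {M : ℝ} (hM : 0 ≤ M) (h1 : ∀ t, |deriv u t| ≤ M)
    (h2 : ∀ t, |deriv (deriv u) t| ≤ M) : D2 (2 * M) u := by
  intro y t
  have a := t1 h hM h1 y t
  have b := t2 h hM h2 y t
  have c := t2 h hM h2 y (-t)
  rw [zero_add, pow_one] at a
  rw [abs_neg, ← sub_eq_add_neg] at c
  rw [show 1 + 1 = 2 from rfl, sq_abs, abs_le] at b c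
  refine ⟨a.trans (by nlinarith [abs_nonneg t]), ?_⟩
  rw [abs_le]; constructor <;> linarith [b.1, b.2, c.1, c.2]

theorem sm {u : ℝ → ℝ} (h : Cs u) (B : ℝ) :
    ∃ B', 1 ≤ B' ∧ B ≤ B' ∧ Sm B' u (deriv u) (deriv (deriv u)) := by
  obtain ⟨M1, p1, b1⟩ := h.der.bd
  obtain ⟨M2, p2, b2⟩ := h.der.der.bd
  obtain ⟨M3, p3, b3⟩ := h.der.der.der.bd
  obtain ⟨M4, p4, b4⟩ := h.der.der.der.der.bd
  set M := M1 + M2 + M3 + M4 + |B| + 1 with hM
  have hB := abs_nonneg B
  have hB' := le_abs_self B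
  have h0 : 0 ≤ M := by positivity
  have c1 : ∀ t, |deriv u t| ≤ M := fun t => (b1 t).trans (by linarith)
  have c2 : ∀ t, |deriv (deriv u) t| ≤ M := fun t => (b2 t).trans (by linarith)
  have c3 : ∀ t, |deriv (deriv (deriv u)) t| ≤ M := fun t => (b3 t).trans (by linarith)
  have c4 : ∀ t, |deriv (deriv (deriv (deriv u))) t| ≤ M := fun t => (b4 t).trans (by linarith)
  refine ⟨2 * M, by linarith, by linarith, d2 h h0 c1 c2, d2 h.der h0 c2 c3, d2 h.der.der h0 c3 c4,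
    fun t => (c1 t).trans (by linarith), fun t => (c2 t).trans (by linarith), fun y t => ?_⟩
  refine (t3 h h0 c3 y t).trans ?_
  show M * |t| ^ 3 ≤ _
  gcongr; linarith

end Smf

open Smf in
theorem smfStmt : SmfStmt := by
  intro B ε f hε hf hB
  have hB0 : 0 ≤ B := (abs_nonneg _).trans (hB 0)
  have fi : Integrable f (gaussianReal 0 1) :=
    Integrable.of_bound hf.aestronglyMeasurable B (ae_of_all _ hB)
  have hδ : 0 < ε / 3 := by positivity
  obtain ⟨g0, s0, e0, c0, i0⟩ := fi.exists_hasCompactSupport_integral_sub_le hδ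
  set g1 : ℝ → ℝ := fun t => max (-B) (min B (g0 t)) with hg1
  have c1 : Continuous g1 := by fun_prop
  have s1 : HasCompactSupport g1 := s0.mono fun t ht h => ht (by simp [hg1, h, hB0])
  have b1 : ∀ t, |g1 t| ≤ B := fun t =>
    abs_le.2 ⟨le_max_left _ _, max_le (by linarith) (min_le_left _ _)⟩
  have a1 : ∀ t, |f t - g1 t| ≤ |f t - g0 t| := fun t => by
    have h1 := abs_le.1 (hB t)
    have h2 := le_abs_self (f t - g0 t)
    have h3 := neg_abs_le (f t - g0 t)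
    have h4 := abs_nonneg (f t - g0 t)
    simp only [hg1, max_def, min_def]
    rw [abs_le]
    split_ifs <;> constructor <;> linarith [h1.1, h1.2]
  obtain ⟨g2, c2, a2, s2⟩ := c1.exists_contDiff_approx ⊤ (ε := fun _ => ε / 3) continuous_const
    (fun _ => hδ)
  set θ := B / (B + ε / 3) with hθ
  have θ0 : 0 ≤ θ := by positivity
  have θ1 : θ * (B + ε / 3) = B := by rw [hθ]; field_simp
  have θ2 : θ ≤ 1 := by rw [hθ, div_le_one (by positivity)]; linarith
  have a2' : ∀ t, |g2 t - g1 t| ≤ ε / 3 := fun t => (a2 t).le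
  have b2 : ∀ t, |g2 t| ≤ B + ε / 3 := fun t => by
    have := abs_sub_abs_le_abs_sub (g2 t) (g1 t)
    linarith [a2' t, b1 t]
  have cs : Cs fun t => θ * g2 t :=
    ⟨contDiff_const.mul c2, (s1.mono s2).mono fun t ht h => ht (by simp [h])⟩
  obtain ⟨B', h1, h2, h3⟩ := sm cs B
  have b3 : ∀ t, |θ * g2 t| ≤ B := fun t => by
    rw [abs_mul, abs_of_nonneg θ0]
    exact (mul_le_mul_of_nonneg_left (b2 t) θ0).trans_eq θ1
  refine ⟨B', _, _, _, h1, h3, b3, h2, ?_⟩
  have i1 : Integrable (fun z => ‖f z - g0 z‖ + 2 * (ε / 3)) (gaussianReal 0 1) :=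
    (fi.sub i0).norm.add (integrable_const _)
  refine (integral_mono_of_nonneg (ae_of_all _ fun z => abs_nonneg _) i1
    (ae_of_all _ fun z => ?_)).trans ?_
  · have k : |g2 z - θ * g2 z| ≤ ε / 3 := by
      rw [show g2 z - θ * g2 z = (1 - θ) * g2 z by ring, abs_mul, abs_of_nonneg (by linarith)]
      nlinarith [b2 z, abs_nonneg (g2 z)]
    have k1 := abs_sub_le (f z) (g1 z) (θ * g2 z)
    have k2 := abs_sub_le (g1 z) (g2 z) (θ * g2 z)
    rw [abs_sub_comm (g1 z) (g2 z)] at k2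
    show |f z - θ * g2 z| ≤ |f z - g0 z| + 2 * (ε / 3)
    linarith [a1 z, a2' z]
  · have i2 : Integrable (fun z => ‖f z - g0 z‖) (gaussianReal 0 1) := (fi.sub i0).norm
    rw [integral_add i2 (integrable_const _)]
    simp only [integral_const, probReal_univ, smul_eq_mul, one_mul]
    linarith

end

end Vale.Agent.P157
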