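import Vale.Agent.P157.Stm

/-! P157: the pattern functional is Lipschitz for the Gaussian `L^1` distance. -/

namespace Vale.Agent.P157

open MeasureTheory ProbabilityTheory Finset Real Filter

noncomputable section

namespace Smh

def BM (B : ℝ) (u : ℝ → ℝ) : Prop := Measurable u ∧ ∀ x, |u x| ≤ B

theorem intg {Ω : Type} [MeasurableSpace Ω] {μ : Measure Ω} [IsFiniteMeasure μ] {u : Ω → ℝ}
    (hu : Measurable u) (B : ℝ) (hB : ∀ x, |u x| ≤ B) : Integrable u μ :=
  Integrable.of_bound hu.aestronglyMeasurable B (ae_of_all _ hB)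

theorem meas_int {u : ℝ → ℝ} (hu : Measurable u) (c : ℝ) (μ : Measure ℝ) [SFinite μ] :
    Measurable (fun x => ∫ z, u (x + c * z) ∂μ) := by
  have : StronglyMeasurable (Function.uncurry fun x z : ℝ => u (x + c * z)) :=
    (hu.comp (by fun_prop : Measurable fun p : ℝ × ℝ => p.1 + c * p.2)).stronglyMeasurable
  exact (this.integral_prod_right (ν := μ)).measurable

theorem exp_bd {B m : ℝ} (hm : 0 ≤ m) {t : ℝ} (ht : |t| ≤ B) :
    exp (-(m * B)) ≤ exp (m * t) ∧ exp (m * t) ≤ exp (m * B) := by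
  have := abs_le.1 ht
  constructor <;> refine exp_le_exp.2 ?_ <;> nlinarith

theorem int_exp {B m : ℝ} (hm : 0 ≤ m) {u : ℝ → ℝ} (hu : BM B u) (x c : ℝ) :
    Integrable (fun z => exp (m * u (x + c * z))) (gaussianReal 0 1) :=
  intg (by have := hu.1; fun_prop) (exp (m * B))
    (fun z => by rw [abs_of_pos (exp_pos _)]; exact (exp_bd hm (hu.2 _)).2)

theorem int_bd {B m : ℝ} (hm : 0 ≤ m) {u : ℝ → ℝ} (hu : BM B u) (x c : ℝ) :
    exp (-(m * B)) ≤ ∫ z, exp (m * u (x + c * z)) ∂gaussianReal 0 1 ∧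
      ∫ z, exp (m * u (x + c * z)) ∂gaussianReal 0 1 ≤ exp (m * B) := by
  constructor
  · have := integral_mono (integrable_const (exp (-(m * B)))) (int_exp hm hu x c)
      (fun z => (exp_bd hm (hu.2 _)).1)
    simpa using this
  · have := integral_mono (int_exp hm hu x c) (integrable_const (exp (m * B)))
      (fun z => (exp_bd hm (hu.2 _)).2)
    simpa using this

theorem step_bm {B m : ℝ} (hm : 0 < m) {u : ℝ → ℝ} (hu : BM B u) (c : ℝ) :
    BM B (fun x => m⁻¹ * log (∫ z, exp (m * u (x + c * z)) ∂gaussianReal 0 1)) := by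
  refine ⟨?_, fun x => ?_⟩
  · have h1 : Measurable fun t => exp (m * u t) := by have := hu.1; fun_prop
    exact ((meas_int h1 c _).log).const_mul _
  · obtain ⟨h1, h2⟩ := int_bd hm.le hu x c
    have h3 := log_le_log (exp_pos _) h1
    have h4 := log_le_log ((exp_pos _).trans_le h1) h2
    rw [log_exp] at h3 h4
    rw [abs_le, le_inv_mul_iff₀ hm, inv_mul_le_iff₀ hm]
    constructor <;> linarith

theorem mpos {n d : ℕ} (hd : d < n) : 0 < 1 - (d : ℝ) / n := by
  have hn : (0 : ℝ) < n := by exact_mod_cast (show 0 < n by omega)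
  rw [sub_pos, div_lt_one hn]; exact_mod_cast hd

theorem casc_bm {B : ℝ} {n : ℕ} (q : ℕ → ℝ) {f : ℝ → ℝ} (hf : BM B f) (d : ℕ) (hd : d ≤ n) :
    BM B (casc n q f d) := by
  induction d with
  | zero => exact hf
  | succ d ih => exact step_bm (mpos hd) (ih (by omega)) _

theorem semi {K : ℝ} {h : ℝ → ℝ} (hh : BM K h) {s v : ℝ} (hs : 0 ≤ s) (hv : 0 ≤ v) (x : ℝ) :
    ∫ z, (∫ w, h (x + √s * z + w) ∂gaussianReal 0 v.toNNReal) ∂gaussianReal 0 1 =
      ∫ w, h (x + w) ∂gaussianReal 0 (s + v).toNNReal := by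
  have e1 : (gaussianReal 0 1).map (√s * ·) = gaussianReal 0 s.toNNReal := by
    rw [gaussianReal_map_const_mul, mul_zero, mul_one]
    congr 1
    ext
    simp [sq_sqrt hs, hs]
  have e2 : gaussianReal 0 (s + v).toNNReal =
      gaussianReal 0 s.toNNReal ∗ gaussianReal 0 v.toNNReal := by
    rw [gaussianReal_conv_gaussianReal, add_zero, toNNReal_add hs hv]
  have hm := hh.1
  rw [e2, integral_conv (intg (by fun_prop) K (fun w => hh.2 _)), ← e1, integral_map (by fun_prop)]
  · simp only [add_assoc]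
  · have := meas_int (u := fun t => h (x + t)) (by fun_prop) 1 (gaussianReal 0 v.toNNReal)
    simp only [one_mul] at this
    exact this.aestronglyMeasurable

theorem cvx {m t : ℝ} (h0 : 0 ≤ m) (h1 : m ≤ 1) : exp (m * t) ≤ 1 - m + m * exp t := by
  have := convexOn_exp.2 (Set.mem_univ 0) (Set.mem_univ t) (sub_nonneg.2 h1) h0 (by ring)
  simpa using this

theorem step {B K m μ : ℝ} (hm : 0 < m) (hmμ : m ≤ μ) (hμ : μ ≤ 1) {X Y S : ℝ → ℝ} (hX : BM B X)
    (hY : BM B Y) (hS : BM K S) (hS0 : ∀ x, 0 ≤ S x)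
    (h : ∀ x, exp (Y x - X x) ≤ 1 + exp ((1 - μ) * B - μ * X x) * S x) (x c : ℝ) :
    exp (m⁻¹ * log (∫ z, exp (m * Y (x + c * z)) ∂gaussianReal 0 1) -
        m⁻¹ * log (∫ z, exp (m * X (x + c * z)) ∂gaussianReal 0 1)) ≤
      1 + exp ((1 - m) * B - m * (m⁻¹ * log (∫ z, exp (m * X (x + c * z)) ∂gaussianReal 0 1))) *
        ∫ z, S (x + c * z) ∂gaussianReal 0 1 := by
  set a := ∫ z, exp (m * X (x + c * z)) ∂gaussianReal 0 1 with ha
  set b := ∫ z, exp (m * Y (x + c * z)) ∂gaussianReal 0 1 with hb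
  set T := ∫ z, S (x + c * z) ∂gaussianReal 0 1 with hT
  have a0 : 0 < a := (exp_pos _).trans_le (int_bd hm.le hX x c).1
  have b0 : 0 < b := (exp_pos _).trans_le (int_bd hm.le hY x c).1
  have T0 : 0 ≤ T := integral_nonneg (fun z => hS0 _)
  have e1 : exp ((1 - m) * B - m * (m⁻¹ * log a)) = exp ((1 - m) * B) / a := by
    rw [← mul_assoc, mul_inv_cancel₀ hm.ne', one_mul, exp_sub, exp_log a0]
  rw [e1]
  set E := exp ((1 - m) * B) with hE
  have E0 : 0 < E := exp_pos _
  set c0 := 1 + E / a * T with hc0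
  have c00 : 0 < c0 := by positivity
  have hpt : ∀ w, exp (m * Y w) ≤ exp (m * log c0) *
      ((1 - m + m / c0) * exp (m * X w) + m / c0 * E * S w) := by
    intro w
    have h1 : exp (m * Y w) = exp (m * log c0) * exp (m * X w) *
        exp (m * (Y w - X w - log c0)) := by rw [← exp_add, ← exp_add]; congr 1; ring
    have h2 := cvx (t := Y w - X w - log c0) hm.le (hmμ.trans hμ)
    rw [exp_sub _ (log c0), exp_log c00] at h2
    have h3 : exp (m * X w) * exp ((1 - μ) * B - μ * X w) ≤ E := by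
      rw [← exp_add]
      refine exp_le_exp.2 ?_
      have := (abs_le.1 (hX.2 w)).1
      nlinarith
    have h4 : exp (m * X w) * exp (Y w - X w) ≤ exp (m * X w) + E * S w := by
      have h5 := mul_le_mul_of_nonneg_left (h w) (exp_pos (m * X w)).le
      have h6 := mul_le_mul_of_nonneg_right h3 (hS0 w)
      nlinarith
    rw [h1, mul_assoc]
    refine mul_le_mul_of_nonneg_left ?_ (exp_pos _).le
    have h7 := mul_le_mul_of_nonneg_left h2 (exp_pos (m * X w)).le
    have h8 := mul_le_mul_of_nonneg_left h4 (show 0 ≤ m / c0 by positivity)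
    have h9 : exp (m * X w) * (1 - m + m * (exp (Y w - X w) / c0)) =
        (1 - m) * exp (m * X w) + m / c0 * (exp (m * X w) * exp (Y w - X w)) := by ring
    nlinarith
  have iS : Integrable (fun z => S (x + c * z)) (gaussianReal 0 1) :=
    intg (by have := hS.1; fun_prop) K (fun z => hS.2 _)
  have h1 : b ≤ exp (m * log c0) * ((1 - m + m / c0) * a + m / c0 * E * T) := by
    have := integral_mono (int_exp hm.le hY x c)
      (((((int_exp hm.le hX x c).const_mul (1 - m + m / c0))).add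
        (iS.const_mul (m / c0 * E))).const_mul (exp (m * log c0))) (fun z => hpt (x + c * z))
    rwa [integral_const_mul, integral_add' ((int_exp hm.le hX x c).const_mul _) (iS.const_mul _),
      integral_const_mul, integral_const_mul] at this
  have h2 : (1 - m + m / c0) * a + m / c0 * E * T = a := by
    have : E * T = (c0 - 1) * a := by rw [hc0]; field_simp; ring
    rw [mul_assoc, this]; field_simp; ring
  rw [h2] at h1
  have h3 := log_le_log b0 h1
  rw [log_mul (exp_pos _).ne' a0.ne', log_exp] at h3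
  rw [← exp_log c00]
  refine exp_le_exp.2 ?_
  rw [← mul_sub, inv_mul_le_iff₀ hm]
  linarith

theorem path_le {n : ℕ} {p : ℕ → ℝ} (hp : Path n p) (d : ℕ) (hd : d ≤ n) : p d ≤ p 0 := by
  induction d with
  | zero => exact le_rfl
  | succ d ih => exact (hp.1 d hd).trans (ih (by omega))

theorem ex_anti (n d : ℕ) : 1 - (d : ℝ) / n ≤ ex n d ∧ ex n d ≤ 1 := by
  cases d with
  | zero => simp [ex]
  | succ d =>
    have h0 : (0 : ℝ) ≤ d / n := by positivity
    have h1 : (d : ℝ) / n ≤ (d + 1 : ℕ) / n := by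
      gcongr; omega
    simp only [ex]
    constructor <;> linarith

theorem main {B K : ℝ} {n : ℕ} {p : ℕ → ℝ} (hp : Path n p) {f g h : ℝ → ℝ} (hf : BM B f)
    (hg : BM B g) (hh : BM K h) (h0 : ∀ x, 0 ≤ h x)
    (hfg : ∀ x, exp (g x - f x) ≤ 1 + exp (-f x) * h x) (d : ℕ) (hd : d ≤ n) (x : ℝ) :
    exp (casc n p g d x - casc n p f d x) ≤ 1 + exp ((1 - ex n d) * B - ex n d * casc n p f d x) *
      ∫ w, h (x + w) ∂gaussianReal 0 (p 0 - p d).toNNReal := by
  induction d generalizing x with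
  | zero => simpa [ex, casc] using hfg x
  | succ d ih =>
    have hd' : d ≤ n := by omega
    have hS : BM K (fun x => ∫ w, h (x + w) ∂gaussianReal 0 (p 0 - p d).toNNReal) := by
      refine ⟨by simpa using meas_int hh.1 1 (gaussianReal 0 (p 0 - p d).toNNReal), fun y => ?_⟩
      have := norm_integral_le_of_norm_le_const (μ := gaussianReal 0 (p 0 - p d).toNNReal)
        (f := fun w => h (y + w)) (C := K) (ae_of_all _ (fun w => hh.2 _))
      simpa using this
    have := step (mpos hd) (ex_anti n d).1 (ex_anti n d).2 (casc_bm p hf d hd')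
      (casc_bm p hg d hd') hS (fun y => integral_nonneg (fun w => h0 _)) (ih hd') x
      (√(p d - p (d + 1)))
    rw [semi hh (sub_nonneg.2 (hp.1 d hd)) (sub_nonneg.2 (path_le hp d hd')),
      show p d - p (d + 1) + (p 0 - p d) = p 0 - p (d + 1) by ring] at this
    exact this

theorem one {B : ℝ} {n : ℕ} {p : ℕ → ℝ} (hp : Path n p) (hp0 : p 0 = 1) (hn : 1 ≤ n)
    {f g : ℝ → ℝ} (hf : BM B f) (hg : BM B g) :
    Hf n g p - Hf n f p ≤ exp (2 * B) * ∫ z, |f z - g z| ∂gaussianReal 0 1 := by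
  have hm1 := hf.1
  have hm2 := hg.1
  have hh : BM (exp B * (2 * B)) (fun x => exp B * |f x - g x|) := by
    refine ⟨by fun_prop, fun x => ?_⟩
    rw [abs_mul, abs_abs, abs_of_pos (exp_pos _)]
    refine mul_le_mul_of_nonneg_left ?_ (exp_pos _).le
    exact (abs_sub _ _).trans (by linarith [hf.2 x, hg.2 x])
  have h1 := main hp hf hg hh (fun x => by positivity) (fun x => by
    have a1 := add_one_le_exp (f x - g x)
    have a2 : exp (g x - f x) * exp (f x - g x) = 1 := by rw [← exp_add]; simp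
    have a3 : exp (g x - f x) ≤ exp (-f x) * exp B := by
      rw [← exp_add]; exact exp_le_exp.2 (by linarith [(abs_le.1 (hg.2 x)).2])
    have a4 := exp_pos (g x - f x)
    have a5 : g x - f x ≤ |f x - g x| := by rw [abs_sub_comm]; exact le_abs_self _
    have a6 := mul_le_mul_of_nonneg_right a3 (abs_nonneg (f x - g x))
    nlinarith) n le_rfl 0
  rw [hp0, hp.2, sub_zero, toNNReal_one] at h1
  simp only [zero_add] at h1
  rw [integral_const_mul] at h1
  have h2 := add_one_le_exp (casc n p g n 0 - casc n p f n 0)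
  have h3 : exp ((1 - ex n n) * B - ex n n * casc n p f n 0) ≤ exp B := by
    refine exp_le_exp.2 ?_
    have b1 := (abs_le.1 ((casc_bm p hf n le_rfl).2 0)).1
    have b2 : 0 ≤ ex n n := by
      obtain ⟨j, rfl⟩ : ∃ j, n = j + 1 := ⟨n - 1, by omega⟩
      exact (mpos (Nat.lt_succ_self j)).le
    nlinarith
  have h4 : 0 ≤ exp B * ∫ z, |f z - g z| ∂gaussianReal 0 1 :=
    mul_nonneg (exp_pos _).le (integral_nonneg (fun z => abs_nonneg _))
  have h5 := mul_le_mul_of_nonneg_right h3 h4
  rw [two_mul, exp_add, mul_assoc]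
  unfold Hf
  linarith

end Smh

theorem smhStmt : SmhStmt := by
  intro B
  refine ⟨exp (2 * B), (exp_pos _).le, fun n f g p hn hf hg hfB hgB hp hp0 => ?_⟩
  have h1 := Smh.one hp hp0 hn ⟨hf, hfB⟩ ⟨hg, hgB⟩
  have h2 := Smh.one hp hp0 hn ⟨hg, hgB⟩ ⟨hf, hfB⟩
  simp only [abs_sub_comm (g _)] at h2
  rw [abs_le]
  constructor <;> linarith

end

end Vale.Agent.P157
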