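import Vale.Agent.P157.Stm

/-! P157, module Spin: the one-spin cavity lower bound. -/

namespace Vale.Agent.P157

open Finset Real

noncomputable section

namespace Spin

theorem lvar_eq (l : Multiset (ℕ × ℝ)) (d : ℕ) :
    lvar l d = (l.map (fun s => if s.1 = d then s.2 ^ 2 else 0)).sum := by
  induction l using Multiset.induction_on with
  | empty => simp [lvar]
  | cons s l ih =>
    unfold lvar at ih ⊢
    by_cases h : s.1 = d
    · rw [Multiset.filter_cons_of_pos (p := fun s : ℕ × ℝ => s.1 = d) _ h]; simp [h, ih]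
    · rw [Multiset.filter_cons_of_neg (p := fun s : ℕ × ℝ => s.1 = d) _ h]; simp [h, ih]

theorem lvar_ys (n : ℕ) (y : ℕ → ℝ) {d : ℕ} (hd : d < n) : lvar (ys n y) d = y d ^ 2 := by
  rw [lvar_eq, ys, Multiset.map_map]
  change ∑ κ ∈ range n, (if κ = d then y κ ^ 2 else 0) = _
  rw [sum_ite_eq' (range n) d (fun κ => y κ ^ 2), if_pos (mem_range.2 hd)]

theorem lvar_one (κ d : ℕ) (c : ℝ) :
    lvar ({(κ, c)} : Multiset (ℕ × ℝ)) d = if κ = d then c ^ 2 else 0 := by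
  rw [lvar_eq]; simp

theorem path_nonneg {n : ℕ} {q : ℕ → ℝ} (h : Path n q) : 0 ≤ q 0 := by
  have : ∀ k, k ≤ n → q k ≤ q 0 := by
    intro k
    induction k with
    | zero => intro _; exact le_rfl
    | succ k ih => intro hk; exact (h.1 k (by omega)).trans (ih (by omega))
  have := this n le_rfl
  rw [h.2] at this; exact this

theorem fld_insert {I ι : Type} [Fintype I] [DecidableEq I] [Fintype ι] [DecidableEq ι]
    (A : Finset I) {τ : I} (h : τ ∉ A) (l : Multiset (ℕ × ℝ)) :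
    fld ι (insert τ A) l = fld ι A l + lift none (sp τ) l := by
  unfold fld
  rw [insert_val_of_notMem h, Multiset.cons_bind, add_comm]

theorem lift_add {O S : Type} (o : O) (w : S → ℝ) (l l' : Multiset (ℕ × ℝ)) :
    lift o w (l + l') = lift o w l + lift o w l' := Multiset.map_add _ _ _

theorem sp_sq {I : Type} (i : I) (σ : I → Bool) : sp i σ ^ 2 = 1 := by
  unfold sp spin; split_ifs <;> norm_num

theorem ip_smul (n : ℕ) (P W : ℕ → ℝ) (γ : ℝ) : ip n P (fun d => γ * W d) = γ * ip n P W := by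
  unfold ip
  rw [mul_left_comm, mul_sum _ _ γ]
  congr 1
  exact sum_congr rfl (fun d _ => by ring)

/-- the variational upper bound for `Vn` -/
theorem vn_le (hA : AApi) (hl : HlStmt) (hb : BddStmt) {B α τ0 : ℝ} {n : ℕ} {f f1 f2 : ℝ → ℝ}
    {P pv q : ℕ → ℝ} (hB : 1 ≤ B) (hα : 0 < α) (hn : 1 ≤ n) (hf : Sm B f f1 f2)
    (hfB : ∀ t, |f t| ≤ B) (hP : Path n P) (hP0 : P 0 = 1) (hpv : Path n pv) (hpv0 : pv 0 = 1)
    (hq : Path n q) (hmax : ∀ q', Path n q' → psi n q' + ip n pv q' ≤ psi n q + ip n pv q)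
    (hτ : 0 ≤ τ0) (hh : ∀ κ, κ < n → |(1 / (n : ℝ)) * ∑ d ∈ Icc 1 κ, (pv d - P d)| ≤ τ0) :
    Vn n α f - α * Hf n f P ≤ psi n q + ip n P q + (α * B ^ 2 + q 0 / 2) * τ0 := by
  have hn' : (0 : ℝ) < n := by exact_mod_cast hn
  have hm : Measurable f := by
    have : LipschitzWith (Real.toNNReal B) f := LipschitzWith.of_dist_le_mul (fun a b => by
      have := (hf.d0 b (a - b)).1
      rw [add_sub_cancel] at this
      rw [Real.dist_eq, Real.dist_eq, Real.coe_toNNReal _ (by linarith)]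
      exact this)
    exact this.continuous.measurable
  have hbb : BddBelow (valSet n α f) := by
    refine ⟨-(α * B), fun t ⟨p, hp, hp0, ht⟩ => ?_⟩
    obtain ⟨-, h1, -, h2⟩ := hb n p hn hp hp0
    have := (abs_le.1 (h2 f B hm hfB)).1
    rw [ht]; nlinarith
  have h1 : Vn n α f ≤ α * Hf n f pv + sSup (dualSet n pv) := csInf_le hbb ⟨pv, hpv, hpv0, rfl⟩
  have h2 : sSup (dualSet n pv) ≤ psi n q + ip n pv q :=
    csSup_le ⟨_, q, hq, rfl⟩ (fun t ⟨q', hq', ht⟩ => ht ▸ hmax q' hq')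
  have h3 := abs_le.1 (hl B n f f1 f2 pv P τ0 hB hn hf hpv hP hpv0 hP0 hτ hh)
  have h4 := hA.abel n q (fun d => pv d - P d) (n * τ0) hq (by positivity) (fun κ hκ => by
    have := hh κ hκ
    rw [abs_mul, abs_of_pos (by positivity), one_div, inv_mul_le_iff₀ hn'] at this
    exact this)
  have h5 : ip n pv q - ip n P q = (1 / (2 * (n : ℝ))) * ∑ d ∈ Ico 1 n, q d * (pv d - P d) := by
    unfold ip
    rw [← mul_sub, ← sum_sub_distrib]
    congr 1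
    exact sum_congr rfl (fun d _ => by ring)
  have h6 : ip n pv q - ip n P q ≤ q 0 / 2 * τ0 := by
    rw [h5]
    calc _ ≤ (1 / (2 * (n : ℝ))) * (q 0 * (n * τ0)) :=
          mul_le_mul_of_nonneg_left (abs_le.1 h4).2 (by positivity)
      _ = _ := by field_simp
  have h7 := mul_le_mul_of_nonneg_left h3.2 hα.le
  nlinarith

section
variable {I ι : Type} [Fintype I] [DecidableEq I] [Fintype ι] [DecidableEq ι]

/-- second order effect of `K` extra field steps at one site -/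
theorem extra (hA : AApi) (hC : CApi) (hG : GApi) {B CM : ℝ} (hB : 1 ≤ B)
    (hM : ∀ (n : ℕ) (g g1 g2 : Option ι → ℝ → ℝ) (L L' : Sy ι I), 1 ≤ n →
      (∀ o, Sm B (g o) (g1 o) (g2 o)) → Small n B L' → vr L' ≤ 1 →
      |TT n g (L + L') - TT n g L - (L'.map (Gam n g g1 g2 L)).sum| ≤ CM * (vr L' * √(vr L')))
    {n : ℕ} {f f1 f2 : ℝ → ℝ} (hn : 1 ≤ n) (hf : Sm B f f1 f2) (L : Sy ι I) (τ : I) {κ K : ℕ}
    {c θ : ℝ} (hκ : κ < n) (hc : B * |c| ≤ 1) (hθ : K * c ^ 2 = θ) (hθ1 : θ ≤ 1) :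
    |TT n (gg ι f) (L + lift none (sp τ) (K • ({(κ, c)} : Multiset (ℕ × ℝ)))) - TT n (gg ι f) L -
      θ * (1 - (1 / (n : ℝ)) * ∑ d ∈ Icc 1 κ,
        EE n (gg ι f) L d (fun ω ω' => sp τ ω.2 * sp τ ω'.2)) / 2| ≤ CM * (θ * √θ) := by
  have hv : vr (lift (none : Option ι) (sp τ) (K • ({(κ, c)} : Multiset (ℕ × ℝ)))) = θ := by
    rw [(hG.lift_vr _ _ _ (sp_sq τ)).1]; simp [Multiset.map_nsmul, Multiset.sum_nsmul, hθ]
  have hs : Small n B (lift (none : Option ι) (sp τ) (K • ({(κ, c)} : Multiset (ℕ × ℝ)))) :=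
    hG.lift_small n B _ _ _ (sp_sq τ) (fun s hs => by
      have := Multiset.mem_singleton.1 (Multiset.mem_of_mem_nsmul hs)
      subst this; exact ⟨hκ, hc⟩)
  have h1 := hM n _ _ _ L _ hn (hC.smg ι B f f1 f2 hB hf) hs (by rw [hv]; exact hθ1)
  rw [hv] at h1
  have e1 : E1 n (gg ι f) L (ob (fun t => gg2 ι f2 none t + gg1 ι f1 none t ^ 2) none
      (fun _ => 1)) = 1 := by
    have : (ob (fun t => gg2 ι f2 none t + gg1 ι f1 none t ^ 2) none (fun _ => 1) :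
        Om (Option ι) (I → Bool) → ℝ) = fun _ => 1 := by
      ext ω; simp [ob, gg1, gg2]
    rw [this]
    exact hA.const (hA.ce (hC.ok n L hn) _ 0 (n + 1) le_rfl) 1 _
  have e2 : ((lift (none : Option ι) (sp τ) (K • ({(κ, c)} : Multiset (ℕ × ℝ)))).map
      (Gam n (gg ι f) (gg1 ι f1) (gg2 ι f2) L)).sum = θ * (1 - (1 / (n : ℝ)) * ∑ d ∈ Icc 1 κ,
        EE n (gg ι f) L d (fun ω ω' => sp τ ω.2 * sp τ ω'.2)) / 2 := by
    unfold lift
    rw [Multiset.map_nsmul, Multiset.map_nsmul, Multiset.sum_nsmul, Multiset.map_singleton,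
      Multiset.map_singleton, Multiset.sum_singleton, hG.gam_one n _ _ _ L none (sp τ) κ c (sp_sq τ),
      e1, nsmul_eq_mul, ← hθ]
    simp only [ob, gg1, Option.elim, one_mul]
    ring
  rw [e2] at h1
  exact h1

theorem head_r (hA : AApi) (hC : CApi) (hG : GApi) {n : ℕ} {f : ℝ → ℝ} (hn : 1 ≤ n) (L : Sy ι I)
    (A : Finset I) (P : ℕ → ℝ) {e : ℝ} (h : Conc n f L A P e) {κ : ℕ} (hκ : κ < n) :
    |(1 / (n : ℝ)) * ∑ d ∈ Icc 1 κ, (EE n (gg ι f) L d (fun ω ω' => Rr A ω.2 ω'.2) - P d)| ≤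
      √e := by
  have h1 := hG.conc_abs n f L A P e 1 (fun _ _ _ => 1) hn h (fun _ _ _ => by simp)
  rw [one_mul] at h1
  refine le_trans ?_ h1
  rw [abs_mul, abs_of_nonneg (by positivity)]
  refine mul_le_mul_of_nonneg_left ((abs_sum_le_sum_abs _ _).trans ?_) (by positivity)
  refine le_trans (le_of_eq (sum_congr rfl (fun d hd => ?_)))
    (sum_le_sum_of_subset_of_nonneg (s := Icc 1 κ) (fun d hd => ?_) (fun _ _ _ => abs_nonneg _))
  · have hd' := (mem_Icc.1 hd).2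
    have : EE n (gg ι f) L d (fun _ _ => 1) = 1 :=
      hA.e2const (hC.ok n L hn) _ (d + 1) (by omega) 1 _
    rw [this]; simp only [one_mul, mul_one]
  · have := mem_Icc.1 hd
    exact mem_Ico.2 ⟨this.1, by omega⟩

theorem head_pv (hA : AApi) (hC : CApi) (hG : GApi) {B CM Cc s τ0 ε' ηG Q T0 : ℝ} (hB : 1 ≤ B)
    (hM : ∀ (n : ℕ) (g g1 g2 : Option ι → ℝ → ℝ) (L L' : Sy ι I), 1 ≤ n →
      (∀ o, Sm B (g o) (g1 o) (g2 o)) → Small n B L' → vr L' ≤ 1 →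
      |TT n g (L + L') - TT n g L - (L'.map (Gam n g g1 g2 L)).sum| ≤ CM * (vr L' * √(vr L')))
    {n : ℕ} {f f1 f2 : ℝ → ℝ} (hn : 1 ≤ n) (hf : Sm B f f1 f2) (L : Sy ι I) (τ : I)
    {q pv : ℕ → ℝ} (F : Multiset (ℕ × ℝ) → ℝ) (hq : Path n q) (hqQ : q 0 + 1 ≤ Q)
    (hsp : 0 < s) (hs1 : s ≤ 1) (hηG : 0 < ηG) (hsC : 6 * (|Cc| + CM) * s ≤ τ0)
    (hε2 : ε' ≤ s ^ 2 * τ0 / 24)
    (hsc : ∀ x, |TT n (gg ι f) (L + lift none (sp τ) x) - F x - T0| ≤ ε')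
    (g2 : ∀ (x : Multiset (ℕ × ℝ)) (q' : ℕ → ℝ), Path n q' → q' 0 ≤ Q → (∀ s ∈ x, |s.2| ≤ ηG) →
      (∀ d, d < n → q' d - q' (d + 1) = lvar x d + (q d - q (d + 1))) →
      |F x - q' 0 / 2 - psi n q'| ≤ ε')
    (hder : ∀ (κ : ℕ) (θ : ℝ), κ < n → 0 ≤ θ → θ ≤ 1 →
      |psi n (fun d => q d + if d ≤ κ then θ else 0) - psi n q +
        θ / (2 * n) * ∑ d ∈ Icc 1 κ, pv d| ≤ Cc * (θ * √θ)) {κ : ℕ} (hκ : κ < n) :
    |(1 / (n : ℝ)) * ∑ d ∈ Icc 1 κ, pv d - (1 / (n : ℝ)) * ∑ d ∈ Icc 1 κ,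
      EE n (gg ι f) L d (fun ω ω' => sp τ ω.2 * sp τ ω'.2)| ≤ 2 * τ0 / 3 := by
  have a0 := hsc 0
  rw [show lift (none : Option ι) (sp τ) 0 = (0 : Sy ι I) from rfl, add_zero L] at a0
  have b0 := g2 0 _ hq (by linarith) (by simp) (fun d _ => by simp [lvar])
  have hmp : 0 < min ηG (1 / B) := lt_min hηG (by positivity)
  obtain ⟨K, hK⟩ := exists_nat_gt (s ^ 2 / (min ηG (1 / B)) ^ 2)
  have hKp : (0 : ℝ) < K := lt_trans (by positivity) hK
  obtain ⟨c', hKc, hc'm⟩ : ∃ c' : ℝ, (K : ℝ) * c' ^ 2 = s ^ 2 ∧ |c'| ≤ min ηG (1 / B) := by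
    refine ⟨√(s ^ 2 / K), by rw [sq_sqrt (by positivity)]; field_simp, ?_⟩
    rw [abs_of_nonneg (sqrt_nonneg _)]
    refine sqrt_le_iff.2 ⟨hmp.le, ?_⟩
    rw [div_lt_iff₀ (by positivity)] at hK
    rw [div_le_iff₀ hKp]; linarith
  have hs21 : s ^ 2 ≤ 1 := by nlinarith
  have a1 := hsc (K • ({(κ, c')} : Multiset (ℕ × ℝ)))
  have b1 := g2 (K • ({(κ, c')} : Multiset (ℕ × ℝ))) (fun d => q d + if d ≤ κ then s ^ 2 else 0)
    ⟨fun d hd => by
      have := hq.1 d hd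
      have h0 := sq_nonneg s
      simp only
      split_ifs <;> first | linarith | omega, by simp [hq.2]; omega⟩
    (by simp only [Nat.zero_le, if_true]; linarith)
    (fun t ht => by
      have := Multiset.mem_singleton.1 (Multiset.mem_of_mem_nsmul ht)
      subst this; exact hc'm.trans (min_le_left _ _))
    (fun d hd => by
      rw [(hG.lvar_add _ 0 _ d).2, lvar_one]
      split_ifs <;> first | omega | linarith)
  have c1 := hder κ (s ^ 2) hκ (sq_nonneg s) hs21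
  have d1 := extra hA hC hG hB hM hn hf L τ hκ
    (by have := hc'm.trans (min_le_right _ _); rw [le_div_iff₀ (by linarith)] at this; linarith)
    hKc hs21
  rw [sqrt_sq hsp.le] at c1 d1
  simp only [Nat.zero_le, if_true] at b1
  rw [show s ^ 2 / (2 * n) * ∑ d ∈ Icc 1 κ, pv d =
    s ^ 2 * ((1 / (n : ℝ)) * ∑ d ∈ Icc 1 κ, pv d) / 2 by ring] at c1
  generalize (1 / (n : ℝ)) * ∑ d ∈ Icc 1 κ, pv d = X at *
  generalize (1 / (n : ℝ)) * ∑ d ∈ Icc 1 κ,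
    EE n (gg ι f) L d (fun ω ω' => sp τ ω.2 * sp τ ω'.2) = Y at *
  have hXY : s ^ 2 * |X - Y| ≤ s ^ 2 * (2 * τ0 / 3) := by
    have h3 : Cc * (s ^ 2 * s) ≤ |Cc| * (s ^ 2 * s) :=
      mul_le_mul_of_nonneg_right (le_abs_self _) (by positivity)
    have h4 := mul_le_mul_of_nonneg_left hsC (sq_nonneg s)
    rw [← abs_of_nonneg (sq_nonneg s), ← abs_mul, abs_of_nonneg (sq_nonneg s)]
    have := abs_le.1 a0; have := abs_le.1 a1; have := abs_le.1 b0; have := abs_le.1 b1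
    have := abs_le.1 c1; have := abs_le.1 d1
    refine abs_le.2 ⟨by linarith, by linarith⟩
  exact le_of_mul_le_mul_left hXY (by positivity)

end

theorem g2lem (hG : GApi) {n k : ℕ} {W y : ℕ → ℝ} {c2 γ B Q ηG ε' η : ℝ} (hW : Path n W)
    (hW0 : W 0 ≤ B ^ 2) (hc2 : 0 ≤ c2) (hcη : c2 ≤ η) (hη5 : η * B ^ 2 ≤ ηG ^ 2) (hηG : 0 < ηG)
    (hk : k * c2 = γ) (hyη : ∀ κ, κ < n → |y κ| ≤ η) (hη3 : η ≤ ηG) (hη4 : η ≤ 1)
    (h2 : ∀ (q : ℕ → ℝ) (l : Multiset (ℕ × ℝ)), Path n q → q 0 ≤ Q → (∀ s ∈ l, |s.2| ≤ ηG) →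
      (∀ d, d < n → |lvar l d - (q d - q (d + 1))| ≤ ηG) → |PD n l - q 0 / 2 - psi n q| ≤ ε')
    (x : Multiset (ℕ × ℝ)) (q' : ℕ → ℝ) (hq' : Path n q') (hq0' : q' 0 ≤ Q)
    (hx : ∀ s ∈ x, |s.2| ≤ ηG)
    (hd : ∀ d, d < n → q' d - q' (d + 1) = lvar x d + (γ * W d - γ * W (d + 1))) :
    |PD n (ys n y + x + k • sprof n W c2) - q' 0 / 2 - psi n q'| ≤ ε' := by
  have hW00 := path_nonneg hW
  obtain ⟨-, hv1, hv2⟩ := hG.sprof_var n W c2 hW hc2
  refine h2 q' _ hq' hq0' (fun s hs => ?_) (fun d hd' => ?_)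
  · rcases Multiset.mem_add.1 hs with hs | hs
    · rcases Multiset.mem_add.1 hs with hs | hs
      · obtain ⟨κ, hκ, rfl⟩ := Multiset.mem_map.1 hs
        exact (hyη κ (mem_range.1 hκ)).trans hη3
      · exact hx s hs
    · refine (hv2 s (Multiset.mem_of_mem_nsmul hs)).2.trans (sqrt_le_iff.2 ⟨hηG.le, ?_⟩)
      have := mul_le_mul hcη hW0 hW00 (hc2.trans hcη)
      linarith
  · rw [(hG.lvar_add _ _ 0 d).1, (hG.lvar_add _ _ 0 d).1, (hG.lvar_add _ 0 _ d).2, hv1 d hd',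
      lvar_ys n y hd', hd d hd', ← hk]
    have h1 := hyη d hd'
    have : y d ^ 2 ≤ ηG := by
      rw [← sq_abs]; nlinarith [abs_nonneg (y d)]
    rw [show y d ^ 2 + lvar x d + k * (c2 * (W d - W (d + 1))) -
      (lvar x d + (k * c2 * W d - k * c2 * W (d + 1))) = y d ^ 2 by ring, abs_of_nonneg (sq_nonneg _)]
    exact this

theorem par {B j c η : ℝ} (hB : 1 ≤ B) (hj : 1 ≤ j) (h1 : j * c ^ 2 ≤ η) (h2 : η ≤ 1 / B ^ 2) :
    B * |c| ≤ 1 := by
  have h1 : c ^ 2 ≤ 1 / B ^ 2 := by nlinarith [sq_nonneg c]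
  rw [le_div_iff₀ (by positivity)] at h1
  have : (B * |c|) ^ 2 ≤ 1 := by rw [mul_pow, sq_abs]; linarith
  nlinarith [abs_nonneg c]

theorem par2 {C2 e0 j t : ℝ} (hC2 : 1 ≤ C2) (hj : 1 ≤ j) (h1 : 1 ≤ e0 * j)
    (h2 : e0 ≤ t / (2 * C2)) : C2 * (e0 + 1 / j) ≤ t := by
  have h3 : 1 / j ≤ e0 := by rw [div_le_iff₀ (by linarith)]; exact h1
  rw [le_div_iff₀ (by positivity)] at h2
  nlinarith

end Spin

open Spin in
theorem spinStmt (hA : AApi) (hC : CApi) (hG : GApi) (hM : MsStmt) (hs : ScStmt) (hs2 : Sc2Stmt)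
    (hy : SymStmt) (h2 : G2Stmt) (hc : ConcStmt) (hl : HlStmt) (hb : BddStmt) : SpinStmt := by
  intro B β α ε hB hβ hα hε
  obtain ⟨CM, hCM, hM⟩ := hM B hB
  obtain ⟨Cc, hc⟩ := hc
  obtain ⟨C2, hC2, hs2⟩ := hs2 B β hB hβ
  obtain ⟨τ0, hτp, hτ0⟩ : ∃ τ0 : ℝ, 0 < τ0 ∧ (α * B ^ 2 + β * B ^ 2 / 2) * τ0 = ε / 2 :=
    ⟨ε / (2 * (α * B ^ 2 + β * B ^ 2 / 2)), by positivity, by field_simp⟩
  obtain ⟨s, hsp, hs1, hsC⟩ : ∃ s : ℝ, 0 < s ∧ s ≤ 1 ∧ 6 * (|Cc| + CM) * s ≤ τ0 := by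
    have hp : 0 < |Cc| + CM + 1 := by positivity
    refine ⟨min 1 (τ0 / (6 * (|Cc| + CM + 1))), lt_min one_pos (by positivity), min_le_left _ _, ?_⟩
    have h1 : min 1 (τ0 / (6 * (|Cc| + CM + 1))) ≤ τ0 / (6 * (|Cc| + CM + 1)) := min_le_right _ _
    have h0 : 0 < min 1 (τ0 / (6 * (|Cc| + CM + 1))) := lt_min one_pos (by positivity)
    rw [le_div_iff₀ (by positivity)] at h1; linarith
  obtain ⟨ε', hε'p, hε1, hε2⟩ : ∃ ε' : ℝ, 0 < ε' ∧ ε' ≤ ε / 4 ∧ ε' ≤ s ^ 2 * τ0 / 24 :=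
    ⟨min (ε / 4) (s ^ 2 * τ0 / 24), lt_min (by positivity) (by positivity), min_le_left _ _,
      min_le_right _ _⟩
  obtain ⟨es, hes, hs⟩ := hs B β ε' hB hβ hε'p
  obtain ⟨e0, he0, he1, he2⟩ : ∃ e0 : ℝ, 0 < e0 ∧ e0 ≤ es ∧ e0 ≤ (τ0 / 3) ^ 2 / (2 * C2) :=
    ⟨min es ((τ0 / 3) ^ 2 / (2 * C2)), lt_min hes (by positivity), min_le_left _ _,
      min_le_right _ _⟩
  refine ⟨e0, he0, fun n hn => ?_⟩
  obtain ⟨ηG, hηG, h2⟩ := h2 n 1 (β * B ^ 2 + 1) ε' hn hε'p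
  obtain ⟨η, hη0, hη1, hη2, hη3, hη4, hη5⟩ : ∃ η : ℝ, 0 < η ∧ η ≤ es ∧ η ≤ 1 / B ^ 2 ∧ η ≤ ηG ∧
      η ≤ 1 ∧ η * B ^ 2 ≤ ηG ^ 2 :=
    ⟨min (min es (1 / B ^ 2)) (min (min ηG 1) (ηG ^ 2 / B ^ 2)),
      lt_min (lt_min hes (by positivity)) (lt_min (lt_min hηG one_pos) (by positivity)),
      (min_le_left _ _).trans (min_le_left _ _), (min_le_left _ _).trans (min_le_right _ _),
      (min_le_right _ _).trans ((min_le_left _ _).trans (min_le_left _ _)),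
      (min_le_right _ _).trans ((min_le_left _ _).trans (min_le_right _ _)),
      (le_div_iff₀ (by positivity)).1 ((min_le_right _ _).trans (min_le_right _ _))⟩
  refine ⟨η, hη0, ?_⟩
  intro I ι _ _ _ _ f f1 f2 A J τ R c y P hf hfB hτ hA1 hJ hR hcη hyη hP hP0 hConc
  have hj0 : (0 : ℝ) ≤ A.card := Nat.cast_nonneg _
  have hAne : A.Nonempty := by
    rw [← card_pos]; by_contra h0
    have : A.card = 0 := by omega
    rw [this] at hA1; norm_num at hA1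
  have hj1 : (1 : ℝ) ≤ A.card := by exact_mod_cast card_pos.2 hAne
  have hcB : B * |c| ≤ 1 := par hB hj1 hcη hη2
  obtain ⟨W, hW, hW0, hsc⟩ := hs I ι n f f1 f2 A J τ R c (ys n y) P hn hf hfB hτ
    (hA1.trans (mul_le_mul_of_nonneg_right he1 hj0)) hJ hR (hcη.trans hη1) hP hP0
    (le_trans hConc he1)
  have hcon0 := hs2 I ι n f f1 f2 A J τ R c e0 (ys n y) (ys n y) P hn hf hτ hAne hJ hR hcB hConc
  have hsym := fun d hd => hy I ι n f (insert τ A) J (A.card * R) c (ys n y) τ d hn hd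
    (mem_insert_self _ _)
  obtain ⟨γ, hγ⟩ : ∃ γ : ℝ, γ = J.card / (A.card + 1) := ⟨_, rfl⟩
  have hγ0 : 0 ≤ γ := by rw [hγ]; positivity
  have hγβ : γ ≤ β := by rw [hγ, div_le_iff₀ (by positivity)]; linarith
  have hk : ((J.card * R : ℕ) : ℝ) * (A.card * c ^ 2) = γ := by
    rw [hγ, eq_div_iff (by positivity)]; push_cast
    linear_combination (J.card : ℝ) * hR
  rw [← hγ] at hsc
  have hq : Path n (fun d => γ * W d) :=
    ⟨fun d hd => mul_le_mul_of_nonneg_left (hW.1 d hd) hγ0, by simp [hW.2]⟩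
  have hq0 : γ * W 0 ≤ β * B ^ 2 := mul_le_mul hγβ hW0 (path_nonneg hW) hβ
  have g2 := g2lem hG hW hW0 (by positivity) hcη hη5 hηG hk hyη hη3 hη4
    (fun q l a b c d => (h2 q l a b c d).2)
  rw [add_assoc, ← fld_insert A hτ] at hcon0
  have eL : ∀ x, sys n (insert τ A) J (A.card * R) c + fld ι A (ys n y) +
      lift none (sp τ) (ys n y + x) = sys n (insert τ A) J (A.card * R) c +
      fld ι (insert τ A) (ys n y) + lift none (sp τ) x := fun x => by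
    rw [fld_insert A hτ, lift_add]; abel
  have hsc' := fun x => hsc (ys n y + x)
  simp only [eL] at hsc'
  clear hsc hs hs2 h2 eL
  generalize sys n (insert τ A) J (A.card * R) c + fld ι (insert τ A) (ys n y) = L1 at *
  generalize TT n (gg ι f) (sys n A J ((A.card + 1) * R) c + fld ι A (ys n y)) = T0 at *
  obtain ⟨pv, hpv, hpv0, hmax, hder⟩ := hc n _ hn hq
  have hcon : Conc n f L1 (insert τ A) P ((τ0 / 3) ^ 2) := le_trans hcon0 (par2 hC2 hj1 hA1 he2)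
  have hh : ∀ κ, κ < n → |(1 / (n : ℝ)) * ∑ d ∈ Icc 1 κ, (pv d - P d)| ≤ τ0 := by
    intro κ hκ
    have d1 := head_pv (T0 := T0 + γ * (ip n P W - W 0 / 2)) hA hC hG hB
      (fun n g g1 g2 L L' hn hg hsm hv => (hM _ _ n g g1 g2 L L' hn hg hsm).2 hv) hn hf L1 τ
      (fun x => PD n (ys n y + x + (J.card * R) • sprof n W (A.card * c ^ 2))) hq
      (by linarith) hsp hs1 hηG hsC hε2
      (fun x => by have := hsc' x; convert this using 2; ring) g2 hder hκ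
    rw [sum_congr rfl (fun d hd => hsym d (by have := (mem_Icc.1 hd).2; omega))] at d1
    have e1 := head_r hA hC hG hn L1 (insert τ A) P hcon hκ
    rw [sqrt_sq (by positivity)] at e1
    rw [sum_sub_distrib, mul_sub] at e1 ⊢
    have := abs_le.1 d1
    have := abs_le.1 e1
    refine abs_le.2 ⟨by linarith, by linarith⟩
  have fin := vn_le hA hl hb hB hα hn hf hfB hP hP0 hpv hpv0 hq hmax hτp.le hh
  rw [ip_smul] at fin
  have h7 : (α * B ^ 2 + γ * W 0 / 2) * τ0 ≤ ε / 2 :=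
    (mul_le_mul_of_nonneg_right (by linarith) hτp.le).trans hτ0.le
  have a0 := hsc' 0
  rw [show lift (none : Option ι) (sp τ) 0 = (0 : Sy ι I) from rfl, add_zero L1] at a0
  have b0 := g2 0 _ hq (by linarith) (by simp) (fun d _ => by simp [lvar])
  have := abs_le.1 a0; have := abs_le.1 b0
  linarith

end

end Vale.Agent.P157
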