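import Vale.Agent.P157.A

/-! Module St1: one step, second order. -/

namespace Vale.Agent.P157

open Finset Real

namespace St1

variable {Ω : Type}

/-- the chain on `Ω × Bool` that resamples the sign at level `k` -/
noncomputable def ext (P : ℕ → Op Ω) (k j : ℕ) : Op (Ω × Bool) where
  toFun G x := if j = k then (P j (fun ω => G (ω, true)) x.1 + P j (fun ω => G (ω, false)) x.1) / 2
    else P j (fun ω => G (ω, x.2)) x.1
  map_add' G H := by
    ext x
    simp only [Pi.add_apply, Aa.add']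
    split_ifs <;> ring
  map_smul' c G := by
    ext x
    simp only [Pi.smul_apply, smul_eq_mul, Aa.smul', RingHom.id_apply]
    split_ifs <;> ring

noncomputable def rs (k j : ℕ) : Op Bool where
  toFun G b := if j = k then (G true + G false) / 2 else G b
  map_add' G H := by
    ext x
    simp only [Pi.add_apply]
    split_ifs <;> ring
  map_smul' c G := by
    ext x
    simp only [Pi.smul_apply, smul_eq_mul, RingHom.id_apply]
    split_ifs <;> ring

theorem ext_apply (P : ℕ → Op Ω) (k j : ℕ) (G : Ω × Bool → ℝ) (x : Ω × Bool) : ext P k j G x =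
    if j = k then (P j (fun ω => G (ω, true)) x.1 + P j (fun ω => G (ω, false)) x.1) / 2
    else P j (fun ω => G (ω, x.2)) x.1 := rfl

theorem rs_apply (k j : ℕ) (G : Bool → ℝ) (b : Bool) :
    rs k j G b = if j = k then (G true + G false) / 2 else G b := rfl

variable {P : ℕ → Op Ω} {m : ℕ → ℝ} {t : ℕ}

theorem ext_ok (h : Ok P m t) (k : ℕ) : Ok (ext P k) m t := by
  refine ⟨fun j => ⟨fun G hG x => ?_, fun x => ?_⟩, h.pos, h.le1, h.anti⟩
  · rw [ext_apply]
    have := fun b => (h.mk' j).1 (fun ω => G (ω, b)) (fun ω => hG _) x.1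
    split_ifs
    · linarith [this true, this false]
    · exact this _
  · rw [ext_apply, (h.mk' j).2]
    split_ifs <;> norm_num

theorem rs_ok (h : Ok P m t) (k : ℕ) : Ok (rs k) m t := by
  refine ⟨fun j => ⟨fun G hG x => ?_, fun x => ?_⟩, h.pos, h.le1, h.anti⟩
  · rw [rs_apply]
    split_ifs
    · linarith [hG true, hG false]
    · exact hG _
  · rw [rs_apply]
    split_ifs <;> norm_num

theorem ext_prod (k j : ℕ) (g1 : Ω → ℝ) (g2 : Bool → ℝ) (x : Ω × Bool) :
    ext P k j (fun x => g1 x.1 * g2 x.2) x = P j g1 x.1 * rs k j g2 x.2 := by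
  simp only [ext_apply, rs_apply, mul_comm (g1 _), Aa.smul']
  split_ifs <;> ring

theorem rs_xx (k j : ℕ) : XX (rs k) m (fun _ => 0) j = fun _ => 0 := by
  induction j with
  | zero => rfl
  | succ j ih =>
    funext b
    simp [XX, ih, rs_apply]

theorem rs_ce (k j : ℕ) : Ce (rs k) m (fun _ => 0) 0 j spin =
    fun b => if j ≤ k then spin b else 0 := by
  induction j with
  | zero => funext b; simp [Ce]
  | succ j ih =>
    funext b
    rw [Aa.ce_succ _ (Nat.zero_le j), Aa.qq_apply, ih]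
    simp only [rs_xx, mul_zero, neg_zero, exp_zero, one_mul, rs_apply]
    split_ifs <;> first | rfl | omega | simp [spin]

/-- averages of functions that are almost products -/
theorem near (h : Ok P m t) (k : ℕ) (Z : Ω → ℝ) (a : ℕ) {b : ℕ} (hb : b ≤ t)
    {F : Ω × Bool → ℝ} {g1 : Ω → ℝ} {g2 : Bool → ℝ} {e : ℝ}
    (H : ∀ x, |F x - g1 x.1 * g2 x.2| ≤ e) (x : Ω × Bool) :
    |Ce (ext P k) m (fun x => Z x.1 + 0) a b F x -
      Ce P m Z a b g1 x.1 * Ce (rs k) m (fun _ => 0) a b g2 x.2| ≤ e := by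
  rw [← (aApi.prod h (rs_ok h k) Prod.fst Prod.snd (fun j _ => ext_prod k j) Z
    (fun _ => 0)).2.1 a b hb]
  have := aApi.abs_le (aApi.ce (ext_ok h k) (fun x => Z x.1 + 0) a b hb) H x
  rwa [show (fun x => F x - g1 x.1 * g2 x.2) = F - fun x => g1 x.1 * g2 x.2 from rfl,
    map_sub] at this

theorem near1 (h : Ok P m t) (k : ℕ) (Z : Ω → ℝ) (a : ℕ) {b : ℕ} (hb : b ≤ t)
    {F : Ω × Bool → ℝ} {g1 : Ω → ℝ} {e : ℝ} (H : ∀ x, |F x - g1 x.1| ≤ e) (x : Ω × Bool) :
    |Ce (ext P k) m (fun x => Z x.1 + 0) a b F x - Ce P m Z a b g1 x.1| ≤ e := by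
  have := near h k Z a hb (g1 := g1) (g2 := fun _ => 1) (by simpa using H) x
  rwa [(aApi.ce (rs_ok h k) _ a b hb).2, mul_one] at this

variable {O S : Type} [Fintype O] [DecidableEq O] [Fintype S] [Inhabited S]

omit [Fintype O] [Inhabited S] in
theorem chain_tr (hC : CApi) (L : Multiset (St O S)) (j : ℕ) (v : O → S → ℝ) (g : Om O S → ℝ)
    (ω : Om O S) : chain L j (fun x => g (x.1 + v, x.2)) ω = chain L j g (ω.1 + v, ω.2) := by
  cases j with
  | zero => rfl
  | succ d => simpa [chain] using hC.lv_map (AddMonoidHom.id _) v id _ g ω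

noncomputable def th (s : St O S) (j : ℕ) (x : Om O S × Bool) : Om O S :=
  if j ≤ s.1 + 1 then (x.1.1 + spin x.2 • vec s, x.1.2) else x.1

omit [Fintype O] [Inhabited S] in
theorem ext_tw (hC : CApi) (L : Multiset (St O S)) (s : St O S) (j : ℕ) (g : Om O S → ℝ)
    (x : Om O S × Bool) :
    ext (chain L) (s.1 + 1) j (fun x => g (th s j x)) x = chain (s ::ₘ L) j g (th s (j + 1) x) := by
  rw [ext_apply]
  split_ifs with h
  · subst h
    simp only [th, le_refl, if_true, chain_tr hC, if_neg (by omega : ¬ s.1 + 1 + 1 ≤ s.1 + 1)]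
    simp [chain, hC.lv_cons, sgo, spin, sub_eq_add_neg]
  · have e : chain (s ::ₘ L) j = chain L j := by
      cases j with
      | zero => rfl
      | succ d => simp only [chain]; rw [Multiset.filter_cons_of_neg _ (by omega)]
    rw [e]
    by_cases c : j ≤ s.1 + 1
    · simp only [th, if_pos c, if_pos (by omega : j + 1 ≤ s.1 + 1), chain_tr hC]
    · simp only [th, if_neg c, if_neg (by omega : ¬ j + 1 ≤ s.1 + 1)]

omit [Fintype S] [Inhabited S] in
theorem zz_th (g : O → ℝ → ℝ) (s : St O S) (x : Om O S × Bool) :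
    ZZ g (th s 0 x) = ZZ g x.1 + 0 + (g s.2.1 (x.1.1 s.2.1 x.1.2 + spin x.2 * s.2.2 x.1.2) -
      g s.2.1 (x.1.1 s.2.1 x.1.2)) := by
  simp only [th, Nat.zero_le, if_true, ZZ, vec]
  rw [← add_sum_erase _ _ (mem_univ s.2.1), ← add_sum_erase _ _ (mem_univ s.2.1),
    sum_congr rfl fun o ho => by
      rw [Pi.add_apply, Pi.smul_apply, Pi.single_eq_of_ne (mem_erase.1 ho).1, smul_zero, add_zero]]
  simp only [Pi.add_apply, Pi.smul_apply, Pi.single_eq_same, smul_eq_mul]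
  ring

theorem spin_sq (b : Bool) : spin b ^ 2 = 1 := by cases b <;> simp [spin]

theorem sq_near {x y a e : ℝ} (h : |x - y| ≤ e) (hy : |y| ≤ a) (he : e ≤ 2 * a) :
    |x ^ 2 - y ^ 2| ≤ 4 * a * e := by
  have h0 : 0 ≤ e := (abs_nonneg _).trans h
  have : |x + y| ≤ 4 * a := by
    rw [abs_le] at *
    constructor <;> linarith [h.1, h.2, hy.1, hy.2]
  rw [sq_sub_sq, abs_mul]
  exact mul_le_mul this h (abs_nonneg _) ((abs_nonneg _).trans this)

theorem ex_sum {n k : ℕ} (hk : k < n) (T E : ℕ → ℝ) {e : ℝ}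
    (h : ∀ i, i < n → |T i - if i ≤ k then E i else 0| ≤ e) :
    |∑ i ∈ range n, (ex n i - ex n (i + 1)) * T i - 1 / (n : ℝ) * ∑ d ∈ Icc 1 k, E d| ≤ e := by
  have hn : (0 : ℝ) < n := by exact_mod_cast (by omega : 0 < n)
  have h0 : 0 ≤ e := (abs_nonneg _).trans (h 0 (by omega))
  have e1 : ∑ d ∈ Icc 1 k, E d = ∑ i ∈ range n, if i = 0 then 0 else if i ≤ k then E i else 0 := by
    rw [← sum_subset (s₁ := Icc 1 k) (fun i hi => mem_range.2 (by rw [mem_Icc] at hi; omega))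
      fun i _ hi => by rw [mem_Icc] at hi; split_ifs <;> first | rfl | omega]
    exact sum_congr rfl fun i hi => by rw [mem_Icc] at hi; rw [if_neg (by omega), if_pos hi.2]
  rw [e1, mul_sum, ← sum_sub_distrib]
  refine (abs_sum_le_sum_abs _ _).trans ((sum_le_card_nsmul _ _ (1 / n * e) fun i hi => ?_).trans
    (le_of_eq ?_))
  · cases i with
    | zero => simp [ex]; positivity
    | succ i =>
      have : ex n (i + 1) - ex n (i + 1 + 1) = 1 / n := by simp only [ex]; push_cast; ring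
      rw [this, if_neg (by omega), ← mul_sub, abs_mul, abs_of_pos (by positivity)]
      exact mul_le_mul_of_nonneg_left (h _ (mem_range.1 hi)) (by positivity)
  · rw [card_range, nsmul_eq_mul]; field_simp

end St1

open St1 in
theorem st1Stmt (hA : AApi) (hC : CApi) (hL : L1Stmt) : St1Stmt := by
  intro B hB
  obtain ⟨C, hL⟩ := hL
  refine ⟨|C| * B ^ 3 + B + 12 * B ^ 2, ?_⟩
  intro O S _ _ _ _ n g g1 g2 L s hn hg hs hw
  have ok := hC.ok n L hn
  have sm := hg s.2.1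
  set a := ‖s.2.2‖ with ha
  have a0 : 0 ≤ a := norm_nonneg _
  have a1 : a ≤ 1 := by nlinarith
  set x0 : Om O S × Bool := ((0, default), true)
  set A : Om O S × Bool → ℝ := fun x => g s.2.1 (x.1.1 s.2.1 x.1.2 + spin x.2 * s.2.2 x.1.2) -
    g s.2.1 (x.1.1 s.2.1 x.1.2) with hAd
  set U1 := ob (g1 s.2.1) s.2.1 s.2.2
  set U2 := ob (g2 s.2.1) s.2.1 fun σ => s.2.2 σ ^ 2 / 2
  have hσ : ∀ σ, |s.2.2 σ| ≤ a := fun σ => norm_le_pi_norm s.2.2 σ
  have hsp : ∀ b σ, |spin b * s.2.2 σ| ≤ a := fun b σ => by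
    cases b <;> simpa [spin] using hσ σ
  have b0 : ∀ x, |A x| ≤ B * a := fun x => ((sm.d0 _ _).1).trans (by gcongr; exact hsp _ _)
  have b1 : ∀ ω, |U1 ω| ≤ B * a := fun ω => by
    simp only [U1, ob, abs_mul]; gcongr; exacts [sm.b1 _, hσ _]
  have b2 : ∀ ω, |U2 ω| ≤ B * a ^ 2 := fun ω => by
    have : s.2.2 ω.2 ^ 2 ≤ a ^ 2 := sq_le_sq' (abs_le.1 (hσ _)).1 (abs_le.1 (hσ _)).2
    simp only [U2, ob]
    rw [abs_mul, abs_of_nonneg (by positivity : 0 ≤ s.2.2 ω.2 ^ 2 / 2)]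
    gcongr
    exacts [sm.b2 _, by linarith [sq_nonneg a]]
  have b3 : ∀ x, |A x - U1 x.1 * spin x.2 - U2 x.1| ≤ B * a ^ 3 := fun x => by
    refine le_trans (le_of_eq ?_) ((sm.tay (x.1.1 s.2.1 x.1.2) (spin x.2 * s.2.2 x.1.2)).trans
      (by gcongr; exact hsp _ _))
    simp only [hAd, U1, U2, ob, mul_pow, spin_sq]
    congr 1; ring
  have a3 : B * a ^ 3 ≤ B * a ^ 2 := by gcongr _ * ?_; nlinarith [sq_nonneg a]
  have a2 : B * a ^ 2 ≤ B * a := by gcongr _ * ?_; nlinarith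
  have b4 : ∀ x, |A x - U1 x.1 * spin x.2| ≤ 2 * (B * a ^ 2) := fun x => by
    have := b3 x
    have := b2 x.1
    rw [abs_le] at *
    constructor <;> linarith
  have e1 : TT n g (s ::ₘ L) = XX (ext (chain L) (s.1 + 1)) (ex n)
      ((fun x => ZZ g x.1 + 0) + A) (n + 1) x0 := by
    have := (hA.tw (ex n) (n + 1) (th s) (fun j _ => ext_tw hC L s j) (ZZ g)).1 (n + 1) le_rfl x0
    rw [th, if_neg (by omega)] at this
    rw [TT, ← this]
    congr 1
    exact funext (zz_th g s)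
  have e2 : TT n g L = XX (ext (chain L) (s.1 + 1)) (ex n) (fun x => ZZ g x.1 + 0) (n + 1) x0 := by
    rw [(hA.prod ok (rs_ok ok _) Prod.fst Prod.snd (fun j _ => ext_prod (s.1 + 1) j) (ZZ g)
      (fun _ => 0)).1 (n + 1) le_rfl x0, rs_xx, add_zero, TT]
  have l1 := hL _ _ _ _ (ext_ok ok (s.1 + 1)) (fun x => ZZ g x.1 + 0) A (B * a) b0 hw n le_rfl x0
  rw [← e1, ← e2] at l1
  have t0 := near ok (s.1 + 1) (ZZ g) 0 le_rfl b4 x0
  have t0' := near ok (s.1 + 1) (ZZ g) 0 le_rfl (F := fun x => U1 x.1 * spin x.2) (g1 := U1)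
    (g2 := spin) (e := 0) (by simp) x0
  simp only [rs_ce, if_neg (by omega : ¬ n + 1 ≤ s.1 + 1), mul_zero, sub_zero] at t0 t0'
  have t1 := near1 ok (s.1 + 1) (ZZ g) 0 le_rfl b3 x0
  rw [show (fun x => A x - U1 x.1 * spin x.2) = A - fun x => U1 x.1 * spin x.2 from rfl, map_sub,
    Pi.sub_apply, abs_nonpos_iff.1 t0', sub_zero] at t1
  have hs1 : ∀ (y : ℝ) b, |y| ≤ B * a → |y * spin b| ≤ B * a := fun y b hy => by
    cases b <;> simpa [spin] using hy
  have t2 := near1 ok (s.1 + 1) (ZZ g) 0 le_rfl (F := fun x => A x ^ 2) (g1 := fun ω => U1 ω ^ 2)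
    (fun x => by
      have := sq_near (b4 x) (hs1 _ _ (b1 _)) (by linarith)
      rwa [mul_pow, spin_sq, mul_one] at this) x0
  have t3 := ex_sum hs (fun i => Ce (ext (chain L) (s.1 + 1)) (ex n) (fun x => ZZ g x.1 + 0) (i + 1)
      (n + 1) (fun x => Ce (ext (chain L) (s.1 + 1)) (ex n) (fun x => ZZ g x.1 + 0) 0 (i + 1)
        A x ^ 2) x0) (fun d => EE n g L d fun ω ω' => U1 ω * U1 ω')
      (e := 4 * (B * a) * (2 * (B * a ^ 2))) fun i hi => by
    have u1 := fun x => near ok (s.1 + 1) (ZZ g) 0 (b := i + 1) (by omega) b4 x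
    have u2 := hA.abs_le (hA.ce ok (ZZ g) 0 (i + 1) (by omega)) b1
    simp only [rs_ce, Nat.add_le_add_iff_right] at u1
    split_ifs with c
    · simp only [if_pos c] at u1
      rw [EE, hA.e2mul]
      refine near1 ok (s.1 + 1) (ZZ g) (i + 1) le_rfl (fun x => ?_) x0
      have := sq_near (u1 x) (hs1 _ _ (u2 _)) (by linarith)
      rwa [mul_pow, spin_sq, mul_one, sq (Ce (chain L) _ _ _ _ _ _)] at this
    · simp only [if_neg c] at u1
      rw [sub_zero]
      refine hA.abs_le (hA.ce (ext_ok ok _) _ _ _ le_rfl) (fun x => ?_) x0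
      simpa using sq_near (u1 x) (a := B * a) (by simp; positivity) (by linarith)
  have e3 : E1 n g L (ob (fun t => g2 s.2.1 t + g1 s.2.1 t ^ 2) s.2.1 fun σ => s.2.2 σ ^ 2) =
      2 * Ce (chain L) (ex n) (ZZ g) 0 (n + 1) U2 x0.1 +
        Ce (chain L) (ex n) (ZZ g) 0 (n + 1) (fun ω => U1 ω ^ 2) x0.1 := by
    rw [← Aa.smul', ← Aa.add', E1]
    refine congrArg (fun u => Ce (chain L) (ex n) (ZZ g) 0 (n + 1) u x0.1) (funext fun ω => ?_)
    simp only [U1, U2, ob]; ring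
  have t4 := sq_near (y := 0) (a := B * a) (by rwa [sub_zero]) (by simp; positivity)
    (by linarith : 2 * (B * a ^ 2) ≤ _)
  have m0 := ok.pos n (by omega)
  have m1 := ok.le1 n (by omega)
  have t5 := mul_le_of_le_one_left (sq_nonneg (Ce (ext (chain L) (s.1 + 1)) (ex n)
    (fun x => ZZ g x.1 + 0) 0 (n + 1) A x0)) m1
  have t6 := mul_nonneg m0.le (sq_nonneg (Ce (ext (chain L) (s.1 + 1)) (ex n)
    (fun x => ZZ g x.1 + 0) 0 (n + 1) A x0))
  have t7 : C * (B * a) ^ 3 ≤ |C| * B ^ 3 * a ^ 3 := by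
    rw [mul_assoc, ← mul_pow]; gcongr; exact le_abs_self C
  rw [Gam, e3, show (|C| * B ^ 3 + B + 12 * B ^ 2) * a ^ 3 = |C| * B ^ 3 * a ^ 3 + B * a ^ 3 +
    3 / 2 * (4 * (B * a) * (2 * (B * a ^ 2))) by ring]
  rw [show ex n 0 = 1 from rfl] at l1
  rw [abs_le] at l1 t1 t2 t3 t4 ⊢
  constructor <;> linarith [l1.1, l1.2, t1.1, t1.2, t2.1, t2.2, t3.1, t3.2, t4.1, t4.2]

end Vale.Agent.P157
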