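import Vale.Agent.P157.Stm

namespace Vale.Agent.P157

open Finset Real

namespace Sw

theorem path_le {n : ℕ} {q : ℕ → ℝ} (hq : Path n q) {d e : ℕ} (hde : d ≤ e) (he : e ≤ n) :
    q e ≤ q d := by
  induction e, hde using Nat.le_induction with
  | base => exact le_rfl
  | succ e hde ih => exact (hq.1 e (by omega)).trans (ih (by omega))

theorem path_nonneg {n : ℕ} {q : ℕ → ℝ} (hq : Path n q) {d : ℕ} (hd : d ≤ n) : 0 ≤ q d := by
  have := path_le hq hd le_rfl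
  rwa [hq.2] at this

theorem vr_add' {O S : Type} [Fintype O] [DecidableEq O] [Fintype S] [Inhabited S]
    (L L' : Multiset (St O S)) : vr (L + L') = vr L + vr L' := by
  simp [vr]

theorem arith (T0 T1 T2 E X Y Z W0 θ se st v C1 B2 B4 eC r : ℝ) (_hθ : 0 ≤ θ)
    (m1 : T1 - T0 - θ * (E - r * X) / 2 ≤ C1 * (θ * st))
    (m2 : -(C1 * v) ≤ T2 - T0 - (θ * (E - r * Y) / 2 + θ * (W0 - r * Z) / 2))
    (hv : C1 * v ≤ C1 * (4 * B4 * (θ * st)))
    (key : θ * (r * Z - r * X) ≤ θ * (2 * (B2 * (eC * se))))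
    (p1 : 0 ≤ θ * (B2 * eC * st)) (p2 : 0 ≤ θ * (C1 * (1 + 4 * B4) * se)) :
    T1 ≤ T2 + θ * (r / 2 * Y - W0 / 2 + (B2 * eC + C1 * (1 + 4 * B4)) * (se + st)) := by
  nlinarith

theorem sqrt_bd {B θ v : ℝ} (hB2 : 1 ≤ B ^ 2) (hθ0 : 0 ≤ θ) (hv : v ≤ 2 * B ^ 2 * θ) :
    v * √v ≤ 4 * B ^ 4 * (θ * √θ) := by
  have h1 : √v ≤ 2 * B ^ 2 * √θ := by
    rw [sqrt_le_left (by positivity), mul_pow, sq_sqrt hθ0]
    refine hv.trans (mul_le_mul_of_nonneg_right ?_ hθ0)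
    nlinarith
  calc _ ≤ (2 * B ^ 2 * θ) * (2 * B ^ 2 * √θ) :=
        mul_le_mul hv h1 (sqrt_nonneg _) (by positivity)
    _ = _ := by ring

theorem sqrt_exp {C θ e : ℝ} (hC : 0 ≤ C) (hθ1 : θ ≤ 1) : √(exp (C * θ) * e) ≤ exp C * √e := by
  rw [sqrt_mul (exp_pos _).le]
  refine mul_le_mul_of_nonneg_right ?_ (sqrt_nonneg _)
  rw [sqrt_le_left (exp_pos _).le, ← exp_nat_mul]
  exact exp_le_exp.2 (by push_cast; nlinarith)

theorem le_one_of_sq {B x y : ℝ} (hB : 1 ≤ B) (hy : 0 ≤ y) (hx : x ≤ √y) (h : B ^ 2 * y ≤ 1) :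
    B * x ≤ 1 := by
  have h2 : (B * √y) ^ 2 ≤ 1 := by rw [mul_pow, sq_sqrt hy]; exact h
  have h3 := (sq_le_one_iff₀ (by positivity)).1 h2
  exact (mul_le_mul_of_nonneg_left hx (by linarith)).trans h3

variable {I ι : Type} [Fintype I] [DecidableEq I] [Fintype ι] [DecidableEq ι]

theorem conc_base {n : ℕ} {f : ℝ → ℝ} {L L' : Sy ι I} {A : Finset I} {P : ℕ → ℝ} {e K : ℝ}
    (hK : 0 ≤ K) (h : ∀ d, d < n → EE n (gg ι f) L d (fun ω ω' => (Rr A ω.2 ω'.2 - P d) ^ 2) ≤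
      K * EE n (gg ι f) L' d (fun ω ω' => (Rr A ω.2 ω'.2 - P d) ^ 2))
    (hcon : Conc n f L' A P e) : Conc n f L A P (K * e) := by
  unfold Conc at hcon ⊢
  have h1 := sum_le_sum (s := Ico 1 n) fun d hd => h d (mem_Ico.1 hd).2
  rw [← mul_sum] at h1
  have h2 := mul_le_mul_of_nonneg_left hcon hK
  have h3 := mul_le_mul_of_nonneg_left h1 (by positivity : 0 ≤ 1 / (n : ℝ))
  calc _ ≤ _ := h3
    _ = _ := by ring
    _ ≤ _ := h2

theorem key (hA : AApi) (hC : CApi) (hG : GApi) {n : ℕ} (hn : 1 ≤ n) {f : ℝ → ℝ} {L : Sy ι I}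
    {A : Finset I} {P W : ℕ → ℝ} {e B : ℝ} (hB : 0 ≤ B) (hcL : Conc n f L A P e)
    {U : Om (Option ι) (I → Bool) → ℝ} (hUb : ∀ ω, |U ω| ≤ B) (hWb : ∀ d, |W d| ≤ B ^ 2)
    (hW : ∀ d, d < n → EE n (gg ι f) L d (fun ω ω' => U ω * U ω') = W d) :
    (1 / (n : ℝ)) * ∑ d ∈ Ico 1 n, W d * EE n (gg ι f) L d (fun ω ω' => Rr A ω.2 ω'.2) -
      (1 / (n : ℝ)) * ∑ d ∈ Ico 1 n, EE n (gg ι f) L d
        (fun ω ω' => U ω * U ω' * Rr A ω.2 ω'.2) ≤ 2 * (B ^ 2 * √e) := by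
  have c1 := hG.conc_abs n f L A P _ (B ^ 2) (fun _ ω ω' => U ω * U ω') hn hcL fun d ω ω' => by
    rw [abs_mul, sq]; exact mul_le_mul (hUb _) (hUb _) (abs_nonneg _) hB
  have c2 := hG.conc_abs n f L A P _ (B ^ 2) (fun d _ _ => W d) hn hcL fun d ω ω' => hWb d
  have hok := hC.ok n L hn
  rw [← mul_sub, ← sum_sub_distrib]
  refine le_trans ?_ (add_le_add c1 c2 |>.trans_eq (two_mul _).symm)
  rw [← mul_add, ← sum_add_distrib]
  refine mul_le_mul_of_nonneg_left (sum_le_sum fun d hd => ?_) (by positivity)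
  have hd' := (mem_Ico.1 hd).2
  have e1 : EE n (gg ι f) L d (fun _ _ => W d) = W d :=
    hA.e2const hok _ _ (by omega) _ _
  have e2 : EE n (gg ι f) L d (fun ω ω' => W d * Rr A ω.2 ω'.2) =
      W d * EE n (gg ι f) L d (fun ω ω' => Rr A ω.2 ω'.2) := by
    have := hA.e2add (chain L) (ex n) (ZZ (gg ι f)) (d + 1) (n + 1)
      (fun ω ω' => Rr A ω.2 ω'.2) (fun ω ω' => Rr A ω.2 ω'.2) (W d) 0 (0, default)
    simp only [zero_mul, add_zero] at this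
    exact this
  rw [e1, e2, hW d hd']
  have a1 := neg_abs_le (EE n (gg ι f) L d (fun ω ω' => U ω * U ω' * Rr A ω.2 ω'.2) - P d * W d)
  have a2 := le_abs_self (W d * EE n (gg ι f) L d (fun ω ω' => Rr A ω.2 ω'.2) - P d * W d)
  linarith

end Sw

open Sw in
theorem swStmt (hA : AApi) (hC : CApi) (hG : GApi) (hM : MsStmt) (ha : GraStmt) : SwStmt := by
  intro B hB
  obtain ⟨C1, hC1, hM⟩ := hM B hB
  obtain ⟨C2, hC2, ha⟩ := ha B hB
  have hB2 : 1 ≤ B ^ 2 := one_le_pow₀ hB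
  refine ⟨B ^ 2 * exp C2 + C1 * (1 + 4 * B ^ 4), by positivity, ?_⟩
  intro I ι _ _ _ _ n f f1 f2 L A a p P e c hn hS hA0 hp hp0 hθ hcon
  set θ : ℝ := A.card * c ^ 2 with hθd
  have hAc : (1 : ℝ) ≤ A.card := by exact_mod_cast hA0.card_pos
  have hθ0 : 0 ≤ θ := by positivity
  have hcθ : c ^ 2 ≤ θ := by rw [hθd]; nlinarith [sq_nonneg c]
  have hB4 : B ^ 2 ≤ B ^ 4 := pow_le_pow_right₀ hB (by norm_num)
  have hB2θ : 2 * B ^ 2 * θ ≤ 1 := by nlinarith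
  have hθ1 : θ ≤ 1 := by nlinarith
  have hB2θ' : B ^ 2 * θ ≤ 1 := by nlinarith
  have hSg := hC.smg ι B f f1 f2 hB hS
  set U : Om (Option ι) (I → Bool) → ℝ := ob f1 (some a) (fun _ => 1) with hU
  have hUb : ∀ ω, |U ω| ≤ B := fun ω => by
    simp only [hU, ob, mul_one]; exact hS.b1 _
  obtain ⟨hW, hW0⟩ := hG.w_path n (gg ι f) L U B hn hUb
  set W : ℕ → ℝ := fun d => if d < n then EE n (gg ι f) L d (fun ω ω' => U ω * U ω') else 0
    with hWd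
  have hW0' : W 0 ≤ B ^ 2 := by simp only [hWd]; rw [if_pos (by omega)]; exact hW0
  have hWn : 0 ≤ W 0 := path_nonneg hW (Nat.zero_le _)
  have hWb : ∀ d, |W d| ≤ B ^ 2 := fun d => by
    by_cases hd : d < n
    · rw [abs_of_nonneg (path_nonneg hW hd.le)]
      exact (path_le hW (Nat.zero_le _) hd.le).trans hW0'
    · simp only [hWd]; rw [if_neg hd, abs_zero]; positivity
  refine ⟨W, hW, hW0', ?_⟩
  -- sizes
  have hBc : B * |c| ≤ 1 := le_one_of_sq hB hθ0 (abs_le_sqrt hcθ) hB2θ'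
  obtain ⟨hr1, hr2, -⟩ := hG.round_vr (ι := ι) n B (some a) A (n - 1) c
  have hr2 := hr2 (by omega) hBc
  have one2 : ∀ σ : I → Bool, (fun _ : I → Bool => (1 : ℝ)) σ ^ 2 = 1 := fun _ => by simp
  obtain ⟨hs1, -, hs3⟩ := hG.sprof_var n p θ hp hθ0
  obtain ⟨ht1, -, ht3⟩ := hG.sprof_var n W (c ^ 2) hW (sq_nonneg c)
  have hk1 : vr (fk I a (sprof n p θ)) = θ := by
    unfold fk
    rw [(hG.lift_vr (some a) (fun _ : I → Bool => (1 : ℝ)) _ one2).1, hs1, hp0, mul_one]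
  have hk2 : Small n B (fk I a (sprof n p θ)) := by
    refine hG.lift_small n B (some a) _ _ one2 fun s hs => ⟨(hs3 s hs).1, ?_⟩
    have h1 := (hs3 s hs).2
    rw [hp0, mul_one] at h1
    exact le_one_of_sq hB hθ0 h1 hB2θ'
  obtain ⟨hf1, -, hf3, -, -⟩ := hG.fld_vr (ι := ι) n B A (sprof n W (c ^ 2)) 0
  rw [ht1] at hf1
  have hf3 := hf3 fun s hs => ⟨(ht3 s hs).1, by
    refine le_one_of_sq hB (by positivity) (ht3 s hs).2 ?_
    have h1 : c ^ 2 * W 0 ≤ θ * B ^ 2 := mul_le_mul hcθ hW0' hWn hθ0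
    have h2 := mul_le_mul_of_nonneg_left h1 (sq_nonneg B)
    have h3 : B ^ 2 * (θ * B ^ 2) = B ^ 4 * θ := by ring
    have h4 : 0 ≤ B ^ 4 * θ := by positivity
    linarith⟩
  set L2 : Sy ι I := fk I a (sprof n p θ) + fld ι A (sprof n W (c ^ 2)) with hL2
  have hv2 : vr L2 = θ * (1 + W 0) := by
    rw [hL2, vr_add', hk1, hf1, hθd]; ring
  have hv2' : vr L2 ≤ 2 * B ^ 2 * θ := by
    rw [hv2, mul_comm]; exact mul_le_mul_of_nonneg_right (by linarith) hθ0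
  have hsm2 : Small n B L2 := fun s hs => by
    rcases Multiset.mem_add.1 hs with h | h
    · exact hk2 s h
    · exact hf3 s h
  have m1 := (hM _ _ n _ _ _ L _ hn hSg hr2).2 (by rw [hr1]; exact hθ1)
  have m2 := (hM _ _ n _ _ _ L _ hn hSg hsm2).2 (hv2'.trans hB2θ)
  rw [hG.gam_round n _ _ _ L (some a) A c hn hA0, hr1] at m1
  rw [hL2, Multiset.map_add, Multiset.sum_add, ← hL2,
    hG.gam_fld n f f1 f2 L A W (c ^ 2) hn hA0 hW (sq_nonneg c)] at m2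
  unfold fk at m2
  rw [hG.gam_prof n _ _ _ L (some a) _ p θ hn hp hθ0 one2, hp0, one_mul] at m2
  -- concentration at the base
  have hcL : Conc n f L A P (exp (C2 * θ) * e) := conc_base (exp_pos _).le (fun d hd => by
    have := (ha _ _ n (gg ι f) L _ (fun σ σ' => (Rr A σ σ' - P d) ^ 2) d hn
      hd.le (fun o => (hSg o).d0) hr2 (fun _ _ => sq_nonneg _)).2
    rwa [hr1] at this) hcon
  have hse : √(exp (C2 * θ) * e) ≤ exp C2 * √e := sqrt_exp hC2 hθ1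
  have key := key hA hC hG hn (by linarith) hcL hUb hWb fun d hd => by
    simp only [hWd]; rw [if_pos hd]
  have e4 : ∑ d ∈ Ico 1 n, p d * EE n (gg ι f) L d (fun ω ω' =>
      ob (gg1 ι f1 (some a)) (some a) (fun _ => 1) ω *
        ob (gg1 ι f1 (some a)) (some a) (fun _ => 1) ω') = ∑ d ∈ Ico 1 n, p d * W d := by
    refine sum_congr rfl fun d hd => ?_
    simp only [hWd]; rw [if_pos (mem_Ico.1 hd).2]; rfl
  have e5 : ∑ d ∈ Ico 1 n, EE n (gg ι f) L d (fun ω ω' => gg1 ι f1 (some a) (ω.1 (some a) ω.2) *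
      gg1 ι f1 (some a) (ω'.1 (some a) ω'.2) * Rr A ω.2 ω'.2) =
      ∑ d ∈ Ico 1 n, EE n (gg ι f) L d (fun ω ω' => U ω * U ω' * Rr A ω.2 ω'.2) := by
    refine sum_congr rfl fun d _ => ?_
    simp only [hU, ob, mul_one]; rfl
  rw [e4] at m2
  rw [e5] at m1
  have hsv : vr L2 * √(vr L2) ≤ 4 * B ^ 4 * (θ * √θ) := sqrt_bd hB2 hθ0 hv2'
  have m1' := (abs_le.1 m1).2
  have m2' := (abs_le.1 m2).1
  have hsv' := mul_le_mul_of_nonneg_left hsv hC1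
  have key' := mul_le_mul_of_nonneg_left
    (key.trans (mul_le_mul_of_nonneg_left (mul_le_mul_of_nonneg_left hse (by positivity))
      (by norm_num))) hθ0
  have hL : L + fk I a (sprof n p θ) + fld ι A (sprof n W (c ^ 2)) = L + L2 := by
    rw [hL2, add_assoc]
  rw [hL]
  unfold ip
  have hn2 : (1 / (2 * (n : ℝ))) = (1 / (n : ℝ)) / 2 := by ring
  rw [hn2]
  have p1 : 0 ≤ θ * (B ^ 2 * exp C2 * √θ) := by positivity
  have p2 : 0 ≤ θ * (C1 * (1 + 4 * B ^ 4) * √e) := by positivity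
  exact arith _ _ _ _ _ _ _ _ _ _ _ _ _ _ _ _ _ hθ0 m1' m2' hsv' key' p1 p2

end Vale.Agent.P157
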