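import Vale.Agent.P157.Stm

namespace Vale.Agent.P157

open Finset Real

set_option linter.unusedSectionVars false

namespace Sym

variable {I O : Type} [Fintype I] [DecidableEq I] [Fintype O] [DecidableEq O]

/-- renaming of the sites in the fields -/
def ph (O : Type) (e : Equiv.Perm I) : (O → (I → Bool) → ℝ) →+ (O → (I → Bool) → ℝ) where
  toFun x := fun o σ => x o (σ ∘ e)
  map_zero' := rfl
  map_add' _ _ := rfl

/-- renaming of the sites in a step -/
def ta (e : Equiv.Perm I) (s : St O (I → Bool)) : St O (I → Bool) :=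
  (s.1, s.2.1, fun σ => s.2.2 (σ ∘ e))

theorem ph_vec (e : Equiv.Perm I) (s : St O (I → Bool)) : ph O e (vec s) = vec (ta e s) := by
  ext o σ
  by_cases h : o = s.2.1
  · subst h; simp [ph, vec, ta]
  · simp [ph, vec, ta, Pi.single_eq_of_ne h]

theorem ee_perm (hA : AApi) (hC : CApi) (n : ℕ) (g : O → ℝ → ℝ) (L : Multiset (St O (I → Bool)))
    (e : Equiv.Perm I) (he : ∀ i, e (e i) = i) (d : ℕ) (hd : d ≤ n)
    (χ : (I → Bool) → (I → Bool) → ℝ) :
    EE n g L d (fun ω ω' => χ (ω.2 ∘ e) (ω'.2 ∘ e)) =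
      EE n g (L.map (ta e)) d (fun ω ω' => χ ω.2 ω'.2) := by
  have h := (hA.tw (P := chain (L.map (ta e))) (P' := chain L) (ex n) (n + 1)
    (fun _ ω => (ph O e ω.1, ω.2 ∘ e)) (fun j _ G ω => ?_) (ZZ g)).2.2 (d + 1) (by omega)
    (fun ω ω' => χ ω.2 ω'.2) (0, default)
  · have hz : (fun x : Om O (I → Bool) => ZZ g (ph O e x.1, x.2 ∘ e)) = ZZ g := by
      ext x
      have : (x.2 ∘ e) ∘ e = x.2 := funext fun i => congrArg x.2 (he i)
      simp only [ZZ, ph, AddMonoidHom.coe_mk, ZeroHom.coe_mk, this]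
    rw [hz] at h
    exact h
  · cases j with
    | zero =>
      exact congrArg (· / (Fintype.card (I → Bool) : ℝ))
        ((Equiv.arrowCongr e.symm (Equiv.refl Bool)).sum_comp fun σ => G (ph O e ω.1, σ))
    | succ j =>
      have h1 := hC.lv_map (ph O e) 0 (fun σ : I → Bool => σ ∘ e)
        ((L.filter fun s => s.1 = j).map vec) G ω
      simp only [add_zero, Multiset.map_map, Function.comp_def, ph_vec] at h1
      refine h1.trans ?_
      show _ = lv _ _ _
      rw [Multiset.filter_map, Multiset.map_map]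
      rfl

theorem map_swap {A : Finset I} {i j : I} (hi : i ∈ A) (hj : j ∈ A) :
    A.val.map (Equiv.swap i j) = A.val := by
  have : A.map (Equiv.swap i j).toEmbedding = A := by
    ext k
    rw [mem_map_equiv, Equiv.symm_swap, Equiv.swap_apply_def]
    split_ifs with h1 h2
    · simp [h1, hi, hj]
    · simp [h2, hi, hj]
    · rfl
  exact congrArg Finset.val this

theorem inv {ι : Type} [Fintype ι] [DecidableEq ι] (n : ℕ) (A : Finset I) (J : Finset ι) (D : ℕ)
    (c : ℝ) (l : Multiset (ℕ × ℝ)) (e : Equiv.Perm I) (he : A.val.map e = A.val) :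
    (sys n A J D c + fld ι A l).map (ta e) = sys n A J D c + fld ι A l := by
  rw [Multiset.map_add]
  congr 1
  · rw [sys, Multiset.map_bind]
    refine Multiset.bind_congr fun a _ => ?_
    rw [Multiset.map_nsmul, round, Multiset.map_map]
    conv_rhs => rw [← he, Multiset.map_map]
    rfl
  · rw [fld, Multiset.map_bind]
    conv_rhs => rw [← he, Multiset.bind_map]
    refine Multiset.bind_congr fun i _ => ?_
    rw [lift, lift, Multiset.map_map]
    rfl

end Sym

theorem symStmt (hA : AApi) (hC : CApi) : SymStmt := by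
  intro I ι _ _ _ _ n f A J D c l i d _ hd hi
  have h1 : ∀ j ∈ A, EE n (gg ι f) (sys n A J D c + fld ι A l) d
      (fun ω ω' => sp j ω.2 * sp j ω'.2) = EE n (gg ι f) (sys n A J D c + fld ι A l) d
      (fun ω ω' => sp i ω.2 * sp i ω'.2) := fun j hj => by
    have := Sym.ee_perm hA hC n (gg ι f) (sys n A J D c + fld ι A l) (Equiv.swap i j)
      (Equiv.swap_apply_self i j) d hd fun σ σ' => sp i σ * sp i σ'
    rw [Sym.inv n A J D c l _ (Sym.map_swap hi hj)] at this
    simpa [sp] using this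
  have hc : (A.card : ℝ) ≠ 0 := Nat.cast_ne_zero.2 (card_pos.2 ⟨i, hi⟩).ne'
  have h2 := hA.e2add (chain (sys n A J D c + fld ι A l)) (ex n) (ZZ (gg ι f)) (d + 1) (n + 1)
    (fun ω ω' => ∑ j ∈ A, sp j ω.2 * sp j ω'.2) (fun _ _ => 0) (A.card : ℝ)⁻¹ 0 (0, default)
  rw [hA.e2sum] at h2
  simp only [zero_mul, add_zero] at h2
  have h3 := sum_congr rfl h1
  simp only [EE] at h3 ⊢
  simp only [Rr, div_eq_inv_mul]
  rw [h2, h3, sum_const, nsmul_eq_mul, inv_mul_cancel_left₀ hc]

end Vale.Agent.P157
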