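import Vale.Agent.P157.Stm

namespace Vale.Agent.P157

open Finset Real

set_option linter.unusedSectionVars false

namespace Tlt

section
variable {O S : Type} [Fintype O] [DecidableEq O] [Fintype S] [Inhabited S]

theorem cons_apply (hC : CApi) {E : Type} [AddCommGroup E] (v : E) (l : Multiset E)
    (g : E × S → ℝ) (ω : E × S) :
    lv (v ::ₘ l) g ω = (lv l g (ω.1 + v, ω.2) + lv l g (ω.1 - v, ω.2)) / 2 := by
  rw [hC.lv_cons]; rfl

theorem mono_on (hC : CApi) (o : O) (l : Multiset (O → S → ℝ))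
    (hl : ∀ v ∈ l, ∃ w, v = Pi.single o w) (g h : Om O S → ℝ) (ω : Om O S)
    (H : ∀ w, g (ω.1 + Pi.single o w, ω.2) ≤ h (ω.1 + Pi.single o w, ω.2)) :
    lv l g ω ≤ lv l h ω := by
  induction l using Multiset.induction_on generalizing ω with
  | empty => rw [hC.lv_zero]; simpa using H 0
  | cons v l ih =>
    obtain ⟨w0, rfl⟩ := hl v (Multiset.mem_cons_self _ _)
    have hl' : ∀ v ∈ l, ∃ w, v = Pi.single o w := fun v hv => hl v (Multiset.mem_cons_of_mem hv)
    rw [cons_apply hC, cons_apply hC]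
    have h1 := ih hl' (ω.1 + Pi.single o w0, ω.2) fun w => by
      have := H (w0 + w)
      rwa [Pi.single_add, ← add_assoc] at this
    have h2 := ih hl' (ω.1 - Pi.single o w0, ω.2) fun w => by
      have := H (-w0 + w)
      rwa [Pi.single_add, Pi.single_neg, ← add_assoc, ← sub_eq_add_neg] at this
    linarith

def Osc (o : O) (b : ℝ) (Φ : Om O S → ℝ) : Prop :=
  ∀ (ω : Om O S) (w : S → ℝ), Φ (ω.1 + Pi.single o w, ω.2) ≤ Φ ω + b

theorem Osc.abs {o : O} {b : ℝ} {Φ : Om O S → ℝ} (h : Osc o b Φ) (ω : Om O S) (w : S → ℝ) :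
    |Φ (ω.1 + Pi.single o w, ω.2) - Φ ω| ≤ b := by
  have h1 := h ω w
  have h2 := h (ω.1 + Pi.single o w, ω.2) (-w)
  simp only [Pi.single_neg, add_neg_cancel_right, Prod.mk.eta] at h2
  rw [abs_le]; constructor <;> linarith

theorem aff (hA : AApi) {Ω : Type} {P : Op Ω} (hP : Mk P) (g : Ω → ℝ) (a c : ℝ) (ω : Ω) :
    P (fun x => a * g x + c) ω = a * P g ω + c := by
  have : (fun x => a * g x + c) = a • g + fun _ => c := by ext x; simp
  rw [this, map_add, map_smul, Pi.add_apply, hA.const hP]; simp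

theorem Osc.lv (hA : AApi) (hC : CApi) {o : O} {b : ℝ} {Φ : Om O S → ℝ} (h : Osc o b Φ)
    (l : Multiset (O → S → ℝ)) : Osc o b (lv l Φ) := by
  intro ω w
  have h1 := hC.lv_map (AddMonoidHom.id _) (Pi.single o w) id l Φ ω
  simp only [AddMonoidHom.id_apply, id] at h1
  rw [Multiset.map_id'] at h1
  rw [← h1]
  have h2 := aff hA (hC.lv_mk l) Φ 1 b ω
  simp only [one_mul] at h2
  rw [← h2]
  exact hA.mono' (hC.lv_mk l) (fun x => h x w) ω

theorem one (hA : AApi) (hC : CApi) {o : O} {b m : ℝ} (hm : 0 ≤ m) {Φ : Om O S → ℝ}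
    (h : Osc o b Φ) (l : Multiset (O → S → ℝ)) (hl : ∀ v ∈ l, ∃ w, v = Pi.single o w)
    (ω : Om O S) :
    lv l (fun x => exp (m * Φ x)) ω ≤ exp (m * lv l Φ ω + 2 * (m * b) ^ 2) := by
  have hk := hC.lv_mk (S := S) l
  have hu : ∀ w, |m * (Φ (ω.1 + Pi.single o w, ω.2) - Φ ω)| ≤ m * b := fun w => by
    rw [abs_mul, abs_of_nonneg hm]; exact mul_le_mul_of_nonneg_left (h.abs ω w) hm
  by_cases hb : m * b ≤ 1
  · have h1 := mono_on hC o l hl (fun x => exp (m * Φ x))
      (fun x => (exp (m * Φ ω) * m) * Φ x + exp (m * Φ ω) * (1 - m * Φ ω + (m * b) ^ 2)) ω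
      fun w => by
        have h2 := (abs_le.1 (abs_exp_sub_one_sub_id_le ((hu w).trans hb))).2
        have h3 := sq_le_sq' (abs_le.1 (hu w)).1 (abs_le.1 (hu w)).2
        have h4 : exp (m * Φ (ω.1 + Pi.single o w, ω.2)) =
            exp (m * Φ ω) * exp (m * (Φ (ω.1 + Pi.single o w, ω.2) - Φ ω)) := by
          rw [← exp_add]; congr 1; ring
        have h5 : exp (m * (Φ (ω.1 + Pi.single o w, ω.2) - Φ ω)) ≤
          1 + m * (Φ (ω.1 + Pi.single o w, ω.2) - Φ ω) + (m * b) ^ 2 := by linarith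
        show exp (m * Φ (ω.1 + Pi.single o w, ω.2)) ≤ _
        rw [h4]
        exact (mul_le_mul_of_nonneg_left h5 (exp_pos _).le).trans_eq (by ring)
    rw [aff hA hk] at h1
    refine h1.trans ?_
    have h6 := add_one_le_exp (m * (lv l Φ ω - Φ ω) + 2 * (m * b) ^ 2)
    have h7 : exp (m * lv l Φ ω + 2 * (m * b) ^ 2) =
        exp (m * Φ ω) * exp (m * (lv l Φ ω - Φ ω) + 2 * (m * b) ^ 2) := by
      rw [← exp_add]; congr 1; ring
    rw [h7]
    have h8 := mul_le_mul_of_nonneg_left h6 (exp_pos (m * Φ ω)).le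
    have h9 : 0 ≤ exp (m * Φ ω) * (m * b) ^ 2 := by positivity
    nlinarith
  · push Not at hb
    have h1 := mono_on hC o l hl (fun x => exp (m * Φ x)) (fun _ => exp (m * Φ ω + m * b)) ω
      fun w => exp_le_exp.2 (by have := (abs_le.1 (hu w)).2; linarith)
    have h2 := mono_on hC o l hl (fun _ => m * Φ ω - m * b) (fun x => m * Φ x + 0) ω
      fun w => by have := (abs_le.1 (hu w)).1; show _ ≤ m * Φ _ + 0; linarith
    rw [hA.const hk] at h1 h2
    rw [aff hA hk] at h2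
    exact h1.trans (exp_le_exp.2 (by nlinarith))

theorem many (hA : AApi) (hC : CApi) {κ : Type} [DecidableEq κ] (e : κ → O) {b m : ℝ}
    (hm : 0 ≤ m) {Φ : Om O S → ℝ} (h : ∀ a, Osc (e a) b Φ) (V : κ → Multiset (O → S → ℝ))
    (hV : ∀ a, ∀ v ∈ V a, ∃ w, v = Pi.single (e a) w) (J : Finset κ) (ω : Om O S) :
    lv (J.val.bind V) (fun x => exp (m * Φ x)) ω ≤
      exp (m * lv (J.val.bind V) Φ ω + J.card * (2 * (m * b) ^ 2)) := by
  induction J using Finset.induction_on generalizing ω with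
  | empty => simp [hC.lv_zero]
  | insert a J ha ih =>
    rw [insert_val_of_notMem ha, Multiset.cons_bind, hC.lv_add, card_insert_of_notMem ha]
    simp only [LinearMap.comp_apply]
    have h1 := hA.mono' (hC.lv_mk (V a)) (h := fun x => exp (J.card * (2 * (m * b) ^ 2)) *
      exp (m * lv (J.val.bind V) Φ x) + 0) (fun x => (ih x).trans_eq (by
        rw [add_zero, ← exp_add, add_comm])) ω
    rw [aff hA (hC.lv_mk _), add_zero] at h1
    have h2 := one hA hC hm ((h a).lv hA hC (J.val.bind V)) (V a) (hV a) ω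
    refine h1.trans ((mul_le_mul_of_nonneg_left h2 (exp_pos _).le).trans_eq ?_)
    rw [← exp_add]; congr 1; push_cast; ring

/-- empty levels are trivial -/
theorem xx_low (hC : CApi) (n : ℕ) (hn : 1 ≤ n) (L : Multiset (St O S)) (Z : Om O S → ℝ)
    (hL : ∀ s ∈ L, s.1 = n - 1) (j : ℕ) (hj : j + 1 ≤ n) :
    XX (chain L) (ex n) Z (j + 1) = XX (chain L) (ex n) Z 1 := by
  induction j with
  | zero => rfl
  | succ j ih =>
    rw [← ih (by omega)]
    have hm := ((hC.ok n L hn).pos (j + 1) (by omega)).ne'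
    have h0 : L.filter (fun s => s.1 = j) = 0 :=
      Multiset.filter_eq_nil.2 fun s hs h => by have := hL s hs; omega
    ext ω
    show (ex n (j + 1))⁻¹ * log (lv ((L.filter (fun s => s.1 = j)).map vec) _ ω) = _
    rw [h0, Multiset.map_zero, hC.lv_zero, LinearMap.id_apply, log_exp, inv_mul_cancel_left₀ hm]

theorem tt_top (hC : CApi) (n : ℕ) (hn : 1 ≤ n) (L : Multiset (St O S)) (g : O → ℝ → ℝ)
    (hL : ∀ s ∈ L, s.1 = n - 1) :
    TT n g L = n * log (lv (L.map vec) (fun ω : Om O S => exp (1 / (n : ℝ) *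
      log ((∑ σ, exp (ZZ g (ω.1, σ))) / (Fintype.card S : ℝ)))) (0, default)) := by
  obtain ⟨d, rfl⟩ : ∃ d, n = d + 1 := ⟨n - 1, by omega⟩
  have h0 : L.filter (fun s => s.1 = d) = L :=
    Multiset.filter_eq_self.2 fun s hs => by have := hL s hs; omega
  have he : ex (d + 1) (d + 1) = 1 / ((d + 1 : ℕ) : ℝ) := by
    show 1 - (d : ℝ) / ((d + 1 : ℕ) : ℝ) = _
    push_cast; field_simp; ring
  show (ex (d + 1) (d + 1))⁻¹ * log (lv ((L.filter (fun s => s.1 = d)).map vec)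
    (fun ω' => exp (ex (d + 1) (d + 1) * XX (chain L) (ex (d + 1)) (ZZ g) (d + 1) ω')) _) = _
  rw [xx_low hC _ hn L _ hL d le_rfl, h0, he, one_div, inv_inv]
  have e : XX (chain L) (ex (d + 1)) (ZZ g) 1 = fun ω : Om O S =>
      log ((∑ σ, exp (ZZ g (ω.1, σ))) / (Fintype.card S : ℝ)) := by
    ext ω
    show (1 : ℝ)⁻¹ * log ((∑ σ, exp (1 * ZZ g (ω.1, σ))) / _) = _
    simp
  rw [e]

theorem osc (g : O → ℝ → ℝ) (o : O) {B K : ℝ} (hK : 0 < K) (hg : ∀ t, |g o t| ≤ B) :
    Osc o (2 * B) (fun ω : Om O S => log ((∑ σ, exp (ZZ g (ω.1, σ))) / K)) := by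
  intro ω w
  have h1 : ∀ σ, ZZ g (ω.1 + Pi.single o w, σ) ≤ ZZ g (ω.1, σ) + 2 * B := fun σ => by
    unfold ZZ
    rw [← add_sum_erase _ _ (mem_univ o), ← add_sum_erase _ _ (mem_univ o)]
    have h1 : ∑ x ∈ univ.erase o, g x ((ω.1 + Pi.single o w : O → S → ℝ) x σ) =
        ∑ x ∈ univ.erase o, g x (ω.1 x σ) := by
      refine sum_congr rfl fun x hx => ?_
      simp [Pi.single_eq_of_ne (ne_of_mem_erase hx)]
    have h2 := (abs_le.1 (hg ((ω.1 + Pi.single o w : O → S → ℝ) o σ))).2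
    have h3 := (abs_le.1 (hg (ω.1 o σ))).1
    simp only at h1 ⊢
    linarith
  have p : ∀ x : O → S → ℝ, 0 < (∑ σ, exp (ZZ g (x, σ))) / K := fun x =>
    div_pos (sum_pos (fun _ _ => exp_pos _) univ_nonempty) hK
  show log _ ≤ log _ + _
  rw [log_le_iff_le_exp (p _), exp_add, exp_log (p _), div_mul_eq_mul_div, sum_mul]
  refine div_le_div_of_nonneg_right (sum_le_sum fun σ _ => ?_) hK.le
  rw [← exp_add]; exact exp_le_exp.2 (h1 σ)

end

end Tlt

open Tlt in
theorem tiltStmt (hA : AApi) (hC : CApi) : TiltStmt := by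
  intro B
  refine ⟨8 * B ^ 2, fun n f N M D hn hf => ?_⟩
  have hn' : (0 : ℝ) < n := by exact_mod_cast hn
  set c := 1 / √((N : ℝ) * D)
  set V : Fin M → Multiset (Option (Fin M) → (Fin N → Bool) → ℝ) := fun a =>
    D • (univ : Finset (Fin N)).val.map (fun i => Pi.single (some a) (c • sp i)) with hV
  have hs : ∀ k, (sys k (univ : Finset (Fin N)) (univ : Finset (Fin M)) D c).map vec =
      (univ : Finset (Fin M)).val.bind V := fun k => by
    unfold sys round
    rw [Multiset.map_bind]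
    refine Multiset.bind_congr fun a _ => ?_
    rw [Multiset.map_nsmul, Multiset.map_map]; rfl
  have hL : ∀ s ∈ sys n (univ : Finset (Fin N)) (univ : Finset (Fin M)) D c, s.1 = n - 1 := by
    intro s hs
    obtain ⟨a, -, h⟩ := Multiset.mem_bind.1 hs
    obtain ⟨i, -, rfl⟩ := Multiset.mem_map.1 (Multiset.mem_of_mem_nsmul h)
    rfl
  have hcard : (Fintype.card (Fin N → Bool) : ℝ) = 2 ^ N := by simp
  unfold RV PV
  rw [tt_top hC n hn _ _ hL, hs, hs, hcard]
  set Φ : Om (Option (Fin M)) (Fin N → Bool) → ℝ := fun ω =>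
    log ((∑ σ, exp (ZZ (gg (Fin M) f) (ω.1, σ))) / 2 ^ N)
  have hk := hC.lv_mk (S := Fin N → Bool) ((univ : Finset (Fin M)).val.bind V)
  have hu := many hA hC (fun a : Fin M => some a) (m := 1 / (n : ℝ)) (by positivity)
    (Φ := Φ) (fun a => osc (gg (Fin M) f) (some a) (by positivity) hf) V (fun a v hv => by
      obtain ⟨i, -, rfl⟩ := Multiset.mem_map.1 (Multiset.mem_of_mem_nsmul hv)
      exact ⟨_, rfl⟩) univ (0, default)
  have hl := hA.jen hk (fun x => 1 / (n : ℝ) * Φ x + 0) (0, default)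
  rw [aff hA hk] at hl
  simp only [add_zero] at hl
  have hp := (exp_pos _).trans_le hl
  have h1 := (log_le_iff_le_exp hp).2 hu
  have h2 := (le_log_iff_exp_le hp).2 hl
  rw [card_univ, Fintype.card_fin] at h1
  have h3 := mul_le_mul_of_nonneg_left h1 hn'.le
  have h4 := mul_le_mul_of_nonneg_left h2 hn'.le
  have e1 : ∀ x : ℝ, n * (1 / (n : ℝ) * x + M * (2 * (1 / (n : ℝ) * (2 * B)) ^ 2)) =
      x + 8 * B ^ 2 * M / n := fun x => by field_simp; ring
  have e2 : ∀ x : ℝ, n * (1 / (n : ℝ) * x) = x := fun x => by field_simp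
  rw [e1] at h3
  rw [e2] at h4
  have h5 : 0 ≤ 8 * B ^ 2 * M / n := by positivity
  rw [abs_le]; constructor <;> linarith

end Vale.Agent.P157
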