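import Vale.Agent.P157.Stm

namespace Vale.Agent.P157

open Finset Real Filter

noncomputable section

namespace Ub

lemma nsmul_bind {α β : Type} (D : ℕ) (s : Multiset α) (F : α → Multiset β) :
    (D • s).bind F = s.bind (fun a => D • F a) := by
  induction D with
  | zero => simp
  | succ D ih => simp only [succ_nsmul, Multiset.add_bind, ih, Multiset.bind_add]

lemma ev_sqrt (x : ℝ) : ∀ᶠ n : ℕ in atTop, x ≤ √(n : ℝ) :=
  (tendsto_natCast_atTop_atTop.eventually_ge_atTop (x ^ 2)).mono fun _ h =>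
    (le_abs_self x).trans (abs_le_sqrt h)

lemma meas {B : ℝ} {f : ℝ → ℝ} (h : D2 B f) : Measurable f := by
  have hB : 0 ≤ B := by
    have := (h 0 1).1
    rw [abs_one, mul_one] at this
    exact (abs_nonneg _).trans this
  refine (LipschitzWith.of_dist_le_mul (K := ⟨B, hB⟩) fun x y => ?_).continuous.measurable
  have := (h y (x - y)).1
  rw [add_sub_cancel] at this
  exact this

lemma ip_add (n : ℕ) (p q W : ℕ → ℝ) (t : ℝ) :
    ip n p (fun d => q d + t * W d) = ip n p q + t * ip n p W := by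
  unfold ip
  rw [sum_congr rfl fun d _ => show p d * (q d + t * W d) = p d * q d + t * (p d * W d) by ring,
    sum_add_distrib, ← mul_sum]
  ring

variable {I ι : Type} [Fintype I] [DecidableEq I] [Fintype ι] [DecidableEq ι]

lemma fld_crude (hC : CApi) (hG : GApi) {n : ℕ} (hn : 1 ≤ n) (f : ℝ → ℝ) (L : Sy ι I)
    (A : Finset I) (y : ℕ → ℝ) :
    |TT n (gg ι f) (L + fld ι A (ys n y)) - TT n (gg ι f) L| ≤ A.card * ∑ κ ∈ range n, |y κ| := by
  have h1 := hG.fld_vr (ι := ι) n 1 A (ys n y) 0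
  have h2 := hC.crude n (gg ι f) 1 L (fld ι A (ys n y)) hn (fun s hs t h => by
    rw [h1.2.2.2.2 s hs]; simp [gg])
  rw [one_mul, h1.2.1] at h2
  refine h2.trans (le_of_eq ?_)
  congr 1
  unfold ys
  rw [Multiset.map_map]
  rfl

lemma pen_bound (n : ℕ) {lam a : ℝ} (hl : 0 < lam) (ha : 0 ≤ a) (y : ℕ → ℝ) :
    a * ∑ κ ∈ range n, |y κ| - pen n lam (a / lam) y ≤ 3 * n * a * lam := by
  unfold pen
  rw [mul_sum, mul_sum, ← sum_sub_distrib]
  calc _ ≤ ∑ _κ ∈ range n, 3 * a * lam := sum_le_sum fun κ _ => by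
        have h1 : |y κ| ≤ 2 * lam + |y κ - 2 * lam| := by
          have := abs_add_le (2 * lam) (y κ - 2 * lam)
          rwa [add_sub_cancel, abs_of_pos (by positivity : 0 < 2 * lam)] at this
        have h2 : |y κ - 2 * lam| - (y κ - 2 * lam) ^ 2 / lam ≤ lam := by
          rw [← sq_abs, sub_le_iff_le_add, ← sub_le_iff_le_add', le_div_iff₀ hl]
          nlinarith [sq_nonneg (|y κ - 2 * lam| - lam), abs_nonneg (y κ - 2 * lam)]
        have h3 : a / lam * (y κ - 2 * lam) ^ 2 = a * ((y κ - 2 * lam) ^ 2 / lam) := by ring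
        rw [h3, ← mul_sub]
        nlinarith
    _ = _ := by rw [sum_const, card_range, nsmul_eq_mul]; ring

/-- the interpolating state -/
def stt (n : ℕ) (A : Finset I) (c : ℝ) (p : ℕ → ℝ) (K1 K2 : Multiset ι)
    (lf : Multiset (ℕ × ℝ)) : Sy ι I :=
  K1.bind (fun a => round (some a) A (n - 1) c) +
    K2.bind (fun a => fk I a (sprof n p (A.card * c ^ 2))) + fld ι A lf

def Inv (n : ℕ) (B c : ℝ) (k : ℕ) (lf : Multiset (ℕ × ℝ)) (q : ℕ → ℝ) : Prop :=
  Path n q ∧ (∀ d, d < n → lvar lf d = q d - q (d + 1)) ∧ (∀ s ∈ lf, |s.2| ≤ B * |c|) ∧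
    q 0 ≤ k * (c ^ 2 * B ^ 2)

lemma ind (hG : GApi) (hm : MaxStmt) {n : ℕ} (hn : 1 ≤ n) {B c lam e err Bd : ℝ} (hB : 1 ≤ B)
    {f : ℝ → ℝ} {A : Finset I} {p : ℕ → ℝ} (hl : 0 < lam) (T : Multiset ι)
    (hcon : ∀ (L : Sy ι I) y, Mx n f L A lam (A.card / lam) y →
      Conc n f (L + fld ι A (ys n y)) A (ovl n f (L + fld ι A (ys n y)) A) e)
    (hsw : ∀ (L : Sy ι I) (a : ι) (P : ℕ → ℝ), Conc n f (L + round (some a) A (n - 1) c) A P e →
      ∃ W : ℕ → ℝ, Path n W ∧ W 0 ≤ B ^ 2 ∧ TT n (gg ι f) (L + round (some a) A (n - 1) c) ≤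
        TT n (gg ι f) (L + fk I a (sprof n p (A.card * c ^ 2)) + fld ι A (sprof n W (c ^ 2))) +
          (A.card * c ^ 2) * (ip n p W - W 0 / 2) + err)
    (hbase : ∀ lf q, Inv n B c T.card lf q → ∀ y',
      TT n (gg ι f) (stt n A c p 0 T lf + fld ι A (ys n y')) - pen n lam (A.card / lam) y' +
        A.card * (ip n p q - q 0 / 2) ≤ Bd) (K1 : Multiset ι) :
    ∀ K2 lf q, K1 + K2 = T → Inv n B c K2.card lf q → ∀ y',
      TT n (gg ι f) (stt n A c p K1 K2 lf + fld ι A (ys n y')) - pen n lam (A.card / lam) y' +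
        A.card * (ip n p q - q 0 / 2) ≤ Bd + K1.card * err := by
  induction K1 using Multiset.induction_on with
  | empty =>
    intro K2 lf q hK hI y'
    rw [zero_add] at hK
    subst hK
    simpa using hbase lf q hI y'
  | cons a K1 ih =>
    intro K2 lf q hK hI y'
    obtain ⟨y, hy⟩ := hm I ι n f (stt n A c p (a ::ₘ K1) K2 lf) A lam (A.card / lam) hn hl
      (by rw [div_mul_cancel₀ _ hl.ne'])
    have h1 := hy.2 y'
    have h2 := hcon _ y hy
    have e1 : stt n A c p (a ::ₘ K1) K2 lf + fld ι A (ys n y) =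
        (stt n A c p K1 K2 lf + fld ι A (ys n y)) + round (some a) A (n - 1) c := by
      unfold stt
      rw [Multiset.cons_bind]
      abel
    rw [e1] at h1 h2
    obtain ⟨W, hW, hW0, h3⟩ := hsw _ a _ h2
    have e2 : stt n A c p K1 K2 lf + fld ι A (ys n y) + fk I a (sprof n p (A.card * c ^ 2)) +
        fld ι A (sprof n W (c ^ 2)) =
        stt n A c p K1 (a ::ₘ K2) (lf + sprof n W (c ^ 2)) + fld ι A (ys n y) := by
      unfold stt
      rw [Multiset.cons_bind, (hG.fld_vr (ι := ι) n 1 A lf (sprof n W (c ^ 2))).2.2.2.1]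
      abel
    rw [e2] at h3
    obtain ⟨s1, s2, s3⟩ := hG.sprof_var n W (c ^ 2) hW (sq_nonneg c)
    have hI' : Inv n B c (a ::ₘ K2).card (lf + sprof n W (c ^ 2)) (fun d => q d + c ^ 2 * W d) := by
      refine ⟨⟨fun d hd => ?_, ?_⟩, fun d hd => ?_, fun s hs => ?_, ?_⟩
      · have := hI.1.1 d hd
        have := mul_le_mul_of_nonneg_left (hW.1 d hd) (sq_nonneg c)
        linarith
      · simp only [hI.1.2, hW.2, mul_zero, add_zero]
      · rw [(hG.lvar_add lf _ 0 d).1, hI.2.1 d hd, s2 d hd]; ring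
      · rcases Multiset.mem_add.1 hs with hs | hs
        · exact hI.2.2.1 s hs
        · refine (s3 s hs).2.trans (sqrt_le_iff.2 ⟨by positivity, ?_⟩)
          rw [mul_pow, sq_abs, mul_comm (B ^ 2)]
          exact mul_le_mul_of_nonneg_left hW0 (sq_nonneg c)
      · have := hI.2.2.2
        have := mul_le_mul_of_nonneg_left hW0 (sq_nonneg c)
        rw [Multiset.card_cons]
        push_cast
        linarith
    have h4 := ih (a ::ₘ K2) _ _ (by rw [← hK, Multiset.cons_add, Multiset.add_cons]) hI' y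
    rw [ip_add] at h4
    rw [Multiset.card_cons]
    push_cast
    nlinarith

lemma fixed (hC : CApi) (hG : GApi) (hm : MaxStmt) (he : EndStmt) (hb : BddStmt) {n : ℕ}
    (hn : 1 ≤ n) {B c lam e err η Q ε : ℝ} (hB : 1 ≤ B) {f : ℝ → ℝ} {A : Finset I} {p : ℕ → ℝ}
    (hp : Path n p) (hp0 : p 0 = 1) (hl : 0 < lam) (D : ℕ) (hD : D * (A.card * c ^ 2) = 1)
    (hcon : ∀ (L : Sy ι I) y, Mx n f L A lam (A.card / lam) y →
      Conc n f (L + fld ι A (ys n y)) A (ovl n f (L + fld ι A (ys n y)) A) e)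
    (hsw : ∀ (L : Sy ι I) (a : ι) (P : ℕ → ℝ), Conc n f (L + round (some a) A (n - 1) c) A P e →
      ∃ W : ℕ → ℝ, Path n W ∧ W 0 ≤ B ^ 2 ∧ TT n (gg ι f) (L + round (some a) A (n - 1) c) ≤
        TT n (gg ι f) (L + fk I a (sprof n p (A.card * c ^ 2)) + fld ι A (sprof n W (c ^ 2))) +
          (A.card * c ^ 2) * (ip n p W - W 0 / 2) + err)
    (hg2 : ∀ (q : ℕ → ℝ) (l : Multiset (ℕ × ℝ)), Path n q → q 0 ≤ Q → (∀ s ∈ l, |s.2| ≤ η) →
      (∀ d, d < n → |lvar l d - (q d - q (d + 1))| ≤ η) →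
      |HD n f l - Hf n f q| ≤ ε ∧ |PD n l - q 0 / 2 - psi n q| ≤ ε)
    (hη : 0 ≤ η) (h1 : √(A.card * c ^ 2) ≤ η) (h2 : B * |c| ≤ η) (hQ1 : 1 ≤ Q)
    (hQ2 : (D * Fintype.card ι : ℝ) * (c ^ 2 * B ^ 2) ≤ Q) :
    TT n (gg ι f) (sys n A (univ : Finset ι) D c) ≤
      Fintype.card ι * (Hf n f p + ε) + A.card * (sSup (dualSet n p) + ε) +
        5 * n * A.card * lam + (D * Fintype.card ι : ℝ) * err := by
  have hcard : (Multiset.card (D • (univ : Finset ι).val) : ℝ) = D * Fintype.card ι := by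
    rw [Multiset.card_nsmul]; push_cast; rfl
  have hA0 : (0 : ℝ) ≤ A.card := by positivity
  have key := ind hG hm hn hB hl (D • (univ : Finset ι).val) hcon hsw
    (Bd := Fintype.card ι * (Hf n f p + ε) + A.card * (sSup (dualSet n p) + ε) +
      3 * n * A.card * lam) (fun lf q hI y' => by
      have a1 := (abs_le.1 (fld_crude hC hG hn f
        (stt n A c p 0 (D • (univ : Finset ι).val) lf) A y')).2
      have a2 := pen_bound n hl hA0 y'
      have e1 : stt n A c p 0 (D • (univ : Finset ι).val) lf =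
          (univ : Finset ι).val.bind (fun a => fk I a (D • sprof n p (A.card * c ^ 2))) +
            fld ι A lf := by
        unfold stt
        rw [Multiset.zero_bind, zero_add, nsmul_bind]
        congr 2
        ext1 a
        unfold fk lift
        rw [Multiset.map_nsmul]
      have a3 := he I ι n f A (D • sprof n p (A.card * c ^ 2)) lf hn
      rw [← e1] at a3
      obtain ⟨s1, s2, s3⟩ := hG.sprof_var n p (A.card * c ^ 2) hp (by positivity)
      have a4 := (hg2 p (D • sprof n p (A.card * c ^ 2)) hp (hp0.le.trans hQ1) (fun s hs => by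
        have := (s3 s (Multiset.mem_of_mem_nsmul hs)).2
        rw [hp0, mul_one] at this
        exact this.trans h1) (fun d hd => by
        rw [(hG.lvar_add _ 0 D d).2, s2 d hd, ← mul_assoc, hD, one_mul, sub_self, abs_zero]
        exact hη)).1
      have a5 := (hg2 q lf hI.1 (by have := hI.2.2.2; rw [hcard] at this; linarith)
        (fun s hs => (hI.2.2.1 s hs).trans h2) (fun d hd => by
          rw [hI.2.1 d hd, sub_self, abs_zero]; exact hη)).2
      have a6 : psi n q + ip n p q ≤ sSup (dualSet n p) :=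
        le_csSup (hb n p hn hp hp0).1 ⟨q, hI.1, rfl⟩
      have a7 : (Fintype.card ι : ℝ) * HD n f (D • sprof n p (A.card * c ^ 2)) ≤
          Fintype.card ι * (Hf n f p + ε) :=
        mul_le_mul_of_nonneg_left (by linarith [(abs_le.1 a4).2]) (by positivity)
      have a8 : (A.card : ℝ) * (PD n lf + (ip n p q - q 0 / 2)) ≤
          A.card * (sSup (dualSet n p) + ε) :=
        mul_le_mul_of_nonneg_left (by linarith [(abs_le.1 a5).2]) hA0
      linarith) (D • (univ : Finset ι).val) 0 0 (fun _ => 0) (add_zero _)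
    ⟨⟨fun _ _ => le_rfl, rfl⟩, fun d _ => by simp [lvar], fun s hs => by simp at hs, by simp⟩
    (fun _ => 2 * lam)
  have e2 : stt n A c p (D • (univ : Finset ι).val) 0 0 = sys n A (univ : Finset ι) D c := by
    unfold stt sys
    rw [nsmul_bind]
    simp [fld, lift]
  have e3 : pen n lam (A.card / lam) (fun _ => 2 * lam) = 0 := by simp [pen]
  have e4 : ip n p (fun _ => 0) = 0 := by simp [ip]
  rw [e2, e3, e4, hcard] at key
  have b1 := (abs_le.1 (fld_crude hC hG hn f (sys n A (univ : Finset ι) D c) A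
    (fun _ => 2 * lam))).1
  rw [sum_const, card_range, nsmul_eq_mul, abs_of_pos (by positivity : 0 < 2 * lam)] at b1
  linarith

lemma e_small {δ K lam n N : ℝ} (hδ0 : 0 < δ) (hK0 : 0 ≤ K) (hl0 : 0 < lam) (hn0 : 0 < n)
    (hN0 : 0 < N) (hn1 : 12 / δ ^ 2 ≤ √n) (hl3 : lam ≤ δ ^ 2 / (3 * (K + 1)))
    (hN1 : 3 * K / (√lam * lam * δ ^ 2) ≤ √N) :
    √(4 / √n + K * (lam + √(N / lam) / (lam * N))) ≤ δ := by
  refine sqrt_le_iff.2 ⟨hδ0.le, ?_⟩
  have hsn : 0 < √n := sqrt_pos.2 hn0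
  have hsN : 0 < √N := sqrt_pos.2 hN0
  have hsl : 0 < √lam := sqrt_pos.2 hl0
  have a1 : 4 / √n ≤ δ ^ 2 / 3 := by
    rw [div_le_iff₀ hsn]; rw [div_le_iff₀ (by positivity)] at hn1; linarith
  have a2 : K * lam ≤ δ ^ 2 / 3 := by
    rw [le_div_iff₀ (by positivity)] at hl3; nlinarith
  have a3 : K * (√(N / lam) / (lam * N)) ≤ δ ^ 2 / 3 := by
    have e1 : √(N / lam) / (lam * N) = 1 / (√lam * lam * √N) := by
      rw [sqrt_div hN0.le]
      field_simp
      rw [sq_sqrt hN0.le]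
    rw [e1, mul_one_div, div_le_iff₀ (by positivity)]
    rw [div_le_iff₀ (by positivity)] at hN1
    linarith
  linarith

lemma fin_arith {B α ε C δ lam n N M D H S V se sD : ℝ} (hα : 0 < α) (hε : 0 < ε) (hC0 : 0 ≤ C)
    (hδ1 : α * C * δ ≤ ε / 6) (hn0 : 0 < n) (hN0 : 0 < N) (hD0 : 0 < D)
    (hM1 : M ≤ α * N) (hM2 : α * N < M + 1) (hH : |H| ≤ B) (hN3 : 6 * B / ε ≤ N)
    (hl2 : lam ≤ ε / (30 * n)) (h1 : 0 ≤ se) (h2 : se ≤ δ) (h3 : 0 ≤ sD) (h4 : sD ≤ δ)
    (ht : α * H + S < V + ε / 6) :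
    M * (H + ε / (6 * (α + 1))) + N * (S + ε / (6 * (α + 1))) + 5 * n * N * lam +
      (D * M) * ((1 / D) * (C * (se + sD))) ≤ N * (V + ε) := by
  rw [abs_le] at hH
  have b1 : M * H ≤ α * N * H + B := by nlinarith [hH.1, hH.2]
  have b2 : B ≤ N * (ε / 6) := by rw [div_le_iff₀ hε] at hN3; linarith
  have b3 : M * (ε / (6 * (α + 1))) + N * (ε / (6 * (α + 1))) ≤ N * (ε / 6) := by
    have : α * N * (ε / (6 * (α + 1))) + N * (ε / (6 * (α + 1))) = N * (ε / 6) := by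
      field_simp
    have := mul_le_mul_of_nonneg_right hM1 (show 0 ≤ ε / (6 * (α + 1)) by positivity)
    linarith
  have b4 : 5 * n * N * lam ≤ N * (ε / 6) := by
    rw [le_div_iff₀ (by positivity)] at hl2
    nlinarith
  have b5 : (D * M) * (1 / D * (C * (se + sD))) ≤ N * (ε / 3) := by
    have c2 : (D * M) * (1 / D * (C * (se + sD))) = M * (C * (se + sD)) := by field_simp
    rw [c2]
    calc M * (C * (se + sD)) ≤ (α * N) * (C * (δ + δ)) :=
          mul_le_mul hM1 (mul_le_mul_of_nonneg_left (add_le_add h2 h4) hC0) (by positivity)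
            (by positivity)
      _ = N * (2 * (α * C * δ)) := by ring
      _ ≤ _ := mul_le_mul_of_nonneg_left (by linarith) hN0.le
  have b6 := mul_le_mul_of_nonneg_left ht.le hN0.le
  linarith

lemma c_facts {B η α : ℝ} {N D M : ℕ} (hB : 1 ≤ B) (hη0 : 0 < η) (hN : 1 ≤ N) (hD : 1 ≤ D)
    (hD2 : B / η ≤ √(D : ℝ)) (hM1 : (M : ℝ) ≤ α * N) :
    (N : ℝ) * (1 / √((N : ℝ) * D)) ^ 2 = 1 / D ∧ √(1 / (D : ℝ)) ≤ η ∧
      B * |1 / √((N : ℝ) * D)| ≤ η ∧
      (D * M : ℝ) * ((1 / √((N : ℝ) * D)) ^ 2 * B ^ 2) ≤ 1 + α * B ^ 2 := by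
  have hN0 : (0 : ℝ) < N := by exact_mod_cast hN
  have hN1 : (1 : ℝ) ≤ N := by exact_mod_cast hN
  have hD0 : (0 : ℝ) < D := by exact_mod_cast hD
  have hc2 : (1 / √((N : ℝ) * D)) ^ 2 = 1 / ((N : ℝ) * D) := by
    rw [div_pow, one_pow, sq_sqrt (by positivity)]
  have hsD : 0 < √(D : ℝ) := sqrt_pos.2 hD0
  have hBD : B / √(D : ℝ) ≤ η := by
    rw [div_le_iff₀ hsD]; rw [div_le_iff₀ hη0] at hD2; linarith
  refine ⟨by rw [hc2]; field_simp, ?_, ?_, ?_⟩
  · rw [sqrt_div zero_le_one, sqrt_one]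
    exact le_trans (div_le_div_of_nonneg_right hB hsD.le) hBD
  · refine le_trans ?_ hBD
    rw [abs_of_pos (by positivity), mul_one_div]
    refine div_le_div_of_nonneg_left (by linarith) hsD (sqrt_le_sqrt ?_)
    nlinarith
  · rw [hc2]
    have : (D * M : ℝ) * (1 / (N * D) * B ^ 2) = M / N * B ^ 2 := by field_simp
    rw [this]
    have : (M : ℝ) / N ≤ α := by rw [div_le_iff₀ hN0]; exact hM1
    nlinarith [sq_nonneg B]

end Ub

open Ub in
theorem ubStmt (hC : CApi) (hG : GApi) (hm : MaxStmt) (hn : ConStmt) (hw : SwStmt)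
    (he : EndStmt) (h2 : G2Stmt) (hb : BddStmt) : UbStmt := by
  intro B α ε f f1 f2 hB hα hε hS hf
  obtain ⟨C, hC0, hw⟩ := hw B hB
  obtain ⟨δ, hδ0, hδ1⟩ : ∃ δ : ℝ, 0 < δ ∧ α * C * δ ≤ ε / 6 := by
    refine ⟨ε / (6 * (α * C + 1)), by positivity, ?_⟩
    have h1 : (α * C + 1) * (ε / (6 * (α * C + 1))) = ε / 6 := by field_simp
    have h2 : 0 < ε / (6 * (α * C + 1)) := by positivity
    linarith
  filter_upwards [ev_sqrt (12 / δ ^ 2), eventually_ge_atTop 1] with n hn1 hn2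
  obtain ⟨K, hK0, hn⟩ := hn n hn2
  obtain ⟨η, hη0, h2⟩ := h2 n B (1 + α * B ^ 2) (ε / (6 * (α + 1))) hn2 (by positivity)
  have hn0 : (0 : ℝ) < n := by exact_mod_cast hn2
  obtain ⟨t, ⟨p, hp, hp0, rfl⟩, ht⟩ := exists_lt_of_csInf_lt (s := valSet n α f)
    ⟨_, fun d => if d = 0 then 1 else 0,
      ⟨fun d _ => by by_cases h : d = 0 <;> simp [h], if_neg (by omega)⟩, if_pos rfl, rfl⟩
    (show sInf (valSet n α f) < Vn n α f + ε / 6 from by unfold Vn; linarith)
  obtain ⟨lam, hl0, hl1, hl2, hl3⟩ : ∃ lam : ℝ, 0 < lam ∧ lam ≤ 1 / 3 ∧ lam ≤ ε / (30 * n) ∧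
      lam ≤ δ ^ 2 / (3 * (K + 1)) :=
    ⟨min (1 / 3) (min (ε / (30 * n)) (δ ^ 2 / (3 * (K + 1)))), by positivity, min_le_left _ _,
      (min_le_right _ _).trans (min_le_left _ _), (min_le_right _ _).trans (min_le_right _ _)⟩
  filter_upwards [ev_sqrt (3 * K / (√lam * lam * δ ^ 2)), eventually_ge_atTop 1,
    tendsto_natCast_atTop_atTop.eventually_ge_atTop (6 * B / ε)] with N hN1 hN2 hN3
  have hN0 : (0 : ℝ) < N := by exact_mod_cast hN2
  filter_upwards [ev_sqrt (1 / δ), ev_sqrt (B / η), eventually_ge_atTop 1,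
    tendsto_natCast_atTop_atTop.eventually_ge_atTop (2 * B ^ 4)] with D hD1 hD2 hD3 hD4
  have hD0 : (0 : ℝ) < D := by exact_mod_cast hD3
  have hM1 : ((⌊α * N⌋₊ : ℕ) : ℝ) ≤ α * N := Nat.floor_le (by positivity)
  have hM2 : α * N < (⌊α * N⌋₊ : ℕ) + 1 := Nat.lt_floor_add_one _
  generalize ⌊α * N⌋₊ = M at hM1 hM2 ⊢
  obtain ⟨c1, c2, c3, c4⟩ := c_facts hB hη0 hN2 hD3 hD2 hM1
  unfold RV
  generalize 1 / √((N : ℝ) * D) = c at c1 c3 c4 ⊢
  have hcard : (((univ : Finset (Fin N)).card : ℕ) : ℝ) = N := by simp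
  have hθ : (((univ : Finset (Fin N)).card : ℕ) : ℝ) * c ^ 2 = 1 / D := by rw [hcard, c1]
  have hne : (univ : Finset (Fin N)).Nonempty := ⟨⟨0, by omega⟩, mem_univ _⟩
  have he1 := e_small hδ0 hK0 hl0 hn0 hN0 hn1 hl3 hN1
  have hcon : ∀ (L : Sy (Fin M) (Fin N)) y,
      Mx n f L univ lam ((univ : Finset (Fin N)).card / lam) y →
      Conc n f (L + fld (Fin M) univ (ys n y)) univ (ovl n f (L + fld (Fin M) univ (ys n y)) univ)
        (4 / √(n : ℝ) + K * (lam + √(N / lam) / (lam * N))) := fun L y hy => by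
    have := hn (Fin N) (Fin M) f L univ lam _ y hne hl0 (by linarith) (by positivity) hy
    rwa [hcard] at this
  generalize 4 / √(n : ℝ) + K * (lam + √(N / lam) / (lam * N)) = e at he1 hcon
  have key := fixed (I := Fin N) (ι := Fin M) hC hG hm he hb hn2 (B := B) (c := c) (lam := lam)
    (e := e) (err := (1 / D) * (C * (√e + √(1 / (D : ℝ))))) (η := η) (Q := 1 + α * B ^ 2)
    (ε := ε / (6 * (α + 1))) hB (f := f) (A := univ) hp hp0 hl0 D
    (by rw [hθ]; field_simp) hcon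
    (fun L a P hP => by
      obtain ⟨W, w1, w2, w3⟩ := hw (Fin N) (Fin M) n f f1 f2 L univ a p P e c hn2 hS hne hp hp0
        (by rw [hθ, mul_one_div, div_le_one hD0]; exact hD4) hP
      refine ⟨W, w1, w2, w3.trans (le_of_eq ?_)⟩
      rw [hθ]; ring)
    (fun q l a1 a2 a3 a4 => ⟨(h2 q l a1 a2 a3 a4).1 f (fun t h => (hS.d0 t h).1),
      (h2 q l a1 a2 a3 a4).2⟩) hη0.le (by rw [hθ]; exact c2) c3
    (le_add_of_nonneg_right (by positivity)) (by rw [Fintype.card_fin]; exact c4)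
  rw [Fintype.card_fin, hcard] at key
  refine key.trans (fin_arith hα hε hC0 hδ1 hn0 hN0 hD0 hM1 hM2
    ((hb n p hn2 hp hp0).2.2.2 f B (meas hS.d0) hf) hN3 hl2 (sqrt_nonneg _) he1 (sqrt_nonneg _)
    ?_ ht)
  have hsD : 0 < √(D : ℝ) := sqrt_pos.2 hD0
  rw [sqrt_div zero_le_one, sqrt_one, div_le_iff₀ hsD]
  rw [div_le_iff₀ hδ0] at hD1
  linarith

end

end Vale.Agent.P157
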