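import Vale.Agent.P157.A
import Vale.Agent.P157.Alg
import Vale.Agent.P157.Bdd
import Vale.Agent.P157.Block
import Vale.Agent.P157.C
import Vale.Agent.P157.Cm
import Vale.Agent.P157.Cn
import Vale.Agent.P157.Conc
import Vale.Agent.P157.Dom
import Vale.Agent.P157.End
import Vale.Agent.P157.F
import Vale.Agent.P157.G
import Vale.Agent.P157.G1
import Vale.Agent.P157.G2
import Vale.Agent.P157.Gg
import Vale.Agent.P157.Gr0
import Vale.Agent.P157.Gr1
import Vale.Agent.P157.Hl
import Vale.Agent.P157.Key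
import Vale.Agent.P157.L1
import Vale.Agent.P157.Lb
import Vale.Agent.P157.Lin
import Vale.Agent.P157.Link
import Vale.Agent.P157.Main
import Vale.Agent.P157.Max
import Vale.Agent.P157.Mono
import Vale.Agent.P157.Ms
import Vale.Agent.P157.P1
import Vale.Agent.P157.P2
import Vale.Agent.P157.Pat
import Vale.Agent.P157.Pc
import Vale.Agent.P157.Rec
import Vale.Agent.P157.Sc
import Vale.Agent.P157.Sc2
import Vale.Agent.P157.Smf
import Vale.Agent.P157.Smh
import Vale.Agent.P157.Smn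
import Vale.Agent.P157.Spin
import Vale.Agent.P157.St1
import Vale.Agent.P157.Sw
import Vale.Agent.P157.Sym
import Vale.Agent.P157.Tilt
import Vale.Agent.P157.Ub

namespace Vale.Agent.P157

theorem hL1 : L1Stmt := l1Stmt aApi
theorem hF : FApi := fApi aApi
theorem hG : GApi := gApi aApi cApi
theorem hGr0 : Gr0Stmt := gr0Stmt aApi cApi (domStmt aApi)
theorem hGra : GraStmt := graStmt hGr0
theorem hGrb : GrbStmt := grbStmt aApi cApi hGr0
theorem hMs : MsStmt := msStmt aApi cApi (st1Stmt aApi cApi hL1) hGrb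
theorem hPat : PatStmt := patStmt aApi cApi
theorem hP1 : P1Stmt := p1Stmt aApi cApi
theorem hP2 : P2Stmt := p2Stmt aApi cApi
theorem hRec : RecStmt := recStmt aApi cApi
theorem hCon : ConStmt := conStmt aApi hF hL1 hRec (ggStmt aApi hF hRec) (algStmt aApi hF)
theorem hPc : PcStmt := pcStmt hG cApi hMs hPat
theorem hLin : LinStmt := linStmt aApi cApi
theorem hLink : LinkStmt := linkStmt aApi cApi
theorem hG2 : G2Stmt := g2Stmt aApi cApi hLin hLink
theorem hHl : HlStmt := hlStmt aApi cApi hG hMs hG2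
theorem hSc2 : Sc2Stmt := sc2Stmt aApi cApi hG hGra hP2
theorem hConc : ConcStmt := concStmt aApi cApi hG hMs hG2
  (cmStmt aApi cApi hG hMs hGrb (monoStmt aApi cApi hLink))
theorem hSpin : SpinStmt := spinStmt aApi cApi hG hMs
  (scStmt aApi cApi hG hMs hGra hP2 (keyStmt aApi cApi hG hMs hPat hGra hP1 hPc)) hSc2
  (symStmt aApi cApi) hG2 hConc hHl bddStmt
theorem hLb : LbStmt := lbStmt cApi hG (maxStmt cApi) hCon
  (blockStmt cApi hG hSpin hSc2 hPc hP1 hPat hG2) hPat bddStmt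
theorem hUb : UbStmt := ubStmt cApi hG (maxStmt cApi) hCon (swStmt aApi cApi hG hMs hGra)
  (endStmt cApi hP1 hP2) hG2 bddStmt

open Filter Topology in
theorem ising (α : ℝ) (hα : 0 < α) (f : ℝ → ℝ) (hf : Measurable f) (hB : ∃ B, ∀ t, |f t| ≤ B) :
    (∀ n, 1 ≤ n → (∀ p, Path n p → p 0 = 1 → BddAbove (dualSet n p)) ∧ BddBelow (valSet n α f)) ∧
    ∃ l : ℝ, Tendsto (fun n => Vn n α f) atTop (𝓝 l) ∧
      Tendsto (fun N : ℕ => meanP f N ⌊α * N⌋₊) atTop (𝓝 l) :=
  mainOf hUb hLb (tiltStmt aApi cApi) (g1Stmt aApi cApi hLin) bddStmt smfStmt smhStmt smnStmt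
    α hα f hf hB

end Vale.Agent.P157
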