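import Vale.Agent.P157.Stm

namespace Vale.Agent.P157

open Finset Real

namespace Aa

variable {Ω : Type}

theorem mono' {P : Op Ω} (hP : Mk P) {g h : Ω → ℝ} (H : ∀ ω, g ω ≤ h ω) (ω : Ω) :
    P g ω ≤ P h ω := by
  have := hP.1 (h - g) (fun ω => sub_nonneg.2 (H ω)) ω
  rw [map_sub] at this
  exact sub_nonneg.1 this

theorem smul' (P : Op Ω) (c : ℝ) (g : Ω → ℝ) (ω : Ω) : P (fun x => c * g x) ω = c * P g ω := by
  have : (fun x => c * g x) = c • g := rfl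
  rw [this, map_smul]; rfl

theorem add' (P : Op Ω) (g h : Ω → ℝ) (ω : Ω) : P (fun x => g x + h x) ω = P g ω + P h ω := by
  have : (fun x => g x + h x) = g + h := rfl
  rw [this, map_add]; rfl

theorem const {P : Op Ω} (hP : Mk P) (c : ℝ) (ω : Ω) : P (fun _ => c) ω = c := by
  have := smul' P c (fun _ => 1) ω
  simpa [hP.2 ω] using this

theorem aff {P : Op Ω} (hP : Mk P) (a b : ℝ) (g : Ω → ℝ) (ω : Ω) :
    P (fun x => a + b * g x) ω = a + b * P g ω := by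
  rw [add', const hP, smul']

theorem abs_le' {P : Op Ω} (hP : Mk P) {g : Ω → ℝ} {c : ℝ} (H : ∀ ω, |g ω| ≤ c) (ω : Ω) :
    |P g ω| ≤ c := by
  rw [abs_le]
  constructor
  · have := mono' hP (g := fun _ => -c) (fun ω => (abs_le.1 (H ω)).1) ω
    rwa [const hP] at this
  · have := mono' hP (h := fun _ => c) (fun ω => (abs_le.1 (H ω)).2) ω
    rwa [const hP] at this

theorem cs {P : Op Ω} (hP : Mk P) (g h : Ω → ℝ) (ω : Ω) :
    (P (fun x => g x * h x) ω) ^ 2 ≤ P (fun x => g x ^ 2) ω * P (fun x => h x ^ 2) ω := by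
  have key : ∀ t : ℝ, 0 ≤ P (fun x => g x ^ 2) ω * (t * t) + 2 * P (fun x => g x * h x) ω * t +
      P (fun x => h x ^ 2) ω := by
    intro t
    have h1 := hP.1 (fun x => (t * g x + h x) ^ 2) (fun _ => sq_nonneg _) ω
    have h2 : (fun x => (t * g x + h x) ^ 2) =
        fun x => (t * t) * g x ^ 2 + ((2 * t) * (g x * h x) + h x ^ 2) := by ext x; ring
    rw [h2, add', add', smul', smul'] at h1
    linarith
  have := discrim_le_zero key
  unfold discrim at this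
  nlinarith

theorem jen {P : Op Ω} (hP : Mk P) (g : Ω → ℝ) (ω : Ω) :
    exp (P g ω) ≤ P (fun x => exp (g x)) ω := by
  set c := P g ω
  have h1 : ∀ x, exp c * (1 - c) + exp c * g x ≤ exp (g x) := by
    intro x
    have := add_one_le_exp (g x - c)
    have h2 : exp (g x) = exp c * exp (g x - c) := by rw [← exp_add]; congr 1; ring
    rw [h2]
    nlinarith [exp_pos c]
  have := mono' hP h1 ω
  rw [aff hP] at this
  linarith

theorem epos {P : Op Ω} (hP : Mk P) (g : Ω → ℝ) (ω : Ω) : 0 < P (fun x => exp (g x)) ω :=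
  (exp_pos _).trans_le (jen hP g ω)

variable {P : ℕ → Op Ω} {m : ℕ → ℝ} {t : ℕ}

theorem qq_apply (Z : Ω → ℝ) (j : ℕ) (g : Ω → ℝ) (ω : Ω) :
    QQ P m Z j g ω = exp (-(m j * XX P m Z (j + 1) ω)) *
      P j (fun x => exp (m j * XX P m Z j x) * g x) ω := rfl

theorem exp_xx (h : Ok P m t) (Z : Ω → ℝ) {j : ℕ} (hj : j < t) (ω : Ω) :
    exp (m j * XX P m Z (j + 1) ω) = P j (fun x => exp (m j * XX P m Z j x)) ω := by
  have hm := (h.pos j hj).ne'
  show exp (m j * ((m j)⁻¹ * log _)) = _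
  rw [mul_inv_cancel_left₀ hm, exp_log (epos (h.mk' j) _ ω)]

theorem qq_mk (h : Ok P m t) (Z : Ω → ℝ) {j : ℕ} (hj : j < t) : Mk (QQ P m Z j) := by
  refine ⟨fun g hg ω => ?_, fun ω => ?_⟩
  · rw [qq_apply]
    exact mul_nonneg (exp_pos _).le ((h.mk' j).1 _ (fun x => mul_nonneg (exp_pos _).le (hg x)) ω)
  · rw [qq_apply]
    simp only [mul_one]
    rw [← exp_xx h Z hj, ← exp_add]; simp

theorem ce_succ (Z : Ω → ℝ) {a b : ℕ} (hab : a ≤ b) (g : Ω → ℝ) :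
    Ce P m Z a (b + 1) g = QQ P m Z b (Ce P m Z a b g) := by
  show (if a ≤ b then _ else _ : Op Ω) g = _
  rw [if_pos hab]; rfl

theorem self (P : ℕ → Op Ω) (m : ℕ → ℝ) (Z : Ω → ℝ) {a b : ℕ} (h : b ≤ a) (g : Ω → ℝ) :
    Ce P m Z a b g = g := by
  cases b with
  | zero => rfl
  | succ b =>
    show (if a ≤ b then _ else _ : Op Ω) g = _
    rw [if_neg (by omega)]; rfl

theorem ce (h : Ok P m t) (Z : Ω → ℝ) (a b : ℕ) (hb : b ≤ t) : Mk (Ce P m Z a b) := by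
  induction b with
  | zero => exact ⟨fun g hg ω => hg ω, fun ω => rfl⟩
  | succ b ih =>
    by_cases hab : a ≤ b
    · have h1 := ih (by omega)
      have h2 := qq_mk h Z (j := b) (by omega)
      refine ⟨fun g hg ω => ?_, fun ω => ?_⟩
      · rw [ce_succ Z hab]; exact h2.1 _ (h1.1 g hg) ω
      · rw [ce_succ Z hab]
        have : Ce P m Z a b (fun _ => 1) = fun _ => 1 := funext h1.2
        rw [this]; exact h2.2 ω
    · refine ⟨fun g hg ω => ?_, fun ω => ?_⟩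
      · rw [self P m Z (by omega)]; exact hg ω
      · rw [self P m Z (by omega)]

theorem comp (P : ℕ → Op Ω) (m : ℕ → ℝ) (Z : Ω → ℝ) {a b c : ℕ} (hab : a ≤ b) (hbc : b ≤ c)
    (g : Ω → ℝ) : Ce P m Z b c (Ce P m Z a b g) = Ce P m Z a c g := by
  induction c, hbc using Nat.le_induction with
  | base => exact self P m Z le_rfl _
  | succ c hc ih => rw [ce_succ Z hc, ce_succ Z (hab.trans hc), ih]

/-- the basic identity -/
theorem basic (h : Ok P m t) (Z Z' : Ω → ℝ) {j : ℕ} (hj : j < t) (ω : Ω) :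
    exp (m j * (XX P m Z' (j + 1) ω - XX P m Z (j + 1) ω)) =
      QQ P m Z j (fun x => exp (m j * (XX P m Z' j x - XX P m Z j x))) ω := by
  rw [qq_apply]
  have : (fun x => exp (m j * XX P m Z j x) * exp (m j * (XX P m Z' j x - XX P m Z j x))) =
      fun x => exp (m j * XX P m Z' j x) := by
    ext x; rw [← exp_add]; congr 1; ring
  rw [this, ← exp_xx h Z' hj, ← exp_add]; congr 1; ring

theorem qq_chg (Z Z' : Ω → ℝ) (j : ℕ) (g : Ω → ℝ) (ω : Ω) :
    QQ P m Z' j g ω = exp (-(m j * (XX P m Z' (j + 1) ω - XX P m Z (j + 1) ω))) *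
      QQ P m Z j (fun x => exp (m j * (XX P m Z' j x - XX P m Z j x)) * g x) ω := by
  rw [qq_apply, qq_apply, ← mul_assoc, ← exp_add]
  have e : (fun x => exp (m j * XX P m Z j x) * (exp (m j * (XX P m Z' j x - XX P m Z j x)) * g x)) =
      fun x => exp (m j * XX P m Z' j x) * g x := by
    ext x; rw [← mul_assoc, ← exp_add]; congr 2; ring
  rw [e]; congr 2; ring

theorem xle (h : Ok P m t) {Z Z' : Ω → ℝ} {c : ℝ} (H : ∀ ω, Z ω ≤ Z' ω + c) (j : ℕ) (hj : j ≤ t)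
    (ω : Ω) : XX P m Z j ω ≤ XX P m Z' j ω + c := by
  induction j generalizing ω with
  | zero => exact H ω
  | succ j ih =>
    have hm := h.pos j (by omega)
    have h1 := basic h Z' Z (j := j) (by omega) ω
    have h2 := mono' (qq_mk h Z' (j := j) (by omega))
      (g := fun x => exp (m j * (XX P m Z j x - XX P m Z' j x))) (h := fun _ => exp (m j * c))
      (fun x => exp_le_exp.2 (mul_le_mul_of_nonneg_left (by linarith [ih (by omega) x]) hm.le)) ω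
    rw [const (qq_mk h Z' (j := j) (by omega)), ← h1, exp_le_exp] at h2
    have := le_of_mul_le_mul_left h2 hm
    linarith

theorem xlow (h : Ok P m t) (Z A : Ω → ℝ) (j : ℕ) (hj : j ≤ t) (ω : Ω) :
    XX P m Z j ω + Ce P m Z 0 j A ω ≤ XX P m (Z + A) j ω := by
  induction j generalizing ω with
  | zero => exact le_rfl
  | succ j ih =>
    have hm := h.pos j (by omega)
    have hq := qq_mk h Z (j := j) (by omega)
    have h1 := basic h Z (Z + A) (j := j) (by omega) ω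
    have h2 := jen hq (fun x => m j * (XX P m (Z + A) j x - XX P m Z j x)) ω
    rw [← h1, exp_le_exp, smul'] at h2
    have h3 := le_of_mul_le_mul_left h2 hm
    have h4 := mono' hq (g := Ce P m Z 0 j A) (h := fun x => XX P m (Z + A) j x - XX P m Z j x)
      (fun x => by linarith [ih (by omega) x]) ω
    rw [ce_succ Z (Nat.zero_le j)]
    linarith

theorem pw {Q : Op Ω} (hQ : Mk Q) {μ : ℝ} (h0 : 0 ≤ μ) (h1 : μ ≤ 1) (D : Ω → ℝ) (ω : Ω) :
    Q (fun x => exp (μ * D x)) ω ≤ exp (μ * log (Q (fun x => exp (D x)) ω)) := by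
  set u := Q (fun x => exp (D x)) ω with hu
  have hu0 : 0 < u := epos hQ D ω
  have key : ∀ x, exp (μ * D x) ≤ exp (μ * log u) * (1 - μ) + (exp (μ * log u) * μ / u) * exp (D x) := by
    intro x
    have hc := convexOn_exp.2 (Set.mem_univ (D x - log u)) (Set.mem_univ 0) h0 (sub_nonneg.2 h1)
      (by ring)
    simp only [smul_eq_mul, mul_zero, add_zero, exp_zero, mul_one] at hc
    have e1 : exp (μ * D x) = exp (μ * log u) * exp (μ * (D x - log u)) := by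
      rw [← exp_add]; congr 1; ring
    have e2 : exp (D x - log u) = exp (D x) / u := by rw [exp_sub, exp_log hu0]
    rw [e1]
    rw [e2] at hc
    calc exp (μ * log u) * exp (μ * (D x - log u)) ≤ exp (μ * log u) * (μ * (exp (D x) / u) + (1 - μ)) :=
          mul_le_mul_of_nonneg_left hc (exp_pos _).le
      _ = _ := by ring
  have := mono' hQ key ω
  rw [aff hQ, ← hu] at this
  calc _ ≤ _ := this
    _ = exp (μ * log u) := by field_simp; ring

theorem xup (h : Ok P m t) (Z A : Ω → ℝ) (j : ℕ) (hj : j ≤ t) (ω : Ω) :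
    XX P m (Z + A) j ω ≤ XX P m Z j ω + log (Ce P m Z 0 j (fun x => exp (A x)) ω) := by
  induction j generalizing ω with
  | zero => show Z ω + A ω ≤ Z ω + log (exp (A ω)); rw [log_exp]
  | succ j ih =>
    have hm := h.pos j (by omega)
    have hq := qq_mk h Z (j := j) (by omega)
    have h1 := basic h Z (Z + A) (j := j) (by omega) ω
    have h2 := pw hq hm.le (h.le1 j (by omega)) (fun x => XX P m (Z + A) j x - XX P m Z j x) ω
    rw [← h1, exp_le_exp] at h2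
    have h3 := le_of_mul_le_mul_left h2 hm
    have h4 := mono' hq (g := fun x => exp (XX P m (Z + A) j x - XX P m Z j x))
      (h := Ce P m Z 0 j (fun x => exp (A x))) (fun x => by
        have h5 := ih (by omega) x
        have h6 := epos (ce h Z 0 j (by omega)) A x
        rw [← exp_log h6, exp_le_exp]; linarith) ω
    have h5 := log_le_log (epos hq _ ω) h4
    rw [ce_succ Z (Nat.zero_le j)]
    linarith

theorem first (h : Ok P m t) (Z A : Ω → ℝ) (b : ℝ) (hA : ∀ ω, |A ω| ≤ b) (hb : b ≤ 1) (j : ℕ)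
    (hj : j ≤ t) (ω : Ω) : |XX P m (Z + A) j ω - XX P m Z j ω - Ce P m Z 0 j A ω| ≤ b ^ 2 := by
  have h1 := xlow h Z A j hj ω
  have h2 := xup h Z A j hj ω
  have hc := ce h Z 0 j hj
  have h3 := mono' hc (g := fun x => exp (A x)) (h := fun x => (1 + b ^ 2) + 1 * A x) (fun x => by
    have h4 := Real.abs_exp_sub_one_sub_id_le (x := A x) ((hA x).trans hb)
    have h5 : A x ^ 2 ≤ b ^ 2 := by
      rw [← sq_abs]; exact pow_le_pow_left₀ (abs_nonneg _) (hA x) 2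
    linarith [(abs_le.1 h4).2]) ω
  rw [aff hc] at h3
  have h4 := log_le_sub_one_of_pos (epos hc A ω)
  rw [abs_le]
  constructor <;> nlinarith [sq_nonneg b]

theorem dbd (h : Ok P m t) (Z A : Ω → ℝ) {B : ℝ} (hA : ∀ ω, |A ω| ≤ B) (j : ℕ) (hj : j ≤ t)
    (ω : Ω) : |XX P m (Z + A) j ω - XX P m Z j ω| ≤ B := by
  have h1 := xle h (Z := Z + A) (Z' := Z) (c := B)
    (fun ω => by have := (abs_le.1 (hA ω)).2; simp only [Pi.add_apply]; linarith) j hj ω
  have h2 := xle h (Z := Z) (Z' := Z + A) (c := B)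
    (fun ω => by have := (abs_le.1 (hA ω)).1; simp only [Pi.add_apply]; linarith) j hj ω
  rw [abs_le]; constructor <;> linarith

theorem chg0 (h : Ok P m t) (Z A : Ω → ℝ) {B : ℝ} (hA : ∀ ω, |A ω| ≤ B) (a : ℕ) (g : Ω → ℝ)
    (hg : ∀ ω, 0 ≤ g ω) (b : ℕ) (hab : a ≤ b) (hb : b + 1 ≤ t) (ω : Ω) :
    Ce P m (Z + A) a (b + 1) g ω ≤
      exp ((2 - m b) * B - m b * (XX P m (Z + A) (b + 1) ω - XX P m Z (b + 1) ω)) *
        Ce P m Z a (b + 1) g ω := by
  induction b, hab using Nat.le_induction generalizing ω with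
  | base =>
    have hq := qq_mk h Z (j := a) (by omega)
    have hm := h.pos a (by omega)
    have hm1 := h.le1 a (by omega)
    rw [ce_succ _ le_rfl, ce_succ _ le_rfl, self P m _ le_rfl, self P m _ le_rfl, qq_chg Z]
    have h1 := mono' hq (g := fun x => exp (m a * (XX P m (Z + A) a x - XX P m Z a x)) * g x)
      (h := fun x => exp ((2 - m a) * B) * g x) (fun x => by
        have h2 := abs_le.1 (dbd h Z A hA a (by omega) x)
        have hB : 0 ≤ B := le_trans (abs_nonneg _) (hA x)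
        exact mul_le_mul_of_nonneg_right (exp_le_exp.2 (by nlinarith [h2.2])) (hg x)) ω
    rw [smul'] at h1
    rw [sub_eq_add_neg ((2 - m a) * B), exp_add, mul_assoc, mul_left_comm]
    exact mul_le_mul_of_nonneg_left h1 (exp_pos _).le
  | succ b hab ih =>
    have hq := qq_mk h Z (j := b + 1) (by omega)
    have hm := h.anti b (by omega)
    rw [ce_succ _ (by omega : a ≤ b + 1), ce_succ _ (by omega : a ≤ b + 1), qq_chg Z]
    have h1 := mono' hq (g := fun x => exp (m (b + 1) * (XX P m (Z + A) (b + 1) x -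
        XX P m Z (b + 1) x)) * Ce P m (Z + A) a (b + 1) g x)
      (h := fun x => exp ((2 - m (b + 1)) * B) * Ce P m Z a (b + 1) g x) (fun x => by
        have h2 := abs_le.1 (dbd h Z A hA (b + 1) (by omega) x)
        have h3 := ih (by omega) x
        have h4 := (ce h Z a (b + 1) (by omega)).1 g hg x
        refine (mul_le_mul_of_nonneg_left h3 (exp_pos _).le).trans ?_
        rw [← mul_assoc, ← exp_add]
        exact mul_le_mul_of_nonneg_right (exp_le_exp.2 (by nlinarith [h2.1])) h4) ω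
    rw [smul'] at h1
    rw [sub_eq_add_neg ((2 - m (b + 1)) * B), exp_add, mul_assoc, mul_left_comm]
    exact mul_le_mul_of_nonneg_left h1 (exp_pos _).le

theorem chg (h : Ok P m t) (Z A : Ω → ℝ) (B : ℝ) (hA : ∀ ω, |A ω| ≤ B) (a b : ℕ) (hb : b ≤ t)
    (g : Ω → ℝ) (hg : ∀ ω, 0 ≤ g ω) (ω : Ω) :
    Ce P m (Z + A) a b g ω ≤ exp (2 * B) * Ce P m Z a b g ω := by
  have hB : 0 ≤ B := le_trans (abs_nonneg _) (hA ω)
  by_cases hab : b ≤ a
  · rw [self P m _ hab, self P m _ hab]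
    have : 1 ≤ exp (2 * B) := one_le_exp (by positivity)
    nlinarith [hg ω]
  · obtain ⟨b, rfl⟩ : ∃ b', b = b' + 1 := ⟨b - 1, by omega⟩
    refine (chg0 h Z A hA a g hg b (by omega) hb ω).trans ?_
    have h2 := abs_le.1 (dbd h Z A hA (b + 1) hb ω)
    have hm := h.pos b (by omega)
    exact mul_le_mul_of_nonneg_right (exp_le_exp.2 (by nlinarith [h2.1]))
      ((ce h Z a (b + 1) hb).1 g hg ω)

theorem chg2 (h : Ok P m t) (Z A : Ω → ℝ) (B : ℝ) (hA : ∀ ω, |A ω| ≤ B) (l : ℕ) (hl : l ≤ t)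
    (φ : Ω → Ω → ℝ) (hφ : ∀ ω ω', 0 ≤ φ ω ω') (ω0 : Ω) :
    E2 P m (Z + A) l t φ ω0 ≤ exp (6 * B) * E2 P m Z l t φ ω0 := by
  unfold E2
  have c1 := ce h Z 0 l hl
  have c1' := ce h (Z + A) 0 l hl
  have c2 := ce h Z l t le_rfl
  refine (chg h Z A B hA l t le_rfl _ (fun ω => c1'.1 _ (fun ω1 => c1'.1 _ (hφ ω1) ω) ω) ω0).trans ?_
  have : exp (6 * B) = exp (2 * B) * (exp (2 * B) * exp (2 * B)) := by
    rw [← exp_add, ← exp_add]; congr 1; ring
  rw [this, mul_assoc, ← smul' _ (exp (2 * B) * exp (2 * B))]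
  refine mul_le_mul_of_nonneg_left (mono' c2 (fun ω => ?_) ω0) (exp_pos _).le
  refine (chg h Z A B hA 0 l hl _ (fun ω1 => c1'.1 _ (hφ ω1) ω) ω).trans ?_
  rw [mul_assoc]
  refine mul_le_mul_of_nonneg_left ?_ (exp_pos _).le
  rw [← smul' _ (exp (2 * B))]
  exact mono' c1 (fun ω1 => chg h Z A B hA 0 l hl _ (hφ ω1) ω) ω

section Tw
variable {Ω' : Type} {P' : ℕ → Op Ω'}

theorem twX (m : ℕ → ℝ) (t : ℕ) (θ : ℕ → Ω' → Ω)
    (H : ∀ j, j < t → ∀ (g : Ω → ℝ) ω, P' j (fun x => g (θ j x)) ω = P j g (θ (j + 1) ω))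
    (Z : Ω → ℝ) (j : ℕ) (hj : j ≤ t) (ω : Ω') :
    XX P' m (fun x => Z (θ 0 x)) j ω = XX P m Z j (θ j ω) := by
  induction j generalizing ω with
  | zero => rfl
  | succ j ih =>
    show (m j)⁻¹ * log _ = (m j)⁻¹ * log _
    rw [← H j (by omega)]
    simp only [ih (by omega)]

theorem twC (m : ℕ → ℝ) (t : ℕ) (θ : ℕ → Ω' → Ω)
    (H : ∀ j, j < t → ∀ (g : Ω → ℝ) ω, P' j (fun x => g (θ j x)) ω = P j g (θ (j + 1) ω))
    (Z : Ω → ℝ) (a b : ℕ) (hab : a ≤ b) (hb : b ≤ t) (g : Ω → ℝ) (ω : Ω') :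
    Ce P' m (fun x => Z (θ 0 x)) a b (fun x => g (θ a x)) ω = Ce P m Z a b g (θ b ω) := by
  induction b, hab using Nat.le_induction generalizing ω with
  | base => rw [self P' m _ le_rfl, self P m _ le_rfl]
  | succ b hab ih =>
    rw [ce_succ _ hab, ce_succ _ hab, qq_apply, qq_apply, twX m t θ H Z _ hb, ← H b (by omega)]
    simp only [ih (by omega), twX m t θ H Z b (by omega)]

theorem twE (m : ℕ → ℝ) (t : ℕ) (θ : ℕ → Ω' → Ω)
    (H : ∀ j, j < t → ∀ (g : Ω → ℝ) ω, P' j (fun x => g (θ j x)) ω = P j g (θ (j + 1) ω))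
    (Z : Ω → ℝ) (l : ℕ) (hl : l ≤ t) (φ : Ω → Ω → ℝ) (ω : Ω') :
    E2 P' m (fun x => Z (θ 0 x)) l t (fun x x' => φ (θ 0 x) (θ 0 x')) ω =
      E2 P m Z l t φ (θ t ω) := by
  unfold E2
  rw [← twC m t θ H Z l t hl le_rfl]
  refine congrFun (congrArg _ (funext fun ω' => ?_)) ω
  rw [← twC m t θ H Z 0 l (Nat.zero_le _) hl]
  refine congrFun (congrArg _ (funext fun ω1 => ?_)) ω'
  exact twC m t θ H Z 0 l (Nat.zero_le _) hl (φ (θ 0 ω1)) ω'

end Tw

section Pr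
variable {Ω1 Ω2 : Type} {P1 : ℕ → Op Ω1} {P2 : ℕ → Op Ω2}

theorem prX (h1 : Ok P1 m t) (h2 : Ok P2 m t) (θ1 : Ω → Ω1) (θ2 : Ω → Ω2)
    (H : ∀ j, j < t → ∀ (g1 : Ω1 → ℝ) (g2 : Ω2 → ℝ) ω,
      P j (fun x => g1 (θ1 x) * g2 (θ2 x)) ω = P1 j g1 (θ1 ω) * P2 j g2 (θ2 ω))
    (Z1 : Ω1 → ℝ) (Z2 : Ω2 → ℝ) (j : ℕ) (hj : j ≤ t) (ω : Ω) :
    XX P m (fun x => Z1 (θ1 x) + Z2 (θ2 x)) j ω = XX P1 m Z1 j (θ1 ω) + XX P2 m Z2 j (θ2 ω) := by
  induction j generalizing ω with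
  | zero => rfl
  | succ j ih =>
    show (m j)⁻¹ * log _ = (m j)⁻¹ * log _ + (m j)⁻¹ * log _
    rw [← mul_add, ← log_mul (epos (h1.mk' j) _ _).ne' (epos (h2.mk' j) _ _).ne', ← H j (by omega)]
    simp only [ih (by omega), mul_add, exp_add]

theorem prC (h1 : Ok P1 m t) (h2 : Ok P2 m t) (θ1 : Ω → Ω1) (θ2 : Ω → Ω2)
    (H : ∀ j, j < t → ∀ (g1 : Ω1 → ℝ) (g2 : Ω2 → ℝ) ω,
      P j (fun x => g1 (θ1 x) * g2 (θ2 x)) ω = P1 j g1 (θ1 ω) * P2 j g2 (θ2 ω))
    (Z1 : Ω1 → ℝ) (Z2 : Ω2 → ℝ) (a b : ℕ) (hb : b ≤ t) (g1 : Ω1 → ℝ) (g2 : Ω2 → ℝ) (ω : Ω) :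
    Ce P m (fun x => Z1 (θ1 x) + Z2 (θ2 x)) a b (fun x => g1 (θ1 x) * g2 (θ2 x)) ω =
      Ce P1 m Z1 a b g1 (θ1 ω) * Ce P2 m Z2 a b g2 (θ2 ω) := by
  induction b generalizing ω with
  | zero => rfl
  | succ b ih =>
    by_cases hab : a ≤ b
    · rw [ce_succ _ hab, ce_succ _ hab, ce_succ _ hab, qq_apply, qq_apply, qq_apply,
        prX h1 h2 θ1 θ2 H Z1 Z2 _ hb, mul_mul_mul_comm, ← H b (by omega), ← exp_add]
      congr 1
      · congr 1; ring
      · refine congrFun (congrArg _ (funext fun x => ?_)) ω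
        rw [ih (by omega), prX h1 h2 θ1 θ2 H Z1 Z2 b (by omega), mul_add, exp_add]; ring
    · rw [self P m _ (by omega), self P1 m _ (by omega), self P2 m _ (by omega)]

theorem prE (h1 : Ok P1 m t) (h2 : Ok P2 m t) (θ1 : Ω → Ω1) (θ2 : Ω → Ω2)
    (H : ∀ j, j < t → ∀ (g1 : Ω1 → ℝ) (g2 : Ω2 → ℝ) ω,
      P j (fun x => g1 (θ1 x) * g2 (θ2 x)) ω = P1 j g1 (θ1 ω) * P2 j g2 (θ2 ω))
    (Z1 : Ω1 → ℝ) (Z2 : Ω2 → ℝ) (l : ℕ) (hl : l ≤ t) (φ1 : Ω1 → Ω1 → ℝ) (φ2 : Ω2 → Ω2 → ℝ) (ω : Ω) :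
    E2 P m (fun x => Z1 (θ1 x) + Z2 (θ2 x)) l t
        (fun x x' => φ1 (θ1 x) (θ1 x') * φ2 (θ2 x) (θ2 x')) ω =
      E2 P1 m Z1 l t φ1 (θ1 ω) * E2 P2 m Z2 l t φ2 (θ2 ω) := by
  unfold E2
  rw [← prC h1 h2 θ1 θ2 H Z1 Z2 l t le_rfl]
  refine congrFun (congrArg _ (funext fun ω' => ?_)) ω
  rw [← prC h1 h2 θ1 θ2 H Z1 Z2 0 l hl]
  refine congrFun (congrArg _ (funext fun ω1 => ?_)) ω'
  exact prC h1 h2 θ1 θ2 H Z1 Z2 0 l hl (φ1 (θ1 ω1)) (φ2 (θ2 ω1)) ω'

end Pr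

theorem shX (P : ℕ → Op Ω) (m : ℕ → ℝ) (Z : Ω → ℝ) (a j : ℕ) :
    XX (fun k => P (a + k)) (fun k => m (a + k)) (XX P m Z a) j = XX P m Z (a + j) := by
  induction j with
  | zero => rfl
  | succ j ih =>
    ext ω
    show (m (a + j))⁻¹ * log _ = (m (a + j))⁻¹ * log _
    rw [ih]; rfl

theorem shC (P : ℕ → Op Ω) (m : ℕ → ℝ) (Z : Ω → ℝ) (a b c : ℕ) :
    Ce (fun k => P (a + k)) (fun k => m (a + k)) (XX P m Z a) b c = Ce P m Z (a + b) (a + c) := by
  induction c with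
  | zero => ext g ω; rw [self P m Z (by omega)]; rfl
  | succ c ih =>
    ext g ω
    by_cases hbc : b ≤ c
    · rw [ce_succ _ hbc, ← add_assoc, ce_succ _ (by omega), qq_apply, qq_apply, ih, shX, shX]
      rfl
    · rw [self _ _ _ (by omega), self P m Z (by omega)]

theorem e2add (P : ℕ → Op Ω) (m : ℕ → ℝ) (Z : Ω → ℝ) (l t : ℕ) (φ ψ : Ω → Ω → ℝ) (a b : ℝ)
    (ω : Ω) : E2 P m Z l t (fun x x' => a * φ x x' + b * ψ x x') ω =
      a * E2 P m Z l t φ ω + b * E2 P m Z l t ψ ω := by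
  unfold E2
  simp only [add', smul']

theorem e2sum {κ : Type} (P : ℕ → Op Ω) (m : ℕ → ℝ) (Z : Ω → ℝ) (l t : ℕ) (s : Finset κ)
    (φ : κ → Ω → Ω → ℝ) (ω : Ω) : E2 P m Z l t (fun x x' => ∑ k ∈ s, φ k x x') ω =
      ∑ k ∈ s, E2 P m Z l t (φ k) ω := by
  classical
  induction s using Finset.induction_on with
  | empty =>
    have := e2add P m Z l t (fun _ _ => 0) (fun _ _ => 0) 0 0 ω
    simpa using this
  | insert k s hk ih =>
    have := e2add P m Z l t (φ k) (fun x x' => ∑ k ∈ s, φ k x x') 1 1 ω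
    simp only [one_mul] at this
    simp only [sum_insert hk, this, ih]

theorem e2mono (h : Ok P m t) (Z : Ω → ℝ) (l : ℕ) (hl : l ≤ t) {φ ψ : Ω → Ω → ℝ}
    (H : ∀ x x', φ x x' ≤ ψ x x') (ω : Ω) : E2 P m Z l t φ ω ≤ E2 P m Z l t ψ ω :=
  mono' (ce h Z l t le_rfl) (fun ω' => mono' (ce h Z 0 l hl)
    (fun ω1 => mono' (ce h Z 0 l hl) (H ω1) ω') ω') ω

theorem e2const (h : Ok P m t) (Z : Ω → ℝ) (l : ℕ) (hl : l ≤ t) (c : ℝ) (ω : Ω) :
    E2 P m Z l t (fun _ _ => c) ω = c := by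
  unfold E2
  simp only [const (ce h Z 0 l hl), const (ce h Z l t le_rfl)]

theorem e2sq (h : Ok P m t) (Z : Ω → ℝ) (l : ℕ) (hl : l ≤ t) (φ : Ω → Ω → ℝ) (ω : Ω) :
    (E2 P m Z l t φ ω) ^ 2 ≤ E2 P m Z l t (fun x x' => φ x x' ^ 2) ω := by
  set c := E2 P m Z l t φ ω with hc
  have h1 := e2mono h Z l hl (φ := fun x x' => (2 * c) * φ x x' + (-c ^ 2) * (fun _ _ => 1) x x')
    (ψ := fun x x' => φ x x' ^ 2) (fun x x' => by nlinarith [sq_nonneg (φ x x' - c)]) ω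
  rw [e2add, e2const h Z l hl, ← hc] at h1
  nlinarith

theorem e2mul (P : ℕ → Op Ω) (m : ℕ → ℝ) (Z : Ω → ℝ) (l t : ℕ) (u v : Ω → ℝ) (ω : Ω) :
    E2 P m Z l t (fun x x' => u x * v x') ω =
      Ce P m Z l t (fun x => Ce P m Z 0 l u x * Ce P m Z 0 l v x) ω := by
  unfold E2
  refine congrFun (congrArg _ (funext fun ω' => ?_)) ω
  simp only [smul']
  have := smul' (Ce P m Z 0 l) (Ce P m Z 0 l v ω') u ω'
  simp only [mul_comm (Ce P m Z 0 l v ω')] at this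
  exact this

theorem e2one (h : Ok P m t) (Z : Ω → ℝ) (l : ℕ) (hl : l ≤ t) (u : Ω → ℝ) (ω : Ω) :
    E2 P m Z l t (fun x _ => u x) ω = Ce P m Z 0 t u ω := by
  unfold E2
  simp only [const (ce h Z 0 l hl)]
  exact congrFun (comp P m Z (Nat.zero_le l) hl u) ω

theorem sq1 {Q : Op Ω} (hQ : Mk Q) (g : Ω → ℝ) (ω : Ω) :
    Q g ω * Q g ω ≤ Q (fun x => g x * g x) ω := by
  have := cs hQ g (fun _ => 1) ω
  simp only [mul_one, one_pow, hQ.2] at this
  simpa only [sq] using this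

theorem e2anti (h : Ok P m t) (Z u : Ω → ℝ) (l l' : ℕ) (hl : l ≤ l') (hl' : l' ≤ t) (ω : Ω) :
    0 ≤ E2 P m Z l' t (fun x x' => u x * u x') ω ∧
      E2 P m Z l' t (fun x x' => u x * u x') ω ≤ E2 P m Z l t (fun x x' => u x * u x') ω := by
  rw [e2mul, e2mul]
  refine ⟨(ce h Z l' t le_rfl).1 _ (fun x => mul_self_nonneg _) ω, ?_⟩
  rw [← comp P m Z hl hl']
  refine mono' (ce h Z l' t le_rfl) (fun x => ?_) ω
  rw [← comp P m Z (Nat.zero_le l) hl]
  exact sq1 (ce h Z l l' hl') _ x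

theorem abel (n : ℕ) (w a : ℕ → ℝ) (τ : ℝ) (hw : Path n w) (hτ : 0 ≤ τ)
    (H : ∀ κ, κ < n → |∑ d ∈ Icc 1 κ, a d| ≤ τ) : |∑ d ∈ Ico 1 n, w d * a d| ≤ w 0 * τ := by
  have key : ∀ k, k < n → |∑ d ∈ Icc 1 k, w d * a d - w (k + 1) * ∑ d ∈ Icc 1 k, a d| ≤
      (w 0 - w (k + 1)) * τ := by
    intro k
    induction k with
    | zero =>
      intro hk
      have := hw.1 0 hk
      simp only [show Icc 1 0 = (∅ : Finset ℕ) from rfl, sum_empty, mul_zero, sub_zero, abs_zero]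
      exact mul_nonneg (by linarith) hτ
    | succ k ih =>
      intro hk
      have h1 := ih (by omega)
      have h2 := hw.1 (k + 1) hk
      have h3 := H (k + 1) hk
      rw [sum_Icc_succ_top (by omega)] at h3 ⊢
      rw [sum_Icc_succ_top (by omega)]
      have e : ∑ d ∈ Icc 1 k, w d * a d + w (k + 1) * a (k + 1) -
          w (k + 1 + 1) * (∑ d ∈ Icc 1 k, a d + a (k + 1)) =
          (∑ d ∈ Icc 1 k, w d * a d - w (k + 1) * ∑ d ∈ Icc 1 k, a d) +
            (w (k + 1) - w (k + 1 + 1)) * (∑ d ∈ Icc 1 k, a d + a (k + 1)) := by ring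
      rw [e]
      refine (abs_add_le _ _).trans ?_
      rw [abs_mul, abs_of_nonneg (sub_nonneg.2 h2)]
      nlinarith [mul_le_mul_of_nonneg_left h3 (sub_nonneg.2 h2)]
  cases n with
  | zero => simp [hw.2]
  | succ n =>
    have := key n (by omega)
    rw [hw.2] at this
    simpa [Finset.Ico_add_one_right_eq_Icc] using this

end Aa

theorem aApi : AApi where
  mono' := fun hP _ _ H ω => Aa.mono' hP H ω
  const := fun hP => Aa.const hP
  abs_le := fun hP _ _ H ω => Aa.abs_le' hP H ω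
  cs := fun hP => Aa.cs hP
  jen := fun hP => Aa.jen hP
  ce := fun h => Aa.ce h
  comp := fun P m Z _ _ _ h1 h2 => Aa.comp P m Z h1 h2
  self := fun P m Z _ _ h => Aa.self P m Z h
  xle := fun h _ _ _ H => Aa.xle h H
  xlow := fun h => Aa.xlow h
  xup := fun h => Aa.xup h
  first := fun h => Aa.first h
  chg := fun h => Aa.chg h
  chg2 := fun h => Aa.chg2 h
  tw := fun m t θ H Z => ⟨Aa.twX m t θ H Z, Aa.twC m t θ H Z, Aa.twE m t θ H Z⟩
  prod := fun h1 h2 θ1 θ2 H Z1 Z2 =>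
    ⟨Aa.prX h1 h2 θ1 θ2 H Z1 Z2, Aa.prC h1 h2 θ1 θ2 H Z1 Z2, Aa.prE h1 h2 θ1 θ2 H Z1 Z2⟩
  shift := fun P m Z a => ⟨Aa.shX P m Z a, Aa.shC P m Z a⟩
  e2add := Aa.e2add
  e2sum := Aa.e2sum
  e2mono := fun h Z l hl _ _ H => Aa.e2mono h Z l hl H
  e2const := fun h => Aa.e2const h
  e2sq := fun h => Aa.e2sq h
  e2mul := Aa.e2mul
  e2one := fun h => Aa.e2one h
  e2anti := fun h => Aa.e2anti h
  abel := Aa.abel

end Vale.Agent.P157
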