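import Mathlib

/-! Ising perceptron with Gaussian patterns: the pressure and the variational formula. -/

namespace Vale.Agent.P157

open MeasureTheory ProbabilityTheory

noncomputable section

/-- The spin value: `true` is `+1`, `false` is `-1`. -/
def spin (s : Bool) : ℝ := if s then 1 else -1

/-- The pressure `p_N(f)` on the Ising cube (uniform probability) for `M` patterns `g a`. -/
def pN (f : ℝ → ℝ) (N M : ℕ) (g : Fin M → Fin N → ℝ) : ℝ :=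
  (1 / (N : ℝ)) * Real.log
    ((∑ σ : Fin N → Bool, Real.exp (∑ a, f ((∑ i, g a i * spin (σ i)) / √(N : ℝ)))) / 2 ^ N)

/-- `E p_N(f)` for `M` independent standard Gaussian patterns. -/
def meanP (f : ℝ → ℝ) (N M : ℕ) : ℝ :=
  ∫ g, pN f N M g ∂(Measure.pi fun _ : Fin M => Measure.pi fun _ : Fin N => gaussianReal 0 1)

/-- The Parisi recursion with `n` levels: `X_0 = Φ` and
`X_{d+1}(x) = m_d⁻¹ log E exp (m_d X_d (x + √(q_d - q_{d+1}) z))` with `m_d = 1 - d / n`. -/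
def casc (n : ℕ) (q : ℕ → ℝ) (Φ : ℝ → ℝ) : ℕ → ℝ → ℝ
  | 0 => Φ
  | d + 1 => fun x => (1 - (d : ℝ) / n)⁻¹ * Real.log
      (∫ z, Real.exp ((1 - (d : ℝ) / n) * casc n q Φ d (x + √(q d - q (d + 1)) * z))
        ∂gaussianReal 0 1)

/-- `q_0 ≥ q_1 ≥ ... ≥ q_n = 0`. -/
def Path (n : ℕ) (q : ℕ → ℝ) : Prop := (∀ d, d < n → q (d + 1) ≤ q d) ∧ q n = 0

/-- The pattern functional `H_n(p) = X_n(0)` with terminal function `f`. -/
def Hf (n : ℕ) (f : ℝ → ℝ) (p : ℕ → ℝ) : ℝ := casc n p f n 0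

/-- The spin functional `ψ_n(q) = X_n(0) - q_0 / 2` with terminal function `log cosh`. -/
def psi (n : ℕ) (q : ℕ → ℝ) : ℝ :=
  casc n q (fun x => Real.log (Real.cosh x)) n 0 - q 0 / 2

/-- The pairing `(1 / 2n) ∑_{d = 1}^{n-1} p_d q_d`. -/
def ip (n : ℕ) (p q : ℕ → ℝ) : ℝ := (1 / (2 * (n : ℝ))) * ∑ d ∈ Finset.Ico 1 n, p d * q d

/-- The values `ψ_n(q) + ⟨p, q⟩` over all paths `q`. -/
def dualSet (n : ℕ) (p : ℕ → ℝ) : Set ℝ := {t | ∃ q, Path n q ∧ t = psi n q + ip n p q}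

/-- The values `α H_n(p) + sup_q (ψ_n(q) + ⟨p, q⟩)` over paths `p` with `p_0 = 1`. -/
def valSet (n : ℕ) (α : ℝ) (f : ℝ → ℝ) : Set ℝ :=
  {t | ∃ p, Path n p ∧ p 0 = 1 ∧ t = α * Hf n f p + sSup (dualSet n p)}

/-- The `n`-level value `V_n = inf_p (α H_n(p) + sup_q (ψ_n(q) + ⟨p, q⟩))`. -/
def Vn (n : ℕ) (α : ℝ) (f : ℝ → ℝ) : ℝ := sInf (valSet n α f)

end

end Vale.Agent.P157
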