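import Vale.Agent.P157.Defs

/-! Spherical perceptron with Gaussian patterns: the pressure and the variational formula. -/

namespace Vale.Agent.P157

open MeasureTheory ProbabilityTheory

noncomputable section

/-- Normalized surface measure on the unit sphere of `ℝ^N`. -/
def sphM (N : ℕ) : Measure (Metric.sphere (0 : EuclideanSpace ℝ (Fin N)) 1) :=
  ((volume : Measure (EuclideanSpace ℝ (Fin N))).toSphere Set.univ)⁻¹ •
    (volume : Measure (EuclideanSpace ℝ (Fin N))).toSphere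

/-- The pressure `p_N(f)` on the sphere of radius `√N`, whose points are `x = √N u` with `u` on
the unit sphere. -/
def pS (f : ℝ → ℝ) (N M : ℕ) (g : Fin M → Fin N → ℝ) : ℝ :=
  (1 / (N : ℝ)) * Real.log
    (∫ u, Real.exp (∑ a, f ((∑ i, g a i * (√(N : ℝ) * u.1 i)) / √(N : ℝ))) ∂sphM N)

/-- `E p_N(f)` on the sphere for `M` independent standard Gaussian patterns. -/
def meanS (f : ℝ → ℝ) (N M : ℕ) : ℝ :=
  ∫ g, pS f N M g ∂(Measure.pi fun _ : Fin M => Measure.pi fun _ : Fin N => gaussianReal 0 1)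

/-- `D_κ = ∑_{k < κ} m_k (p_k - p_{k+1})` with `m_k = 1 - k / n`. -/
def Dk (n : ℕ) (p : ℕ → ℝ) (κ : ℕ) : ℝ :=
  ∑ k ∈ Finset.range κ, (1 - (k : ℝ) / n) * (p k - p (k + 1))

/-- The Crisanti-Sommers entropy
`(1/2) (log D_1 + ∑_{κ=1}^{n-1} m_κ⁻¹ log (D_{κ+1} / D_κ))`. -/
def CS (n : ℕ) (p : ℕ → ℝ) : ℝ :=
  (Real.log (Dk n p 1) +
    ∑ κ ∈ Finset.Ico 1 n, (1 - (κ : ℝ) / n)⁻¹ * Real.log (Dk n p (κ + 1) / Dk n p κ)) / 2

/-- The values `α H_n(p) + CS_n(p)` over paths `p` with `p_0 = 1` and `p_1 < 1`. -/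
def valS (n : ℕ) (α : ℝ) (f : ℝ → ℝ) : Set ℝ :=
  {t | ∃ p, Path n p ∧ p 0 = 1 ∧ p 1 < 1 ∧ t = α * Hf n f p + CS n p}

/-- The `n`-level value on the sphere. -/
def Vs (n : ℕ) (α : ℝ) (f : ℝ → ℝ) : ℝ := sInf (valS n α f)

end

end Vale.Agent.P157
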