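import Vale.Agent.P157.Stm

/-! Module Key. -/

namespace Vale.Agent.P157

open Finset Real

namespace Key

variable {I ι : Type} [Fintype I] [DecidableEq I] [Fintype ι] [DecidableEq ι]

theorem conc_mul {n : ℕ} {f : ℝ → ℝ} {L L' : Sy ι I} {A : Finset I} {P : ℕ → ℝ} {e K : ℝ}
    (hK : 0 ≤ K) (h : Conc n f L A P e)
    (H : ∀ (χ : (I → Bool) → (I → Bool) → ℝ) (d : ℕ), d ≤ n → (∀ σ σ', 0 ≤ χ σ σ') →
      EE n (gg ι f) L' d (fun ω ω' => χ ω.2 ω'.2) ≤ K * EE n (gg ι f) L d fun ω ω' => χ ω.2 ω'.2) :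
    Conc n f L' A P (K * e) := by
  refine le_trans ?_ (mul_le_mul_of_nonneg_left h hK)
  rw [mul_left_comm, mul_sum _ _ K]
  refine mul_le_mul_of_nonneg_left (sum_le_sum fun d hd => ?_) (by positivity)
  exact H (fun σ σ' => (Rr A σ σ' - P d) ^ 2) d (mem_Ico.1 hd).2.le fun _ _ => sq_nonneg _

theorem small_add {n : ℕ} {B : ℝ} {L L' : Sy ι I} (h : Small n B L) (h' : Small n B L') :
    Small n B (L + L') := fun s hs => (Multiset.mem_add.1 hs).elim (h s) (h' s)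

theorem gam_diff (hA : AApi) (hC : CApi) (hG : GApi) {n : ℕ} (hn : 1 ≤ n) (f f1 f2 : ℝ → ℝ)
    (L : Sy ι I) (a : ι) {w : (I → Bool) → ℝ} (hw : ∀ σ, w σ ^ 2 = 1) {P W : ℕ → ℝ}
    (hP : Path n P) (h0 : P 0 = 1) (hW : Path n W) {θ : ℝ} (hθ : 0 ≤ θ) :
    ((lift (some a) w {(n - 1, √θ)}).map (Gam n (gg ι f) (gg1 ι f1) (gg2 ι f2) L)).sum -
      ((fk I a (sprof n P θ) + lift none w (sprof n W θ)).map
        (Gam n (gg ι f) (gg1 ι f1) (gg2 ι f2) L)).sum = θ / 2 * (Lam n f f1 L a w P W - W 0) := by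
  have e1 : E1 n (gg ι f) L (ob (fun t => gg2 ι f2 none t + gg1 ι f1 none t ^ 2) none
      fun _ => 1) = 1 := by
    refine Eq.trans ?_ ((hA.ce (hC.ok n L hn) (ZZ (gg ι f)) 0 (n + 1) le_rfl).2 (0, default))
    refine congrArg (E1 n (gg ι f) L) (funext fun ω => ?_)
    simp [ob, gg1, gg2]
  have e2 : Icc 1 (n - 1) = Ico 1 n := by ext d; simp only [mem_Icc, mem_Ico]; omega
  have e3 : ∀ ω : Om (Option ι) (I → Bool), ob (gg1 ι f1 none) none w ω = w ω.2 :=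
    fun ω => one_mul _
  rw [Multiset.map_add, Multiset.sum_add, fk, hG.gam_prof n _ _ _ L _ _ P θ hn hP hθ (by simp),
    hG.gam_prof n _ _ _ L _ _ W θ hn hW hθ hw, lift, Multiset.map_singleton, Multiset.map_singleton,
    Multiset.sum_singleton, hG.gam_one n _ _ _ L _ _ _ _ hw, sq_sqrt hθ, e1, e2, h0, Lam,
    sum_add_distrib, sum_sub_distrib]
  simp only [e3, show gg1 ι f1 (some a) = f1 from rfl]
  ring

theorem lam_dec (hA : AApi) (hC : CApi) (h1 : P1Stmt) {n : ℕ} (hn : 1 ≤ n) (f f1 : ℝ → ℝ)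
    {L : Sy ι I} {a : ι} (hL : ∀ s ∈ L, s.2.1 ≠ some a) (w : (I → Bool) → ℝ) (P : ℕ → ℝ)
    (l : Multiset (ℕ × ℝ)) :
    Lam n f f1 (L + fk I a l) a w P (fun d => if d < n then WD n f f1 l d else 0) =
      2 * ip n P fun d => if d < n then WD n f f1 l d else 0 := by
  have h := (h1 _ _ n (gg ι f) L (some a) l hn hL).2
  have hn' : (n : ℝ) ≠ 0 := by positivity
  rw [Lam, ip, ← mul_assoc, show 2 * (1 / (2 * (n : ℝ))) = 1 / n by field_simp]
  congr 1
  refine sum_congr rfl fun d hd => ?_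
  have hd' := (mem_Ico.1 hd).2
  have c1 : EE n (gg ι f) L d (fun _ _ => 1 * 1) = 1 :=
    (hA.e2const (hC.ok n L hn) _ (d + 1) (by omega) _ _).trans (mul_one _)
  have c2 : WD n (gg ι f (some a)) (fun _ => 1) l d = 1 :=
    (hA.e2const (hC.ok n _ hn) _ (d + 1) (by omega) _ _).trans (mul_one _)
  have c3 := h (fun _ => 1) w d hd'.le
  simp only [ob, one_mul, c2] at c3
  rw [fk, h f1 _ d hd'.le, h f1 w d hd'.le, c1, c3, if_pos hd']
  simp only [show gg ι f (some a) = f from rfl]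
  ring

end Key

open Key in
theorem keyStmt (hA : AApi) (hC : CApi) (hG : GApi) (hM : MsStmt) (hP : PatStmt) (ha : GraStmt)
    (h1 : P1Stmt) (hc : PcStmt) : KeyStmt := by
  intro B hB
  obtain ⟨Cm, m0, hM⟩ := hM B hB
  obtain ⟨Cg, g0, ha⟩ := ha B hB
  obtain ⟨Cp, p0, hc⟩ := hc B hB
  set K := √(exp Cg * exp (12 * B)) with hK
  have K1 : 1 ≤ K := one_le_sqrt.2 (one_le_mul_of_one_le_of_one_le (one_le_exp g0)
    (one_le_exp (by linarith)))
  refine ⟨4 * Cm + 4 * Cp * K + 4 * Cm * (1 + 4 * B ^ 3), by positivity, ?_⟩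
  intro I ι _ _ _ _ n f f1 f2 L A a w P e c θ θ0 D hn hf hb hAn hw hPP hP0 hq hD h0 h0' hs hv hco
  set q := A.card * c ^ 2
  set l := D • sprof n P q with hl
  set W : ℕ → ℝ := fun d => if d < n then WD n f f1 l d else 0 with hWd
  set La := L.filter fun s => s.2.1 = some a
  set L0 := L.filter fun s => ¬ s.2.1 = some a
  set Rd : Sy ι I := D • round (some a) A (n - 1) c
  have hL : L = L0 + La := by rw [add_comm]; exact (Multiset.filter_add_not _ L).symm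
  have sm := hC.smg ι B f f1 f2 hB hf
  obtain ⟨hW, hW0⟩ : Path n W ∧ W 0 ≤ B ^ 2 := by
    have := hG.w_path n (fun _ : Unit => f) (lift () (fun _ : Unit => 1) l)
      (fun ω => f1 (ω.1 () ())) B hn fun _ => hf.b1 _
    exact ⟨this.1, by simp only [hWd, if_pos (show 0 < n from hn)]; exact this.2⟩
  have B2 : 1 ≤ B ^ 2 := one_le_pow₀ hB
  have B4 : B ^ 2 ≤ B ^ 4 := pow_le_pow_right₀ hB (by norm_num)
  have hsq : ∀ x, x ≤ θ0 * B ^ 2 → B * √x ≤ 1 := fun x hx => by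
    rw [← sqrt_sq (by linarith : 0 ≤ B), ← sqrt_mul (sq_nonneg B)]
    exact sqrt_le_one.2 (by nlinarith)
  have spr : ∀ p, Path n p → p 0 ≤ B ^ 2 → ∀ s ∈ sprof n p θ0, s.1 < n ∧ B * |s.2| ≤ 1 :=
    fun p hp hp0 s hs => by
      have := (hG.sprof_var n p θ0 hp h0.le).2.2 s hs
      exact ⟨this.1, le_trans (by gcongr; exact this.2) (hsq (θ0 * p 0) (by gcongr))⟩
  set T1 : Sy ι I := lift (some a) w {(n - 1, √θ0)}
  set T2 : Sy ι I := fk I a (sprof n P θ0) + lift none w (sprof n W θ0)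
  have s1 : Small n B T1 := hG.lift_small n B _ w _ hw fun s hs => by
    rw [Multiset.mem_singleton.1 hs]
    exact ⟨by simp only; omega, by
      rw [abs_of_nonneg (sqrt_nonneg _)]; exact hsq _ (by nlinarith)⟩
  have s2 : Small n B T2 := small_add (hG.lift_small n B _ _ _ (by simp) (spr P hPP (by linarith)))
    (hG.lift_small n B _ w _ hw (spr W hW hW0))
  have v1 : vr T1 = θ0 := by
    rw [(hG.lift_vr _ w _ hw).1, Multiset.map_singleton, Multiset.sum_singleton, sq_sqrt h0.le]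
  have v2 : vr T2 ≤ 2 * B ^ 2 * θ0 := by
    rw [(hG.vr_add _ _ 0).1, fk, (hG.lift_vr _ _ _ (by simp)).1, (hG.lift_vr _ w _ hw).1,
      (hG.sprof_var n P θ0 hPP h0.le).1, (hG.sprof_var n W θ0 hW h0.le).1, hP0]
    nlinarith
  have v3 : 2 * B ^ 2 * θ0 ≤ 1 := by nlinarith
  have v4 : vr T2 * √(vr T2) ≤ 4 * B ^ 3 * (θ0 * √θ0) := by
    have : √(vr T2) ≤ 2 * B * √θ0 := by
      rw [← sqrt_sq (by linarith : 0 ≤ 2 * B), ← sqrt_mul (sq_nonneg _)]
      exact sqrt_le_sqrt (by nlinarith)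
    calc _ ≤ 2 * B ^ 2 * θ0 * (2 * B * √θ0) := by gcongr
      _ = _ := by ring
  have F : ∀ L' : Sy ι I, |TT n (gg ι f) (L' + T1) - TT n (gg ι f) (L' + T2) -
      θ0 / 2 * (Lam n f f1 L' a w P W - W 0)| ≤ Cm * (1 + 4 * B ^ 3) * (θ0 * √θ0) := fun L' => by
    have a1 := (hM _ _ n _ _ _ L' T1 hn sm s1).2 (by nlinarith)
    have a2 := (hM _ _ n _ _ _ L' T2 hn sm s2).2 (v2.trans v3)
    have a3 := mul_le_mul_of_nonneg_left v4 m0
    rw [v1] at a1
    rw [← gam_diff hA hC hG hn f f1 f2 L' a hw hPP hP0 hW h0.le]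
    rw [abs_le] at a1 a2 ⊢
    constructor <;> linarith [a1.1, a1.2, a2.1, a2.2]
  have c0 : Conc n f L0 A P (exp (12 * B) * e) := by
    rw [hL, add_assoc] at hco
    refine conc_mul (exp_pos _).le hco fun χ d hd hχ =>
      ((hP _ _ n (gg ι f) L0 (La + Rd) (some a) B hn hb fun s hs => ?_).2 χ d hd hχ).2
    rcases Multiset.mem_add.1 hs with hs | hs
    · exact (Multiset.mem_filter.1 hs).2
    · exact (hG.round_vr n B _ A _ c).2.2 s (Multiset.mem_of_mem_nsmul hs)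
  have hθ : 0 ≤ θ := (hG.vr_add La La 0).2.2.2.trans hv
  have G : ∀ T : Sy ι I, Small n B T → vr T ≤ 1 → |TT n (gg ι f) (L + Rd + T) -
      TT n (gg ι f) (L0 + fk I a l + T)| ≤ Cm * θ + Cp * (K * √e + √q) := fun T hT hT' => by
    have c1 : Conc n f (L0 + T) A P (exp Cg * (exp (12 * B) * e)) :=
      conc_mul (exp_pos _).le c0 fun χ d hd hχ => by
        have u := ha _ _ n (gg ι f) L0 T χ d hn hd (fun o => (sm o).d0) hT hχ
        refine u.1.trans (mul_le_mul_of_nonneg_right (by gcongr; nlinarith) ?_)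
        have := hA.e2mono (hC.ok n L0 hn) (ZZ (gg ι f)) (d + 1) (by omega) (φ := fun _ _ => 0)
          (ψ := fun ω ω' => χ ω.2 ω'.2) (fun _ _ => hχ _ _) (0, default)
        rwa [hA.e2const (hC.ok n L0 hn) _ _ (by omega)] at this
    have a1 := (hM _ _ n _ _ _ (L0 + T + Rd) La hn sm hs).1
    have a2 := hc I ι n f f1 f2 (L0 + T) A a P _ c D hn hf hb hAn hPP hP0 hq c1
    rw [← mul_assoc (exp Cg), sqrt_mul (by positivity), ← hK,
      show D • fk I a (sprof n P q) = fk I a l by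
        rw [hl, fk, fk, lift, lift, Multiset.map_nsmul]] at a2
    have a3 : Cp * (D * q) * (K * √e + √q) ≤ Cp * 1 * (K * √e + √q) :=
      mul_le_mul_of_nonneg_right (mul_le_mul_of_nonneg_left hD p0)
        (add_nonneg (mul_nonneg (sqrt_nonneg _) (sqrt_nonneg _)) (sqrt_nonneg _))
    have a4 := mul_le_mul_of_nonneg_left hv m0
    rw [show L + Rd + T = L0 + T + Rd + La by rw [hL]; abel, add_right_comm L0 (fk I a l)]
    rw [abs_le] at a1 a2 ⊢
    constructor <;> linarith [a1.1, a1.2, a2.1, a2.2]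
  have f1' := F (L + Rd)
  have f2' := F (L0 + fk I a l)
  have g1 := G T1 s1 (by nlinarith)
  have g2 := G T2 s2 (v2.trans v3)
  rw [lam_dec hA hC h1 hn f f1 (fun s hs => (Multiset.mem_filter.1 hs).2) w P l] at f2'
  have key : θ0 * |Lam n f f1 (L + Rd) a w P W - 2 * ip n P W| ≤
      4 * (Cm * θ + Cp * (K * √e + √q)) + 4 * (Cm * (1 + 4 * B ^ 3) * (θ0 * √θ0)) := by
    rw [← abs_of_pos h0, ← abs_mul, abs_of_pos h0]
    rw [abs_le] at f1' f2' g1 g2 ⊢
    constructor <;> linarith [f1'.1, f1'.2, f2'.1, f2'.2, g1.1, g1.2, g2.1, g2.2]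
  refine le_of_mul_le_mul_left (key.trans ?_) h0
  rw [mul_left_comm θ0, mul_add θ0, mul_div_cancel₀ _ h0.ne']
  have y1 : 0 ≤ √e := sqrt_nonneg _
  have y2 : 0 ≤ √q := sqrt_nonneg _
  have y3 : 0 ≤ θ0 * √θ0 := by positivity
  have y4 : 0 ≤ Cm * (1 + 4 * B ^ 3) := by positivity
  have y5 : Cp * √q ≤ Cp * K * √q := 
    mul_le_mul_of_nonneg_right (le_mul_of_one_le_right p0 K1) y2
  have y6 : 0 ≤ Cp * K := by positivity
  rw [mul_assoc 4 Cm, mul_assoc 4 Cp]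
  generalize Cm * (1 + 4 * B ^ 3) = C3 at y4 ⊢
  generalize θ0 * √θ0 = z at y3 ⊢
  linarith [mul_nonneg m0 y1, mul_nonneg m0 y2, mul_nonneg m0 y3, mul_nonneg y6 hθ,
    mul_nonneg y6 y3, mul_nonneg y4 y1, mul_nonneg y4 y2, mul_nonneg y4 hθ]

end Vale.Agent.P157
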