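import Vale.Agent.P157.Stm

/-! P157: monotonicity on the lattice (part 1: comparison of scalar recursions on the integers). -/

namespace Vale.Agent.P157

open Real

noncomputable section

namespace Mono

def av (g : ℤ → ℝ) (k : ℤ) : ℝ := (g (k + 1) + g (k - 1)) / 2

def sX (m : ℝ) (X : ℤ → ℝ) (k : ℤ) : ℝ := m⁻¹ * log (av (fun i => exp (m * X i)) k)

def sG (m : ℝ) (X g : ℤ → ℝ) (k : ℤ) : ℝ :=
  av (fun i => exp (m * X i) * g i) k / av (fun i => exp (m * X i)) k

theorem av_pos (m : ℝ) (X : ℤ → ℝ) (k : ℤ) : 0 < av (fun i => exp (m * X i)) k := by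
  unfold av; positivity

theorem exp_sX {m : ℝ} (hm : 0 < m) (X : ℤ → ℝ) (k : ℤ) :
    exp (m * sX m X k) = av (fun i => exp (m * X i)) k := by
  unfold sX
  rw [← mul_assoc, mul_inv_cancel₀ hm.ne', one_mul, exp_log (av_pos m X k)]

/-- the up probability -/
def pr (m : ℝ) (X : ℤ → ℝ) (k : ℤ) : ℝ :=
  exp (m * (X (k + 1) - X (k - 1))) / (1 + exp (m * (X (k + 1) - X (k - 1))))

theorem pr_nonneg (m : ℝ) (X : ℤ → ℝ) (k : ℤ) : 0 ≤ pr m X k := by unfold pr; positivity

theorem pr_le (m : ℝ) (X : ℤ → ℝ) (k : ℤ) : pr m X k ≤ 1 := by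
  unfold pr; rw [div_le_one (by positivity)]; linarith

theorem sG_eq (m : ℝ) (X g : ℤ → ℝ) (k : ℤ) :
    sG m X g k = g (k - 1) + pr m X k * (g (k + 1) - g (k - 1)) := by
  unfold sG pr av
  beta_reduce
  have h : exp (m * X (k + 1)) = exp (m * (X (k + 1) - X (k - 1))) * exp (m * X (k - 1)) := by
    rw [← exp_add]; congr 1; ring
  rw [h]
  have h1 := exp_pos (m * (X (k + 1) - X (k - 1)))
  have h2 := exp_pos (m * X (k - 1))
  field_simp
  ring

theorem sig_mono {a b : ℝ} (h : a ≤ b) : exp a / (1 + exp a) ≤ exp b / (1 + exp b) := by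
  have h1 := exp_pos a
  have h2 := exp_pos b
  have h3 := exp_le_exp.2 h
  rw [div_le_div_iff₀ (by positivity) (by positivity)]
  nlinarith

def LL (m t : ℝ) : ℝ := m⁻¹ * log ((1 + exp (m * t)) / 2)

theorem sX_eq {m : ℝ} (hm : 0 < m) (X : ℤ → ℝ) (k : ℤ) :
    sX m X k = X (k - 1) + LL m (X (k + 1) - X (k - 1)) := by
  unfold sX LL av
  have h : (exp (m * X (k + 1)) + exp (m * X (k - 1))) / 2 =
      exp (m * X (k - 1)) * ((1 + exp (m * (X (k + 1) - X (k - 1)))) / 2) := by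
    have : exp (m * X (k + 1)) = exp (m * X (k - 1)) * exp (m * (X (k + 1) - X (k - 1))) := by
      rw [← exp_add]; congr 1; ring
    rw [this]; ring
  rw [h, log_mul (exp_pos _).ne' (by positivity), log_exp]
  field_simp

theorem LL_der {m : ℝ} (hm : 0 < m) (t : ℝ) :
    HasDerivAt (LL m) (exp (m * t) / (1 + exp (m * t))) t := by
  have h1 : HasDerivAt (fun t => (1 + exp (m * t)) / 2) (exp (m * t) * m / 2) t := by
    have := ((hasDerivAt_id t).const_mul m).exp
    simpa using (this.const_add 1).div_const 2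
  have h2 := (h1.log (by positivity)).const_mul m⁻¹
  refine h2.congr_deriv ?_
  have := exp_pos (m * t)
  field_simp

theorem LL_diff {m m' a b : ℝ} (hm : 0 < m) (h : m ≤ m') (ha : 0 ≤ a) (hab : a ≤ b) :
    LL m' a - LL m a ≤ LL m' b - LL m b := by
  have hm' : 0 < m' := hm.trans_le h
  have hd : ∀ t, HasDerivAt (fun t => LL m' t - LL m t)
      (exp (m' * t) / (1 + exp (m' * t)) - exp (m * t) / (1 + exp (m * t))) t :=
    fun t => (LL_der hm' t).sub (LL_der hm t)
  have := monotoneOn_of_deriv_nonneg (convex_Ici (0 : ℝ)) (f := fun t => LL m' t - LL m t)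
    (fun t _ => (hd t).continuousAt.continuousWithinAt)
    (fun t _ => (hd t).differentiableAt.differentiableWithinAt)
    (fun t ht => by
      rw [(hd t).deriv]
      have ht' : 0 ≤ t := Set.mem_Ici.1 (interior_subset ht)
      exact sub_nonneg.2 (sig_mono (by nlinarith)))
  exact this ha (ha.trans hab) hab

theorem sX_le {m : ℝ} (hm : 0 < m) {X Y : ℤ → ℝ} {k : ℤ} {c : ℝ}
    (h1 : X (k + 1) ≤ Y (k + 1) + c) (h2 : X (k - 1) ≤ Y (k - 1) + c) :
    sX m X k ≤ sX m Y k + c := by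
  have : exp (m * sX m X k) ≤ exp (m * (sX m Y k + c)) := by
    rw [mul_add, exp_add, exp_sX hm, exp_sX hm]
    unfold av
    have e1 : exp (m * X (k + 1)) ≤ exp (m * Y (k + 1)) * exp (m * c) := by
      rw [← exp_add]; exact exp_le_exp.2 (by nlinarith)
    have e2 : exp (m * X (k - 1)) ≤ exp (m * Y (k - 1)) * exp (m * c) := by
      rw [← exp_add]; exact exp_le_exp.2 (by nlinarith)
    nlinarith
  exact le_of_mul_le_mul_left (exp_le_exp.1 this) hm

/-- even and midpoint convex in steps of two -/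
structure IX (X : ℤ → ℝ) : Prop where
  ev : ∀ k, X (-k) = X k
  cv : ∀ k, 2 * X k ≤ X (k - 2) + X (k + 2)

theorem IX.inc {X : ℤ → ℝ} (h : IX X) : ∀ k : ℤ, 0 ≤ k → X (k - 1) ≤ X (k + 1) := by
  have key : ∀ k : ℕ, X ((k : ℤ) - 1) ≤ X (k + 1) ∧ X k ≤ X (k + 2) := by
    intro k
    induction k with
    | zero =>
      have h1 := h.ev 1
      have h2 := h.ev 2
      have h3 := h.cv 0
      simp only [Nat.cast_zero, zero_sub, zero_add] at *
      constructor <;> linarith
    | succ k ih =>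
      have h3 := h.cv (k + 1)
      push_cast
      rw [show (k : ℤ) + 1 - 1 = k by ring, show (k : ℤ) + 1 + 1 = k + 2 by ring]
      rw [show (k : ℤ) + 1 - 2 = k - 1 by ring] at h3
      exact ⟨ih.2, by linarith [ih.1]⟩
  intro k hk
  obtain ⟨k, rfl⟩ := Int.eq_ofNat_of_zero_le hk
  exact (key k).1

theorem IX.step {X : ℤ → ℝ} (h : IX X) {m : ℝ} (hm : 0 < m) : IX (sX m X) := by
  constructor
  · intro k
    unfold sX av
    beta_reduce
    rw [show -k + 1 = -(k - 1) by ring, show -k - 1 = -(k + 1) by ring, h.ev, h.ev, add_comm]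
  · intro k
    have : exp (m * (2 * sX m X k)) ≤ exp (m * (sX m X (k - 2) + sX m X (k + 2))) := by
      rw [two_mul, mul_add, mul_add, exp_add, exp_add, exp_sX hm, exp_sX hm, exp_sX hm]
      unfold av
      rw [show k - 2 + 1 = k - 1 by ring, show k + 2 - 1 = k + 1 by ring]
      have c1 := h.cv (k - 1)
      have c2 := h.cv (k + 1)
      rw [show k - 1 - 2 = k - 2 - 1 by ring, show k - 1 + 2 = k + 1 by ring] at c1
      rw [show k + 1 - 2 = k - 1 by ring, show k + 1 + 2 = k + 2 + 1 by ring] at c2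
      have f : ∀ a b c d : ℝ, a + b ≤ c + d →
          exp (m * a) * exp (m * b) ≤ exp (m * c) * exp (m * d) := fun a b c d hh => by
        rw [← exp_add, ← exp_add]; exact exp_le_exp.2 (by nlinarith)
      have e1 := f (X (k - 1)) (X (k - 1)) (X (k - 2 - 1)) (X (k + 1)) (by linarith)
      have e2 := f (X (k + 1)) (X (k + 1)) (X (k - 1)) (X (k + 2 + 1)) (by linarith)
      have e3 := f (X (k - 1)) (X (k + 1)) (X (k - 2 - 1)) (X (k + 2 + 1)) (by linarith)
      nlinarith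
    exact le_of_mul_le_mul_left (exp_le_exp.1 this) hm

/-- the difference `Y - X` grows away from the origin -/
def RX (X Y : ℤ → ℝ) : Prop :=
  ∀ k : ℤ, 0 ≤ k → X (k + 1) - X (k - 1) ≤ Y (k + 1) - Y (k - 1)

theorem RX.step {X Y : ℤ → ℝ} (hX : IX X) (hY : IX Y) (h : RX X Y) {m m' : ℝ} (hm : 0 < m)
    (hmm : m ≤ m') : RX (sX m X) (sX m' Y) := by
  have hm' : 0 < m' := hm.trans_le hmm
  intro k hk
  rcases hk.eq_or_lt with rfl | hk
  · have a := (hX.step hm).ev 1
    have b := (hY.step hm').ev 1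
    simp only [zero_add, zero_sub]
    linarith
  have h1 := h (k - 1) (by omega)
  have h2 := h (k + 1) (by omega)
  rw [show k - 1 + 1 = k by ring] at h1
  rw [show k + 1 - 1 = k by ring] at h2
  have a1 : sX m' Y (k - 1) ≤ sX m' X (k - 1) + (Y k - X k) :=
    sX_le hm' (by rw [show k - 1 + 1 = k by ring]; linarith) (by linarith)
  have a2 : sX m' X (k + 1) ≤ sX m' Y (k + 1) + (X k - Y k) :=
    sX_le hm' (by linarith) (by rw [show k + 1 - 1 = k by ring]; linarith)
  have c := hX.cv k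
  have i := hX.inc (k - 1) (by omega)
  have a3 := LL_diff hm hmm (a := X (k - 1 + 1) - X (k - 1 - 1)) (b := X (k + 1 + 1) - X (k + 1 - 1))
    (by linarith) (by
      rw [show k - 1 + 1 = k by ring, show k + 1 - 1 = k by ring, show k - 1 - 1 = k - 2 by ring,
        show k + 1 + 1 = k + 2 by ring]; linarith)
  have e1 := sX_eq hm X (k - 1)
  have e2 := sX_eq hm X (k + 1)
  have e3 := sX_eq hm' X (k - 1)
  have e4 := sX_eq hm' X (k + 1)
  linarith

theorem RX.pr_le {X Y : ℤ → ℝ} (hX : IX X) (h : RX X Y) {m m' : ℝ} (hm : 0 < m)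
    (hmm : m ≤ m') (k : ℤ) (hk : 0 ≤ k) : pr m X k ≤ pr m' Y k := by
  have h1 := h k hk
  have h2 := hX.inc k hk
  exact sig_mono (by nlinarith)

theorem sG_neg {X g : ℤ → ℝ} (hX : IX X) (m e : ℝ) (hg : ∀ k, g (-k) = e * g k) (k : ℤ) :
    sG m X g (-k) = e * sG m X g k := by
  unfold sG av
  beta_reduce
  rw [show -k + 1 = -(k - 1) by ring, show -k - 1 = -(k + 1) by ring, hX.ev, hX.ev, hg, hg]
  ring

theorem sG_mid (m : ℝ) (X g : ℤ → ℝ) (k : ℤ) (h : g (k - 1) ≤ g (k + 1)) :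
    g (k - 1) ≤ sG m X g k ∧ sG m X g k ≤ g (k + 1) := by
  rw [sG_eq]
  have := pr_nonneg m X k
  have := pr_le m X k
  constructor <;> nlinarith

theorem sG_cmp {X Y g h : ℤ → ℝ} {m m' : ℝ} {k : ℤ} (hp : pr m X k ≤ pr m' Y k)
    (h0 : g (k - 1) ≤ g (k + 1)) (h1 : g (k - 1) ≤ h (k - 1)) (h2 : g (k + 1) ≤ h (k + 1)) :
    sG m X g k ≤ sG m' Y h k := by
  rw [sG_eq, sG_eq]
  have := pr_nonneg m' Y k
  have := pr_le m' Y k
  nlinarith

/-- invariant of the pair; `e = -1` for the magnetisation and `e = 1` for its square -/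
structure IG (e : ℝ) (g : ℤ → ℝ) : Prop where
  sym : ∀ k, g (-k) = e * g k
  inc : ∀ k : ℤ, 0 ≤ k → g (k - 1) ≤ g (k + 1)

theorem IG.step {e : ℝ} (he : e = 1 ∨ e = -1) {X g : ℤ → ℝ} (hX : IX X) (h : IG e g) (m : ℝ) :
    IG e (sG m X g) := by
  refine ⟨sG_neg hX m e h.sym, fun k hk => ?_⟩
  rcases hk.eq_or_lt with rfl | hk
  · have a := sG_neg hX m e h.sym 1
    simp only [zero_add, zero_sub]
    rcases he with rfl | rfl
    · linarith
    · have b := (sG_mid m X g 1 (h.inc 1 zero_le_one)).1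
      have c := h.sym 0
      simp only [neg_zero, sub_self] at b c
      linarith
  have a := (sG_mid m X g (k - 1) (h.inc _ (by omega))).2
  have b := (sG_mid m X g (k + 1) (h.inc _ (by omega))).1
  rw [show k - 1 + 1 = k by ring] at a
  rw [show k + 1 - 1 = k by ring] at b
  linarith

structure Rel (e : ℝ) (X g Y h : ℤ → ℝ) : Prop where
  iX : IX X
  iY : IX Y
  ig : IG e g
  ih : IG e h
  rx : RX X Y
  le : ∀ k : ℤ, 0 ≤ k → g k ≤ h k

theorem Rel.step {e : ℝ} (he : e = 1 ∨ e = -1) {X g Y h : ℤ → ℝ} (H : Rel e X g Y h) {m m' : ℝ}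
    (hm : 0 < m) (hmm : m ≤ m') : Rel e (sX m X) (sG m X g) (sX m' Y) (sG m' Y h) := by
  have hm' : 0 < m' := hm.trans_le hmm
  refine ⟨H.iX.step hm, H.iY.step hm', H.ig.step he H.iX m, H.ih.step he H.iY m',
    RX.step H.iX H.iY H.rx hm hmm, fun k hk => ?_⟩
  have hp := RX.pr_le H.iX H.rx hm hmm k hk
  rcases hk.eq_or_lt with rfl | hk
  · rcases he with rfl | rfl
    · refine sG_cmp hp (H.ig.inc 0 le_rfl) ?_ (H.le _ (by omega))
      have a := H.ig.sym 1
      have b := H.ih.sym 1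
      have c := H.le 1 zero_le_one
      simp only [zero_sub]
      linarith
    · have a := sG_neg H.iX m (-1) H.ig.sym 0
      have b := sG_neg H.iY m' (-1) H.ih.sym 0
      simp only [neg_zero] at a b
      linarith
  exact sG_cmp hp (H.ig.inc k hk.le) (H.le _ (by omega)) (H.le _ (by omega))

theorem IG.nonneg {g : ℤ → ℝ} (h : IG (-1) g) : ∀ k : ℤ, 0 ≤ k → 0 ≤ g k := by
  have key : ∀ k : ℕ, 0 ≤ g k ∧ 0 ≤ g (k + 1) := by
    intro k
    induction k with
    | zero =>
      have h1 := h.sym 0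
      have h2 := h.sym 1
      have h3 := h.inc 0 le_rfl
      simp only [Nat.cast_zero, zero_sub, zero_add, neg_zero] at *
      constructor <;> linarith
    | succ k ih =>
      have h3 := h.inc (k + 1) (by omega)
      push_cast
      rw [show (k : ℤ) + 1 - 1 = k by ring] at h3
      exact ⟨ih.2, by linarith [ih.1]⟩
  intro k hk
  obtain ⟨k, rfl⟩ := Int.eq_ofNat_of_zero_le hk
  exact (key k).1

theorem IG.sq {g : ℤ → ℝ} (h : IG (-1) g) : IG 1 (fun k => g k * g k) := by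
  refine ⟨fun k => by rw [h.sym]; ring, fun k hk => ?_⟩
  rcases hk.eq_or_lt with rfl | hk
  · have := h.sym 1
    simp only [zero_add, zero_sub]
    rw [this]; linarith
  exact mul_self_le_mul_self (h.nonneg _ (by omega)) (h.inc k hk.le)

theorem Rel.sq {X g Y h : ℤ → ℝ} (H : Rel (-1) X g Y h) :
    Rel 1 X (fun k => g k * g k) Y (fun k => h k * h k) :=
  ⟨H.iX, H.iY, H.ig.sq, H.ih.sq, H.rx,
    fun k hk => mul_self_le_mul_self (H.ig.nonneg k hk) (H.le k hk)⟩

theorem two_step {X g : ℤ → ℝ} (hX : IX X) (h : IG 1 g) (m : ℝ) :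
    g 0 ≤ sG m (sX m X) (sG m X g) 0 := by
  have h1 := h.step (Or.inl rfl) hX m
  have a := (sG_mid m (sX m X) (sG m X g) 0 (h1.inc 0 le_rfl)).1
  have b := h1.sym 1
  have c := (sG_mid m X g 1 (h.inc 1 zero_le_one)).1
  simp only [zero_sub, sub_self] at a c
  linarith

/-! the initial data -/

def X0 (η : ℝ) (k : ℤ) : ℝ := log (cosh (k * η))

def u0 (η : ℝ) (k : ℤ) : ℝ := sinh (k * η) / cosh (k * η)

theorem iX0 (η : ℝ) : IX (X0 η) := by
  constructor
  · intro k; unfold X0; push_cast; rw [neg_mul, cosh_neg]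
  · intro k
    unfold X0
    rw [← log_mul (cosh_pos _).ne' (cosh_pos _).ne', two_mul,
      ← log_mul (cosh_pos _).ne' (cosh_pos _).ne']
    refine log_le_log (mul_pos (cosh_pos _) (cosh_pos _)) ?_
    push_cast
    rw [sub_mul, add_mul, cosh_sub, cosh_add]
    have h1 := cosh_sq (k * η)
    have h2 := cosh_sq (2 * η)
    nlinarith [sq_nonneg (sinh (2 * η))]

theorem iu0 {η : ℝ} (hη : 0 ≤ η) : IG (-1) (u0 η) := by
  constructor
  · intro k; unfold u0; push_cast; rw [neg_mul, cosh_neg, sinh_neg]; ring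
  · intro k _
    unfold u0
    rw [div_le_div_iff₀ (cosh_pos _) (cosh_pos _)]
    have := sinh_sub (((k + 1 : ℤ) : ℝ) * η) (((k - 1 : ℤ) : ℝ) * η)
    have h2 : 0 ≤ sinh (((k + 1 : ℤ) : ℝ) * η - ((k - 1 : ℤ) : ℝ) * η) :=
      sinh_nonneg_iff.2 (by push_cast; nlinarith)
    nlinarith

theorem av0 (η : ℝ) (k : ℤ) : av (fun i => exp (1 * X0 η i)) k = cosh (k * η) * cosh η := by
  unfold av X0
  simp only [one_mul, exp_log (cosh_pos _)]
  push_cast
  rw [sub_mul, add_mul, cosh_sub, cosh_add, one_mul]; ring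

theorem sX0 (η : ℝ) (k : ℤ) : sX 1 (X0 η) k = X0 η k + log (cosh η) := by
  unfold sX
  rw [av0, log_mul (cosh_pos _).ne' (cosh_pos _).ne']
  simp [X0]

theorem sG0 (η : ℝ) : sG 1 (X0 η) (u0 η) = u0 η := by
  ext k
  unfold sG
  rw [av0]
  unfold av X0 u0
  simp only [one_mul, exp_log (cosh_pos _)]
  rw [mul_div_cancel₀ _ (cosh_pos _).ne', mul_div_cancel₀ _ (cosh_pos _).ne']
  push_cast
  rw [sub_mul, add_mul, sinh_sub, sinh_add, one_mul]
  have := cosh_pos (k * η)
  have := cosh_pos η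
  field_simp
  ring

theorem Rel.pad {η : ℝ} {X g : ℤ → ℝ} (H : Rel (-1) X g (X0 η) (u0 η)) {m : ℝ} (hm : 0 < m)
    (h1 : m ≤ 1) : Rel (-1) (sX m X) (sG m X g) (X0 η) (u0 η) := by
  have h := H.step (Or.inr rfl) hm h1
  rw [sG0] at h
  refine ⟨h.iX, H.iY, h.ig, h.ih, fun k hk => ?_, h.le⟩
  have := h.rx k hk
  rw [sX0, sX0] at this
  linarith

end Mono

end

end Vale.Agent.P157
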