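import Vale.Agent.P157.Smh

/-! P157: the pressure is Lipschitz for the Gaussian `L^1` distance. -/

namespace Vale.Agent.P157

open MeasureTheory ProbabilityTheory Finset Real Filter

noncomputable section

namespace Smn

open Smh

theorem law (N : ℕ) (c : Fin N → ℝ) (hc : ∑ i, c i ^ 2 = 1) :
    (Measure.pi fun _ : Fin N => gaussianReal 0 1).map (fun x => ∑ i, c i * x i) =
      gaussianReal 0 1 := by
  let v : EuclideanSpace ℝ (Fin N) := WithLp.toLp 2 c
  have hv : ‖v‖ ^ 2 = 1 := by rw [EuclideanSpace.real_norm_sq_eq]; exact hc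
  have h1 := IsGaussian.map_eq_gaussianReal (μ := stdGaussian (EuclideanSpace ℝ (Fin N)))
    (innerSL ℝ v)
  rw [integral_strongDual_stdGaussian, variance_dual_stdGaussian, innerSL_apply_norm, hv,
    toNNReal_one, ← map_pi_eq_stdGaussian, Measure.map_map (by fun_prop) (by fun_prop)] at h1
  refine Eq.trans ?_ h1
  congr 1
  funext x
  simp [v, PiLp.inner_apply, mul_comm]

theorem ptw {S : Type} [Fintype S] [Nonempty S] {B c : ℝ} (hc : 0 < c) (w u v : S → ℝ)
    (hw : ∀ σ, 0 < w σ) (hu : ∀ σ, |u σ| ≤ B) (hv : ∀ σ, |v σ| ≤ B) :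
    log ((∑ σ, exp (v σ) * w σ) / c) - log ((∑ σ, exp (u σ) * w σ) / c) ≤
      exp (2 * B) * ∑ σ, |u σ - v σ| * (w σ / ∑ τ, w τ) := by
  have hx : 0 < ∑ σ, exp (v σ) * w σ := sum_pos (fun σ _ => mul_pos (exp_pos _) (hw σ)) univ_nonempty
  have hy : 0 < ∑ σ, exp (u σ) * w σ := sum_pos (fun σ _ => mul_pos (exp_pos _) (hw σ)) univ_nonempty
  have hW : 0 < ∑ σ, w σ := sum_pos (fun σ _ => hw σ) univ_nonempty
  rw [← log_div (by positivity) (by positivity), div_div_div_cancel_right₀ hc.ne']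
  refine (log_le_sub_one_of_pos (by positivity)).trans ?_
  have h1 : (∑ σ, exp (v σ) * w σ) - ∑ σ, exp (u σ) * w σ ≤ exp B * ∑ σ, |u σ - v σ| * w σ := by
    rw [← sum_sub_distrib, mul_sum]
    refine sum_le_sum (fun σ _ => ?_)
    rw [← sub_mul, ← mul_assoc]
    refine mul_le_mul_of_nonneg_right ?_ (hw σ).le
    have a1 := add_one_le_exp (u σ - v σ)
    have a2 : exp (u σ) = exp (v σ) * exp (u σ - v σ) := by rw [← exp_add]; congr 1; ring
    have a3 : exp (v σ) ≤ exp B := exp_le_exp.2 (abs_le.1 (hv σ)).2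
    have a4 := exp_pos (v σ)
    have a5 : v σ - u σ ≤ |u σ - v σ| := by rw [abs_sub_comm]; exact le_abs_self _
    have a6 := mul_le_mul_of_nonneg_right a3 (abs_nonneg (u σ - v σ))
    nlinarith
  have h2 : exp (-B) * ∑ σ, w σ ≤ ∑ σ, exp (u σ) * w σ := by
    rw [mul_sum]
    exact sum_le_sum (fun σ _ =>
      mul_le_mul_of_nonneg_right (exp_le_exp.2 (abs_le.1 (hu σ)).1) (hw σ).le)
  have h3 : 0 ≤ ∑ σ, |u σ - v σ| * w σ := sum_nonneg (fun σ _ => mul_nonneg (abs_nonneg _) (hw σ).le)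
  simp only [← mul_div_assoc, ← sum_div]
  rw [div_sub_one hy.ne']
  refine (div_le_div₀ (by positivity) h1 (by positivity) h2).trans (le_of_eq ?_)
  rw [exp_neg, two_mul, exp_add]
  field_simp

section
variable {X S : Type} [MeasurableSpace X] [Fintype S] [Nonempty S]

def Ph {M : ℕ} (c : ℝ) (T : S → X → ℝ) (F : Fin M → ℝ → ℝ) (G : Fin M → X) : ℝ :=
  log ((∑ σ, exp (∑ a, F a (T σ (G a)))) / c)

theorem ph_int {M : ℕ} {B c : ℝ} (hc : 0 < c) {T : S → X → ℝ} (hT : ∀ σ, Measurable (T σ))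
    {F : Fin M → ℝ → ℝ} (hF : ∀ a, BM B (F a)) (ν : Measure (Fin M → X)) [IsFiniteMeasure ν] :
    Integrable (Ph c T F) ν := by
  have hm : Measurable (Ph c T F) := by
    refine Measurable.log (Measurable.div_const (Finset.measurable_sum _ (fun σ _ => ?_)) _)
    refine Measurable.exp (Finset.measurable_sum _ (fun a _ => ?_))
    exact (hF a).1.comp ((hT σ).comp (measurable_pi_apply a))
  refine intg hm (max |log ((∑ _σ : S, exp (-(M * B))) / c)| |log ((∑ _σ : S, exp (M * B)) / c)|)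
    (fun G => ?_)
  have hb : ∀ σ, |∑ a, F a (T σ (G a))| ≤ M * B := fun σ => by
    refine (abs_sum_le_sum_abs _ _).trans ((sum_le_card_nsmul _ _ B (fun a _ => (hF a).2 _)).trans ?_)
    simp
  refine abs_le_max_abs_abs ?_ ?_
  · refine log_le_log (div_pos (sum_pos (fun _ _ => exp_pos _) univ_nonempty) hc) ?_
    gcongr with σ
    exact (abs_le.1 (hb σ)).1
  · refine log_le_log (div_pos (sum_pos (fun _ _ => exp_pos _) univ_nonempty) hc) ?_
    gcongr with σ
    exact (abs_le.1 (hb σ)).2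

theorem one {M : ℕ} {B c : ℝ} (hc : 0 < c) (μ : Measure X) [IsProbabilityMeasure μ]
    {T : S → X → ℝ} (hT : ∀ σ, Measurable (T σ)) (hl : ∀ σ, μ.map (T σ) = gaussianReal 0 1)
    {F F' : Fin (M + 1) → ℝ → ℝ} (hF : ∀ a, BM B (F a)) (hF' : ∀ a, BM B (F' a)) (a : Fin (M + 1))
    (he : ∀ b, b ≠ a → F' b = F b) :
    ∫ G, Ph c T F' G ∂(Measure.pi fun _ => μ) - ∫ G, Ph c T F G ∂(Measure.pi fun _ => μ) ≤
      exp (2 * B) * ∫ z, |F a z - F' a z| ∂gaussianReal 0 1 := by
  set w : S → (Fin M → X) → ℝ := fun σ H => exp (∑ j, F (a.succAbove j) (T σ (H j))) with hw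
  set ρ : S → (Fin M → X) → ℝ := fun σ H => w σ H / ∑ τ, w τ H with hρ
  have wm : ∀ σ, Measurable (w σ) := fun σ =>
    Measurable.exp (Finset.measurable_sum _ (fun j _ =>
      (hF _).1.comp ((hT σ).comp (measurable_pi_apply j))))
  have ρm : ∀ σ, Measurable (ρ σ) := fun σ => (wm σ).div (Finset.measurable_sum _ (fun τ _ => wm τ))
  have Wp : ∀ H, 0 < ∑ τ, w τ H := fun H => sum_pos (fun _ _ => exp_pos _) univ_nonempty
  have ρb : ∀ σ H, |ρ σ H| ≤ 1 := fun σ H => by
    rw [abs_of_pos (div_pos (exp_pos _) (Wp H)), div_le_one (Wp H)]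
    exact single_le_sum (f := fun τ => w τ H) (fun _ _ => (exp_pos _).le) (mem_univ σ)
  have hm1 := (hF a).1
  have hm2 := (hF' a).1
  have hm : Measurable fun z => |F a z - F' a z| := by fun_prop
  have hb : ∀ z, |F a z - F' a z| ≤ 2 * B := fun z =>
    (abs_sub _ _).trans (by linarith [(hF a).2 z, (hF' a).2 z])
  have hI : ∀ σ, Integrable (fun G : Fin (M + 1) → X =>
      |F a (T σ (G a)) - F' a (T σ (G a))| * ρ σ (fun j => G (a.succAbove j)))
      (Measure.pi fun _ => μ) := fun σ => by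
    refine intg ((hm.comp ((hT σ).comp (measurable_pi_apply a))).mul ((ρm σ).comp (by fun_prop)))
      (2 * B) (fun G => ?_)
    rw [abs_mul, abs_abs]
    exact (mul_le_of_le_one_right (abs_nonneg _) (ρb _ _)).trans (hb _)
  rw [← integral_sub (ph_int hc hT hF' _) (ph_int hc hT hF _)]
  refine (integral_mono ((ph_int hc hT hF' _).sub (ph_int hc hT hF _))
    ((integrable_finsetSum univ (fun σ _ => hI σ)).const_mul (exp (2 * B))) (fun G => ?_)).trans
    (le_of_eq ?_)
  · have := ptw hc (fun σ => w σ (fun j => G (a.succAbove j))) (fun σ => F a (T σ (G a)))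
      (fun σ => F' a (T σ (G a))) (fun σ => exp_pos _) (fun σ => (hF a).2 _) (fun σ => (hF' a).2 _)
    refine le_trans (le_of_eq ?_) this
    simp only [Pi.sub_apply, Ph, Fin.sum_univ_succAbove _ a, exp_add, hw, he _ (Fin.succAbove_ne a _)]
  · rw [integral_const_mul, integral_finsetSum _ (fun σ _ => hI σ)]
    congr 1
    have e1 : ∀ σ, ∫ G : Fin (M + 1) → X,
        |F a (T σ (G a)) - F' a (T σ (G a))| * ρ σ (fun j => G (a.succAbove j))
          ∂(Measure.pi fun _ => μ) =
        (∫ z, |F a z - F' a z| ∂gaussianReal 0 1) * ∫ H, ρ σ H ∂(Measure.pi fun _ => μ) := by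
      intro σ
      have e2 := (measurePreserving_piFinSuccAbove (fun _ : Fin (M + 1) => μ) a).integral_comp'
        (fun z => |F a (T σ z.1) - F' a (T σ z.1)| * ρ σ z.2)
      rw [integral_prod_mul (fun x => |F a (T σ x) - F' a (T σ x)|) (ρ σ)] at e2
      rw [← hl σ, integral_map (hT σ).aemeasurable hm.aestronglyMeasurable, ← e2]
      rfl
    rw [sum_congr rfl (fun σ _ => e1 σ), ← mul_sum,
      ← integral_finsetSum _ (fun σ _ => intg (ρm σ) 1 (ρb σ))]
    have e3 : ∀ H, ∑ σ, ρ σ H = 1 := fun H => by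
      simp only [hρ]; rw [← sum_div, div_self (Wp H).ne']
    simp [e3]

theorem all {M : ℕ} {B c : ℝ} (hc : 0 < c) (μ : Measure X) [IsProbabilityMeasure μ]
    {T : S → X → ℝ} (hT : ∀ σ, Measurable (T σ)) (hl : ∀ σ, μ.map (T σ) = gaussianReal 0 1)
    {f g : ℝ → ℝ} (hf : BM B f) (hg : BM B g) :
    ∫ G, Ph c T (fun _ : Fin M => g) G ∂(Measure.pi fun _ => μ) -
      ∫ G, Ph c T (fun _ : Fin M => f) G ∂(Measure.pi fun _ => μ) ≤
      M * (exp (2 * B) * ∫ z, |f z - g z| ∂gaussianReal 0 1) := by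
  cases M with
  | zero => simp [Ph]
  | succ M =>
    have key : ∀ s : Finset (Fin (M + 1)),
        ∫ G, Ph c T (fun a => if a ∈ s then g else f) G ∂(Measure.pi fun _ => μ) -
          ∫ G, Ph c T (fun _ : Fin (M + 1) => f) G ∂(Measure.pi fun _ => μ) ≤
        s.card * (exp (2 * B) * ∫ z, |f z - g z| ∂gaussianReal 0 1) := by
      intro s
      induction s using Finset.induction_on with
      | empty => simp
      | insert a s ha ih =>
        have := one hc μ hT hl (F := fun b => if b ∈ s then g else f)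
          (F' := fun b => if b ∈ insert a s then g else f)
          (fun b => by split_ifs <;> assumption) (fun b => by split_ifs <;> assumption) a
          (fun b hb => by simp [hb])
        simp only [ha, mem_insert_self, if_true, if_false] at this
        rw [card_insert_of_notMem ha]
        push_cast
        linarith
    simpa using key univ

end

theorem half {B : ℝ} {N : ℕ} (M : ℕ) (hN : 1 ≤ N) {f g : ℝ → ℝ} (hf : BM B f) (hg : BM B g) :
    meanP g N M - meanP f N M ≤ exp (2 * B) * (M / N) * ∫ z, |f z - g z| ∂gaussianReal 0 1 := by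
  have hN' : (0 : ℝ) < N := by exact_mod_cast hN
  have h := all (M := M) (c := 2 ^ N) (by positivity) (Measure.pi fun _ : Fin N => gaussianReal 0 1)
    (T := fun (σ : Fin N → Bool) (x : Fin N → ℝ) => (∑ i, x i * spin (σ i)) / √(N : ℝ))
    (fun σ => by fun_prop) (fun σ => by
      refine Eq.trans ?_ (law N (fun i => spin (σ i) / √(N : ℝ)) (by
        have : ∀ i, (spin (σ i) / √(N : ℝ)) ^ 2 = 1 / N := fun i => by
          rw [div_pow, sq_sqrt hN'.le]; cases σ i <;> simp [spin]
        simp only [this, sum_const, card_univ, Fintype.card_fin, nsmul_eq_mul]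
        field_simp))
      congr 1
      funext x
      rw [sum_div]
      exact sum_congr rfl (fun i _ => by ring)) hf hg
  have h2 := mul_le_mul_of_nonneg_left h (show 0 ≤ 1 / (N : ℝ) by positivity)
  unfold meanP pN
  rw [integral_const_mul, integral_const_mul, ← mul_sub]
  refine h2.trans (le_of_eq (by ring))

end Smn

theorem smnStmt : SmnStmt := by
  intro B
  refine ⟨exp (2 * B), (exp_pos _).le, fun N M f g hN hf hg hfB hgB => ?_⟩
  have h1 := Smn.half M hN ⟨hf, hfB⟩ ⟨hg, hgB⟩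
  have h2 := Smn.half M hN ⟨hg, hgB⟩ ⟨hf, hfB⟩
  simp only [abs_sub_comm (g _)] at h2
  rw [abs_le]
  constructor <;> linarith

end

end Vale.Agent.P157
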