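import Vale.Agent.P157.Stm

/-! P157: spin cavity, value (part 1: bookkeeping and one move). -/

namespace Vale.Agent.P157

open Real Finset

noncomputable section

namespace Sc

variable {I ι : Type} [Fintype I] [DecidableEq I] [Fintype ι] [DecidableEq ι]

theorem nsmul_bind {α β : Type} (k : ℕ) (K : Multiset α) (F : α → Multiset β) :
    (k • K).bind F = K.bind (fun a => k • F a) := by
  induction k with
  | zero => simp
  | succ k ih => simp only [succ_nsmul, Multiset.add_bind, ih, Multiset.bind_add]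

theorem sp_sq (i : I) (σ : I → Bool) : sp i σ ^ 2 = 1 := by
  unfold sp spin; split_ifs <;> norm_num

theorem small_add {n : ℕ} {B : ℝ} {L L' : Sy ι I} (h : Small n B L) (h' : Small n B L') :
    Small n B (L + L') := fun s hs => (Multiset.mem_add.1 hs).elim (h s) (h' s)

theorem small_bind {n : ℕ} {B : ℝ} (K : Multiset ι) {F : ι → Sy ι I} (h : ∀ a, Small n B (F a)) :
    Small n B (K.bind F) := fun s hs => by
  obtain ⟨a, _, ha⟩ := Multiset.mem_bind.1 hs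
  exact h a s ha

theorem small_nsmul {n : ℕ} {B : ℝ} (k : ℕ) {L : Sy ι I} (h : Small n B L) :
    Small n B (k • L) := fun s hs => h s (Multiset.mem_of_mem_nsmul hs)

theorem vr_zero : vr (0 : Sy ι I) = 0 := by simp [vr]

theorem vr_bind (hG : GApi) (K : Multiset ι) {F : ι → Sy ι I} {θ : ℝ} (h : ∀ a, vr (F a) = θ) :
    vr (K.bind F) = Multiset.card K * θ := by
  induction K using Multiset.induction_on with
  | empty => simp [vr]
  | cons a K ih =>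
    rw [Multiset.cons_bind, (hG.vr_add _ _ 0).1, ih, h, Multiset.card_cons]; push_cast; ring

theorem vr_filter (hG : GApi) (K : Multiset ι) {F : ι → Sy ι I} {θ : ℝ} (h : ∀ a, vr (F a) = θ)
    (h' : ∀ a, ∀ s ∈ F a, s.2.1 = some a) (a : ι) :
    vr ((K.bind F).filter (fun s => s.2.1 = some a)) = Multiset.count a K * θ := by
  induction K using Multiset.induction_on with
  | empty => simp [vr]
  | cons b K ih =>
    rw [Multiset.cons_bind, Multiset.filter_add, (hG.vr_add _ _ 0).1, ih]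
    by_cases hb : a = b
    · subst hb
      rw [Multiset.filter_eq_self.2 (h' a), h, Multiset.count_cons_self]; push_cast; ring
    · rw [Multiset.filter_eq_nil.2 (fun s hs e => hb (by
        rw [h' b s hs] at e; exact (Option.some.inj e).symm)), vr_zero,
        Multiset.count_cons_of_ne hb, zero_add]

def rd (n : ℕ) (A : Finset I) (c : ℝ) (a : ι) : Sy ι I := round (some a) A (n - 1) c

def ts (n : ℕ) (A : Finset I) (τ : I) (c : ℝ) (a : ι) : Sy ι I :=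
  lift (some a) (sp τ) (Multiset.replicate A.card (n - 1, c))

theorem ts_eq (n : ℕ) (A : Finset I) (τ : I) (c : ℝ) (a : ι) :
    ts n A τ c a = Multiset.replicate A.card (n - 1, some a, c • sp τ) := by
  simp [ts, lift]

theorem vr_ts (hG : GApi) (n : ℕ) (A : Finset I) (τ : I) (c : ℝ) (a : ι) :
    vr (ts n A τ c a) = A.card * c ^ 2 := by
  rw [ts, (hG.lift_vr _ _ _ (sp_sq τ)).1]; simp

theorem small_ts (hG : GApi) {n : ℕ} (hn : 1 ≤ n) {B : ℝ} (A : Finset I) (τ : I) {c : ℝ}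
    (hc : B * |c| ≤ 1) (a : ι) : Small n B (ts n A τ c a) :=
  hG.lift_small n B _ _ _ (sp_sq τ) (fun s hs => by
    rw [Multiset.eq_of_mem_replicate hs]; exact ⟨by omega, hc⟩)

theorem sys_succ (n : ℕ) (A : Finset I) (J : Finset ι) (R : ℕ) (c : ℝ) :
    sys n A J ((A.card + 1) * R) c = sys n A J (A.card * R) c + (R • J.val).bind (rd n A c) := by
  rw [nsmul_bind, sys, sys, ← Multiset.bind_add]
  congr 1; ext1 a
  rw [add_mul, one_mul, add_nsmul]; rfl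

theorem sys_insert (n : ℕ) (A : Finset I) (J : Finset ι) (R : ℕ) (c : ℝ) {τ : I} (hτ : τ ∉ A) :
    sys n (insert τ A) J (A.card * R) c =
      sys n A J (A.card * R) c + (R • J.val).bind (ts n A τ c) := by
  rw [nsmul_bind, sys, sys, ← Multiset.bind_add]
  congr 1; ext1 a
  rw [ts_eq, round, round, insert_val_of_notMem hτ, Multiset.map_cons, ← Multiset.singleton_add,
    nsmul_add, add_comm, ← Multiset.nsmul_singleton, ← mul_nsmul]

theorem sys_erase (n : ℕ) (A : Finset I) {J : Finset ι} (D : ℕ) (c : ℝ) {a : ι} (ha : a ∈ J) :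
    sys n A J D c = sys n A (J.erase a) D c + D • round (some a) A (n - 1) c := by
  rw [sys, sys, erase_val]
  conv_lhs => rw [← Multiset.cons_erase (show a ∈ J.val from ha)]
  rw [Multiset.cons_bind, add_comm]

theorem mem_sys {n : ℕ} {A : Finset I} {J : Finset ι} {D : ℕ} {c : ℝ} {s : St (Option ι) (I → Bool)}
    (hs : s ∈ sys n A J D c) : ∃ a ∈ J, ∃ i ∈ A, s = (n - 1, some a, c • sp i) := by
  obtain ⟨a, ha, h⟩ := Multiset.mem_bind.1 hs
  obtain ⟨i, hi, h⟩ := Multiset.mem_map.1 (Multiset.mem_of_mem_nsmul h)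
  exact ⟨a, ha, i, hi, h.symm⟩

theorem ind_core (n : ℕ) {A : Finset I} (J : Finset ι) (D : ℕ) (c : ℝ) (l : Multiset (ℕ × ℝ)) {τ : I}
    (hτ : τ ∉ A) : Ind τ (sys n A J D c + fld ι A l) := by
  have key : ∀ i ∈ A, ∀ (x : ℝ) σ b, (x • sp i) (Function.update σ τ b) = (x • sp i) σ := by
    intro i hi x σ b
    have : i ≠ τ := fun e => hτ (e ▸ hi)
    simp [sp, Function.update_of_ne this]
  intro s hs σ b
  rcases Multiset.mem_add.1 hs with h | h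
  · obtain ⟨a, _, i, hi, rfl⟩ := mem_sys h
    exact key i hi c σ b
  · obtain ⟨i, hi, h⟩ := Multiset.mem_bind.1 h
    obtain ⟨x, _, rfl⟩ := Multiset.mem_map.1 h
    exact key i hi _ σ b

theorem Rr_upd {A : Finset I} {τ : I} (hτ : τ ∉ A) (σ σ' : I → Bool) (b b' : Bool) :
    Rr A (Function.update σ τ b) (Function.update σ' τ b') = Rr A σ σ' := by
  unfold Rr
  congr 1
  refine sum_congr rfl fun i hi => ?_
  have : i ≠ τ := fun e => hτ (e ▸ hi)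
  simp [sp, Function.update_of_ne this]

theorem conc_tr {n : ℕ} {f : ℝ → ℝ} {L L' : Sy ι I} {A : Finset I} {P : ℕ → ℝ} {e k : ℝ}
    (hk : 0 ≤ k) (h : ∀ d, d ≤ n → EE n (gg ι f) L' d (fun ω ω' => (Rr A ω.2 ω'.2 - P d) ^ 2) ≤
      k * EE n (gg ι f) L d (fun ω ω' => (Rr A ω.2 ω'.2 - P d) ^ 2)) (hc : Conc n f L A P e) :
    Conc n f L' A P (k * e) := by
  unfold Conc at *
  refine le_trans ?_ (mul_le_mul_of_nonneg_left hc hk)
  rw [mul_left_comm, mul_sum _ _ k]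
  exact mul_le_mul_of_nonneg_left (sum_le_sum fun d hd => h d (mem_Ico.1 hd).2.le) (by positivity)

theorem lift_none {τ : I} {l : Multiset (ℕ × ℝ)} {s : St (Option ι) (I → Bool)}
    (hs : s ∈ (lift none (sp τ) l : Sy ι I)) : s.2.1 = none := by
  obtain ⟨x, _, rfl⟩ := Multiset.mem_map.1 hs
  rfl

theorem arith {θ T0 T1 T2 E a1 a2 a3 a4 w p x y z κ : ℝ} (hθ : 0 ≤ θ)
    (m1 : |T1 - T0 - (θ * (E - a1) / 2 + θ * (w - a4) / 2)| ≤ θ * y)
    (m2 : |T2 - T0 - θ * (E - a3) / 2| ≤ θ * x) (ca : |a1 - a2| ≤ z)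
    (hK : |a2 - a3 + a4 - 2 * p| ≤ κ) :
    |T2 - T1 - θ * (p - w / 2)| ≤ θ * (x + y + z / 2 + κ / 2) := by
  obtain ⟨x1, x2⟩ := abs_le.1 m1
  obtain ⟨x3, x4⟩ := abs_le.1 m2
  obtain ⟨x5, x6⟩ := abs_le.1 ca
  obtain ⟨x7, x8⟩ := abs_le.1 hK
  have y5 := mul_le_mul_of_nonneg_left x5 hθ
  have y6 := mul_le_mul_of_nonneg_left x6 hθ
  have y7 := mul_le_mul_of_nonneg_left x7 hθ
  have y8 := mul_le_mul_of_nonneg_left x8 hθ
  rw [abs_le]
  constructor <;> linarith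

def oo (f1 : ℝ → ℝ) (a : ι) (w : (I → Bool) → ℝ) (ω ω' : Om (Option ι) (I → Bool)) : ℝ :=
  ob f1 (some a) w ω * ob f1 (some a) w ω'

def EA (n : ℕ) (f f1 f2 : ℝ → ℝ) (L : Sy ι I) (a : ι) : ℝ :=
  E1 n (gg ι f) L (ob (fun t => gg2 ι f2 (some a) t + gg1 ι f1 (some a) t ^ 2) (some a) (fun _ => 1))

theorem gam_ts (hG : GApi) {n : ℕ} (hn : 1 ≤ n) (f f1 f2 : ℝ → ℝ) (L : Sy ι I) (A : Finset I) (τ : I)
    (c : ℝ) (a : ι) : ((ts n A τ c a).map (Gam n (gg ι f) (gg1 ι f1) (gg2 ι f2) L)).sum =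
      A.card * c ^ 2 * (EA n f f1 f2 L a -
        1 / (n : ℝ) * ∑ d ∈ Ico 1 n, EE n (gg ι f) L d (oo f1 a (sp τ))) / 2 := by
  rw [ts_eq, Multiset.map_replicate, Multiset.sum_replicate,
    hG.gam_one n _ _ _ L _ _ _ c (sp_sq τ), nsmul_eq_mul,
    show Icc 1 (n - 1) = Ico 1 n by ext x; simp only [mem_Icc, mem_Ico]; omega]
  change _ * (_ * (EA n f f1 f2 L a -
        1 / (n : ℝ) * ∑ d ∈ Ico 1 n, EE n (gg ι f) L d (oo f1 a (sp τ))) / 2) = _
  ring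

theorem gam_rd (hG : GApi) {n : ℕ} (hn : 1 ≤ n) (f f1 f2 : ℝ → ℝ) (L : Sy ι I) {A : Finset I}
    (hA0 : A.Nonempty) (c : ℝ) (a : ι) :
    ((rd n A c a).map (Gam n (gg ι f) (gg1 ι f1) (gg2 ι f2) L)).sum =
      A.card * c ^ 2 * (EA n f f1 f2 L a - 1 / (n : ℝ) * ∑ d ∈ Ico 1 n,
        EE n (gg ι f) L d (fun ω ω' => oo f1 a (fun _ => 1) ω ω' * Rr A ω.2 ω'.2)) / 2 := by
  have e3 : (fun ω ω' : Om (Option ι) (I → Bool) => gg1 ι f1 (some a) (ω.1 (some a) ω.2) *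
      gg1 ι f1 (some a) (ω'.1 (some a) ω'.2) * Rr A ω.2 ω'.2) = fun ω ω' =>
      oo f1 a (fun _ => 1) ω ω' * Rr A ω.2 ω'.2 := by
    ext ω ω'; simp [oo, ob, gg1]
  rw [rd, hG.gam_round n _ _ _ L _ A c hn hA0, e3]
  rfl

theorem gam_pf (hA : AApi) (hC : CApi) (hG : GApi) {n : ℕ} (hn : 1 ≤ n) (f f1 f2 : ℝ → ℝ)
    (L : Sy ι I) (τ : I) {W : ℕ → ℝ} (hW : Path n W) {θ : ℝ} (hθ : 0 ≤ θ) :
    ((lift none (sp τ) (sprof n W θ) : Sy ι I).map (Gam n (gg ι f) (gg1 ι f1) (gg2 ι f2) L)).sum =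
      θ * (W 0 - 1 / (n : ℝ) * ∑ d ∈ Ico 1 n, W d *
        EE n (gg ι f) L d (fun ω ω' => sp τ ω.2 * sp τ ω'.2)) / 2 := by
  have e1 : E1 n (gg ι f) L (ob (fun t => gg2 ι f2 none t + gg1 ι f1 none t ^ 2) none
      (fun _ => 1)) = 1 := by
    have : ob (fun t => gg2 ι f2 none t + gg1 ι f1 none t ^ 2) (none : Option ι)
        (fun _ : I → Bool => 1) = fun _ => 1 := by ext ω; simp [ob, gg1, gg2]
    rw [this]
    exact (hA.ce (hC.ok n L hn) _ 0 (n + 1) le_rfl).2 _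
  have e2 : (fun ω ω' : Om (Option ι) (I → Bool) => ob (gg1 ι f1 none) none (sp τ) ω *
      ob (gg1 ι f1 none) none (sp τ) ω') = fun ω ω' => sp τ ω.2 * sp τ ω'.2 := by
    ext ω ω'; simp [ob, gg1]
  rw [hG.gam_prof n _ _ _ L none (sp τ) W θ hn hW hθ (sp_sq τ), e1, e2, mul_one]

theorem conc_d (hG : GApi) {n : ℕ} (hn : 1 ≤ n) {B e : ℝ} {f f1 f2 : ℝ → ℝ} (hf : Sm B f f1 f2)
    {L : Sy ι I} {A : Finset I} {P : ℕ → ℝ} (a : ι) (hco : Conc n f L A P e) :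
    |1 / (n : ℝ) * ∑ d ∈ Ico 1 n,
        EE n (gg ι f) L d (fun ω ω' => oo f1 a (fun _ => 1) ω ω' * Rr A ω.2 ω'.2) -
      1 / (n : ℝ) * ∑ d ∈ Ico 1 n, P d * EE n (gg ι f) L d (oo f1 a (fun _ => 1))| ≤
      B ^ 2 * √e := by
  have ca := hG.conc_abs n f L A P e (B ^ 2) (fun _ => oo f1 a (fun _ => 1)) hn hco
    (fun _ ω ω' => by
      simp only [oo, ob, mul_one]
      rw [abs_mul, sq]
      exact mul_le_mul (hf.b1 _) (hf.b1 _) (abs_nonneg _) ((abs_nonneg _).trans (hf.b1 0)))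
  rw [← mul_sub, ← sum_sub_distrib, abs_mul, abs_of_nonneg (show (0 : ℝ) ≤ 1 / n by positivity)]
  exact (mul_le_mul_of_nonneg_left (abs_sum_le_sum_abs _ _) (by positivity)).trans ca

theorem lam_eq (n : ℕ) (f f1 : ℝ → ℝ) (L : Sy ι I) (a : ι) (w : (I → Bool) → ℝ) (P W : ℕ → ℝ) :
    Lam n f f1 L a w P W =
      1 / (n : ℝ) * ∑ d ∈ Ico 1 n, P d * EE n (gg ι f) L d (oo f1 a (fun _ => 1)) -
      1 / (n : ℝ) * ∑ d ∈ Ico 1 n, EE n (gg ι f) L d (oo f1 a w) +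
      1 / (n : ℝ) * ∑ d ∈ Ico 1 n, W d * EE n (gg ι f) L d (fun ω ω' => w ω.2 * w ω'.2) := by
  rw [Lam, sum_add_distrib, sum_sub_distrib, mul_add, mul_sub]
  rfl

theorem small_c {B c j : ℝ} (hB : 1 ≤ B) (hj : 1 ≤ j) (hc : 2 * B ^ 4 * (j * c ^ 2) ≤ 1) :
    B * |c| ≤ 1 ∧ (1 + B ^ 2) * (j * c ^ 2) ≤ 1 := by
  have hB2 : 1 ≤ B ^ 2 := one_le_pow₀ hB
  have hB4 : B ^ 2 ≤ B ^ 4 := pow_le_pow_right₀ hB (by norm_num)
  have h0 : 0 ≤ j * c ^ 2 := by positivity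
  have h1 : c ^ 2 ≤ j * c ^ 2 := by nlinarith [sq_nonneg c]
  have h3 : (1 + B ^ 2) * (j * c ^ 2) ≤ 1 :=
    (mul_le_mul_of_nonneg_right (by linarith) h0).trans hc
  have h2 : (B * |c|) ^ 2 ≤ 1 := by rw [mul_pow, sq_abs]; nlinarith [sq_nonneg c]
  exact ⟨(pow_le_one_iff_of_nonneg (by positivity) two_ne_zero).1 h2, h3⟩

theorem small_pf (hG : GApi) {n : ℕ} {B θ : ℝ} (hB : 1 ≤ B) (τ : I) {W : ℕ → ℝ} (hW : Path n W)
    (hW0 : W 0 ≤ B ^ 2) (hθ : 0 ≤ θ) (hc : 2 * B ^ 4 * θ ≤ 1) :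
    Small n B (lift none (sp τ) (sprof n W θ) : Sy ι I) ∧
      vr (lift none (sp τ) (sprof n W θ) : Sy ι I) ≤ B ^ 2 * θ := by
  obtain ⟨p1, -, p3⟩ := hG.sprof_var n W θ hW hθ
  have hWn : 0 ≤ θ * W 0 := by
    rw [← p1]; exact Multiset.sum_nonneg fun x hx => by
      obtain ⟨y, _, rfl⟩ := Multiset.mem_map.1 hx; positivity
  have hWle : θ * W 0 ≤ θ * B ^ 2 := mul_le_mul_of_nonneg_left hW0 hθ
  refine ⟨hG.lift_small n B _ _ _ (sp_sq τ) (fun s hs => ⟨(p3 s hs).1, ?_⟩), ?_⟩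
  · have h1 := (p3 s hs).2
    have h2 : |s.2| ^ 2 ≤ θ * W 0 := by
      rw [← sq_sqrt hWn]; exact pow_le_pow_left₀ (abs_nonneg _) h1 2
    have h4 : 0 ≤ B ^ 4 * θ := by positivity
    have h3 : (B * |s.2|) ^ 2 ≤ 1 := by
      rw [mul_pow]; nlinarith [mul_le_mul_of_nonneg_left (h2.trans hWle) (sq_nonneg B)]
    exact (pow_le_one_iff_of_nonneg (by positivity) two_ne_zero).1 h3
  · rw [(hG.lift_vr _ _ _ (sp_sq τ)).1, p1]; linarith

/-- one move: a round and a field profile against `|A|` steps on the new site -/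
theorem move (hA : AApi) (hC : CApi) (hG : GApi) {n : ℕ} (hn : 1 ≤ n) {B CM e κ c : ℝ}
    {f f1 f2 : ℝ → ℝ} (hf : Sm B f f1 f2) (hB : 1 ≤ B) (hCM : 0 ≤ CM) {A : Finset I}
    (hA0 : A.Nonempty) (τ : I) (a : ι) {P W : ℕ → ℝ} (hW : Path n W) (hW0 : W 0 ≤ B ^ 2)
    (hc : 2 * B ^ 4 * (A.card * c ^ 2) ≤ 1) (L : Sy ι I)
    (hM : ∀ L' : Sy ι I, Small n B L' → vr L' ≤ 1 → |TT n (gg ι f) (L + L') - TT n (gg ι f) L -
      (L'.map (Gam n (gg ι f) (gg1 ι f1) (gg2 ι f2) L)).sum| ≤ CM * (vr L' * √(vr L')))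
    (hco : Conc n f L A P e) (hK : |Lam n f f1 L a (sp τ) P W - 2 * ip n P W| ≤ κ) :
    |TT n (gg ι f) (L + ts n A τ c a) -
        TT n (gg ι f) (L + (rd n A c a + lift none (sp τ) (sprof n W (A.card * c ^ 2)))) -
        A.card * c ^ 2 * (ip n P W - W 0 / 2)| ≤
      A.card * c ^ 2 * (CM * √(A.card * c ^ 2) +
        CM * ((1 + B ^ 2) * √((1 + B ^ 2) * (A.card * c ^ 2))) + B ^ 2 * √e / 2 + κ / 2) := by
  have hj : (1 : ℝ) ≤ A.card := by exact_mod_cast hA0.card_pos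
  have hθ0 : 0 ≤ A.card * c ^ 2 := by positivity
  obtain ⟨hc1, hc2⟩ := small_c hB hj hc
  obtain ⟨s2, v2⟩ := small_pf (ι := ι) hG hB τ hW hW0 hθ0 hc
  obtain ⟨r1, r2, -⟩ := hG.round_vr n B (some a) A (n - 1) c
  have v1 : vr (rd n A c a + lift none (sp τ) (sprof n W (A.card * c ^ 2))) ≤
      (1 + B ^ 2) * (A.card * c ^ 2) := by
    rw [(hG.vr_add _ _ 0).1, rd, r1]; linarith
  have m1 := hM (rd n A c a + lift none (sp τ) (sprof n W (A.card * c ^ 2)))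
    (small_add (r2 (by omega) hc1) s2) (v1.trans hc2)
  have m2 := hM _ (small_ts hG hn A τ hc1 a) (by rw [vr_ts hG]; nlinarith [sq_nonneg B])
  rw [Multiset.map_add, Multiset.sum_add, gam_rd hG hn f f1 f2 L hA0,
    gam_pf hA hC hG hn f f1 f2 L τ hW hθ0] at m1
  rw [gam_ts hG hn, vr_ts hG] at m2
  rw [lam_eq] at hK
  refine arith hθ0 (m1.trans ?_) (m2.trans_eq (by ring)) (conc_d hG hn hf a hco) hK
  have h2 := mul_le_mul v1 (sqrt_le_sqrt v1) (sqrt_nonneg _) (by positivity)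
  exact (mul_le_mul_of_nonneg_left h2 hCM).trans_eq (by ring)

end Sc

end

end Vale.Agent.P157
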