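import Vale.Agent.P157.Defs

/-! P157: internal definitions (proofs in notes/P157.md). -/

namespace Vale.Agent.P157

open MeasureTheory ProbabilityTheory Finset Real

noncomputable section

/-! ### Abstract cascades of Markov operators (index 0 is the innermost level) -/

abbrev Op (Ω : Type) : Type := (Ω → ℝ) →ₗ[ℝ] (Ω → ℝ)

def Mk {Ω : Type} (P : Op Ω) : Prop :=
  (∀ g : Ω → ℝ, (∀ ω, 0 ≤ g ω) → ∀ ω, 0 ≤ P g ω) ∧ ∀ ω, P (fun _ => 1) ω = 1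

section
variable {Ω : Type}

def XX (P : ℕ → Op Ω) (m : ℕ → ℝ) (Z : Ω → ℝ) : ℕ → Ω → ℝ
  | 0 => Z
  | j + 1 => fun ω => (m j)⁻¹ * log (P j (fun ω' => exp (m j * XX P m Z j ω')) ω)

/-- tilted operator of level `j` -/
def QQ (P : ℕ → Op Ω) (m : ℕ → ℝ) (Z : Ω → ℝ) (j : ℕ) : Op Ω :=
  LinearMap.mulLeft ℝ (fun ω => exp (-(m j * XX P m Z (j + 1) ω))) ∘ₗ P j ∘ₗ
    LinearMap.mulLeft ℝ (fun ω => exp (m j * XX P m Z j ω))

/-- `Ce a b = Q_{b-1} ... Q_a` (identity if `b ≤ a`) -/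
def Ce (P : ℕ → Op Ω) (m : ℕ → ℝ) (Z : Ω → ℝ) (a : ℕ) : ℕ → Op Ω
  | 0 => LinearMap.id
  | b + 1 => if a ≤ b then QQ P m Z b ∘ₗ Ce P m Z a b else LinearMap.id

/-- two replicas, conditionally independent below level `l` -/
def E2 (P : ℕ → Op Ω) (m : ℕ → ℝ) (Z : Ω → ℝ) (l t : ℕ) (φ : Ω → Ω → ℝ) (ω0 : Ω) : ℝ :=
  Ce P m Z l t (fun ω => Ce P m Z 0 l (fun ω1 => Ce P m Z 0 l (fun ω2 => φ ω1 ω2) ω) ω) ω0

structure Ok (P : ℕ → Op Ω) (m : ℕ → ℝ) (t : ℕ) : Prop where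
  mk' : ∀ j, Mk (P j)
  pos : ∀ j, j < t → 0 < m j
  le1 : ∀ j, j < t → m j ≤ 1
  anti : ∀ j, j + 1 < t → m (j + 1) ≤ m j

/-- `u` depends only on the levels `≥ d` -/
def Dep (r : ℕ → Ω → Ω → Prop) (d : ℕ) (u : Ω → ℝ) : Prop := ∀ ω ω', r d ω ω' → u ω = u ω'

/-- filtered chain: `r d ω ω'` means that `ω, ω'` agree on the levels `≥ d` -/
structure Fil (P : ℕ → Op Ω) (r : ℕ → Ω → Ω → Prop) : Prop where
  refl : ∀ d ω, r d ω ω
  symm : ∀ d ω ω', r d ω ω' → r d ω' ω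
  trans : ∀ d ω ω' ω'', r d ω ω' → r d ω' ω'' → r d ω ω''
  zero : ∀ ω ω', r 0 ω ω' → ω = ω'
  mono : ∀ d ω ω', r d ω ω' → r (d + 1) ω ω'
  supp : ∀ d (u u' : Ω → ℝ) ω, (∀ ω', r (d + 1) ω ω' → u ω' = u' ω') → P d u ω = P d u' ω
  dep : ∀ d (u : Ω → ℝ), Dep r d u → Dep r (d + 1) (P d u)

end

/-- domination relation for a symmetric pair of tilted values -/
def Dm (u w gp gm g : ℝ) : Prop :=
  ∀ α β : ℝ, exp ((α + β) / 2 - u) * g ≤ (exp α * gp + exp β * gm) / 2 ∧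
    (exp α * gp + exp β * gm) / 2 ≤ exp ((α + β) / 2 + u) * cosh (|α - β| / 2 + w) * g

/-! ### Sign steps -/

def sgo {E S : Type} [AddCommGroup E] (v : E) : Op (E × S) where
  toFun g := fun ω => (g (ω.1 + v, ω.2) + g (ω.1 - v, ω.2)) / 2
  map_add' g h := by ext ω; simp only [Pi.add_apply]; ring
  map_smul' c g := by ext ω; simp only [Pi.smul_apply, smul_eq_mul, RingHom.id_apply]; ring

theorem sgo_comm {E S : Type} [AddCommGroup E] (v w : E) (P : Op (E × S)) :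
    sgo v ∘ₗ (sgo w ∘ₗ P) = sgo w ∘ₗ (sgo v ∘ₗ P) := by
  ext g ω
  simp only [sgo, LinearMap.coe_comp, Function.comp_apply, LinearMap.coe_mk, AddHom.coe_mk]
  rw [add_right_comm ω.1 v w, sub_add_eq_add_sub ω.1 v w, add_sub_right_comm ω.1 v w,
    sub_right_comm ω.1 v w]
  ring

instance sgoLC {E S : Type} [AddCommGroup E] :
    LeftCommutative (fun (v : E) (P : Op (E × S)) => sgo v ∘ₗ P) := ⟨sgo_comm⟩

/-- average over independent signs of the vectors in `l` -/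
def lv {E S : Type} [AddCommGroup E] (l : Multiset E) : Op (E × S) :=
  Multiset.foldr (fun (v : E) (P : Op (E × S)) => sgo v ∘ₗ P) LinearMap.id l

/-- uniform resampling of the configuration -/
def res {E S : Type} [Fintype S] : Op (E × S) where
  toFun g := fun ω => (∑ σ, g (ω.1, σ)) / (Fintype.card S : ℝ)
  map_add' g h := by ext ω; simp only [Pi.add_apply, sum_add_distrib]; ring
  map_smul' c g := by
    ext ω; simp only [Pi.smul_apply, smul_eq_mul, RingHom.id_apply, ← mul_sum]; ring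

def ex (n : ℕ) : ℕ → ℝ
  | 0 => 1
  | d + 1 => 1 - (d : ℝ) / n

/-- a step: level, coordinate, direction -/
abbrev St (O S : Type) : Type := ℕ × O × (S → ℝ)

abbrev Om (O S : Type) : Type := (O → S → ℝ) × S

section
variable {O S : Type} [Fintype O] [DecidableEq O] [Fintype S] [Inhabited S]

def vec (s : St O S) : O → S → ℝ := Pi.single s.2.1 s.2.2

def chain (L : Multiset (St O S)) : ℕ → Op (Om O S)
  | 0 => res
  | d + 1 => lv ((L.filter (fun s => s.1 = d)).map vec)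

def ZZ (g : O → ℝ → ℝ) (ω : Om O S) : ℝ := ∑ o, g o (ω.1 o ω.2)

def TT (n : ℕ) (g : O → ℝ → ℝ) (L : Multiset (St O S)) : ℝ :=
  XX (chain L) (ex n) (ZZ g) (n + 1) (0, default)

def E1 (n : ℕ) (g : O → ℝ → ℝ) (L : Multiset (St O S)) (U : Om O S → ℝ) : ℝ :=
  Ce (chain L) (ex n) (ZZ g) 0 (n + 1) U (0, default)

/-- two replicas sharing the signs of the levels `≥ d` -/
def EE (n : ℕ) (g : O → ℝ → ℝ) (L : Multiset (St O S)) (d : ℕ) (φ : Om O S → Om O S → ℝ) : ℝ :=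
  E2 (chain L) (ex n) (ZZ g) (d + 1) (n + 1) φ (0, default)

/-- the observable `u(x_o(σ)) w(σ)` -/
def ob (u : ℝ → ℝ) (o : O) (w : S → ℝ) (ω : Om O S) : ℝ := u (ω.1 o ω.2) * w ω.2

/-- second order increment of a step -/
def Gam (n : ℕ) (g g1 g2 : O → ℝ → ℝ) (L : Multiset (St O S)) (s : St O S) : ℝ :=
  (E1 n g L (ob (fun t => g2 s.2.1 t + g1 s.2.1 t ^ 2) s.2.1 (fun σ => s.2.2 σ ^ 2)) -
    (1 / (n : ℝ)) * ∑ d ∈ Icc 1 s.1, EE n g L d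
      (fun ω ω' => ob (g1 s.2.1) s.2.1 s.2.2 ω * ob (g1 s.2.1) s.2.1 s.2.2 ω')) / 2

def sz (L : Multiset (St O S)) : ℝ := (L.map (fun s => ‖s.2.2‖)).sum

def vr (L : Multiset (St O S)) : ℝ := (L.map (fun s => ‖s.2.2‖ ^ 2)).sum

/-- all steps have level `< n` and size `≤ 1 / B` -/
def Small (n : ℕ) (B : ℝ) (L : Multiset (St O S)) : Prop := ∀ s ∈ L, s.1 < n ∧ B * ‖s.2.2‖ ≤ 1

/-- scalar steps `(level, size)` in the direction `w` of coordinate `o` -/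
def lift (o : O) (w : S → ℝ) (l : Multiset (ℕ × ℝ)) : Multiset (St O S) :=
  l.map (fun s => (s.1, o, s.2 • w))

/-- admissible test function for one step -/
def LG (K : ℝ) (s : St O S) (φ : Om O S → Om O S → ℝ) : Prop :=
  ∀ (ω ω' : Om O S) (a a' : ℝ), (a = 0 ∨ a = 1) → (a' = 0 ∨ a' = 1) →
    Dm (K * ‖s.2.2‖ ^ 2) (K * ‖s.2.2‖)
      (φ (ω.1 + a • vec s, ω.2) (ω'.1 + a' • vec s, ω'.2))
      (φ (ω.1 - a • vec s, ω.2) (ω'.1 - a' • vec s, ω'.2)) (φ ω ω')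

end

def D2 (K : ℝ) (u : ℝ → ℝ) : Prop :=
  ∀ t h, |u (t + h) - u t| ≤ K * |h| ∧ |u (t + h) + u (t - h) - 2 * u t| ≤ K * h ^ 2

structure Sm (B : ℝ) (g g1 g2 : ℝ → ℝ) : Prop where
  d0 : D2 B g
  d1 : D2 B g1
  d2 : D2 B g2
  b1 : ∀ t, |g1 t| ≤ B
  b2 : ∀ t, |g2 t| ≤ B
  tay : ∀ t h, |g (t + h) - g t - h * g1 t - h ^ 2 * g2 t / 2| ≤ B * |h| ^ 3

/-! ### Scalar systems -/

/-- one step per level, with variances `c2 (p κ - p (κ+1))` -/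
def sprof (n : ℕ) (p : ℕ → ℝ) (c2 : ℝ) : Multiset (ℕ × ℝ) :=
  (range n).val.map (fun κ => (κ, √(c2 * (p κ - p (κ + 1)))))

def ys (n : ℕ) (y : ℕ → ℝ) : Multiset (ℕ × ℝ) := (range n).val.map (fun κ => (κ, y κ))

/-- variance at level `d` -/
def lvar (l : Multiset (ℕ × ℝ)) (d : ℕ) : ℝ := ((l.filter (fun s => s.1 = d)).map (fun s => s.2 ^ 2)).sum

def HD (n : ℕ) (f : ℝ → ℝ) (l : Multiset (ℕ × ℝ)) : ℝ :=
  TT n (fun _ : Unit => f) (lift () (fun _ : Unit => 1) l)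

def WD (n : ℕ) (f u : ℝ → ℝ) (l : Multiset (ℕ × ℝ)) (d : ℕ) : ℝ :=
  EE n (fun _ : Unit => f) (lift () (fun _ : Unit => 1) l) d
    (fun ω ω' => u (ω.1 () ()) * u (ω'.1 () ()))

def PD (n : ℕ) (l : Multiset (ℕ × ℝ)) : ℝ := TT n (fun _ : Unit => id) (lift () spin l)

def piD (n : ℕ) (l : Multiset (ℕ × ℝ)) (d : ℕ) : ℝ :=
  EE n (fun _ : Unit => id) (lift () spin l) d (fun ω ω' => spin ω.2 * spin ω'.2)

/-- scalar recursion -/
def sc (n : ℕ) (l : Multiset (ℕ × ℝ)) (Φ : ℝ → ℝ) (j : ℕ) (x : ℝ) : ℝ :=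
  XX (fun d => (lv ((l.filter (fun s => s.1 = d)).map Prod.snd) : Op (ℝ × Unit)))
    (fun d => 1 - (d : ℝ) / n) (fun ω => Φ ω.1) j (x, ())

/-- lattice system: `c κ` steps of size `η` at level `κ` -/
def lat (n : ℕ) (η : ℝ) (c : ℕ → ℕ) : Multiset (ℕ × ℝ) := ∑ κ ∈ range n, c κ • ({(κ, η)} : Multiset _)

def cum (n : ℕ) (c : ℕ → ℕ) (d : ℕ) : ℕ := ∑ κ ∈ Ico d n, c κ

/-! ### The spin model -/

section
variable {I ι : Type} [Fintype I] [DecidableEq I] [Fintype ι] [DecidableEq ι]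

def gg (ι : Type) (f : ℝ → ℝ) : Option ι → ℝ → ℝ := fun o => o.elim id (fun _ => f)
def gg1 (ι : Type) (f1 : ℝ → ℝ) : Option ι → ℝ → ℝ := fun o => o.elim (fun _ => 1) (fun _ => f1)
def gg2 (ι : Type) (f2 : ℝ → ℝ) : Option ι → ℝ → ℝ := fun o => o.elim (fun _ => 0) (fun _ => f2)

def sp (i : I) : (I → Bool) → ℝ := fun σ => spin (σ i)

def Rr (A : Finset I) (σ σ' : I → Bool) : ℝ := (∑ i ∈ A, sp i σ * sp i σ') / (A.card : ℝ)

abbrev Sy (ι I : Type) : Type := Multiset (St (Option ι) (I → Bool))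

/-- one step of size `c` at level `κ` for every site of `A` -/
def round (o : Option ι) (A : Finset I) (κ : ℕ) (c : ℝ) : Sy ι I :=
  A.val.map (fun i => (κ, o, c • sp i))

/-- the scalar steps `l` as fields on every site of `A` -/
def fld (ι : Type) [Fintype ι] [DecidableEq ι] (A : Finset I) (l : Multiset (ℕ × ℝ)) : Sy ι I :=
  A.val.bind (fun i => lift none (sp i) l)

/-- constant steps on pattern `a` -/
def fk (I : Type) [Fintype I] [DecidableEq I] (a : ι) (l : Multiset (ℕ × ℝ)) : Sy ι I :=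
  lift (some a) (fun _ => 1) l

/-- patterns `J` on the sites `A`, `D` rounds of size `c` at the top level -/
def sys (n : ℕ) (A : Finset I) (J : Finset ι) (D : ℕ) (c : ℝ) : Sy ι I :=
  J.val.bind (fun a => D • round (some a) A (n - 1) c)

def Conc (n : ℕ) (f : ℝ → ℝ) (L : Sy ι I) (A : Finset I) (P : ℕ → ℝ) (e : ℝ) : Prop :=
  (1 / (n : ℝ)) * ∑ d ∈ Ico 1 n, EE n (gg ι f) L d (fun ω ω' => (Rr A ω.2 ω'.2 - P d) ^ 2) ≤ e

/-- the overlap profile of a system -/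
def ovl (n : ℕ) (f : ℝ → ℝ) (L : Sy ι I) (A : Finset I) (d : ℕ) : ℝ :=
  if d = 0 then 1 else if d < n then EE n (gg ι f) L d (fun ω ω' => Rr A ω.2 ω'.2) else 0

def pen (n : ℕ) (lam k : ℝ) (y : ℕ → ℝ) : ℝ := k * ∑ κ ∈ range n, (y κ - 2 * lam) ^ 2

/-- `y` maximises the perturbed value -/
def Mx (n : ℕ) (f : ℝ → ℝ) (L : Sy ι I) (A : Finset I) (lam k : ℝ) (y : ℕ → ℝ) : Prop :=
  (∀ κ, κ < n → lam ≤ y κ ∧ y κ ≤ 3 * lam) ∧
    ∀ y', TT n (gg ι f) (L + fld ι A (ys n y')) - pen n lam k y' ≤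
      TT n (gg ι f) (L + fld ι A (ys n y)) - pen n lam k y

/-- the steps do not depend on the spin `i` -/
def Ind (i : I) (L : Sy ι I) : Prop :=
  ∀ s ∈ L, ∀ σ b, s.2.2 (Function.update σ i b) = s.2.2 σ

/-- `Λ'` of the notes -/
def Lam (n : ℕ) (f f1 : ℝ → ℝ) (L : Sy ι I) (a : ι) (w : (I → Bool) → ℝ) (P W : ℕ → ℝ) : ℝ :=
  (1 / (n : ℝ)) * ∑ d ∈ Ico 1 n,
    (P d * EE n (gg ι f) L d
        (fun ω ω' => ob f1 (some a) (fun _ => 1) ω * ob f1 (some a) (fun _ => 1) ω') -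
      EE n (gg ι f) L d (fun ω ω' => ob f1 (some a) w ω * ob f1 (some a) w ω') +
      W d * EE n (gg ι f) L d (fun ω ω' => w ω.2 * w ω'.2))

/-! ### Recording space -/

abbrev Rs (ι I : Type) : Type := (ℕ → Option ι → (I → Bool) → ℝ) × (ℕ → I → Bool) × (I → Bool)

def rtop : Op (Rs ι I) where
  toFun G := fun ω => (∑ σ, G (ω.1, ω.2.1, σ)) / (Fintype.card (I → Bool) : ℝ)
  map_add' g h := by ext ω; simp only [Pi.add_apply, sum_add_distrib]; ring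
  map_smul' c g := by
    ext ω; simp only [Pi.smul_apply, smul_eq_mul, RingHom.id_apply, ← mul_sum]; ring

def rin (d : ℕ) (ω : Rs ι I) (G : Rs ι I → ℝ) (ω' : Om (Option ι) (I → Bool)) : ℝ :=
  (∑ e, G (Function.update ω.1 d ω'.1, Function.update ω.2.1 d e, ω.2.2)) /
    (Fintype.card (I → Bool) : ℝ)

def rlev (L : Sy ι I) (d : ℕ) : Op (Rs ι I) where
  toFun G := fun ω => chain L (d + 1) (rin d ω G) (ω.1 (d + 1), ω.2.2)
  map_add' g h := by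
    ext ω
    have : rin d ω (g + h) = rin d ω g + rin d ω h := by
      ext ω'; simp only [rin, Pi.add_apply, sum_add_distrib]; ring
    simp only [this, map_add, Pi.add_apply]
  map_smul' c g := by
    ext ω
    have : rin d ω (c • g) = c • rin d ω g := by
      ext ω'; simp only [rin, Pi.smul_apply, smul_eq_mul, ← mul_sum]; ring
    simp only [this, map_smul, Pi.smul_apply, RingHom.id_apply]

def rch (L : Sy ι I) : ℕ → Op (Rs ι I)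
  | 0 => rtop
  | d + 1 => rlev L d

def rr : ℕ → Rs ι I → Rs ι I → Prop
  | 0 => fun ω ω' => ω = ω'
  | d + 1 => fun ω ω' => ∀ k, d ≤ k → ω.1 k = ω'.1 k ∧ ω.2.1 k = ω'.2.1 k

def hh (A : Finset I) (κ : ℕ) (ω : Rs ι I) : ℝ := ∑ i ∈ A, spin (ω.2.1 κ i) * spin (ω.2.2 i)

def rZ (n : ℕ) (f : ℝ → ℝ) (A : Finset I) (y : ℕ → ℝ) (ω : Rs ι I) : ℝ :=
  ZZ (gg ι f) (ω.1 0, ω.2.2) + ∑ κ ∈ range n, y κ * hh A κ ω

def r0 (ι I : Type) : Rs ι I := (0, fun _ _ => true, default)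

end

section
variable {Ω I : Type}

def aR (s : I → Ω → ℝ) (A : Finset I) (ω1 ω2 : Ω) : ℝ := (∑ i ∈ A, s i ω1 * s i ω2) / (A.card : ℝ)

def aρ (P : ℕ → Op Ω) (n : ℕ) (Z : Ω → ℝ) (s : I → Ω → ℝ) (A : Finset I) (d : ℕ) (ω1 ω2 : Ω) : ℝ :=
  (∑ i ∈ A, s i ω1 * Ce P (ex n) Z 0 (d + 1) (s i) ω2) / (A.card : ℝ)

/-- approximate Ghirlanda-Guerra type identities for the normalised fields `h κ` -/
structure GGI (P : ℕ → Op Ω) (n : ℕ) (Z : Ω → ℝ) (s : I → Ω → ℝ) (A : Finset I)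
    (h : ℕ → Ω → ℝ) (ω0 : Ω) (ε : ℝ) : Prop where
  u1 : ∀ κ, κ < n → |Ce P (ex n) Z 0 (n + 1) (h κ) ω0 - Ce P (ex n) Z 0 (n + 1)
    (fun ω => 1 - (1 / (n : ℝ)) * ∑ d ∈ Icc 1 κ, aρ P n Z s A d ω ω) ω0| ≤ ε
  u2 : ∀ κ l, κ < l → l ≤ n →
    |E2 P (ex n) Z (l + 1) (n + 1) (fun ω1 ω2 => aR s A ω1 ω2 * h κ ω1) ω0 -
      E2 P (ex n) Z (l + 1) (n + 1) (fun ω1 ω2 => aR s A ω1 ω2 *
        (1 - (1 / (n : ℝ)) * ∑ d ∈ Icc 1 κ, aρ P n Z s A d ω1 ω1)) ω0| ≤ ε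
  sh : ∀ l, 1 ≤ l → l < n →
    |E2 P (ex n) Z (l + 1) (n + 1) (fun ω1 ω2 => aR s A ω1 ω2 * h l ω1) ω0 -
      E2 P (ex n) Z (l + 1) (n + 1) (fun ω1 ω2 => aR s A ω1 ω2 *
        (1 + aR s A ω1 ω2 - (1 / (n : ℝ)) * ∑ d ∈ Ico 1 l, (aρ P n Z s A d ω1 ω1 + aρ P n Z s A d ω1 ω2)
          - (ex n l + 1 / (n : ℝ)) * aρ P n Z s A l ω1 ω1)) ω0| ≤ ε

end

/-- value of the discretised model with `D` signs per Gaussian -/
def RV (n : ℕ) (f : ℝ → ℝ) (N M D : ℕ) : ℝ :=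
  TT n (gg (Fin M) f) (sys n (univ : Finset (Fin N)) univ D (1 / √((N : ℝ) * D)))

/-- plain expectation of `log Z` in the discretised model -/
def PV (f : ℝ → ℝ) (N M D : ℕ) : ℝ :=
  lv ((sys 1 (univ : Finset (Fin N)) (univ : Finset (Fin M)) D (1 / √((N : ℝ) * D))).map vec)
    (fun ω : Om (Option (Fin M)) (Fin N → Bool) =>
      log ((∑ σ, exp (ZZ (gg (Fin M) f) (ω.1, σ))) / 2 ^ N)) (0, default)

end

end Vale.Agent.P157
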