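import Vale.Agent.P157.Stm
import Vale.Agent.P157.DefsS

/-! P157, sphere: internal definitions (proofs in notes/P157s.md). -/

namespace Vale.Agent.P157

open MeasureTheory ProbabilityTheory Finset Real

noncomputable section

/-- uniform average -/
def avg {T : Type} [Fintype T] (F : T → ℝ) : ℝ := (∑ t, F t) / (Fintype.card T : ℝ)

section
variable {O S I : Type} [Fintype O] [DecidableEq O] [Fintype S] [Inhabited S]

/-- terminal function with a potential `U` -/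
def ZU (g : O → ℝ → ℝ) (U : S → ℝ) (ω : Om O S) : ℝ := ZZ g ω + U ω.2

def TU (n : ℕ) (g : O → ℝ → ℝ) (U : S → ℝ) (L : Multiset (St O S)) : ℝ :=
  XX (chain L) (ex n) (ZU g U) (n + 1) (0, default)

def E1U (n : ℕ) (g : O → ℝ → ℝ) (U : S → ℝ) (L : Multiset (St O S)) (V : Om O S → ℝ) : ℝ :=
  Ce (chain L) (ex n) (ZU g U) 0 (n + 1) V (0, default)

def EU (n : ℕ) (g : O → ℝ → ℝ) (U : S → ℝ) (L : Multiset (St O S)) (d : ℕ)
    (φ : Om O S → Om O S → ℝ) : ℝ :=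
  E2 (chain L) (ex n) (ZU g U) (d + 1) (n + 1) φ (0, default)

/-- `g'' + g'^2` -/
def gq (g1 g2 : O → ℝ → ℝ) (o : O) (t : ℝ) : ℝ := g2 o t + g1 o t ^ 2

def GU (n : ℕ) (g g1 g2 : O → ℝ → ℝ) (U : S → ℝ) (L : Multiset (St O S)) (s : St O S) : ℝ :=
  (E1U n g U L (ob (gq g1 g2 s.2.1) s.2.1 (fun σ => s.2.2 σ ^ 2)) -
    (1 / (n : ℝ)) * ∑ d ∈ Icc 1 s.1, EU n g U L d
      (fun ω ω' => ob (g1 s.2.1) s.2.1 s.2.2 ω * ob (g1 s.2.1) s.2.1 s.2.2 ω')) / 2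

def RR (s : I → S → ℝ) (A : Finset I) (σ σ' : S) : ℝ := (∑ i ∈ A, s i σ * s i σ') / (A.card : ℝ)

def rd (s : I → S → ℝ) (o : O) (A : Finset I) (κ : ℕ) (c : ℝ) : Multiset (St O S) :=
  A.val.map (fun i => (κ, o, c • s i))

def fl (s : I → S → ℝ) (o0 : O) (A : Finset I) (l : Multiset (ℕ × ℝ)) : Multiset (St O S) :=
  A.val.bind (fun i => lift o0 (s i) l)

def sy (n : ℕ) (s : I → S → ℝ) (A : Finset I) (J : Finset O) (D : ℕ) (c : ℝ) :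
    Multiset (St O S) :=
  J.val.bind (fun a => D • rd s a A (n - 1) c)

/-- concentration of the overlaps and of the self-overlap -/
def CU (n : ℕ) (g : O → ℝ → ℝ) (U : S → ℝ) (L : Multiset (St O S)) (s : I → S → ℝ) (A : Finset I)
    (P : ℕ → ℝ) (e : ℝ) : Prop :=
  (1 / (n : ℝ)) * ∑ d ∈ Ico 1 n, EU n g U L d (fun ω ω' => (RR s A ω.2 ω'.2 - P d) ^ 2) ≤ e ∧
    E1U n g U L (fun ω => (RR s A ω.2 ω.2 - P 0) ^ 2) ≤ e

def ovU (n : ℕ) (g : O → ℝ → ℝ) (U : S → ℝ) (L : Multiset (St O S)) (s : I → S → ℝ) (A : Finset I)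
    (d : ℕ) : ℝ :=
  if d = 0 then E1U n g U L (fun ω => RR s A ω.2 ω.2)
  else if d < n then EU n g U L d (fun ω ω' => RR s A ω.2 ω'.2) else 0

def MxU (n : ℕ) (g : O → ℝ → ℝ) (U : S → ℝ) (L : Multiset (St O S)) (s : I → S → ℝ) (o0 : O)
    (A : Finset I) (lam k : ℝ) (y : ℕ → ℝ) : Prop :=
  (∀ κ, κ < n → lam ≤ y κ ∧ y κ ≤ 3 * lam) ∧
    ∀ y', TU n g U (L + fl s o0 A (ys n y')) - pen n lam k y' ≤
      TU n g U (L + fl s o0 A (ys n y)) - pen n lam k y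

/-- standing assumptions: smooth coordinates, a field coordinate `o0`, spins bounded by `K` -/
structure Md (B K : ℝ) (g g1 g2 : O → ℝ → ℝ) (o0 : O) (s : I → S → ℝ) : Prop where
  hB : 1 ≤ B
  hK : 1 ≤ K
  sm : ∀ o, Sm B (g o) (g1 o) (g2 o)
  e0 : g o0 = id
  e1 : g1 o0 = fun _ => 1
  e2 : g2 o0 = fun _ => 0
  bd : ∀ i σ, |s i σ| ≤ K

/-- the patterns `J` all carry the function `f` -/
def Pt (g g1 g2 : O → ℝ → ℝ) (o0 : O) (J : Finset O) (B : ℝ) (f f1 f2 : ℝ → ℝ) : Prop :=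
  o0 ∉ J ∧ (∀ t, |f t| ≤ B) ∧ ∀ a ∈ J, g a = f ∧ g1 a = f1 ∧ g2 a = f2

def LamU (n : ℕ) (g g1 g2 : O → ℝ → ℝ) (U : S → ℝ) (L : Multiset (St O S)) (a : O) (w : S → ℝ)
    (P W : ℕ → ℝ) (a0 : ℝ) : ℝ :=
  E1U n g U L (ob (gq g1 g2 a) a (fun σ => w σ ^ 2)) - a0 * E1U n g U L (fun ω => w ω.2 ^ 2) -
    P 0 * E1U n g U L (ob (gq g1 g2 a) a (fun _ => 1)) +
    (1 / (n : ℝ)) * ∑ d ∈ Ico 1 n,
      (P d * EU n g U L d (fun ω ω' => ob (g1 a) a (fun _ => 1) ω * ob (g1 a) a (fun _ => 1) ω') -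
        EU n g U L d (fun ω ω' => ob (g1 a) a w ω * ob (g1 a) a w ω') +
        W d * EU n g U L d (fun ω ω' => w ω.2 * w ω'.2))

/-! ### Recording space -/

abbrev RsU (O S I : Type) : Type := (ℕ → O → S → ℝ) × (ℕ → I → Bool) × S

variable [Fintype I] [DecidableEq I]

def rtopU : Op (RsU O S I) where
  toFun G := fun ω => (∑ σ, G (ω.1, ω.2.1, σ)) / (Fintype.card S : ℝ)
  map_add' g h := by ext ω; simp only [Pi.add_apply, sum_add_distrib]; ring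
  map_smul' c g := by
    ext ω; simp only [Pi.smul_apply, smul_eq_mul, RingHom.id_apply, ← mul_sum]; ring

def rinU (d : ℕ) (ω : RsU O S I) (G : RsU O S I → ℝ) (ω' : Om O S) : ℝ :=
  (∑ e, G (Function.update ω.1 d ω'.1, Function.update ω.2.1 d e, ω.2.2)) /
    (Fintype.card (I → Bool) : ℝ)

def rlevU (L : Multiset (St O S)) (d : ℕ) : Op (RsU O S I) where
  toFun G := fun ω => chain L (d + 1) (rinU d ω G) (ω.1 (d + 1), ω.2.2)
  map_add' g h := by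
    ext ω
    have : rinU d ω (g + h) = rinU d ω g + rinU d ω h := by
      ext ω'; simp only [rinU, Pi.add_apply, sum_add_distrib]; ring
    simp only [this, map_add, Pi.add_apply]
  map_smul' c g := by
    ext ω
    have : rinU d ω (c • g) = c • rinU d ω g := by
      ext ω'; simp only [rinU, Pi.smul_apply, smul_eq_mul, ← mul_sum]; ring
    simp only [this, map_smul, Pi.smul_apply, RingHom.id_apply]

def rchU (I : Type) [Fintype I] [DecidableEq I] (L : Multiset (St O S)) : ℕ → Op (RsU O S I)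
  | 0 => rtopU
  | d + 1 => rlevU L d

def rrU : ℕ → RsU O S I → RsU O S I → Prop
  | 0 => fun ω ω' => ω = ω'
  | d + 1 => fun ω ω' => ∀ k, d ≤ k → ω.1 k = ω'.1 k ∧ ω.2.1 k = ω'.2.1 k

def hhU (s : I → S → ℝ) (A : Finset I) (κ : ℕ) (ω : RsU O S I) : ℝ :=
  ∑ i ∈ A, spin (ω.2.1 κ i) * s i ω.2.2

def rZU (n : ℕ) (g : O → ℝ → ℝ) (U : S → ℝ) (s : I → S → ℝ) (A : Finset I) (y : ℕ → ℝ)
    (ω : RsU O S I) : ℝ :=
  ZU g U (ω.1 0, ω.2.2) + ∑ κ ∈ range n, y κ * hhU s A κ ω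

def r0U (O S I : Type) [Inhabited S] : RsU O S I := (0, fun _ _ => true, default)

end

/-- the identities for bounded real spins -/
structure GGU {Ω I : Type} (P : ℕ → Op Ω) (n : ℕ) (Z : Ω → ℝ) (s : I → Ω → ℝ) (A : Finset I)
    (h : ℕ → Ω → ℝ) (ω0 : Ω) (ε : ℝ) : Prop where
  u0 : |Ce P (ex n) Z 0 (n + 1) (fun ω => aR s A ω ω * h 0 ω) ω0 -
    Ce P (ex n) Z 0 (n + 1) (fun ω => aR s A ω ω ^ 2) ω0| ≤ ε
  u1 : ∀ κ, κ < n → |Ce P (ex n) Z 0 (n + 1) (h κ) ω0 - Ce P (ex n) Z 0 (n + 1)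
    (fun ω => aR s A ω ω - (1 / (n : ℝ)) * ∑ d ∈ Icc 1 κ, aρ P n Z s A d ω ω) ω0| ≤ ε
  u2 : ∀ κ l, κ < l → l ≤ n →
    |E2 P (ex n) Z (l + 1) (n + 1) (fun ω1 ω2 => aR s A ω1 ω2 * h κ ω1) ω0 -
      E2 P (ex n) Z (l + 1) (n + 1) (fun ω1 ω2 => aR s A ω1 ω2 *
        (aR s A ω1 ω1 - (1 / (n : ℝ)) * ∑ d ∈ Icc 1 κ, aρ P n Z s A d ω1 ω1)) ω0| ≤ ε
  sh : ∀ l, 1 ≤ l → l < n →
    |E2 P (ex n) Z (l + 1) (n + 1) (fun ω1 ω2 => aR s A ω1 ω2 * h l ω1) ω0 -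
      E2 P (ex n) Z (l + 1) (n + 1) (fun ω1 ω2 => aR s A ω1 ω2 *
        (aR s A ω1 ω1 + aR s A ω1 ω2 -
          (1 / (n : ℝ)) * ∑ d ∈ Ico 1 l, (aρ P n Z s A d ω1 ω1 + aρ P n Z s A d ω1 ω2)
          - (ex n l + 1 / (n : ℝ)) * aρ P n Z s A l ω1 ω1)) ω0| ≤ ε

/-! ### Scalar and single site systems -/

def AD (n : ℕ) (f u : ℝ → ℝ) (l : Multiset (ℕ × ℝ)) : ℝ :=
  E1 n (fun _ : Unit => f) (lift () (fun _ : Unit => 1) l) (fun ω => u (ω.1 () ()))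

/-- the truncated profile of a fake pattern -/
def Wf (n : ℕ) (f f1 : ℝ → ℝ) (l : Multiset (ℕ × ℝ)) (d : ℕ) : ℝ := if d < n then WD n f f1 l d else 0

section
variable {T : Type} [Fintype T] [Inhabited T]

def Uq (v : T → ℝ) (b : ℝ) (t : T) : ℝ := -((b - 1) * v t ^ 2 / 2)

def PW (n : ℕ) (v V : T → ℝ) (l : Multiset (ℕ × ℝ)) : ℝ := TU n (fun _ : Unit => id) V (lift () v l)

def pi0 (n : ℕ) (v V : T → ℝ) (l : Multiset (ℕ × ℝ)) : ℝ :=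
  E1U n (fun _ : Unit => id) V (lift () v l) (fun ω => v ω.2 ^ 2)

def piT (n : ℕ) (v V : T → ℝ) (l : Multiset (ℕ × ℝ)) (d : ℕ) : ℝ :=
  EU n (fun _ : Unit => id) V (lift () v l) d (fun ω ω' => v ω.2 * v ω'.2)

def PhT (v : T → ℝ) (b h : ℝ) : ℝ := log (avg fun t => exp (h * v t + Uq v b t))

def mT (v : T → ℝ) (b : ℝ) (F : T → ℝ) (h : ℝ) : ℝ :=
  (avg fun t => exp (h * v t + Uq v b t) * F t) / (avg fun t => exp (h * v t + Uq v b t))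

def PhG (b h : ℝ) : ℝ := h ^ 2 / (2 * b) - log b / 2

/-- `v` is a good discretisation of the Gaussian truncated at `K` -/
structure QS (K η b1 : ℝ) (v : T → ℝ) : Prop where
  hK : 1 ≤ K
  hKη : 1 ≤ K * η
  bd : ∀ t, |v t| ≤ K
  up : ∀ b h, 1 / 4 ≤ b → b ≤ b1 → PhT v b h ≤ PhG b h + η / K ^ 2
  low : ∀ b h, 1 / 4 ≤ b → b ≤ b1 → |h| ≤ K / 8 → PhG b h - η / K ^ 2 ≤ PhT v b h ∧
    |mT v b v h - h / b| ≤ η ∧ |mT v b (fun t => v t ^ 2) h - (1 / b + h ^ 2 / b ^ 2)| ≤ η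
  var : 1 - η ≤ avg (fun t => v t ^ 2)
  var' : b1 * (avg (fun t => v t ^ 2) - 1) ≤ η

/-- coupling with a standard Gaussian variable -/
structure Cpl (v : T → ℝ) (τ : ℝ → Option T) (δ : ℝ) : Prop where
  meas : ∀ t, MeasurableSet {y | τ y = some t}
  unif : ∃ p0 : ℝ, 1 - δ ≤ p0 ∧ ∀ t, (gaussianReal 0 1).real {y | τ y = some t} =
    p0 / (Fintype.card T : ℝ)
  near : ∀ y t, τ y = some t → |y - v t| ≤ δ

variable {I O : Type} [Fintype I] [DecidableEq I] [Fintype O] [DecidableEq O]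

def sv (v : T → ℝ) (i : I) : (I → T) → ℝ := fun σ => v (σ i)

/-- soft spherical constraint on the sites `A` -/
def Uk (v : T → ℝ) (k : ℝ) (A : Finset I) (σ : I → T) : ℝ :=
  -(k * (∑ i ∈ A, v (σ i) ^ 2 - A.card) ^ 2 / A.card)

def IndU (i : I) (L : Multiset (St O (I → T))) (U : (I → T) → ℝ) : Prop :=
  (∀ s ∈ L, ∀ σ t, s.2.2 (Function.update σ i t) = s.2.2 σ) ∧ ∀ σ t, U (Function.update σ i t) = U σ

/-- discrete shell -/
def Sh (v : T → ℝ) (N : ℕ) (c0 ε : ℝ) : Type :=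
  {σ : Fin N → T // |(∑ i, v (σ i) ^ 2) / N - c0| ≤ ε}

instance (v : T → ℝ) (N : ℕ) (c0 ε : ℝ) : Fintype (Sh v N c0 ε) := by
  unfold Sh; classical exact inferInstance

end

/-- scalar chain -/
def sch (l : Multiset (ℕ × ℝ)) (d : ℕ) : Op (ℝ × Unit) := lv ((l.filter (fun s => s.1 = d)).map Prod.snd)

def mm (n : ℕ) (d : ℕ) : ℝ := 1 - (d : ℝ) / n

def lamb (n : ℕ) (b : ℝ) (q : ℕ → ℝ) (d : ℕ) : ℝ := b - Dk n q d

def piG (n : ℕ) (b : ℝ) (q : ℕ → ℝ) (d : ℕ) : ℝ :=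
  ∑ k ∈ Ico d n, (q k - q (k + 1)) / (lamb n b q k * lamb n b q (k + 1))

def qv (n : ℕ) (b : ℝ) (q : ℕ → ℝ) : ℝ :=
  (∑ d ∈ range n, (mm n d)⁻¹ * log (lamb n b q d / lamb n b q (d + 1))) / 2

/-- the list `l` has small steps and the variance profile `q` -/
def Prof (n : ℕ) (η : ℝ) (l : Multiset (ℕ × ℝ)) (q : ℕ → ℝ) : Prop :=
  Path n q ∧ (∀ s ∈ l, |s.2| ≤ η) ∧ ∀ d, d < n → lvar l d = q d - q (d + 1)

def stX (m a : ℝ) (X : ℝ → ℝ) (h : ℝ) : ℝ := m⁻¹ * log ((exp (m * X (h + a)) + exp (m * X (h - a))) / 2)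

def stQ (m a : ℝ) (X g : ℝ → ℝ) (h : ℝ) : ℝ :=
  (exp (m * X (h + a)) * g (h + a) + exp (m * X (h - a)) * g (h - a)) /
    (exp (m * X (h + a)) + exp (m * X (h - a)))

structure QI (X u : ℝ → ℝ) (lam c e : ℝ) : Prop where
  ev : ∀ h, X (-h) = X h
  od : ∀ h, u (-h) = -u h
  sub : ∀ h h', X h + (h' - h) * u h ≤ X h'
  smo : ∀ h h', X h' ≤ X h + (h' - h) * u h + (h' - h) ^ 2 / (2 * lam)
  up : ∀ h, X h ≤ h ^ 2 / (2 * lam) + c
  low : ∀ h, h ^ 2 / (2 * lam) + c - e * (1 + h ^ 4) ≤ X h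

/-! ### Gaussian side -/

abbrev gN (N : ℕ) : Measure (Fin N → ℝ) := Measure.pi fun _ : Fin N => gaussianReal 0 1

abbrev gM (M N : ℕ) : Measure (Fin M → Fin N → ℝ) := Measure.pi fun _ : Fin M => gN N

def nz {N : ℕ} (y : Fin N → ℝ) (i : Fin N) : ℝ := y i / √(∑ j, y j ^ 2)

def Hn (f : ℝ → ℝ) {N M : ℕ} (g : Fin M → Fin N → ℝ) (y : Fin N → ℝ) : ℝ :=
  ∑ a, f (∑ i, g a i * nz y i)

/-- `E log Z` of a finite model -/
def meanD (f : ℝ → ℝ) (N M : ℕ) {S : Type} [Fintype S] (s : Fin N → S → ℝ) (U : S → ℝ) : ℝ :=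
  ∫ g, log (avg fun σ => exp (∑ a, f ((∑ i, g a i * s i σ) / √(N : ℝ)) + U σ)) ∂gM M N

def pats (M : ℕ) : Finset (Option (Fin M)) := univ.erase none

def RVU (n : ℕ) (f : ℝ → ℝ) (N M D : ℕ) {S : Type} [Fintype S] [Inhabited S]
    (s : Fin N → S → ℝ) (U : S → ℝ) : ℝ :=
  TU n (gg (Fin M) f) U (sy n s univ (pats M) D (1 / √((N : ℝ) * D)))

def PVU (f : ℝ → ℝ) (N M D : ℕ) {S : Type} [Fintype S] [Inhabited S]
    (s : Fin N → S → ℝ) (U : S → ℝ) : ℝ :=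
  lv ((sy 1 s univ (pats M) D (1 / √((N : ℝ) * D))).map vec)
    (fun ω : Om (Option (Fin M)) S => log (avg fun σ => exp (ZU (gg (Fin M) f) U (ω.1, σ))))
    (0, default)

/-- spins of the shell model -/
def shs {T : Type} [Fintype T] (v : T → ℝ) (N : ℕ) (c0 ε : ℝ) (i : Fin N) (σ : Sh v N c0 ε) : ℝ :=
  v (σ.1 i)

theorem QS.mono {T : Type} [Fintype T] [Inhabited T] {K η η' b1 b1' : ℝ} {v : T → ℝ}
    (h : QS K η b1 v) (h1 : η ≤ η') (h2 : b1' ≤ b1) (h3 : 0 ≤ b1') : QS K η' b1' v := by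
  have hK := h.hK
  have hη : 0 ≤ η := by nlinarith [h.hKη]
  have hd : η / K ^ 2 ≤ η' / K ^ 2 := by gcongr
  refine ⟨hK, h.hKη.trans (by gcongr), h.bd, fun b x hb hb' => ?_, fun b x hb hb' hx => ?_,
    by linarith [h.var], ?_⟩
  · linarith [h.up b x hb (hb'.trans h2)]
  · obtain ⟨a1, a2, a3⟩ := h.low b x hb (hb'.trans h2) hx
    exact ⟨by linarith, by linarith, by linarith⟩
  · have := h.var'
    rcases le_total (avg fun t => v t ^ 2) 1 with h4 | h4 <;> nlinarith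

theorem Cpl.mono {T : Type} [Fintype T] [Inhabited T] {v : T → ℝ} {τ : ℝ → Option T} {δ δ' : ℝ}
    (h : Cpl v τ δ) (h1 : δ ≤ δ') : Cpl v τ δ' := by
  obtain ⟨p0, hp, hp'⟩ := h.unif
  exact ⟨h.meas, ⟨p0, by linarith, hp'⟩, fun y t ht => (h.near y t ht).trans h1⟩

end

end Vale.Agent.P157
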