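import Vale.Agent.P157.Spec

/-! P157: module statements (proofs in notes/P157.md). -/

namespace Vale.Agent.P157

open MeasureTheory ProbabilityTheory Finset Real Filter

noncomputable section

/-! ### Abstract layer -/

structure AApi : Prop where
  mono' : ∀ {Ω : Type} {P : Op Ω}, Mk P → ∀ {g h : Ω → ℝ}, (∀ ω, g ω ≤ h ω) → ∀ ω, P g ω ≤ P h ω
  const : ∀ {Ω : Type} {P : Op Ω}, Mk P → ∀ (c : ℝ) ω, P (fun _ => c) ω = c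
  abs_le : ∀ {Ω : Type} {P : Op Ω}, Mk P → ∀ {g : Ω → ℝ} {c : ℝ}, (∀ ω, |g ω| ≤ c) →
    ∀ ω, |P g ω| ≤ c
  cs : ∀ {Ω : Type} {P : Op Ω}, Mk P → ∀ (g h : Ω → ℝ) ω,
    (P (fun x => g x * h x) ω) ^ 2 ≤ P (fun x => g x ^ 2) ω * P (fun x => h x ^ 2) ω
  jen : ∀ {Ω : Type} {P : Op Ω}, Mk P → ∀ (g : Ω → ℝ) ω, exp (P g ω) ≤ P (fun x => exp (g x)) ω
  ce : ∀ {Ω : Type} {P : ℕ → Op Ω} {m : ℕ → ℝ} {t : ℕ}, Ok P m t → ∀ (Z : Ω → ℝ) (a b : ℕ),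
    b ≤ t → Mk (Ce P m Z a b)
  comp : ∀ {Ω : Type} (P : ℕ → Op Ω) (m : ℕ → ℝ) (Z : Ω → ℝ) {a b c : ℕ}, a ≤ b → b ≤ c →
    ∀ g, Ce P m Z b c (Ce P m Z a b g) = Ce P m Z a c g
  self : ∀ {Ω : Type} (P : ℕ → Op Ω) (m : ℕ → ℝ) (Z : Ω → ℝ) {a b : ℕ}, b ≤ a →
    ∀ g, Ce P m Z a b g = g
  xle : ∀ {Ω : Type} {P : ℕ → Op Ω} {m : ℕ → ℝ} {t : ℕ}, Ok P m t → ∀ {Z Z' : Ω → ℝ} {c : ℝ},
    (∀ ω, Z ω ≤ Z' ω + c) → ∀ j, j ≤ t → ∀ ω, XX P m Z j ω ≤ XX P m Z' j ω + c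
  xlow : ∀ {Ω : Type} {P : ℕ → Op Ω} {m : ℕ → ℝ} {t : ℕ}, Ok P m t → ∀ (Z A : Ω → ℝ) (j : ℕ),
    j ≤ t → ∀ ω, XX P m Z j ω + Ce P m Z 0 j A ω ≤ XX P m (Z + A) j ω
  xup : ∀ {Ω : Type} {P : ℕ → Op Ω} {m : ℕ → ℝ} {t : ℕ}, Ok P m t → ∀ (Z A : Ω → ℝ) (j : ℕ),
    j ≤ t → ∀ ω, XX P m (Z + A) j ω ≤ XX P m Z j ω + log (Ce P m Z 0 j (fun x => exp (A x)) ω)
  first : ∀ {Ω : Type} {P : ℕ → Op Ω} {m : ℕ → ℝ} {t : ℕ}, Ok P m t → ∀ (Z A : Ω → ℝ) (b : ℝ),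
    (∀ ω, |A ω| ≤ b) → b ≤ 1 → ∀ j, j ≤ t → ∀ ω,
      |XX P m (Z + A) j ω - XX P m Z j ω - Ce P m Z 0 j A ω| ≤ b ^ 2
  chg : ∀ {Ω : Type} {P : ℕ → Op Ω} {m : ℕ → ℝ} {t : ℕ}, Ok P m t → ∀ (Z A : Ω → ℝ) (B : ℝ),
    (∀ ω, |A ω| ≤ B) → ∀ a b, b ≤ t → ∀ g : Ω → ℝ, (∀ ω, 0 ≤ g ω) → ∀ ω,
      Ce P m (Z + A) a b g ω ≤ exp (2 * B) * Ce P m Z a b g ω
  chg2 : ∀ {Ω : Type} {P : ℕ → Op Ω} {m : ℕ → ℝ} {t : ℕ}, Ok P m t → ∀ (Z A : Ω → ℝ) (B : ℝ),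
    (∀ ω, |A ω| ≤ B) → ∀ l, l ≤ t → ∀ φ : Ω → Ω → ℝ, (∀ ω ω', 0 ≤ φ ω ω') → ∀ ω0,
      E2 P m (Z + A) l t φ ω0 ≤ exp (6 * B) * E2 P m Z l t φ ω0
  tw : ∀ {Ω Ω' : Type} {P : ℕ → Op Ω} {P' : ℕ → Op Ω'} (m : ℕ → ℝ) (t : ℕ) (θ : ℕ → Ω' → Ω),
    (∀ j, j < t → ∀ (g : Ω → ℝ) ω, P' j (fun x => g (θ j x)) ω = P j g (θ (j + 1) ω)) →
    ∀ Z : Ω → ℝ,
      (∀ j, j ≤ t → ∀ ω, XX P' m (fun x => Z (θ 0 x)) j ω = XX P m Z j (θ j ω)) ∧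
      (∀ a b, a ≤ b → b ≤ t → ∀ (g : Ω → ℝ) ω,
        Ce P' m (fun x => Z (θ 0 x)) a b (fun x => g (θ a x)) ω = Ce P m Z a b g (θ b ω)) ∧
      (∀ l, l ≤ t → ∀ (φ : Ω → Ω → ℝ) ω,
        E2 P' m (fun x => Z (θ 0 x)) l t (fun x x' => φ (θ 0 x) (θ 0 x')) ω =
          E2 P m Z l t φ (θ t ω))
  prod : ∀ {Ω Ω1 Ω2 : Type} {P : ℕ → Op Ω} {P1 : ℕ → Op Ω1} {P2 : ℕ → Op Ω2} {m : ℕ → ℝ} {t : ℕ},
    Ok P1 m t → Ok P2 m t → ∀ (θ1 : Ω → Ω1) (θ2 : Ω → Ω2),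
    (∀ j, j < t → ∀ (g1 : Ω1 → ℝ) (g2 : Ω2 → ℝ) ω,
      P j (fun x => g1 (θ1 x) * g2 (θ2 x)) ω = P1 j g1 (θ1 ω) * P2 j g2 (θ2 ω)) →
    ∀ (Z1 : Ω1 → ℝ) (Z2 : Ω2 → ℝ),
      (∀ j, j ≤ t → ∀ ω, XX P m (fun x => Z1 (θ1 x) + Z2 (θ2 x)) j ω =
        XX P1 m Z1 j (θ1 ω) + XX P2 m Z2 j (θ2 ω)) ∧
      (∀ a b, b ≤ t → ∀ (g1 : Ω1 → ℝ) (g2 : Ω2 → ℝ) ω,
        Ce P m (fun x => Z1 (θ1 x) + Z2 (θ2 x)) a b (fun x => g1 (θ1 x) * g2 (θ2 x)) ω =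
          Ce P1 m Z1 a b g1 (θ1 ω) * Ce P2 m Z2 a b g2 (θ2 ω)) ∧
      (∀ l, l ≤ t → ∀ (φ1 : Ω1 → Ω1 → ℝ) (φ2 : Ω2 → Ω2 → ℝ) ω,
        E2 P m (fun x => Z1 (θ1 x) + Z2 (θ2 x)) l t
            (fun x x' => φ1 (θ1 x) (θ1 x') * φ2 (θ2 x) (θ2 x')) ω =
          E2 P1 m Z1 l t φ1 (θ1 ω) * E2 P2 m Z2 l t φ2 (θ2 ω))
  shift : ∀ {Ω : Type} (P : ℕ → Op Ω) (m : ℕ → ℝ) (Z : Ω → ℝ) (a : ℕ),
    (∀ j, XX (fun k => P (a + k)) (fun k => m (a + k)) (XX P m Z a) j = XX P m Z (a + j)) ∧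
    ∀ b c, Ce (fun k => P (a + k)) (fun k => m (a + k)) (XX P m Z a) b c = Ce P m Z (a + b) (a + c)
  e2add : ∀ {Ω : Type} (P : ℕ → Op Ω) (m : ℕ → ℝ) (Z : Ω → ℝ) (l t : ℕ) (φ ψ : Ω → Ω → ℝ)
    (a b : ℝ) ω, E2 P m Z l t (fun x x' => a * φ x x' + b * ψ x x') ω =
      a * E2 P m Z l t φ ω + b * E2 P m Z l t ψ ω
  e2sum : ∀ {Ω κ : Type} (P : ℕ → Op Ω) (m : ℕ → ℝ) (Z : Ω → ℝ) (l t : ℕ) (s : Finset κ)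
    (φ : κ → Ω → Ω → ℝ) ω, E2 P m Z l t (fun x x' => ∑ k ∈ s, φ k x x') ω =
      ∑ k ∈ s, E2 P m Z l t (φ k) ω
  e2mono : ∀ {Ω : Type} {P : ℕ → Op Ω} {m : ℕ → ℝ} {t : ℕ}, Ok P m t → ∀ (Z : Ω → ℝ) (l : ℕ),
    l ≤ t → ∀ {φ ψ : Ω → Ω → ℝ}, (∀ x x', φ x x' ≤ ψ x x') → ∀ ω,
      E2 P m Z l t φ ω ≤ E2 P m Z l t ψ ω
  e2const : ∀ {Ω : Type} {P : ℕ → Op Ω} {m : ℕ → ℝ} {t : ℕ}, Ok P m t → ∀ (Z : Ω → ℝ) (l : ℕ),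
    l ≤ t → ∀ (c : ℝ) ω, E2 P m Z l t (fun _ _ => c) ω = c
  e2sq : ∀ {Ω : Type} {P : ℕ → Op Ω} {m : ℕ → ℝ} {t : ℕ}, Ok P m t → ∀ (Z : Ω → ℝ) (l : ℕ),
    l ≤ t → ∀ (φ : Ω → Ω → ℝ) ω, (E2 P m Z l t φ ω) ^ 2 ≤ E2 P m Z l t (fun x x' => φ x x' ^ 2) ω
  e2mul : ∀ {Ω : Type} (P : ℕ → Op Ω) (m : ℕ → ℝ) (Z : Ω → ℝ) (l t : ℕ) (u v : Ω → ℝ) ω,
    E2 P m Z l t (fun x x' => u x * v x') ω =
      Ce P m Z l t (fun x => Ce P m Z 0 l u x * Ce P m Z 0 l v x) ω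
  e2one : ∀ {Ω : Type} {P : ℕ → Op Ω} {m : ℕ → ℝ} {t : ℕ}, Ok P m t → ∀ (Z : Ω → ℝ) (l : ℕ),
    l ≤ t → ∀ (u : Ω → ℝ) ω, E2 P m Z l t (fun x _ => u x) ω = Ce P m Z 0 t u ω
  e2anti : ∀ {Ω : Type} {P : ℕ → Op Ω} {m : ℕ → ℝ} {t : ℕ}, Ok P m t → ∀ (Z u : Ω → ℝ) (l l' : ℕ),
    l ≤ l' → l' ≤ t → ∀ ω, 0 ≤ E2 P m Z l' t (fun x x' => u x * u x') ω ∧
      E2 P m Z l' t (fun x x' => u x * u x') ω ≤ E2 P m Z l t (fun x x' => u x * u x') ω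
  abel : ∀ (n : ℕ) (w a : ℕ → ℝ) (τ : ℝ), Path n w → 0 ≤ τ →
    (∀ κ, κ < n → |∑ d ∈ Icc 1 κ, a d| ≤ τ) → |∑ d ∈ Ico 1 n, w d * a d| ≤ w 0 * τ

/-- second order expansion -/
def L1Stmt : Prop := ∃ C : ℝ, ∀ (Ω : Type) (P : ℕ → Op Ω) (m : ℕ → ℝ) (t : ℕ), Ok P m t →
  ∀ (Z A : Ω → ℝ) (b : ℝ), (∀ ω, |A ω| ≤ b) → b ≤ 1 → ∀ j, j + 1 ≤ t → ∀ ω,
    |XX P m (Z + A) (j + 1) ω - XX P m Z (j + 1) ω - Ce P m Z 0 (j + 1) A ω -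
      (m 0 * Ce P m Z 0 (j + 1) (fun x => A x ^ 2) ω -
        ∑ i ∈ range j, (m i - m (i + 1)) *
          Ce P m Z (i + 1) (j + 1) (fun x => Ce P m Z 0 (i + 1) A x ^ 2) ω -
        m j * Ce P m Z 0 (j + 1) A ω ^ 2) / 2| ≤ C * b ^ 3

/-- the domination relation passes through a chain -/
def DomStmt : Prop := ∀ (Ω : Type) (P : ℕ → Op Ω) (m : ℕ → ℝ) (t : ℕ), Ok P m t →
  ∀ (Z A : Ω → ℝ) (b : ℝ), (∀ ω, |A ω| ≤ b) → b ≤ 1 → ∀ (u w : ℝ), 0 ≤ w →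
    ∀ (gp gm g : Ω → ℝ), (∀ ω, 0 ≤ g ω) → (∀ ω, Dm u w (gp ω) (gm ω) (g ω)) →
    ∀ a j, j ≤ t → ∀ ω, Dm (u + 2 * b ^ 2) (w + 2 * b)
      (Ce P m (Z + A) a j gp ω) (Ce P m (Z - A) a j gm ω) (Ce P m Z a j g ω)

structure FApi : Prop where
  depX : ∀ {Ω : Type} {P : ℕ → Op Ω} {r : ℕ → Ω → Ω → Prop}, Fil P r → ∀ (m : ℕ → ℝ) (Z : Ω → ℝ) j,
    Dep r j (XX P m Z j)
  depC : ∀ {Ω : Type} {P : ℕ → Op Ω} {r : ℕ → Ω → Ω → Prop}, Fil P r → ∀ (m : ℕ → ℝ) (Z : Ω → ℝ)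
    {a b : ℕ}, a ≤ b → ∀ {u : Ω → ℝ}, Dep r a u → Dep r b (Ce P m Z a b u)
  supp : ∀ {Ω : Type} {P : ℕ → Op Ω} {r : ℕ → Ω → Ω → Prop}, Fil P r → ∀ (m : ℕ → ℝ) (Z : Ω → ℝ)
    (a b : ℕ) (u u' : Ω → ℝ) ω, (∀ ω', r b ω ω' → u ω' = u' ω') →
      Ce P m Z a b u ω = Ce P m Z a b u' ω
  pull : ∀ {Ω : Type} {P : ℕ → Op Ω} {r : ℕ → Ω → Ω → Prop}, Fil P r → ∀ (m : ℕ → ℝ) (Z : Ω → ℝ)
    (a b : ℕ) (g u : Ω → ℝ), Dep r b g → ∀ ω,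
      Ce P m Z a b (fun x => g x * u x) ω = g ω * Ce P m Z a b u ω
  e2supp : ∀ {Ω : Type} {P : ℕ → Op Ω} {r : ℕ → Ω → Ω → Prop}, Fil P r → ∀ (m : ℕ → ℝ)
    (Z : Ω → ℝ) (l t : ℕ) (φ ψ : Ω → Ω → ℝ), (∀ x x', r l x x' → φ x x' = ψ x x') → ∀ ω,
      E2 P m Z l t φ ω = E2 P m Z l t ψ ω
  l3 : ∃ C : ℝ, ∀ (Ω : Type) (P : ℕ → Op Ω) (r : ℕ → Ω → Ω → Prop) (m : ℕ → ℝ) (t : ℕ),
    Ok P m t → Fil P r → ∀ (Z A : Ω → ℝ) (y : ℝ), (∀ ω, |A ω| ≤ y) → y ≤ 1 → ∀ l, l ≤ t →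
    ∀ G : Ω → Ω → ℝ, (∀ x x', |G x x'| ≤ 1) → ∀ ω0,
      |E2 P m (Z + A) l t G ω0 - E2 P m Z l t (fun x x' => G x x' * (1 +
        ∑ j ∈ range t, m j * (Ce P m Z 0 j A x - Ce P m Z 0 (j + 1) A x) +
        ∑ j ∈ range l, m j * (Ce P m Z 0 j A x' - Ce P m Z 0 (j + 1) A x'))) ω0| ≤ C * y ^ 2

/-- from the identities to the concentration of the overlap -/
def AlgStmt : Prop := ∀ (Ω I : Type) (P : ℕ → Op Ω) (r : ℕ → Ω → Ω → Prop) (n : ℕ), 1 ≤ n →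
  Ok P (ex n) (n + 1) → Fil P r → ∀ (Z : Ω → ℝ) (s : I → Ω → ℝ) (A : Finset I) (h : ℕ → Ω → ℝ)
    (ω0 : Ω) (ε : ℝ), A.Nonempty → (∀ i ω, s i ω ^ 2 = 1) → 0 ≤ ε → GGI P n Z s A h ω0 ε →
    (∀ κ, κ < n → Ce P (ex n) Z 0 (n + 1)
      (fun ω => (h κ ω - Ce P (ex n) Z 0 (n + 1) (h κ) ω0) ^ 2) ω0 ≤ ε ^ 2) →
    (1 / (n : ℝ)) * ∑ l ∈ Ico 1 n, E2 P (ex n) Z (l + 1) (n + 1)
      (fun ω1 ω2 => (aR s A ω1 ω2 - E2 P (ex n) Z (l + 1) (n + 1) (aR s A) ω0) ^ 2) ω0 ≤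
      4 / √(n : ℝ) + 40 * (n : ℝ) ^ 2 * ε

/-! ### Step layer -/

structure CApi : Prop where
  lv_zero : ∀ {E S : Type} [AddCommGroup E], (lv (0 : Multiset E) : Op (E × S)) = LinearMap.id
  lv_cons : ∀ {E S : Type} [AddCommGroup E] (v : E) (l : Multiset E),
    (lv (v ::ₘ l) : Op (E × S)) = sgo v ∘ₗ lv l
  lv_add : ∀ {E S : Type} [AddCommGroup E] (l l' : Multiset E),
    (lv (l + l') : Op (E × S)) = lv l ∘ₗ lv l'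
  lv_mk : ∀ {E S : Type} [AddCommGroup E] (l : Multiset E), Mk (lv l : Op (E × S))
  lv_map : ∀ {E E' S S' : Type} [AddCommGroup E] [AddCommGroup E'] (φ : E →+ E') (x0 : E')
    (ρ : S → S') (l : Multiset E) (g : E' × S' → ℝ) (ω : E × S),
    lv l (fun x : E × S => g (φ x.1 + x0, ρ x.2)) ω = lv (l.map φ) g (φ ω.1 + x0, ρ ω.2)
  ok : ∀ {O S : Type} [Fintype O] [DecidableEq O] [Fintype S] [Inhabited S] (n : ℕ)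
    (L : Multiset (St O S)), 1 ≤ n → Ok (chain L) (ex n) (n + 1)
  tt0 : ∀ {O S : Type} [Fintype O] [DecidableEq O] [Fintype S] [Inhabited S] (n : ℕ)
    (g : O → ℝ → ℝ), 1 ≤ n → TT n g (0 : Multiset (St O S)) = ∑ o, g o 0
  rep : ∀ {O S : Type} [Fintype O] [DecidableEq O] [Fintype S] [Inhabited S] (n : ℕ)
    (g : O → ℝ → ℝ) (B : ℝ) (L : Multiset (St O S)) (κ : ℕ) (o : O) (w w' : S → ℝ), 1 ≤ n →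
    (∀ t h, |g o (t + h) - g o t| ≤ B * |h|) →
    |TT n g ((κ, o, w) ::ₘ L) - TT n g ((κ, o, w') ::ₘ L)| ≤ B * ‖w - w'‖
  crude : ∀ {O S : Type} [Fintype O] [DecidableEq O] [Fintype S] [Inhabited S] (n : ℕ)
    (g : O → ℝ → ℝ) (B : ℝ) (L L' : Multiset (St O S)), 1 ≤ n →
    (∀ s ∈ L', ∀ t h, |g s.2.1 (t + h) - g s.2.1 t| ≤ B * |h|) →
    |TT n g (L + L') - TT n g L| ≤ B * sz L'
  smg : ∀ (ι : Type) (B : ℝ) (f f1 f2 : ℝ → ℝ), 1 ≤ B → Sm B f f1 f2 →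
    ∀ o, Sm B (gg ι f o) (gg1 ι f1 o) (gg2 ι f2 o)

/-- one step, second order -/
def St1Stmt : Prop := ∀ B : ℝ, 1 ≤ B → ∃ C : ℝ, ∀ (O S : Type) [Fintype O] [DecidableEq O]
  [Fintype S] [Inhabited S] (n : ℕ) (g g1 g2 : O → ℝ → ℝ) (L : Multiset (St O S)) (s : St O S),
  1 ≤ n → (∀ o, Sm B (g o) (g1 o) (g2 o)) → s.1 < n → B * ‖s.2.2‖ ≤ 1 →
    |TT n g (s ::ₘ L) - TT n g L - Gam n g g1 g2 L s| ≤ C * ‖s.2.2‖ ^ 3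

/-- one step changes two-replica averages of admissible functions by `1 + O(size²)` -/
def Gr0Stmt : Prop := ∀ B K : ℝ, 1 ≤ B → 0 ≤ K → ∃ C : ℝ, ∀ (O S : Type) [Fintype O]
  [DecidableEq O] [Fintype S] [Inhabited S] (n : ℕ) (g : O → ℝ → ℝ) (L : Multiset (St O S))
  (s : St O S) (φ : Om O S → Om O S → ℝ) (d : ℕ), 1 ≤ n → d ≤ n → (∀ o, D2 B (g o)) →
    s.1 < n → B * ‖s.2.2‖ ≤ 1 → (∀ ω ω', 0 ≤ φ ω ω') → LG K s φ →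
    EE n g (s ::ₘ L) d φ ≤ exp (C * ‖s.2.2‖ ^ 2) * EE n g L d φ ∧
      EE n g L d φ ≤ exp (C * ‖s.2.2‖ ^ 2) * EE n g (s ::ₘ L) d φ

def GraStmt : Prop := ∀ B : ℝ, 1 ≤ B → ∃ C : ℝ, 0 ≤ C ∧ ∀ (O S : Type) [Fintype O]
  [DecidableEq O] [Fintype S] [Inhabited S] (n : ℕ) (g : O → ℝ → ℝ) (L L' : Multiset (St O S))
  (χ : S → S → ℝ) (d : ℕ), 1 ≤ n → d ≤ n → (∀ o, D2 B (g o)) → Small n B L' →
    (∀ σ σ', 0 ≤ χ σ σ') →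
    EE n g (L + L') d (fun ω ω' => χ ω.2 ω'.2) ≤
        exp (C * vr L') * EE n g L d (fun ω ω' => χ ω.2 ω'.2) ∧
      EE n g L d (fun ω ω' => χ ω.2 ω'.2) ≤
        exp (C * vr L') * EE n g (L + L') d (fun ω ω' => χ ω.2 ω'.2)

def GrbStmt : Prop := ∀ B K : ℝ, 1 ≤ B → 1 ≤ K → ∃ C : ℝ, 0 ≤ C ∧ ∀ (O S : Type) [Fintype O]
  [DecidableEq O] [Fintype S] [Inhabited S] (n : ℕ) (g : O → ℝ → ℝ) (L L' : Multiset (St O S))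
  (o : O) (u u' : ℝ → ℝ) (χ : S → S → ℝ) (d : ℕ), 1 ≤ n → d ≤ n → (∀ o, D2 B (g o)) →
    Small n B L' → vr L' ≤ 1 → D2 K u → D2 K u' → (∀ t, |u t| ≤ K) → (∀ t, |u' t| ≤ K) →
    (∀ σ σ', |χ σ σ'| ≤ 1) →
    |EE n g (L + L') d (fun ω ω' => u (ω.1 o ω.2) * u' (ω'.1 o ω'.2) * χ ω.2 ω'.2) -
      EE n g L d (fun ω ω' => u (ω.1 o ω.2) * u' (ω'.1 o ω'.2) * χ ω.2 ω'.2)| ≤ C * vr L'

/-- many steps, second order; and the crude variance bound -/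
def MsStmt : Prop := ∀ B : ℝ, 1 ≤ B → ∃ C : ℝ, 0 ≤ C ∧ ∀ (O S : Type) [Fintype O] [DecidableEq O]
  [Fintype S] [Inhabited S] (n : ℕ) (g g1 g2 : O → ℝ → ℝ) (L L' : Multiset (St O S)),
  1 ≤ n → (∀ o, Sm B (g o) (g1 o) (g2 o)) → Small n B L' →
    |TT n g (L + L') - TT n g L| ≤ C * vr L' ∧
    (vr L' ≤ 1 →
      |TT n g (L + L') - TT n g L - (L'.map (Gam n g g1 g2 L)).sum| ≤ C * (vr L' * √(vr L')))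

/-- arbitrary steps on a bounded coordinate -/
def PatStmt : Prop := ∀ (O S : Type) [Fintype O] [DecidableEq O] [Fintype S] [Inhabited S] (n : ℕ)
  (g : O → ℝ → ℝ) (L L' : Multiset (St O S)) (o : O) (B : ℝ), 1 ≤ n → (∀ t, |g o t| ≤ B) →
    (∀ s ∈ L', s.2.1 = o) → |TT n g (L + L') - TT n g L| ≤ 2 * B ∧
    ∀ (χ : S → S → ℝ) (d : ℕ), d ≤ n → (∀ σ σ', 0 ≤ χ σ σ') →
      EE n g (L + L') d (fun ω ω' => χ ω.2 ω'.2) ≤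
          exp (12 * B) * EE n g L d (fun ω ω' => χ ω.2 ω'.2) ∧
        EE n g L d (fun ω ω' => χ ω.2 ω'.2) ≤
          exp (12 * B) * EE n g (L + L') d (fun ω ω' => χ ω.2 ω'.2)

/-- a coordinate with constant steps decouples -/
def P1Stmt : Prop := ∀ (O S : Type) [Fintype O] [DecidableEq O] [Fintype S] [Inhabited S] (n : ℕ)
  (g : O → ℝ → ℝ) (L : Multiset (St O S)) (o : O) (l : Multiset (ℕ × ℝ)), 1 ≤ n →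
    (∀ s ∈ L, s.2.1 ≠ o) →
    TT n g (L + lift o (fun _ => 1) l) = TT n g L - g o 0 + HD n (g o) l ∧
    ∀ (u : ℝ → ℝ) (w : S → ℝ) (d : ℕ), d ≤ n →
      EE n g (L + lift o (fun _ => 1) l) d (fun ω ω' => ob u o w ω * ob u o w ω') =
        WD n (g o) u l d * EE n g L d (fun ω ω' => w ω.2 * w ω'.2)

structure GApi : Prop where
  lift_vr : ∀ {O S : Type} [Fintype O] [DecidableEq O] [Fintype S] [Inhabited S] (o : O)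
    (w : S → ℝ) (l : Multiset (ℕ × ℝ)), (∀ σ, w σ ^ 2 = 1) →
    vr (lift o w l) = (l.map (fun s => s.2 ^ 2)).sum ∧ sz (lift o w l) = (l.map (fun s => |s.2|)).sum
  lift_small : ∀ {O S : Type} [Fintype O] [DecidableEq O] [Fintype S] [Inhabited S] (n : ℕ)
    (B : ℝ) (o : O) (w : S → ℝ) (l : Multiset (ℕ × ℝ)), (∀ σ, w σ ^ 2 = 1) →
    (∀ s ∈ l, s.1 < n ∧ B * |s.2| ≤ 1) → Small n B (lift o w l)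
  sprof_var : ∀ (n : ℕ) (p : ℕ → ℝ) (c2 : ℝ), Path n p → 0 ≤ c2 →
    ((sprof n p c2).map (fun s => s.2 ^ 2)).sum = c2 * p 0 ∧
    (∀ d, d < n → lvar (sprof n p c2) d = c2 * (p d - p (d + 1))) ∧
    ∀ s ∈ sprof n p c2, s.1 < n ∧ |s.2| ≤ √(c2 * p 0)
  lvar_add : ∀ (l l' : Multiset (ℕ × ℝ)) (k d : ℕ),
    lvar (l + l') d = lvar l d + lvar l' d ∧ lvar (k • l) d = k * lvar l d
  vr_add : ∀ {O S : Type} [Fintype O] [DecidableEq O] [Fintype S] [Inhabited S]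
    (L L' : Multiset (St O S)) (k : ℕ), vr (L + L') = vr L + vr L' ∧ vr (k • L) = k * vr L ∧
      sz (L + L') = sz L + sz L' ∧ 0 ≤ vr L
  gam_prof : ∀ {O S : Type} [Fintype O] [DecidableEq O] [Fintype S] [Inhabited S] (n : ℕ)
    (g g1 g2 : O → ℝ → ℝ) (L : Multiset (St O S)) (o : O) (w : S → ℝ) (p : ℕ → ℝ) (c2 : ℝ),
    1 ≤ n → Path n p → 0 ≤ c2 → (∀ σ, w σ ^ 2 = 1) →
    ((lift o w (sprof n p c2)).map (Gam n g g1 g2 L)).sum =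
      c2 * (p 0 * E1 n g L (ob (fun t => g2 o t + g1 o t ^ 2) o (fun _ => 1)) -
        (1 / (n : ℝ)) * ∑ d ∈ Ico 1 n, p d *
          EE n g L d (fun ω ω' => ob (g1 o) o w ω * ob (g1 o) o w ω')) / 2
  gam_one : ∀ {O S : Type} [Fintype O] [DecidableEq O] [Fintype S] [Inhabited S] (n : ℕ)
    (g g1 g2 : O → ℝ → ℝ) (L : Multiset (St O S)) (o : O) (w : S → ℝ) (κ : ℕ) (c : ℝ),
    (∀ σ, w σ ^ 2 = 1) → Gam n g g1 g2 L (κ, o, c • w) =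
      c ^ 2 * (E1 n g L (ob (fun t => g2 o t + g1 o t ^ 2) o (fun _ => 1)) -
        (1 / (n : ℝ)) * ∑ d ∈ Icc 1 κ,
          EE n g L d (fun ω ω' => ob (g1 o) o w ω * ob (g1 o) o w ω')) / 2
  gam_round : ∀ {I ι : Type} [Fintype I] [DecidableEq I] [Fintype ι] [DecidableEq ι] (n : ℕ)
    (g g1 g2 : Option ι → ℝ → ℝ) (L : Sy ι I) (o : Option ι) (A : Finset I) (c : ℝ), 1 ≤ n →
    A.Nonempty → ((round o A (n - 1) c).map (Gam n g g1 g2 L)).sum =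
      (A.card * c ^ 2) * (E1 n g L (ob (fun t => g2 o t + g1 o t ^ 2) o (fun _ => 1)) -
        (1 / (n : ℝ)) * ∑ d ∈ Ico 1 n, EE n g L d
          (fun ω ω' => g1 o (ω.1 o ω.2) * g1 o (ω'.1 o ω'.2) * Rr A ω.2 ω'.2)) / 2
  gam_fld : ∀ {I ι : Type} [Fintype I] [DecidableEq I] [Fintype ι] [DecidableEq ι] (n : ℕ)
    (f f1 f2 : ℝ → ℝ) (L : Sy ι I) (A : Finset I) (p : ℕ → ℝ) (c2 : ℝ), 1 ≤ n → A.Nonempty →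
    Path n p → 0 ≤ c2 →
    ((fld ι A (sprof n p c2)).map (Gam n (gg ι f) (gg1 ι f1) (gg2 ι f2) L)).sum =
      (A.card * c2) * (p 0 - (1 / (n : ℝ)) * ∑ d ∈ Ico 1 n, p d *
        EE n (gg ι f) L d (fun ω ω' => Rr A ω.2 ω'.2)) / 2
  round_vr : ∀ {I ι : Type} [Fintype I] [DecidableEq I] [Fintype ι] [DecidableEq ι] (n : ℕ)
    (B : ℝ) (o : Option ι) (A : Finset I) (κ : ℕ) (c : ℝ),
    vr (round o A κ c) = A.card * c ^ 2 ∧ (κ < n → B * |c| ≤ 1 → Small n B (round o A κ c)) ∧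
      ∀ s ∈ round o A κ c, s.2.1 = o
  fld_vr : ∀ {I ι : Type} [Fintype I] [DecidableEq I] [Fintype ι] [DecidableEq ι] (n : ℕ)
    (B : ℝ) (A : Finset I) (l l' : Multiset (ℕ × ℝ)),
    vr (fld ι A l) = A.card * (l.map (fun s => s.2 ^ 2)).sum ∧
    sz (fld ι A l) = A.card * (l.map (fun s => |s.2|)).sum ∧
    ((∀ s ∈ l, s.1 < n ∧ B * |s.2| ≤ 1) → Small n B (fld ι A l)) ∧
    fld ι A (l + l') = fld ι A l + fld ι A l' ∧ ∀ s ∈ fld ι A l, s.2.1 = none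
  ovl_path : ∀ {I ι : Type} [Fintype I] [DecidableEq I] [Fintype ι] [DecidableEq ι] (n : ℕ)
    (f : ℝ → ℝ) (L : Sy ι I) (A : Finset I), 1 ≤ n → A.Nonempty →
    Path n (ovl n f L A) ∧ ovl n f L A 0 = 1
  w_path : ∀ {O S : Type} [Fintype O] [DecidableEq O] [Fintype S] [Inhabited S] (n : ℕ)
    (g : O → ℝ → ℝ) (L : Multiset (St O S)) (U : Om O S → ℝ) (K : ℝ), 1 ≤ n → (∀ ω, |U ω| ≤ K) →
    Path n (fun d => if d < n then EE n g L d (fun ω ω' => U ω * U ω') else 0) ∧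
      EE n g L 0 (fun ω ω' => U ω * U ω') ≤ K ^ 2
  conc_abs : ∀ {I ι : Type} [Fintype I] [DecidableEq I] [Fintype ι] [DecidableEq ι] (n : ℕ)
    (f : ℝ → ℝ) (L : Sy ι I) (A : Finset I) (P : ℕ → ℝ) (e K : ℝ)
    (φ : ℕ → Om (Option ι) (I → Bool) → Om (Option ι) (I → Bool) → ℝ), 1 ≤ n →
    Conc n f L A P e → (∀ d ω ω', |φ d ω ω'| ≤ K) →
    (1 / (n : ℝ)) * ∑ d ∈ Ico 1 n,
      |EE n (gg ι f) L d (fun ω ω' => φ d ω ω' * Rr A ω.2 ω'.2) - P d * EE n (gg ι f) L d (φ d)| ≤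
      K * √e

/-! ### Spin layer -/

/-- a site with only field steps decouples -/
def P2Stmt : Prop := ∀ (I ι : Type) [Fintype I] [DecidableEq I] [Fintype ι] [DecidableEq ι]
  (n : ℕ) (f : ℝ → ℝ) (L : Sy ι I) (i : I) (l : Multiset (ℕ × ℝ)), 1 ≤ n → Ind i L →
    TT n (gg ι f) (L + lift none (sp i) l) = TT n (gg ι f) L + PD n l ∧
    ∀ (χ : (I → Bool) → (I → Bool) → ℝ) (d : ℕ), d ≤ n →
      (∀ σ σ' b b', χ (Function.update σ i b) (Function.update σ' i b') = χ σ σ') →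
      EE n (gg ι f) (L + lift none (sp i) l) d (fun ω ω' => χ ω.2 ω'.2) =
        EE n (gg ι f) L d (fun ω ω' => χ ω.2 ω'.2)

def SymStmt : Prop := ∀ (I ι : Type) [Fintype I] [DecidableEq I] [Fintype ι] [DecidableEq ι]
  (n : ℕ) (f : ℝ → ℝ) (A : Finset I) (J : Finset ι) (D : ℕ) (c : ℝ) (l : Multiset (ℕ × ℝ))
  (i : I) (d : ℕ), 1 ≤ n → d ≤ n → i ∈ A →
    EE n (gg ι f) (sys n A J D c + fld ι A l) d (fun ω ω' => sp i ω.2 * sp i ω'.2) =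
      EE n (gg ι f) (sys n A J D c + fld ι A l) d (fun ω ω' => Rr A ω.2 ω'.2)

def MaxStmt : Prop := ∀ (I ι : Type) [Fintype I] [DecidableEq I] [Fintype ι] [DecidableEq ι]
  (n : ℕ) (f : ℝ → ℝ) (L : Sy ι I) (A : Finset I) (lam k : ℝ), 1 ≤ n → 0 < lam →
    (A.card : ℝ) ≤ k * lam → ∃ y, Mx n f L A lam k y

/-- all sites and patterns decoupled -/
def EndStmt : Prop := ∀ (I ι : Type) [Fintype I] [DecidableEq I] [Fintype ι] [DecidableEq ι]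
  (n : ℕ) (f : ℝ → ℝ) (A : Finset I) (lp l : Multiset (ℕ × ℝ)), 1 ≤ n →
    TT n (gg ι f) ((univ : Finset ι).val.bind (fun a => fk I a lp) + fld ι A l) =
      Fintype.card ι * HD n f lp + A.card * PD n l

def RecStmt : Prop := ∀ (I ι : Type) [Fintype I] [DecidableEq I] [Fintype ι] [DecidableEq ι]
  (n : ℕ) (f : ℝ → ℝ) (L : Sy ι I) (A : Finset I), 1 ≤ n →
    Ok (rch L) (ex n) (n + 1) ∧ Fil (rch L) rr ∧ ∀ y : ℕ → ℝ,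
      TT n (gg ι f) (L + fld ι A (ys n y)) = XX (rch L) (ex n) (rZ n f A y) (n + 1) (r0 ι I) ∧
      ∀ (χ : (I → Bool) → (I → Bool) → ℝ) (d : ℕ), d ≤ n →
        EE n (gg ι f) (L + fld ι A (ys n y)) d (fun ω ω' => χ ω.2 ω'.2) =
          E2 (rch L) (ex n) (rZ n f A y) (d + 1) (n + 1) (fun ω ω' => χ ω.2.2 ω'.2.2) (r0 ι I)

def GgStmt : Prop := ∃ C : ℝ, 0 ≤ C ∧ ∀ (I ι : Type) [Fintype I] [DecidableEq I] [Fintype ι]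
  [DecidableEq ι] (n : ℕ) (f : ℝ → ℝ) (L : Sy ι I) (A : Finset I) (y : ℕ → ℝ) (Y : ℝ), 1 ≤ n →
    A.Nonempty → Y ≤ 1 → (∀ κ, κ < n → 0 < y κ ∧ y κ ≤ Y) →
    GGI (rch L) n (rZ n f A y) (fun i ω => spin (ω.2.2 i)) A
      (fun κ ω => hh A κ ω / (y κ * A.card)) (r0 ι I) (C * Y)

def ConStmt : Prop := ∀ n : ℕ, 1 ≤ n → ∃ K : ℝ, 0 ≤ K ∧ ∀ (I ι : Type) [Fintype I] [DecidableEq I]
  [Fintype ι] [DecidableEq ι] (f : ℝ → ℝ) (L : Sy ι I) (A : Finset I) (lam k : ℝ) (y : ℕ → ℝ),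
    A.Nonempty → 0 < lam → 3 * lam ≤ 1 → 0 ≤ k → Mx n f L A lam k y →
    Conc n f (L + fld ι A (ys n y)) A (ovl n f (L + fld ι A (ys n y)) A)
      (4 / √(n : ℝ) + K * (lam + √k / (lam * A.card)))

/-- pattern cavity -/
def PcStmt : Prop := ∀ B : ℝ, 1 ≤ B → ∃ C : ℝ, 0 ≤ C ∧ ∀ (I ι : Type) [Fintype I] [DecidableEq I]
  [Fintype ι] [DecidableEq ι] (n : ℕ) (f f1 f2 : ℝ → ℝ) (L : Sy ι I) (A : Finset I) (a : ι)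
  (P : ℕ → ℝ) (e c : ℝ) (D : ℕ), 1 ≤ n → Sm B f f1 f2 → (∀ t, |f t| ≤ B) → A.Nonempty →
    Path n P → P 0 = 1 → B ^ 2 * (A.card * c ^ 2) ≤ 1 → Conc n f L A P e →
    |TT n (gg ι f) (L + D • round (some a) A (n - 1) c) -
      TT n (gg ι f) (L + D • fk I a (sprof n P (A.card * c ^ 2)))| ≤
      C * (D * (A.card * c ^ 2)) * (√e + √(A.card * c ^ 2))

def KeyStmt : Prop := ∀ B : ℝ, 1 ≤ B → ∃ C : ℝ, 0 ≤ C ∧ ∀ (I ι : Type) [Fintype I] [DecidableEq I]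
  [Fintype ι] [DecidableEq ι] (n : ℕ) (f f1 f2 : ℝ → ℝ) (L : Sy ι I) (A : Finset I) (a : ι)
  (w : (I → Bool) → ℝ) (P : ℕ → ℝ) (e c θ θ0 : ℝ) (D : ℕ), 1 ≤ n → Sm B f f1 f2 →
    (∀ t, |f t| ≤ B) → A.Nonempty → (∀ σ, w σ ^ 2 = 1) → Path n P → P 0 = 1 →
    B ^ 2 * (A.card * c ^ 2) ≤ 1 → D * (A.card * c ^ 2) ≤ 1 → 0 < θ0 → 2 * B ^ 4 * θ0 ≤ 1 →
    Small n B (L.filter (fun s => s.2.1 = some a)) → vr (L.filter (fun s => s.2.1 = some a)) ≤ θ →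
    Conc n f (L + D • round (some a) A (n - 1) c) A P e →
    |Lam n f f1 (L + D • round (some a) A (n - 1) c) a w P
        (fun d => if d < n then WD n f f1 (D • sprof n P (A.card * c ^ 2)) d else 0) -
      2 * ip n P (fun d => if d < n then WD n f f1 (D • sprof n P (A.card * c ^ 2)) d else 0)| ≤
      C * ((√e + √(A.card * c ^ 2) + θ) / θ0 + √θ0)

/-- spin cavity: value -/
def ScStmt : Prop := ∀ B β ε : ℝ, 1 ≤ B → 0 ≤ β → 0 < ε → ∃ e0 : ℝ, 0 < e0 ∧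
  ∀ (I ι : Type) [Fintype I] [DecidableEq I] [Fintype ι] [DecidableEq ι] (n : ℕ) (f f1 f2 : ℝ → ℝ)
  (A : Finset I) (J : Finset ι) (τ : I) (R : ℕ) (c : ℝ) (l : Multiset (ℕ × ℝ)) (P : ℕ → ℝ),
    1 ≤ n → Sm B f f1 f2 → (∀ t, |f t| ≤ B) → τ ∉ A → 1 ≤ e0 * A.card →
    (J.card : ℝ) ≤ β * A.card → (A.card * (A.card + 1) * R : ℝ) * c ^ 2 = 1 → A.card * c ^ 2 ≤ e0 →
    Path n P → P 0 = 1 → Conc n f (sys n A J ((A.card + 1) * R) c + fld ι A l) A P e0 →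
    ∃ W : ℕ → ℝ, Path n W ∧ W 0 ≤ B ^ 2 ∧ ∀ lτ : Multiset (ℕ × ℝ),
      |TT n (gg ι f) (sys n (insert τ A) J (A.card * R) c + fld ι A l + lift none (sp τ) lτ) -
        TT n (gg ι f) (sys n A J ((A.card + 1) * R) c + fld ι A l) -
        PD n (lτ + (J.card * R) • sprof n W (A.card * c ^ 2)) -
        (J.card / (A.card + 1) : ℝ) * (ip n P W - W 0 / 2)| ≤ ε

/-- spin cavity: concentration -/
def Sc2Stmt : Prop := ∀ B β : ℝ, 1 ≤ B → 0 ≤ β → ∃ C : ℝ, 1 ≤ C ∧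
  ∀ (I ι : Type) [Fintype I] [DecidableEq I] [Fintype ι] [DecidableEq ι] (n : ℕ) (f f1 f2 : ℝ → ℝ)
  (A : Finset I) (J : Finset ι) (τ : I) (R : ℕ) (c e : ℝ) (l lτ : Multiset (ℕ × ℝ)) (P : ℕ → ℝ),
    1 ≤ n → Sm B f f1 f2 → τ ∉ A → A.Nonempty → (J.card : ℝ) ≤ β * A.card →
    (A.card * (A.card + 1) * R : ℝ) * c ^ 2 = 1 → B * |c| ≤ 1 →
    Conc n f (sys n A J ((A.card + 1) * R) c + fld ι A l) A P e →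
    Conc n f (sys n (insert τ A) J (A.card * R) c + fld ι A l + lift none (sp τ) lτ)
      (insert τ A) P (C * (e + 1 / A.card))

/-! ### Gaussian layer -/

def LinStmt : Prop := ∀ K Q ε : ℝ, 0 < ε → ∃ η : ℝ, 0 < η ∧ ∀ (u : ℝ → ℝ) (l : Multiset ℝ)
  (s x : ℝ), (∀ t h, |u (t + h) - u t| ≤ K * |h|) → 0 ≤ s → s ≤ Q → (∀ a ∈ l, |a| ≤ η) →
    |(l.map (fun a => a ^ 2)).sum - s| ≤ η →
    |(lv l : Op (ℝ × Unit)) (fun ω => u ω.1) (x, ()) - ∫ z, u (x + √s * z) ∂gaussianReal 0 1| ≤ ε ∧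
    |log ((lv l : Op (ℝ × Unit)) (fun ω => exp (u ω.1)) (x, ())) -
      log (∫ z, exp (u (x + √s * z)) ∂gaussianReal 0 1)| ≤ ε

def LinkStmt : Prop := ∀ (n : ℕ) (l : Multiset (ℕ × ℝ)), 1 ≤ n →
  (∀ f, HD n f l = sc n l f n 0) ∧ PD n l = sc n l (fun x => log (cosh x)) n 0

def G2Stmt : Prop := ∀ (n : ℕ) (K Q ε : ℝ), 1 ≤ n → 0 < ε → ∃ η : ℝ, 0 < η ∧
  ∀ (q : ℕ → ℝ) (l : Multiset (ℕ × ℝ)), Path n q → q 0 ≤ Q → (∀ s ∈ l, |s.2| ≤ η) →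
    (∀ d, d < n → |lvar l d - (q d - q (d + 1))| ≤ η) →
    (∀ f : ℝ → ℝ, (∀ t h, |f (t + h) - f t| ≤ K * |h|) → |HD n f l - Hf n f q| ≤ ε) ∧
      |PD n l - q 0 / 2 - psi n q| ≤ ε

def HlStmt : Prop := ∀ (B : ℝ) (n : ℕ) (f f1 f2 : ℝ → ℝ) (p p' : ℕ → ℝ) (τ : ℝ), 1 ≤ B → 1 ≤ n →
  Sm B f f1 f2 → Path n p → Path n p' → p 0 = 1 → p' 0 = 1 → 0 ≤ τ →
    (∀ κ, κ < n → |(1 / (n : ℝ)) * ∑ d ∈ Icc 1 κ, (p d - p' d)| ≤ τ) →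
    |Hf n f p - Hf n f p'| ≤ B ^ 2 * τ

def MonoStmt : Prop := ∀ (n : ℕ) (η : ℝ) (c c' : ℕ → ℕ) (j s : ℕ), 0 ≤ η → 1 ≤ j → j < n →
  cum n c' j = cum n c j + 2 * s → (∀ d, d < n → cum n c' d ≤ cum n c d + 2 * s) →
    piD n (lat n η c) j ≤ piD n (lat n η c') j

def CmStmt : Prop := ∀ n : ℕ, 1 ≤ n → ∃ K : ℝ, ∀ (η : ℝ) (c c' : ℕ → ℕ), 0 < η → K * η ≤ 1 →
  PD n (lat n η (fun κ => 2 * c' κ)) - η ^ 2 * cum n c' 0 +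
      ip n (piD n (lat n η (fun κ => 2 * c κ))) (fun d => 2 * η ^ 2 * cum n c' d) ≤
    PD n (lat n η (fun κ => 2 * c κ)) - η ^ 2 * cum n c 0 +
      ip n (piD n (lat n η (fun κ => 2 * c κ))) (fun d => 2 * η ^ 2 * cum n c d) +
      K * η ^ 3 * (cum n c 0 + cum n c' 0)

def ConcStmt : Prop := ∃ C : ℝ, ∀ (n : ℕ) (Q : ℕ → ℝ), 1 ≤ n → Path n Q → ∃ pv : ℕ → ℝ,
  Path n pv ∧ pv 0 = 1 ∧ (∀ q, Path n q → psi n q + ip n pv q ≤ psi n Q + ip n pv Q) ∧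
    ∀ (κ : ℕ) (θ : ℝ), κ < n → 0 ≤ θ → θ ≤ 1 →
      |psi n (fun d => Q d + if d ≤ κ then θ else 0) - psi n Q +
        θ / (2 * n) * ∑ d ∈ Icc 1 κ, pv d| ≤ C * (θ * √θ)

def BddStmt : Prop := ∀ (n : ℕ) (p : ℕ → ℝ), 1 ≤ n → Path n p → p 0 = 1 →
  BddAbove (dualSet n p) ∧ 0 ≤ sSup (dualSet n p) ∧ (∀ q, Path n q → psi n q ≤ 0) ∧
    ∀ (f : ℝ → ℝ) (B : ℝ), Measurable f → (∀ t, |f t| ≤ B) → |Hf n f p| ≤ B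

/-- one spin -/
def SpinStmt : Prop := ∀ B β α ε : ℝ, 1 ≤ B → 0 ≤ β → 0 < α → 0 < ε → ∃ e0 : ℝ, 0 < e0 ∧
  ∀ n : ℕ, 1 ≤ n → ∃ η : ℝ, 0 < η ∧
  ∀ (I ι : Type) [Fintype I] [DecidableEq I] [Fintype ι] [DecidableEq ι] (f f1 f2 : ℝ → ℝ)
  (A : Finset I) (J : Finset ι) (τ : I) (R : ℕ) (c : ℝ) (y P : ℕ → ℝ),
    Sm B f f1 f2 → (∀ t, |f t| ≤ B) → τ ∉ A → 1 ≤ e0 * A.card →
    (J.card : ℝ) ≤ β * A.card → (A.card * (A.card + 1) * R : ℝ) * c ^ 2 = 1 → A.card * c ^ 2 ≤ η →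
    (∀ κ, κ < n → |y κ| ≤ η) → Path n P → P 0 = 1 →
    Conc n f (sys n A J ((A.card + 1) * R) c + fld ι A (ys n y)) A P e0 →
    TT n (gg ι f) (sys n A J ((A.card + 1) * R) c + fld ι A (ys n y)) +
        (Vn n α f - α * Hf n f P - ε) ≤
      TT n (gg ι f) (sys n (insert τ A) J (A.card * R) c + fld ι (insert τ A) (ys n y))

/-- a block of `b` spins and at most `b'` patterns; `D0 c² = 1` and `D0 / j` rounds on `j` sites -/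
def BlockStmt : Prop := ∀ (B β α ε : ℝ) (b b' : ℕ), 1 ≤ B → 0 ≤ β → 0 < α → 0 < ε →
  ∃ e0 : ℝ, 0 < e0 ∧ ∀ n : ℕ, 1 ≤ n → ∃ η : ℝ, 0 < η ∧
  ∀ (I ι : Type) [Fintype I] [DecidableEq I] [Fintype ι] [DecidableEq ι] (f f1 f2 : ℝ → ℝ)
  (A A' : Finset I) (J J' : Finset ι) (D0 : ℕ) (c : ℝ) (y P : ℕ → ℝ),
    Sm B f f1 f2 → (∀ t, |f t| ≤ B) → A ⊆ A' → A'.card = A.card + b → J ⊆ J' →
    J'.card ≤ J.card + b' → 1 ≤ e0 * A.card → (J.card : ℝ) ≤ β * A.card →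
    (∀ j, 1 ≤ j → j ≤ A'.card → j * (j + 1) ∣ D0) → D0 * c ^ 2 = 1 → A'.card * c ^ 2 ≤ η →
    (∀ κ, κ < n → |y κ| ≤ η) → Path n P → P 0 = 1 →
    Conc n f (sys n A J (D0 / A.card) c + fld ι A (ys n y)) A P e0 →
    TT n (gg ι f) (sys n A J (D0 / A.card) c + fld ι A (ys n y)) +
        b * (Vn n α f - α * Hf n f P - ε) + (J'.card - J.card : ℝ) * (Hf n f P - f 0 - ε) ≤
      TT n (gg ι f) (sys n A' J' (D0 / A'.card) c + fld ι A' (ys n y))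

def LbStmt : Prop := ∀ (B α ε : ℝ) (f f1 f2 : ℝ → ℝ), 1 ≤ B → 0 < α → 0 < ε → Sm B f f1 f2 →
  (∀ t, |f t| ≤ B) → ∀ᶠ n : ℕ in atTop, ∀ᶠ N : ℕ in atTop, ∃ᶠ D : ℕ in atTop,
    N * (Vn n α f - ε) ≤ RV n f N ⌊α * N⌋₊ D

/-- one swap of the upper bound -/
def SwStmt : Prop := ∀ B : ℝ, 1 ≤ B → ∃ C : ℝ, 0 ≤ C ∧ ∀ (I ι : Type) [Fintype I] [DecidableEq I]
  [Fintype ι] [DecidableEq ι] (n : ℕ) (f f1 f2 : ℝ → ℝ) (L : Sy ι I) (A : Finset I) (a : ι)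
  (p P : ℕ → ℝ) (e c : ℝ), 1 ≤ n → Sm B f f1 f2 → A.Nonempty → Path n p → p 0 = 1 →
    2 * B ^ 4 * (A.card * c ^ 2) ≤ 1 → Conc n f (L + round (some a) A (n - 1) c) A P e →
    ∃ W : ℕ → ℝ, Path n W ∧ W 0 ≤ B ^ 2 ∧
      TT n (gg ι f) (L + round (some a) A (n - 1) c) ≤
        TT n (gg ι f) (L + fk I a (sprof n p (A.card * c ^ 2)) + fld ι A (sprof n W (c ^ 2))) +
          (A.card * c ^ 2) * (ip n p W - W 0 / 2 + C * (√e + √(A.card * c ^ 2)))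

def UbStmt : Prop := ∀ (B α ε : ℝ) (f f1 f2 : ℝ → ℝ), 1 ≤ B → 0 < α → 0 < ε → Sm B f f1 f2 →
  (∀ t, |f t| ≤ B) → ∀ᶠ n : ℕ in atTop, ∀ᶠ N : ℕ in atTop, ∀ᶠ D : ℕ in atTop,
    RV n f N ⌊α * N⌋₊ D ≤ N * (Vn n α f + ε)

def TiltStmt : Prop := ∀ B : ℝ, ∃ C : ℝ, ∀ (n : ℕ) (f : ℝ → ℝ) (N M D : ℕ), 1 ≤ n →
  (∀ t, |f t| ≤ B) → |RV n f N M D - PV f N M D| ≤ C * M / n

def G1Stmt : Prop := ∀ (B ε : ℝ) (f : ℝ → ℝ) (N M : ℕ), 0 < ε → 1 ≤ N → (∀ t, |f t| ≤ B) →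
  (∀ t h, |f (t + h) - f t| ≤ B * |h|) → ∀ᶠ D : ℕ in atTop, |PV f N M D - N * meanP f N M| ≤ ε

def SmfStmt : Prop := ∀ (B ε : ℝ) (f : ℝ → ℝ), 0 < ε → Measurable f → (∀ t, |f t| ≤ B) →
  ∃ (B' : ℝ) (g g1 g2 : ℝ → ℝ), 1 ≤ B' ∧ Sm B' g g1 g2 ∧ (∀ t, |g t| ≤ B) ∧ B ≤ B' ∧
    ∫ z, |f z - g z| ∂gaussianReal 0 1 ≤ ε

def SmhStmt : Prop := ∀ B : ℝ, ∃ C : ℝ, 0 ≤ C ∧ ∀ (n : ℕ) (f g : ℝ → ℝ) (p : ℕ → ℝ), 1 ≤ n →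
  Measurable f → Measurable g → (∀ t, |f t| ≤ B) → (∀ t, |g t| ≤ B) → Path n p → p 0 = 1 →
    |Hf n f p - Hf n g p| ≤ C * ∫ z, |f z - g z| ∂gaussianReal 0 1

def SmnStmt : Prop := ∀ B : ℝ, ∃ C : ℝ, 0 ≤ C ∧ ∀ (N M : ℕ) (f g : ℝ → ℝ), 1 ≤ N →
  Measurable f → Measurable g → (∀ t, |f t| ≤ B) → (∀ t, |g t| ≤ B) →
    |meanP f N M - meanP g N M| ≤ C * (M / N) * ∫ z, |f z - g z| ∂gaussianReal 0 1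

end

end Vale.Agent.P157
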