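import Vale.Agent.P157.SpecS

/-! P157, sphere: module statements (proofs in notes/P157s.md). -/

namespace Vale.Agent.P157

open MeasureTheory ProbabilityTheory Finset Real Filter

noncomputable section

/-! ### Step layer with a potential -/

structure UApi : Prop where
  zero : ∀ {O S : Type} [Fintype O] [DecidableEq O] [Fintype S] [Inhabited S] (n : ℕ)
    (g : O → ℝ → ℝ) (L : Multiset (St O S)), TU n g (fun _ => 0) L = TT n g L ∧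
      (∀ V, E1U n g (fun _ => 0) L V = E1 n g L V) ∧ ∀ d φ, EU n g (fun _ => 0) L d φ = EE n g L d φ
  tt0 : ∀ {O S : Type} [Fintype O] [DecidableEq O] [Fintype S] [Inhabited S] (n : ℕ)
    (g : O → ℝ → ℝ) (U : S → ℝ), 1 ≤ n →
    TU n g U (0 : Multiset (St O S)) = ∑ o, g o 0 + log (avg fun σ => exp (U σ))
  rep : ∀ {O S : Type} [Fintype O] [DecidableEq O] [Fintype S] [Inhabited S] (n : ℕ)
    (g : O → ℝ → ℝ) (U : S → ℝ) (B : ℝ) (L : Multiset (St O S)) (κ : ℕ) (o : O) (w w' : S → ℝ),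
    1 ≤ n → (∀ t h, |g o (t + h) - g o t| ≤ B * |h|) →
    |TU n g U ((κ, o, w) ::ₘ L) - TU n g U ((κ, o, w') ::ₘ L)| ≤ B * ‖w - w'‖
  crude : ∀ {O S : Type} [Fintype O] [DecidableEq O] [Fintype S] [Inhabited S] (n : ℕ)
    (g : O → ℝ → ℝ) (U : S → ℝ) (B : ℝ) (L L' : Multiset (St O S)), 1 ≤ n →
    (∀ s ∈ L', ∀ t h, |g s.2.1 (t + h) - g s.2.1 t| ≤ B * |h|) →
    |TU n g U (L + L') - TU n g U L| ≤ B * sz L'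
  pot1 : ∀ {O S : Type} [Fintype O] [DecidableEq O] [Fintype S] [Inhabited S] (n : ℕ)
    (g : O → ℝ → ℝ) (U A : S → ℝ) (b : ℝ) (L : Multiset (St O S)), 1 ≤ n → (∀ σ, |A σ| ≤ b) →
    b ≤ 1 → |TU n g (fun σ => U σ + A σ) L - TU n g U L - E1U n g U L (fun ω => A ω.2)| ≤ b ^ 2
  potlow : ∀ {O S : Type} [Fintype O] [DecidableEq O] [Fintype S] [Inhabited S] (n : ℕ)
    (g : O → ℝ → ℝ) (U A : S → ℝ) (L : Multiset (St O S)), 1 ≤ n →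
    TU n g U L + E1U n g U L (fun ω => A ω.2) ≤ TU n g (fun σ => U σ + A σ) L
  potle : ∀ {O S : Type} [Fintype O] [DecidableEq O] [Fintype S] [Inhabited S] (n : ℕ)
    (g : O → ℝ → ℝ) (U U' : S → ℝ) (c : ℝ) (L : Multiset (St O S)), 1 ≤ n →
    (∀ σ, U σ ≤ U' σ + c) → TU n g U L ≤ TU n g U' L + c
  potchg : ∀ {O S : Type} [Fintype O] [DecidableEq O] [Fintype S] [Inhabited S] (n : ℕ)
    (g : O → ℝ → ℝ) (U U' : S → ℝ) (b : ℝ) (L : Multiset (St O S)) (d : ℕ)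
    (φ : Om O S → Om O S → ℝ), 1 ≤ n → d ≤ n → (∀ σ, |U' σ - U σ| ≤ b) → (∀ ω ω', 0 ≤ φ ω ω') →
    EU n g U' L d φ ≤ exp (6 * b) * EU n g U L d φ
  e1 : ∀ {O S : Type} [Fintype O] [DecidableEq O] [Fintype S] [Inhabited S] (n : ℕ)
    (g : O → ℝ → ℝ) (U : S → ℝ) (L : Multiset (St O S)) (d : ℕ) (V : Om O S → ℝ), 1 ≤ n → d ≤ n →
    EU n g U L d (fun ω _ => V ω) = E1U n g U L V
  cumul : ∀ {O S I : Type} [Fintype O] [DecidableEq O] [Fintype S] [Inhabited S] (n : ℕ)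
    (g : O → ℝ → ℝ) (U U' : S → ℝ) (L L' : Multiset (St O S)) (s : I → S → ℝ) (A : Finset I)
    (P : ℕ → ℝ) (e c : ℝ), 1 ≤ n → 0 ≤ c →
    (∀ (χ : S → S → ℝ) (d : ℕ), d ≤ n → (∀ σ σ', 0 ≤ χ σ σ') →
      EU n g U' L' d (fun ω ω' => χ ω.2 ω'.2) ≤ c * EU n g U L d (fun ω ω' => χ ω.2 ω'.2)) →
    CU n g U L s A P e → CU n g U' L' s A P (c * e)

def St1U : Prop := ∀ B : ℝ, 1 ≤ B → ∃ C : ℝ, ∀ (O S : Type) [Fintype O] [DecidableEq O]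
  [Fintype S] [Inhabited S] (n : ℕ) (g g1 g2 : O → ℝ → ℝ) (U : S → ℝ) (L : Multiset (St O S))
  (s : St O S), 1 ≤ n → (∀ o, Sm B (g o) (g1 o) (g2 o)) → s.1 < n → B * ‖s.2.2‖ ≤ 1 →
    |TU n g U (s ::ₘ L) - TU n g U L - GU n g g1 g2 U L s| ≤ C * ‖s.2.2‖ ^ 3

def Gr0U : Prop := ∀ B K : ℝ, 1 ≤ B → 0 ≤ K → ∃ C : ℝ, ∀ (O S : Type) [Fintype O]
  [DecidableEq O] [Fintype S] [Inhabited S] (n : ℕ) (g : O → ℝ → ℝ) (U : S → ℝ)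
  (L : Multiset (St O S)) (s : St O S) (φ : Om O S → Om O S → ℝ) (d : ℕ), 1 ≤ n → d ≤ n →
    (∀ o, D2 B (g o)) → s.1 < n → B * ‖s.2.2‖ ≤ 1 → (∀ ω ω', 0 ≤ φ ω ω') → LG K s φ →
    EU n g U (s ::ₘ L) d φ ≤ exp (C * ‖s.2.2‖ ^ 2) * EU n g U L d φ ∧
      EU n g U L d φ ≤ exp (C * ‖s.2.2‖ ^ 2) * EU n g U (s ::ₘ L) d φ

def GraU : Prop := ∀ B : ℝ, 1 ≤ B → ∃ C : ℝ, 0 ≤ C ∧ ∀ (O S : Type) [Fintype O]
  [DecidableEq O] [Fintype S] [Inhabited S] (n : ℕ) (g : O → ℝ → ℝ) (U : S → ℝ)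
  (L L' : Multiset (St O S)) (χ : S → S → ℝ) (d : ℕ), 1 ≤ n → d ≤ n → (∀ o, D2 B (g o)) →
    Small n B L' → (∀ σ σ', 0 ≤ χ σ σ') →
    EU n g U (L + L') d (fun ω ω' => χ ω.2 ω'.2) ≤
        exp (C * vr L') * EU n g U L d (fun ω ω' => χ ω.2 ω'.2) ∧
      EU n g U L d (fun ω ω' => χ ω.2 ω'.2) ≤
        exp (C * vr L') * EU n g U (L + L') d (fun ω ω' => χ ω.2 ω'.2)

def GrbU : Prop := ∀ B K : ℝ, 1 ≤ B → 1 ≤ K → ∃ C : ℝ, 0 ≤ C ∧ ∀ (O S : Type) [Fintype O]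
  [DecidableEq O] [Fintype S] [Inhabited S] (n : ℕ) (g : O → ℝ → ℝ) (U : S → ℝ)
  (L L' : Multiset (St O S)) (o : O) (u u' : ℝ → ℝ) (χ : S → S → ℝ) (d : ℕ), 1 ≤ n → d ≤ n →
    (∀ o, D2 B (g o)) → Small n B L' → vr L' ≤ 1 → D2 K u → D2 K u' → (∀ t, |u t| ≤ K) →
    (∀ t, |u' t| ≤ K) → (∀ σ σ', |χ σ σ'| ≤ 1) →
    |EU n g U (L + L') d (fun ω ω' => u (ω.1 o ω.2) * u' (ω'.1 o ω'.2) * χ ω.2 ω'.2) -
      EU n g U L d (fun ω ω' => u (ω.1 o ω.2) * u' (ω'.1 o ω'.2) * χ ω.2 ω'.2)| ≤ C * vr L'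

def MsU : Prop := ∀ B : ℝ, 1 ≤ B → ∃ C : ℝ, 0 ≤ C ∧ ∀ (O S : Type) [Fintype O] [DecidableEq O]
  [Fintype S] [Inhabited S] (n : ℕ) (g g1 g2 : O → ℝ → ℝ) (U : S → ℝ) (L L' : Multiset (St O S)),
  1 ≤ n → (∀ o, Sm B (g o) (g1 o) (g2 o)) → Small n B L' →
    |TU n g U (L + L') - TU n g U L| ≤ C * vr L' ∧
    (vr L' ≤ 1 →
      |TU n g U (L + L') - TU n g U L - (L'.map (GU n g g1 g2 U L)).sum| ≤ C * (vr L' * √(vr L')))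

def PatU : Prop := ∀ (O S : Type) [Fintype O] [DecidableEq O] [Fintype S] [Inhabited S] (n : ℕ)
  (g : O → ℝ → ℝ) (U : S → ℝ) (L L' : Multiset (St O S)) (o : O) (B : ℝ), 1 ≤ n →
    (∀ t, |g o t| ≤ B) → (∀ s ∈ L', s.2.1 = o) → |TU n g U (L + L') - TU n g U L| ≤ 2 * B ∧
    ∀ (χ : S → S → ℝ) (d : ℕ), d ≤ n → (∀ σ σ', 0 ≤ χ σ σ') →
      EU n g U (L + L') d (fun ω ω' => χ ω.2 ω'.2) ≤
          exp (12 * B) * EU n g U L d (fun ω ω' => χ ω.2 ω'.2) ∧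
        EU n g U L d (fun ω ω' => χ ω.2 ω'.2) ≤
          exp (12 * B) * EU n g U (L + L') d (fun ω ω' => χ ω.2 ω'.2)

def P1U : Prop := ∀ (O S : Type) [Fintype O] [DecidableEq O] [Fintype S] [Inhabited S] (n : ℕ)
  (g : O → ℝ → ℝ) (U : S → ℝ) (L : Multiset (St O S)) (o : O) (l : Multiset (ℕ × ℝ)), 1 ≤ n →
    (∀ s ∈ L, s.2.1 ≠ o) →
    TU n g U (L + lift o (fun _ => 1) l) = TU n g U L - g o 0 + HD n (g o) l ∧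
    (∀ (u : ℝ → ℝ) (w : S → ℝ), E1U n g U (L + lift o (fun _ => 1) l) (ob u o w) =
      AD n (g o) u l * E1U n g U L (fun ω => w ω.2)) ∧
    ∀ (u : ℝ → ℝ) (w : S → ℝ) (d : ℕ), d ≤ n →
      EU n g U (L + lift o (fun _ => 1) l) d (fun ω ω' => ob u o w ω * ob u o w ω') =
        WD n (g o) u l d * EU n g U L d (fun ω ω' => w ω.2 * w ω'.2)

structure GUApi : Prop where
  lift_vr : ∀ {O S : Type} [Fintype O] [DecidableEq O] [Fintype S] [Inhabited S] (n : ℕ)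
    (B K : ℝ) (o : O) (w : S → ℝ) (l : Multiset (ℕ × ℝ)), 0 ≤ B → (∀ σ, |w σ| ≤ K) →
    vr (lift o w l) ≤ K ^ 2 * (l.map (fun s => s.2 ^ 2)).sum ∧
    sz (lift o w l) ≤ K * (l.map (fun s => |s.2|)).sum ∧
    ((∀ s ∈ l, s.1 < n ∧ B * K * |s.2| ≤ 1) → Small n B (lift o w l)) ∧ ∀ s ∈ lift o w l, s.2.1 = o
  rd_vr : ∀ {O S I : Type} [Fintype O] [DecidableEq O] [Fintype S] [Inhabited S] (n : ℕ)
    (B K : ℝ) (s : I → S → ℝ) (o : O) (A : Finset I) (κ : ℕ) (c : ℝ), 0 ≤ B → (∀ i σ, |s i σ| ≤ K) →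
    vr (rd s o A κ c) ≤ K ^ 2 * (A.card * c ^ 2) ∧
    (κ < n → B * K * |c| ≤ 1 → Small n B (rd s o A κ c)) ∧ ∀ t ∈ rd s o A κ c, t.2.1 = o
  fl_vr : ∀ {O S I : Type} [Fintype O] [DecidableEq O] [Fintype S] [Inhabited S] (n : ℕ)
    (B K : ℝ) (s : I → S → ℝ) (o : O) (A : Finset I) (l l' : Multiset (ℕ × ℝ)), 0 ≤ B →
    (∀ i σ, |s i σ| ≤ K) →
    vr (fl s o A l) ≤ K ^ 2 * (A.card * (l.map (fun s => s.2 ^ 2)).sum) ∧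
    sz (fl s o A l) ≤ K * (A.card * (l.map (fun s => |s.2|)).sum) ∧
    ((∀ s ∈ l, s.1 < n ∧ B * K * |s.2| ≤ 1) → Small n B (fl s o A l)) ∧
    fl s o A (l + l') = fl s o A l + fl s o A l' ∧ ∀ t ∈ fl s o A l, t.2.1 = o
  gam_one : ∀ {O S : Type} [Fintype O] [DecidableEq O] [Fintype S] [Inhabited S] (n : ℕ)
    (g g1 g2 : O → ℝ → ℝ) (U : S → ℝ) (L : Multiset (St O S)) (o : O) (w : S → ℝ) (κ : ℕ) (c : ℝ),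
    GU n g g1 g2 U L (κ, o, c • w) =
      c ^ 2 * (E1U n g U L (ob (gq g1 g2 o) o (fun σ => w σ ^ 2)) -
        (1 / (n : ℝ)) * ∑ d ∈ Icc 1 κ,
          EU n g U L d (fun ω ω' => ob (g1 o) o w ω * ob (g1 o) o w ω')) / 2
  gam_prof : ∀ {O S : Type} [Fintype O] [DecidableEq O] [Fintype S] [Inhabited S] (n : ℕ)
    (g g1 g2 : O → ℝ → ℝ) (U : S → ℝ) (L : Multiset (St O S)) (o : O) (w : S → ℝ) (p : ℕ → ℝ)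
    (c2 : ℝ), 1 ≤ n → Path n p → 0 ≤ c2 →
    ((lift o w (sprof n p c2)).map (GU n g g1 g2 U L)).sum =
      c2 * (p 0 * E1U n g U L (ob (gq g1 g2 o) o (fun σ => w σ ^ 2)) -
        (1 / (n : ℝ)) * ∑ d ∈ Ico 1 n, p d *
          EU n g U L d (fun ω ω' => ob (g1 o) o w ω * ob (g1 o) o w ω')) / 2
  gam_rd : ∀ {O S I : Type} [Fintype O] [DecidableEq O] [Fintype S] [Inhabited S] (n : ℕ)
    (g g1 g2 : O → ℝ → ℝ) (U : S → ℝ) (L : Multiset (St O S)) (s : I → S → ℝ) (o : O)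
    (A : Finset I) (c : ℝ), 1 ≤ n → A.Nonempty →
    ((rd s o A (n - 1) c).map (GU n g g1 g2 U L)).sum =
      (A.card * c ^ 2) * (E1U n g U L (ob (gq g1 g2 o) o (fun σ => RR s A σ σ)) -
        (1 / (n : ℝ)) * ∑ d ∈ Ico 1 n, EU n g U L d
          (fun ω ω' => g1 o (ω.1 o ω.2) * g1 o (ω'.1 o ω'.2) * RR s A ω.2 ω'.2)) / 2
  gam_fl : ∀ {O S I : Type} [Fintype O] [DecidableEq O] [Fintype S] [Inhabited S] (n : ℕ)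
    (g g1 g2 : O → ℝ → ℝ) (U : S → ℝ) (L : Multiset (St O S)) (s : I → S → ℝ) (o0 : O)
    (A : Finset I) (p : ℕ → ℝ) (c2 : ℝ), 1 ≤ n → A.Nonempty → Path n p → 0 ≤ c2 →
    (g1 o0 = fun _ => 1) → (g2 o0 = fun _ => 0) →
    ((fl s o0 A (sprof n p c2)).map (GU n g g1 g2 U L)).sum =
      (A.card * c2) * (p 0 * E1U n g U L (fun ω => RR s A ω.2 ω.2) -
        (1 / (n : ℝ)) * ∑ d ∈ Ico 1 n, p d * EU n g U L d (fun ω ω' => RR s A ω.2 ω'.2)) / 2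
  ov_path : ∀ {O S I : Type} [Fintype O] [DecidableEq O] [Fintype S] [Inhabited S] (n : ℕ)
    (K : ℝ) (g : O → ℝ → ℝ) (U : S → ℝ) (L : Multiset (St O S)) (s : I → S → ℝ) (A : Finset I),
    1 ≤ n → A.Nonempty → (∀ i σ, |s i σ| ≤ K) →
    Path n (ovU n g U L s A) ∧ ovU n g U L s A 0 ≤ K ^ 2
  w_path : ∀ {O S : Type} [Fintype O] [DecidableEq O] [Fintype S] [Inhabited S] (n : ℕ)
    (g : O → ℝ → ℝ) (U : S → ℝ) (L : Multiset (St O S)) (V : Om O S → ℝ) (K : ℝ), 1 ≤ n →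
    (∀ ω, |V ω| ≤ K) →
    Path n (fun d => if d < n then EU n g U L d (fun ω ω' => V ω * V ω') else 0) ∧
      EU n g U L 0 (fun ω ω' => V ω * V ω') ≤ K ^ 2 ∧ |E1U n g U L V| ≤ K
  wf_path : ∀ (n : ℕ) (B : ℝ) (f f1 u : ℝ → ℝ) (l : Multiset (ℕ × ℝ)), 1 ≤ n → (∀ t, |f1 t| ≤ B) →
    Path n (Wf n f f1 l) ∧ Wf n f f1 l 0 ≤ B ^ 2 ∧
      (∀ K, (∀ t, |u t| ≤ K) → |AD n f u l| ≤ K) ∧ AD n f (fun _ => 1) l = 1 ∧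
      ∀ d, d ≤ n → WD n f (fun _ => 1) l d = 1
  conc_abs : ∀ {O S I : Type} [Fintype O] [DecidableEq O] [Fintype S] [Inhabited S] (n : ℕ)
    (g : O → ℝ → ℝ) (U : S → ℝ) (L : Multiset (St O S)) (s : I → S → ℝ) (A : Finset I)
    (P : ℕ → ℝ) (e K : ℝ), 1 ≤ n → CU n g U L s A P e →
    (∀ φ : ℕ → Om O S → Om O S → ℝ, (∀ d ω ω', |φ d ω ω'| ≤ K) →
      (1 / (n : ℝ)) * ∑ d ∈ Ico 1 n,
        |EU n g U L d (fun ω ω' => φ d ω ω' * RR s A ω.2 ω'.2) - P d * EU n g U L d (φ d)| ≤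
        K * √e) ∧
    ∀ V : Om O S → ℝ, (∀ ω, |V ω| ≤ K) →
      E1U n g U L (fun ω => |V ω * (RR s A ω.2 ω.2 - P 0)|) ≤ K * √e ∧
      |E1U n g U L (fun ω => V ω * RR s A ω.2 ω.2) - P 0 * E1U n g U L V| ≤ K * √e

/-! ### Bounded real spins -/

def AlgU : Prop := ∀ K : ℝ, 1 ≤ K → ∃ C : ℝ, 0 ≤ C ∧ ∀ (Ω I : Type) (P : ℕ → Op Ω)
  (r : ℕ → Ω → Ω → Prop) (n : ℕ), 1 ≤ n → Ok P (ex n) (n + 1) → Fil P r →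
  ∀ (Z : Ω → ℝ) (s : I → Ω → ℝ) (A : Finset I) (h : ℕ → Ω → ℝ) (ω0 : Ω) (ε : ℝ), A.Nonempty →
    (∀ i ω, |s i ω| ≤ K) → 0 ≤ ε → GGU P n Z s A h ω0 ε →
    (∀ κ, κ < n → Ce P (ex n) Z 0 (n + 1)
      (fun ω => (h κ ω - Ce P (ex n) Z 0 (n + 1) (h κ) ω0) ^ 2) ω0 ≤ ε ^ 2) →
    (1 / (n : ℝ)) * ∑ l ∈ Ico 1 n, E2 P (ex n) Z (l + 1) (n + 1)
      (fun ω1 ω2 => (aR s A ω1 ω2 - E2 P (ex n) Z (l + 1) (n + 1) (aR s A) ω0) ^ 2) ω0 ≤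
      C / √(n : ℝ) + C * (n : ℝ) ^ 2 * ε ∧
    Ce P (ex n) Z 0 (n + 1)
      (fun ω => (aR s A ω ω - Ce P (ex n) Z 0 (n + 1) (fun ω => aR s A ω ω) ω0) ^ 2) ω0 ≤ C * ε

def RecU : Prop := ∀ (O S I : Type) [Fintype O] [DecidableEq O] [Fintype S] [Inhabited S]
  [Fintype I] [DecidableEq I] (n : ℕ) (L : Multiset (St O S)), 1 ≤ n →
    Ok (rchU I L) (ex n) (n + 1) ∧ Fil (rchU I L) rrU ∧
    ∀ (g : O → ℝ → ℝ) (U : S → ℝ) (s : I → S → ℝ) (o0 : O) (A : Finset I) (y : ℕ → ℝ), g o0 = id →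
      TU n g U (L + fl s o0 A (ys n y)) = XX (rchU I L) (ex n) (rZU n g U s A y) (n + 1) (r0U O S I) ∧
      ∀ (χ : S → S → ℝ) (d : ℕ), d ≤ n →
        EU n g U (L + fl s o0 A (ys n y)) d (fun ω ω' => χ ω.2 ω'.2) =
          E2 (rchU I L) (ex n) (rZU n g U s A y) (d + 1) (n + 1) (fun ω ω' => χ ω.2.2 ω'.2.2)
            (r0U O S I)

def GgU : Prop := ∀ K : ℝ, 1 ≤ K → ∃ C : ℝ, 0 ≤ C ∧ ∀ (O S I : Type) [Fintype O] [DecidableEq O]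
  [Fintype S] [Inhabited S] [Fintype I] [DecidableEq I] (n : ℕ) (g : O → ℝ → ℝ) (U : S → ℝ)
  (L : Multiset (St O S)) (s : I → S → ℝ) (A : Finset I) (y : ℕ → ℝ) (Y : ℝ), 1 ≤ n →
    A.Nonempty → (∀ i σ, |s i σ| ≤ K) → Y * K ≤ 1 → (∀ κ, κ < n → 0 < y κ ∧ y κ ≤ Y) →
    GGU (rchU I L) n (rZU n g U s A y) (fun i ω => s i ω.2.2) A
      (fun κ ω => hhU s A κ ω / (y κ * A.card)) (r0U O S I) (C * Y)

def ConU : Prop := ∀ K : ℝ, 1 ≤ K → ∃ C : ℝ, ∀ n : ℕ, 1 ≤ n → ∃ K' : ℝ, 0 ≤ K' ∧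
  ∀ (O S I : Type) [Fintype O] [DecidableEq O] [Fintype S] [Inhabited S] [Fintype I]
  [DecidableEq I] (g : O → ℝ → ℝ) (U : S → ℝ) (L : Multiset (St O S)) (s : I → S → ℝ) (o0 : O)
  (A : Finset I) (lam k : ℝ) (y : ℕ → ℝ), g o0 = id → (∀ i σ, |s i σ| ≤ K) → A.Nonempty →
    0 < lam → 3 * lam * K ≤ 1 → 0 ≤ k → MxU n g U L s o0 A lam k y →
    CU n g U (L + fl s o0 A (ys n y)) s A (ovU n g U (L + fl s o0 A (ys n y)) s A)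
      (C / √(n : ℝ) + K' * (lam + √k / (lam * A.card)))

def MaxU : Prop := ∀ (O S I : Type) [Fintype O] [DecidableEq O] [Fintype S] [Inhabited S]
  (n : ℕ) (g : O → ℝ → ℝ) (U : S → ℝ) (L : Multiset (St O S)) (s : I → S → ℝ) (o0 : O)
  (A : Finset I) (K lam k : ℝ), 1 ≤ n → g o0 = id → 0 ≤ K → (∀ i σ, |s i σ| ≤ K) → 0 < lam →
    A.card * K ≤ k * lam → ∃ y, MxU n g U L s o0 A lam k y

def PcU : Prop := ∀ B K : ℝ, ∃ C : ℝ, 0 ≤ C ∧ ∀ (O S I : Type) [Fintype O] [DecidableEq O]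
  [Fintype S] [Inhabited S] (n : ℕ) (g g1 g2 : O → ℝ → ℝ) (U : S → ℝ) (L : Multiset (St O S))
  (s : I → S → ℝ) (o0 a : O) (A : Finset I) (P : ℕ → ℝ) (e c : ℝ) (D : ℕ), 1 ≤ n →
    Md B K g g1 g2 o0 s → (∀ t, |g a t| ≤ B) → A.Nonempty → Path n P → P 0 ≤ K ^ 2 →
    B ^ 2 * K ^ 2 * (A.card * c ^ 2) ≤ 1 → CU n g U L s A P e →
    |TU n g U (L + D • rd s a A (n - 1) c) -
      TU n g U (L + D • lift a (fun _ => 1) (sprof n P (A.card * c ^ 2)))| ≤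
      C * (D * (A.card * c ^ 2)) * (√e + √(A.card * c ^ 2))

def SwU : Prop := ∀ B K : ℝ, ∃ C : ℝ, 0 ≤ C ∧ ∀ (O S I : Type) [Fintype O] [DecidableEq O]
  [Fintype S] [Inhabited S] (n : ℕ) (g g1 g2 : O → ℝ → ℝ) (U : S → ℝ) (L : Multiset (St O S))
  (s : I → S → ℝ) (o0 a : O) (A : Finset I) (p P : ℕ → ℝ) (e c ε1 : ℝ), 1 ≤ n →
    Md B K g g1 g2 o0 s → A.Nonempty → Path n p → p 0 = 1 → (∀ σ, |RR s A σ σ - 1| ≤ ε1) →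
    2 * B ^ 4 * K ^ 2 * (A.card * c ^ 2) ≤ 1 → CU n g U (L + rd s a A (n - 1) c) s A P e →
    ∃ W : ℕ → ℝ, Path n W ∧ W 0 ≤ B ^ 2 ∧
      TU n g U (L + rd s a A (n - 1) c) ≤
        TU n g U (L + lift a (fun _ => 1) (sprof n p (A.card * c ^ 2)) +
          fl s o0 A (sprof n W (c ^ 2))) + (A.card * c ^ 2) *
          (ip n p W - W 0 / 2 + 2 * B ^ 2 * ε1 + C * (√e + √(A.card * c ^ 2)))

def EndU : Prop := ∀ (S I : Type) [Fintype S] [Inhabited S] [Fintype I] [DecidableEq I] (n M : ℕ)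
  (f : ℝ → ℝ) (s : I → S → ℝ) (lp l : Multiset (ℕ × ℝ)) (q : ℕ → ℝ) (b E0 : ℝ), 1 ≤ n →
    Path n q → (∀ d, d < n → lvar l d = q d - q (d + 1)) → 0 < lamb n b q n →
    (∀ h : I → ℝ, log (avg fun σ => exp (∑ i, h i * s i σ)) ≤ ∑ i, h i ^ 2 / (2 * b) + E0) →
    TU n (gg (Fin M) f) (fun _ => 0)
        ((pats M).val.bind (fun a => lift a (fun _ => 1) lp) + fl s none univ l) ≤
      M * HD n f lp + Fintype.card I * qv n b q + E0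

def UbU : Prop := ∀ B α ε : ℝ, 1 ≤ B → 0 < α → 0 < ε → ∃ η0 : ℝ, 0 < η0 ∧
  ∀ (K : ℝ) (f f1 f2 : ℝ → ℝ), 1 ≤ K → Sm B f f1 f2 → (∀ t, |f t| ≤ B) →
  ∀ᶠ n : ℕ in atTop, ∃ b1 : ℝ, 1 ≤ b1 ∧ ∀ᶠ N : ℕ in atTop,
    ∀ (S : Type) [Fintype S] [Inhabited S] (s : Fin N → S → ℝ), (∀ i σ, |s i σ| ≤ K) →
      (∀ σ, |RR s univ σ σ - 1| ≤ η0) →
      (∀ b, 1 ≤ b → b ≤ b1 → ∀ h : Fin N → ℝ, log (avg fun σ => exp (∑ i, h i * s i σ)) ≤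
        ∑ i, h i ^ 2 / (2 * b) + N * ((b - 1 - log b) / 2 + η0)) →
      ∀ᶠ D : ℕ in atTop, RVU n f N ⌊α * N⌋₊ D s (fun _ => 0) ≤ N * (Vs n α f + ε)

def KeyU : Prop := ∀ B K : ℝ, ∃ C : ℝ, 0 ≤ C ∧ ∀ (O S I : Type) [Fintype O] [DecidableEq O]
  [Fintype S] [Inhabited S] (n : ℕ) (g g1 g2 : O → ℝ → ℝ) (U : S → ℝ) (L : Multiset (St O S))
  (s : I → S → ℝ) (o0 a : O) (A : Finset I) (w : S → ℝ) (P : ℕ → ℝ) (e c θ θ0 : ℝ) (D : ℕ),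
    1 ≤ n → Md B K g g1 g2 o0 s → a ≠ o0 → (∀ t, |g a t| ≤ B) → A.Nonempty → (∀ σ, |w σ| ≤ K) →
    Path n P → P 0 ≤ K ^ 2 → B ^ 2 * K ^ 2 * (A.card * c ^ 2) ≤ 1 → D * (A.card * c ^ 2) ≤ 1 →
    0 < θ0 → 4 * B ^ 4 * K ^ 4 * θ0 ≤ 1 →
    Small n B (L.filter (fun s => s.2.1 = a)) → vr (L.filter (fun s => s.2.1 = a)) ≤ θ →
    CU n g U (L + D • rd s a A (n - 1) c) s A P e →
    |LamU n g g1 g2 U (L + D • rd s a A (n - 1) c) a w P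
        (Wf n (g a) (g1 a) (D • sprof n P (A.card * c ^ 2)))
        (AD n (g a) (gq g1 g2 a) (D • sprof n P (A.card * c ^ 2))) -
      (2 * ip n P (Wf n (g a) (g1 a) (D • sprof n P (A.card * c ^ 2))) -
        AD n (g a) (gq g1 g2 a) (D • sprof n P (A.card * c ^ 2)) * P 0)| ≤
      C * ((√e + √(A.card * c ^ 2) + θ) / θ0 + √θ0)

/-! ### Product model -/

def P2U : Prop := ∀ (O I T : Type) [Fintype O] [DecidableEq O] [Fintype I] [DecidableEq I]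
  [Fintype T] [Inhabited T] (n : ℕ) (g : O → ℝ → ℝ) (v V : T → ℝ) (U : (I → T) → ℝ)
  (L : Multiset (St O (I → T))) (o0 : O) (i : I) (l : Multiset (ℕ × ℝ)), 1 ≤ n → g o0 = id →
    IndU i L U →
    TU n g (fun σ => U σ + V (σ i)) (L + lift o0 (sv v i) l) = TU n g U L + PW n v V l ∧
    ∀ (χ : (I → T) → (I → T) → ℝ) (d : ℕ), d ≤ n →
      (∀ σ σ' t t', χ (Function.update σ i t) (Function.update σ' i t') = χ σ σ') →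
      EU n g (fun σ => U σ + V (σ i)) (L + lift o0 (sv v i) l) d (fun ω ω' => χ ω.2 ω'.2) =
        EU n g U L d (fun ω ω' => χ ω.2 ω'.2)

def SymU : Prop := ∀ (O I T : Type) [Fintype O] [DecidableEq O] [Fintype I] [DecidableEq I]
  [Fintype T] [Inhabited T] (n : ℕ) (g : O → ℝ → ℝ) (v : T → ℝ) (k : ℝ) (o0 : O) (A : Finset I)
  (J : Finset O) (D : ℕ) (c : ℝ) (l : Multiset (ℕ × ℝ)) (i : I), 1 ≤ n → i ∈ A →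
    E1U n g (Uk v k A) (sy n (sv v) A J D c + fl (sv v) o0 A l) (fun ω => sv v i ω.2 ^ 2) =
      E1U n g (Uk v k A) (sy n (sv v) A J D c + fl (sv v) o0 A l) (fun ω => RR (sv v) A ω.2 ω.2) ∧
    ∀ d, d ≤ n → EU n g (Uk v k A) (sy n (sv v) A J D c + fl (sv v) o0 A l) d
        (fun ω ω' => sv v i ω.2 * sv v i ω'.2) =
      EU n g (Uk v k A) (sy n (sv v) A J D c + fl (sv v) o0 A l) d
        (fun ω ω' => RR (sv v) A ω.2 ω'.2)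

def ScU : Prop := ∀ B K β k ε : ℝ, 0 ≤ β → 0 ≤ k → 0 < ε → ∃ e0 : ℝ, 0 < e0 ∧
  ∀ (O I T : Type) [Fintype O] [DecidableEq O] [Fintype I] [DecidableEq I] [Fintype T]
  [Inhabited T] (n : ℕ) (g g1 g2 : O → ℝ → ℝ) (f f1 f2 : ℝ → ℝ) (v : T → ℝ) (o0 : O) (A : Finset I)
  (J : Finset O) (τ : I) (R : ℕ) (c : ℝ) (l : Multiset (ℕ × ℝ)) (P : ℕ → ℝ),
    1 ≤ n → Md B K g g1 g2 o0 (sv v : I → _) → Pt g g1 g2 o0 J B f f1 f2 → τ ∉ A →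
    1 ≤ e0 * A.card → (J.card : ℝ) ≤ β * A.card → (A.card * (A.card + 1) * R : ℝ) * c ^ 2 = 1 →
    A.card * c ^ 2 ≤ e0 → Path n P → P 0 ≤ K ^ 2 →
    CU n g (Uk v k A) (sy n (sv v) A J ((A.card + 1) * R) c + fl (sv v) o0 A l) (sv v) A P e0 →
    ∃ (W : ℕ → ℝ) (b c0 : ℝ), Path n W ∧ W 0 ≤ B ^ 2 ∧
      (b - 1) / 2 + (J.card / (A.card + 1) : ℝ) * (ip n P W - W 0 / 2) - β * B ^ 2 * |P 0 - 1| ≤ c0 ∧
      ∀ lτ : Multiset (ℕ × ℝ),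
      |TU n g (Uk v k (insert τ A))
          (sy n (sv v) (insert τ A) J (A.card * R) c + fl (sv v) o0 A l + lift o0 (sv v τ) lτ) -
        TU n g (Uk v k A) (sy n (sv v) A J ((A.card + 1) * R) c + fl (sv v) o0 A l) -
        PW n v (Uq v b) (lτ + (J.card * R) • sprof n W (A.card * c ^ 2)) - c0| ≤ ε

def Sc2U : Prop := ∀ B K β k : ℝ, 0 ≤ β → 0 ≤ k → ∃ C : ℝ, 1 ≤ C ∧
  ∀ (O I T : Type) [Fintype O] [DecidableEq O] [Fintype I] [DecidableEq I] [Fintype T]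
  [Inhabited T] (n : ℕ) (g g1 g2 : O → ℝ → ℝ) (v : T → ℝ) (o0 : O) (A : Finset I)
  (J : Finset O) (τ : I) (R : ℕ) (c e : ℝ) (l lτ : Multiset (ℕ × ℝ)) (P : ℕ → ℝ),
    1 ≤ n → Md B K g g1 g2 o0 (sv v : I → _) → τ ∉ A → A.Nonempty → (J.card : ℝ) ≤ β * A.card →
    (A.card * (A.card + 1) * R : ℝ) * c ^ 2 = 1 → B * K * |c| ≤ 1 →
    CU n g (Uk v k A) (sy n (sv v) A J ((A.card + 1) * R) c + fl (sv v) o0 A l) (sv v) A P e →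
    CU n g (Uk v k (insert τ A))
      (sy n (sv v) (insert τ A) J (A.card * R) c + fl (sv v) o0 A l + lift o0 (sv v τ) lτ)
      (sv v) (insert τ A) P (C * (e + 1 / A.card))

/-- a priori bounds under the soft constraint -/
def AprU : Prop := ∀ (O I T : Type) [Fintype O] [DecidableEq O] [Fintype I] [DecidableEq I]
  [Fintype T] [Inhabited T] (n : ℕ) (B K η k Y : ℝ) (g g1 g2 : O → ℝ → ℝ) (f f1 f2 : ℝ → ℝ)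
  (v : T → ℝ) (o0 : O) (A : Finset I) (J : Finset O) (D : ℕ) (c : ℝ) (y : ℕ → ℝ), 1 ≤ n →
    Md B K g g1 g2 o0 (sv v : I → _) → Pt g g1 g2 o0 J B f f1 f2 → A.Nonempty → 0 < k →
    |avg (fun t => v t ^ 2) - 1| ≤ η → (∀ κ, κ < n → |y κ| ≤ Y) →
    (ovU n g (Uk v k A) (sy n (sv v) A J D c + fl (sv v) o0 A (ys n y)) (sv v) A 0 - 1) ^ 2 ≤
      (8 * B * J.card / A.card + 4 * K * n * Y) / k + 2 * η ^ 2 + 2 * K ^ 4 / A.card ∧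
    ∑ o, g o 0 - 2 * B * J.card - K * n * Y * A.card - k * (A.card * η ^ 2 + K ^ 4) ≤
      TU n g (Uk v k A) (sy n (sv v) A J D c + fl (sv v) o0 A (ys n y))

def SpinU : Prop := ∀ B β α ε : ℝ, 1 ≤ B → 0 ≤ β → 0 < α → 0 < ε → ∃ η0 b1 : ℝ, 0 < η0 ∧ 1 ≤ b1 ∧
  ∀ K k : ℝ, 0 ≤ k → ∃ e0 : ℝ, 0 < e0 ∧ ∀ (T : Type) [Fintype T] [Inhabited T] (v : T → ℝ),
  QS K η0 b1 v → ∀ n : ℕ, 1 ≤ n → ∃ η : ℝ, 0 < η ∧
  ∀ (O I : Type) [Fintype O] [DecidableEq O] [Fintype I] [DecidableEq I]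
  (g g1 g2 : O → ℝ → ℝ) (f f1 f2 : ℝ → ℝ) (o0 : O) (A : Finset I) (J : Finset O) (τ : I) (R : ℕ)
  (c : ℝ) (y P : ℕ → ℝ), Md B K g g1 g2 o0 (sv v : I → _) → Pt g g1 g2 o0 J B f f1 f2 →
    Sm B f f1 f2 → τ ∉ A → 1 ≤ e0 * A.card → (J.card : ℝ) ≤ β * A.card →
    (A.card * (A.card + 1) * R : ℝ) * c ^ 2 = 1 → A.card * c ^ 2 ≤ η → (∀ κ, κ < n → |y κ| ≤ η) →
    Path n P → |P 0 - 1| ≤ η0 → P 0 ≤ K ^ 2 →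
    CU n g (Uk v k A) (sy n (sv v) A J ((A.card + 1) * R) c + fl (sv v) o0 A (ys n y)) (sv v) A P e0 →
    TU n g (Uk v k A) (sy n (sv v) A J ((A.card + 1) * R) c + fl (sv v) o0 A (ys n y)) +
        (Vs n α f - α * Hf n f P - ε) ≤
      TU n g (Uk v k (insert τ A))
        (sy n (sv v) (insert τ A) J (A.card * R) c + fl (sv v) o0 (insert τ A) (ys n y))

def BlockU : Prop := ∀ B β α ε : ℝ, 1 ≤ B → 0 ≤ β → 0 < α → 0 < ε →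
  ∃ η0 b1 : ℝ, 0 < η0 ∧ 1 ≤ b1 ∧ ∀ (K k : ℝ) (b b' : ℕ), 0 ≤ k → ∃ e0 : ℝ, 0 < e0 ∧
  ∀ (T : Type) [Fintype T] [Inhabited T] (v : T → ℝ), QS K η0 b1 v → ∀ n : ℕ, 1 ≤ n →
  ∃ η : ℝ, 0 < η ∧ ∀ (O I : Type) [Fintype O] [DecidableEq O] [Fintype I] [DecidableEq I]
  (g g1 g2 : O → ℝ → ℝ) (f f1 f2 : ℝ → ℝ) (o0 : O) (A A' : Finset I) (J J' : Finset O) (D0 : ℕ)
  (c : ℝ) (y P : ℕ → ℝ), Md B K g g1 g2 o0 (sv v : I → _) → Pt g g1 g2 o0 J' B f f1 f2 →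
    Sm B f f1 f2 → A ⊆ A' → A'.card = A.card + b → J ⊆ J' → J'.card ≤ J.card + b' →
    1 ≤ e0 * A.card → (J.card : ℝ) ≤ β * A.card →
    (∀ j, 1 ≤ j → j ≤ A'.card → j * (j + 1) ∣ D0) → D0 * c ^ 2 = 1 → A'.card * c ^ 2 ≤ η →
    (∀ κ, κ < n → |y κ| ≤ η) → Path n P → |P 0 - 1| ≤ η0 → P 0 ≤ K ^ 2 →
    CU n g (Uk v k A) (sy n (sv v) A J (D0 / A.card) c + fl (sv v) o0 A (ys n y)) (sv v) A P e0 →
    TU n g (Uk v k A) (sy n (sv v) A J (D0 / A.card) c + fl (sv v) o0 A (ys n y)) +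
        b * (Vs n α f - α * Hf n f P - ε) + (J'.card - J.card : ℝ) * (Hf n f P - f 0 - ε) ≤
      TU n g (Uk v k A') (sy n (sv v) A' J' (D0 / A'.card) c + fl (sv v) o0 A' (ys n y))

def LbU : Prop := ∀ B α ε : ℝ, 1 ≤ B → 0 < α → 0 < ε → ∃ η0 b1 k0 : ℝ, 0 < η0 ∧ 1 ≤ b1 ∧
  ∀ (K k : ℝ) (f f1 f2 : ℝ → ℝ) (T : Type) [Fintype T] [Inhabited T] (v : T → ℝ), k0 ≤ k →
    Sm B f f1 f2 → (∀ t, |f t| ≤ B) → QS K η0 b1 v →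
    ∀ᶠ n : ℕ in atTop, ∀ᶠ N : ℕ in atTop, ∃ᶠ D : ℕ in atTop,
      N * (Vs n α f - ε) ≤ RVU n f N ⌊α * N⌋₊ D (sv v) (Uk v k univ)

def TiltU : Prop := ∀ B : ℝ, ∃ C : ℝ, ∀ (n : ℕ) (f : ℝ → ℝ) (N M D : ℕ) (S : Type) [Fintype S]
  [Inhabited S] (s : Fin N → S → ℝ) (U : S → ℝ), 1 ≤ n → (∀ t, |f t| ≤ B) →
    |RVU n f N M D s U - PVU f N M D s U| ≤ C * M / n

def G1U : Prop := ∀ (B K ε : ℝ) (f : ℝ → ℝ) (N M : ℕ) (S : Type) [Fintype S] [Inhabited S]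
  (s : Fin N → S → ℝ) (U : S → ℝ), 0 < ε → 1 ≤ N → (∀ t, |f t| ≤ B) →
    (∀ t h, |f (t + h) - f t| ≤ B * |h|) → (∀ i σ, |s i σ| ≤ K) →
    ∀ᶠ D : ℕ in atTop, |PVU f N M D s U - meanD f N M s U| ≤ ε

def HlU : Prop := (∀ (B : ℝ) (n : ℕ) (f f1 f2 : ℝ → ℝ) (p p' : ℕ → ℝ) (τ : ℝ), 1 ≤ B → 1 ≤ n →
  Sm B f f1 f2 → Path n p → Path n p' → 0 ≤ τ →
    (∀ κ, κ < n → |(1 / (n : ℝ)) * ∑ d ∈ Icc 1 κ, (p d - p' d)| ≤ τ) →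
    |Hf n f p - Hf n f p'| ≤ B ^ 2 * τ + B ^ 2 * |p 0 - p' 0|) ∧
  ∀ (B : ℝ) (n : ℕ) (f : ℝ → ℝ) (p : ℕ → ℝ), 1 ≤ n → Measurable f → (∀ t, |f t| ≤ B) →
    |Hf n f p| ≤ B

/-! ### Single site analysis -/

def LinkU : Prop := ∀ (n : ℕ) (l : Multiset (ℕ × ℝ)), 1 ≤ n → Ok (sch l) (mm n) n ∧
  ∀ (T : Type) [Fintype T] [Inhabited T] (v : T → ℝ) (b : ℝ),
    PW n v (Uq v b) l = XX (sch l) (mm n) (fun ω => PhT v b ω.1) n (0, ()) ∧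
    pi0 n v (Uq v b) l =
      Ce (sch l) (mm n) (fun ω => PhT v b ω.1) 0 n (fun ω => mT v b (fun t => v t ^ 2) ω.1) (0, ()) ∧
    ∀ d, d ≤ n → piT n v (Uq v b) l d = E2 (sch l) (mm n) (fun ω => PhT v b ω.1) d n
      (fun ω ω' => mT v b v ω.1 * mT v b v ω'.1) (0, ())

def DomA : Prop := ∀ (Ω : Type) (P : ℕ → Op Ω) (m : ℕ → ℝ) (t : ℕ), Ok P m t →
  ∀ (Z Z' A : Ω → ℝ) (c : ℝ), (∀ ω, Z' ω = Z ω + A ω + c) → (∀ ω, A ω ≤ 0) → ∀ l, l ≤ t →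
    ∀ φ : Ω → Ω → ℝ, (∀ x x', 0 ≤ φ x x') → ∀ ω0,
      E2 P m Z l t (fun x x' => φ x x' * exp (A x + A x')) ω0 ≤ E2 P m Z' l t φ ω0

def QStep : Prop := ∃ C : ℝ, 0 ≤ C ∧ ∀ (X u : ℝ → ℝ) (m a lam c e : ℝ), 0 < m → m ≤ 1 → |a| ≤ 1 →
  1 / 4 ≤ lam - m * a ^ 2 → 0 ≤ e → e ≤ 1 → QI X u lam c e →
    QI (stX m a X) (stQ m a X u) (lam - m * a ^ 2) (c + (2 * m)⁻¹ * log (lam / (lam - m * a ^ 2)))
      (e * (1 + C * a ^ 2) + C * a ^ 4) ∧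
    (∀ h, stQ m a X (fun x => 1 + x ^ 4) h ≤ (1 + C * a ^ 2) * (1 + h ^ 4)) ∧
    (∀ h, |stQ m a X (fun x => x ^ 2) h -
      ((lam / (lam - m * a ^ 2)) ^ 2 * h ^ 2 + a ^ 2 * (lam / (lam - m * a ^ 2)))| ≤
        C * a ^ 2 * (√e + |a|) * (1 + h ^ 4)) ∧
    ∀ h, |u h ^ 2 - h ^ 2 / lam ^ 2| ≤ C * √e * (1 + h ^ 4)

def QG : Prop := ∀ Q b1 : ℝ, ∃ C : ℝ, ∀ ε : ℝ, 0 < ε → ∃ η : ℝ, 0 < η ∧
  ∀ (n : ℕ) (b : ℝ) (q : ℕ → ℝ) (l : Multiset (ℕ × ℝ)), 1 ≤ n → Prof n η l q → q 0 ≤ Q → b ≤ b1 →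
    1 / 4 ≤ lamb n b q n →
    qv n b q - log b / 2 - ε ≤ XX (sch l) (mm n) (fun ω => PhG b ω.1) n (0, ()) ∧
    (∀ d, d ≤ n → |E2 (sch l) (mm n) (fun ω => PhG b ω.1) d n
      (fun ω ω' => ω.1 / b * (ω'.1 / b)) (0, ()) - piG n b q d| ≤ ε) ∧
    Ce (sch l) (mm n) (fun ω => PhG b ω.1) 0 n (fun ω => ω.1 ^ 4) (0, ()) ≤ C

def CmpU : Prop := ∀ Q b1 ε : ℝ, 0 < ε → ∃ η0 η : ℝ, 0 < η0 ∧ 0 < η ∧
  ∀ (K : ℝ) (T : Type) [Fintype T] [Inhabited T] (v : T → ℝ), QS K η0 b1 v →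
  ∀ (n : ℕ) (b : ℝ) (q : ℕ → ℝ) (l : Multiset (ℕ × ℝ)), 1 ≤ n → Prof n η l q → q 0 ≤ Q → b ≤ b1 →
    1 / 4 ≤ lamb n b q n →
    qv n b q - log b / 2 - ε ≤ PW n v (Uq v b) l ∧
    |pi0 n v (Uq v b) l - (1 / b + piG n b q 0)| ≤ ε ∧
    ∀ d, d ≤ n → |piT n v (Uq v b) l d - piG n b q d| ≤ ε

structure CsApi : Prop where
  up : ∀ (n : ℕ) (p q : ℕ → ℝ), 1 ≤ n → Path n p → p 0 = 1 → p 1 < 1 → Path n q →
    0 < Dk n p n ∧ Dk n p n ≤ 1 ∧ 0 ≤ Dk n q n ∧ Dk n q n ≤ q 0 ∧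
    ((Dk n p n)⁻¹ + Dk n q n - 1 - log ((Dk n p n)⁻¹ + Dk n q n)) / 2 +
      qv n ((Dk n p n)⁻¹ + Dk n q n) q - q 0 / 2 + ip n p q ≤ CS n p
  crit : ∀ (n : ℕ) (b : ℝ) (q : ℕ → ℝ), 1 ≤ n → Path n q → 0 < lamb n b q n →
    Path n (fun d => if d = 0 then 1 else piG n b q d / (1 / b + piG n b q 0)) ∧
    piG n b q 1 / (1 / b + piG n b q 0) < 1 ∧
    CS n (fun d => if d = 0 then 1 else piG n b q d / (1 / b + piG n b q 0)) ≤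
      (b - 1 - log b) / 2 + qv n b q - q 0 / 2 +
        ip n (fun d => if d = 0 then 1 else piG n b q d / (1 / b + piG n b q 0)) q ∧
    1 / lamb n b q n ≤ 1 / b + piG n b q 0 ∧
    1 / b + piG n b q 0 ≤ 1 / lamb n b q n + q 0 / lamb n b q n ^ 2 ∧
    ∀ d, 0 ≤ piG n b q d ∧ piG n b q d ≤ 1 / b + piG n b q 0
  nn : ∀ (n : ℕ) (p : ℕ → ℝ), 1 ≤ n → Path n p → p 0 = 1 → p 1 < 1 → 0 ≤ CS n p
  one : ∀ n : ℕ, 1 ≤ n → CS n (fun d => if d = 0 then 1 else 0) = 0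

def SsU : Prop := ∀ Q ε : ℝ, 0 < ε → ∃ η0 b1 η : ℝ, 0 < η0 ∧ 1 ≤ b1 ∧ 0 < η ∧
  ∀ (K : ℝ) (T : Type) [Fintype T] [Inhabited T] (v : T → ℝ), QS K η0 b1 v →
  ∀ (n : ℕ) (b : ℝ) (q : ℕ → ℝ) (l : Multiset (ℕ × ℝ)), 1 ≤ n → Prof n η l q → q 0 ≤ Q →
    |pi0 n v (Uq v b) l - 1| ≤ η0 → ∃ pv : ℕ → ℝ, Path n pv ∧ pv 0 = 1 ∧ pv 1 < 1 ∧
      (∀ d, 1 ≤ d → d < n → |pv d - piT n v (Uq v b) l d| ≤ ε) ∧
      CS n pv ≤ PW n v (Uq v b) l + (b - 1) / 2 - q 0 / 2 + ip n pv q + ε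

/-! ### Gaussian side -/

def QuantS : Prop := ∀ η : ℝ, 0 < η → ∃ K : ℝ, ∀ b1 : ℝ, 1 ≤ b1 →
  ∃ (L : ℕ) (v : Fin (L + 1) → ℝ) (τ : ℝ → Option (Fin (L + 1))), QS K η b1 v ∧ Cpl v τ η

def Sph0 : Prop := ∀ (N : ℕ) (F : (Fin N → ℝ) → ℝ) (B : ℝ), 1 ≤ N → Measurable F →
  (∀ y, |F y| ≤ B) → ∫ u, F (fun i => u.1 i) ∂sphM N = ∫ y, F (nz y) ∂gN N

def RotS : Prop := ∀ (N M : ℕ) (f : ℝ → ℝ) (B : ℝ) (A : Set (Fin N → ℝ)), 1 ≤ N → Measurable f →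
  (∀ t, |f t| ≤ B) → MeasurableSet A →
    ∫ g, (∫ y in A, exp (Hn f g y) ∂gN N) / (∫ y, exp (Hn f g y) ∂gN N) ∂gM M N = (gN N).real A

def MgfS : Prop := ∀ c : ℝ, ∃ C : ℝ, 0 ≤ C ∧ ∀ (E : Type) [MeasurableSpace E] (ν : Measure E)
  [IsProbabilityMeasure ν] (M : ℕ) (X : (Fin M → E) → ℝ) (B m : ℝ), Measurable X →
    (∀ g, |X g| ≤ B) → (∀ g a x, |X (Function.update g a x) - X g| ≤ c) → 0 ≤ m → m ≤ 1 →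
    log (∫ g, exp (m * X g) ∂(Measure.pi fun _ : Fin M => ν)) ≤
      m * ∫ g, X g ∂(Measure.pi fun _ : Fin M => ν) + C * m ^ 2 * M

def R2S : Prop := ∀ B : ℝ, ∃ C : ℝ, 0 ≤ C ∧ ∀ (N M : ℕ) (Sg : Type) [MeasurableSpace Sg]
  (ν : Measure Sg) [IsProbabilityMeasure ν] (F F' : (Fin N → ℝ) → Sg → ℝ) (ε : ℝ),
    Measurable (Function.uncurry F) → Measurable (Function.uncurry F') →
    (∀ g s, |F g s| ≤ B) → (∀ g s, |F' g s| ≤ B) → (∀ᵐ s ∂ν, ∫ g, |F g s - F' g s| ∂gN N ≤ ε) →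
    |∫ g, log (∫ s, exp (∑ a, F (g a) s) ∂ν) ∂gM M N -
      ∫ g, log (∫ s, exp (∑ a, F' (g a) s) ∂ν) ∂gM M N| ≤ C * M * ε

def LlnS : Prop := ∀ (T : Type) [Fintype T] [Inhabited T] (v : T → ℝ) (c0 ε1 : ℝ), 0 < ε1 →
  |c0 - avg (fun t => v t ^ 2)| ≤ ε1 / 2 →
    ∀ᶠ N : ℕ in atTop, Fintype.card (Fin N → T) ≤ 2 * Fintype.card (Sh v N c0 ε1)

def RS : Prop := ∀ B α ε : ℝ, 0 < α → 0 < ε → ∃ η0 : ℝ, 0 < η0 ∧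
  ∀ (T : Type) [Fintype T] [Inhabited T] (v : T → ℝ) (τ : ℝ → Option T) (c0 ε1 : ℝ) (f : ℝ → ℝ),
    (∀ t, |f t| ≤ B) → (∀ t h, |f (t + h) - f t| ≤ B * |h|) → Cpl v τ η0 → 0 < ε1 → ε1 ≤ η0 →
    |c0 - 1| ≤ η0 → |c0 - avg (fun t => v t ^ 2)| ≤ ε1 / 2 → ∀ᶠ N : ℕ in atTop,
      |N * meanS f N ⌊α * N⌋₊ - meanD f N ⌊α * N⌋₊ (shs v N c0 ε1) (fun _ => 0)| ≤ ε * N

def SoftS : Prop := ∀ (T : Type) [Fintype T] [Inhabited T] (v : T → ℝ) (B k ε1 : ℝ) (f : ℝ → ℝ)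
  (N M : ℕ), 1 ≤ N → Measurable f → (∀ t, |f t| ≤ B) → 0 ≤ k → 0 ≤ ε1 → Nonempty (Sh v N 1 ε1) →
    2 * B * M ≤ k * ε1 ^ 2 * N →
    meanD f N M (sv v) (Uk v k univ) ≤ meanD f N M (shs v N 1 ε1) (fun _ => 0) + log 2

def ExpS : Prop := ∀ (T : Type) [Fintype T] [Inhabited T] (v : T → ℝ) (K η b1 ε1 b : ℝ) (N : ℕ),
  QS K η b1 v → 1 ≤ N → 1 ≤ b → b ≤ b1 → 0 ≤ ε1 → b1 * ε1 ≤ η → log 2 ≤ η * N →
    Fintype.card (Fin N → T) ≤ 2 * Fintype.card (Sh v N (avg fun t => v t ^ 2) ε1) →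
    ∀ h : Fin N → ℝ, log (avg fun σ => exp (∑ i, h i * shs v N (avg fun t => v t ^ 2) ε1 i σ)) ≤
      ∑ i, h i ^ 2 / (2 * b) + N * ((b - 1 - log b) / 2 + 3 * η)

def SmnS : Prop := ∀ B : ℝ, ∃ C : ℝ, 0 ≤ C ∧ ∀ (N M : ℕ) (f g : ℝ → ℝ), 1 ≤ N →
  Measurable f → Measurable g → (∀ t, |f t| ≤ B) → (∀ t, |g t| ≤ B) →
    |meanS f N M - meanS g N M| ≤ C * (M / N) * ∫ z, |f z - g z| ∂gaussianReal 0 1

end

end Vale.Agent.P157
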